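import Vale.Agent.Lib.P028T.Phi
import Vale.Agent.Lib.P028V.Alive
import Vale.Agent.Lib.P028V.PhiBasics

/-! The overlap of two all-residue bumps: blueprint section 0; same proof as `P028V.Alive`, `P028V.PhiBasics.pair_integral_le`. -/

open MeasureTheory intervalIntegral Finset

namespace Vale.Agent.Lib.P028T

open Vale.Agent.Lib.P028

variable {γ : ℝ} {ψ : ℕ → ℝ}

namespace Over

open Vale.Agent.Lib.P028V (XX xx_mul fiber_card dn_sub_le)

/-- Pairs of residues whose tents overlap. -/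
noncomputable def Al (γ : ℝ) (ψ : ℕ → ℝ) (q r : ℕ) : Finset (ℕ × ℕ) :=
  ((range q) ×ˢ (range r)).filter fun ab =>
    dn (((ab.1:ℝ) + γ) / q - ((ab.2:ℝ) + γ) / r) < ψ q / q + ψ r / r

private lemma setup {q r : ℕ} (hq : 1 ≤ q) (_hr : 1 ≤ r) :
    0 < Nat.gcd q r ∧ 0 < q / Nat.gcd q r ∧ 0 < r / Nat.gcd q r ∧
      q = Nat.gcd q r * (q / Nat.gcd q r) ∧ r = Nat.gcd q r * (r / Nat.gcd q r) ∧
      Nat.lcm q r = Nat.gcd q r * (q / Nat.gcd q r) * (r / Nat.gcd q r) ∧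
      Nat.Coprime (q / Nat.gcd q r) (r / Nat.gcd q r) := by
  have hd : 0 < Nat.gcd q r := Nat.gcd_pos_of_pos_left r hq
  have hdq : Nat.gcd q r ∣ q := Nat.gcd_dvd_left q r
  have hdr : Nat.gcd q r ∣ r := Nat.gcd_dvd_right q r
  have hq1 : q = Nat.gcd q r * (q / Nat.gcd q r) := (Nat.mul_div_cancel' hdq).symm
  have hr1 : r = Nat.gcd q r * (r / Nat.gcd q r) := (Nat.mul_div_cancel' hdr).symm
  refine ⟨hd, Nat.div_pos (Nat.le_of_dvd (by omega) hdq) hd,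
    Nat.div_pos (Nat.le_of_dvd (by omega) hdr) hd, hq1, hr1, ?_, Nat.coprime_div_gcd_div_gcd hd⟩
  have h := Nat.gcd_mul_lcm q r
  apply Nat.eq_of_mul_eq_mul_left hd
  rw [h]
  generalize Nat.gcd q r = d at *
  generalize q / d = q' at *
  generalize r / d = r' at *
  rw [hq1, hr1]
  ring

/-- Every overlapping pair gives an integer `c` close to `-(r'-q')γ`, congruent to `r' a - q' b` modulo the lcm. -/
lemma alive_struct (hψ : ∀ q, 0 ≤ ψ q) {q r : ℕ} (hq : 1 ≤ q) (hr : 1 ≤ r) {a b : ℕ} (h : (a, b) ∈ Al γ ψ q r) :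
    ∃ c : ℤ, |(c:ℝ) + (((r / Nat.gcd q r : ℕ) : ℝ) - ((q / Nat.gcd q r : ℕ) : ℝ)) * γ| < 2 * XX ψ q r ∧
      ((Nat.lcm q r : ℕ) : ℤ) ∣ ((r / Nat.gcd q r : ℕ) : ℤ) * a - ((q / Nat.gcd q r : ℕ) : ℤ) * b - c := by
  obtain ⟨hd, hq', hr', hq1, hr1, hl, -⟩ := setup hq hr
  have hdn := (Finset.mem_filter.1 h).2
  simp only at hdn
  unfold XX
  set d := Nat.gcd q r with hdd
  set q' := q / d with hqq
  set r' := r / d with hrr
  have hdR : (0:ℝ) < d := by exact_mod_cast hd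
  have hq'R : (0:ℝ) < q' := by exact_mod_cast hq'
  have hr'R : (0:ℝ) < r' := by exact_mod_cast hr'
  have hqR : (q:ℝ) = d * q' := by exact_mod_cast hq1
  have hrR : (r:ℝ) = d * r' := by exact_mod_cast hr1
  have hlR : ((Nat.lcm q r : ℕ) : ℝ) = d * q' * r' := by exact_mod_cast hl
  set t : ℝ := ((a:ℝ) + γ) / q - ((b:ℝ) + γ) / r with ht
  have hdn' : |t - round t| < ψ q / q + ψ r / r := hdn
  set w : ℤ := round t with hw
  have hψq := hψ q
  have hψr := hψ r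
  refine ⟨(r':ℤ) * a - (q':ℤ) * b - (Nat.lcm q r : ℤ) * w, ?_, ?_⟩
  · have key : (((r':ℤ) * a - (q':ℤ) * b - (Nat.lcm q r : ℤ) * w : ℤ) : ℝ) + ((r':ℝ) - (q':ℝ)) * γ
        = ((d:ℝ) * q' * r') * (t - w) := by
      push_cast
      rw [hlR, ht, hqR, hrR]
      field_simp
      ring
    rw [key, abs_mul, abs_of_pos (by positivity : (0:ℝ) < (d:ℝ) * q' * r')]
    have h1 : ((d:ℝ) * q' * r') * |t - w| < ((d:ℝ) * q' * r') * (ψ q / q + ψ r / r) :=
      mul_lt_mul_of_pos_left hdn' (by positivity)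
    have h2 : ((d:ℝ) * q' * r') * (ψ q / q + ψ r / r) = (r':ℝ) * ψ q + (q':ℝ) * ψ r := by
      rw [hqR, hrR]
      field_simp
    have h3 : (r':ℝ) * ψ q ≤ max ((r':ℝ) * ψ q) ((q':ℝ) * ψ r) := le_max_left _ _
    have h4 : (q':ℝ) * ψ r ≤ max ((r':ℝ) * ψ q) ((q':ℝ) * ψ r) := le_max_right _ _
    linarith
  · refine ⟨w, ?_⟩
    ring

/-- The integer attached to an overlapping pair (junk value off `Al`). -/
private noncomputable def cOf (γ : ℝ) (ψ : ℕ → ℝ) (q r : ℕ) (ab : ℕ × ℕ) : ℤ :=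
  open Classical in
  if h : ∃ c : ℤ, |(c:ℝ) + (((r / Nat.gcd q r : ℕ) : ℝ) - ((q / Nat.gcd q r : ℕ) : ℝ)) * γ| < 2 * XX ψ q r ∧
      ((Nat.lcm q r : ℕ) : ℤ) ∣ ((r / Nat.gcd q r : ℕ) : ℤ) * ab.1 - ((q / Nat.gcd q r : ℕ) : ℤ) * ab.2 - c
  then h.choose else 0

private lemma cOf_spec (hψ : ∀ q, 0 ≤ ψ q) {q r : ℕ} (hq : 1 ≤ q) (hr : 1 ≤ r) {ab : ℕ × ℕ} (h : ab ∈ Al γ ψ q r) :
    |((cOf γ ψ q r ab : ℤ):ℝ) + (((r / Nat.gcd q r : ℕ) : ℝ) - ((q / Nat.gcd q r : ℕ) : ℝ)) * γ| < 2 * XX ψ q r ∧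
      ((Nat.lcm q r : ℕ) : ℤ) ∣ ((r / Nat.gcd q r : ℕ) : ℤ) * ab.1 - ((q / Nat.gcd q r : ℕ) : ℤ) * ab.2
        - cOf γ ψ q r ab := by
  have h' : (ab.1, ab.2) ∈ Al γ ψ q r := h
  have hex := alive_struct hψ hq hr h'
  unfold cOf
  rw [dif_pos hex]
  exact hex.choose_spec

/-- `Al` is bounded by the gcd times the number of integers which occur. -/
private lemma Al_card_le (hψ : ∀ q, 0 ≤ ψ q) {q r : ℕ} (hq : 1 ≤ q) (hr : 1 ≤ r) :
    (Al γ ψ q r).card ≤ ((Al γ ψ q r).image (cOf γ ψ q r)).card * Nat.gcd q r := by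
  rw [mul_comm]
  apply Finset.card_le_mul_card_image
  intro c _
  refine le_trans (Finset.card_le_card ?_) (fiber_card hq hr c)
  intro ab hab
  have hab' := Finset.mem_filter.1 hab
  refine Finset.mem_filter.2 ⟨(Finset.mem_filter.1 hab'.1).1, ?_⟩
  have := (cOf_spec hψ hq hr hab'.1).2
  rwa [hab'.2] at this

/-- Integers within `Y` of a fixed real number: at most `2Y + 1`. -/
private lemma int_window_card (S : Finset ℤ) (u Y : ℝ) (hY : 0 ≤ Y) (hS : ∀ c ∈ S, |(c:ℝ) + u| < Y) :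
    (S.card : ℝ) ≤ 2 * Y + 1 := by
  have hsub : S ⊆ Finset.Icc ⌈-u - Y⌉ ⌊-u + Y⌋ := by
    intro c hc
    have h := abs_lt.1 (hS c hc)
    refine Finset.mem_Icc.2 ⟨Int.ceil_le.2 (by linarith [h.1]), Int.le_floor.2 (by linarith [h.2])⟩
  have h1 : (S.card : ℝ) ≤ ((Finset.Icc ⌈-u - Y⌉ ⌊-u + Y⌋).card : ℝ) := by
    exact_mod_cast Finset.card_le_card hsub
  refine le_trans h1 ?_
  rw [Int.card_Icc]
  have h2 : ((⌊-u + Y⌋ + 1 - ⌈-u - Y⌉ : ℤ) : ℝ) ≤ 2 * Y + 1 := by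
    have h3 := Int.floor_le (-u + Y)
    have h4 := Int.le_ceil (-u - Y)
    push_cast
    linarith
  rcases le_total 0 (⌊-u + Y⌋ + 1 - ⌈-u - Y⌉ : ℤ) with h5 | h5
  · have h6 : (((⌊-u + Y⌋ + 1 - ⌈-u - Y⌉ : ℤ).toNat : ℕ) : ℝ) = ((⌊-u + Y⌋ + 1 - ⌈-u - Y⌉ : ℤ) : ℝ) := by
      have := Int.toNat_of_nonneg h5
      exact_mod_cast this
    rw [h6]
    exact h2
  · rw [Int.toNat_of_nonpos h5]
    simp only [Nat.cast_zero]
    linarith

/-- Middle range. -/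
lemma mid_bound (hψ : ∀ q, 0 ≤ ψ q) {q r : ℕ} (hq : 1 ≤ q) (hr : 1 ≤ r) (hψq : 0 < ψ q) (hψr : 0 < ψ r)
    (hX : 1 / 768 ≤ XX ψ q r) :
    ((Al γ ψ q r).card : ℝ) * min (ψ q / q) (ψ r / r) ≤ 772 * (ψ q * ψ r) := by
  have hcard := Al_card_le (γ := γ) hψ hq hr
  have himg : (((Al γ ψ q r).image (cOf γ ψ q r)).card : ℝ) ≤ 2 * (2 * XX ψ q r) + 1 := by
    apply int_window_card _ ((((r / Nat.gcd q r : ℕ) : ℝ) - ((q / Nat.gcd q r : ℕ) : ℝ)) * γ) _
      (by linarith)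
    intro c hc
    obtain ⟨ab, hab, rfl⟩ := Finset.mem_image.1 hc
    exact (cOf_spec hψ hq hr hab).1
  have hmin : 0 ≤ min (ψ q / q) (ψ r / r) :=
    le_min (div_nonneg hψq.le (Nat.cast_nonneg _)) (div_nonneg hψr.le (Nat.cast_nonneg _))
  have hd : (0:ℝ) ≤ (Nat.gcd q r : ℝ) := Nat.cast_nonneg _
  have h1 : ((Al γ ψ q r).card : ℝ) ≤ (2 * (2 * XX ψ q r) + 1) * (Nat.gcd q r : ℝ) := by
    have h2 : ((Al γ ψ q r).card : ℝ) ≤ (((Al γ ψ q r).image (cOf γ ψ q r)).card : ℝ) * (Nat.gcd q r : ℝ) := by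
      exact_mod_cast hcard
    exact le_trans h2 (mul_le_mul_of_nonneg_right himg hd)
  have h3 : (2 * (2 * XX ψ q r) + 1) * (Nat.gcd q r : ℝ) ≤ 772 * XX ψ q r * (Nat.gcd q r : ℝ) :=
    mul_le_mul_of_nonneg_right (by linarith) hd
  have h4 := xx_mul (ψ := ψ) hq hr hψq hψr
  calc ((Al γ ψ q r).card : ℝ) * min (ψ q / q) (ψ r / r)
      ≤ (772 * XX ψ q r * (Nat.gcd q r : ℝ)) * min (ψ q / q) (ψ r / r) :=
        mul_le_mul_of_nonneg_right (le_trans h1 h3) hmin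
    _ = 772 * (XX ψ q r * (Nat.gcd q r : ℝ) * min (ψ q / q) (ψ r / r)) := by ring
    _ = 772 * (ψ q * ψ r) := by rw [h4]

/-- For small `X` the integer of an overlapping pair does not depend on the pair. -/
private lemma cOf_unique (hψ : ∀ q, 0 ≤ ψ q) {q r : ℕ} (hq : 1 ≤ q) (hr : 1 ≤ r) (hX : XX ψ q r < 1 / 768)
    {ab ab' : ℕ × ℕ} (h : ab ∈ Al γ ψ q r) (h' : ab' ∈ Al γ ψ q r) :
    cOf γ ψ q r ab = cOf γ ψ q r ab' := by
  have h1 := abs_lt.1 (cOf_spec hψ hq hr h).1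
  have h2 := abs_lt.1 (cOf_spec hψ hq hr h').1
  have h3 : |(((cOf γ ψ q r ab - cOf γ ψ q r ab' : ℤ)) : ℝ)| < 1 := by
    push_cast
    rw [abs_lt]
    constructor <;> linarith [h1.1, h1.2, h2.1, h2.2]
  have h4 : |cOf γ ψ q r ab - cOf γ ψ q r ab'| < 1 := by exact_mod_cast h3
  have h5 := Int.abs_lt_one_iff.1 h4
  omega

/-- Small `X`: at most one integer `c`, hence at most `gcd` overlapping pairs. -/
lemma bohr_card (hψ : ∀ q, 0 ≤ ψ q) {q r : ℕ} (hq : 1 ≤ q) (hr : 1 ≤ r) (hX : XX ψ q r < 1 / 768) :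
    (Al γ ψ q r).card ≤ Nat.gcd q r := by
  have hcard := Al_card_le (γ := γ) hψ hq hr
  have himg : ((Al γ ψ q r).image (cOf γ ψ q r)).card ≤ 1 := by
    rw [Finset.card_le_one]
    intro c hc c' hc'
    obtain ⟨ab, hab, rfl⟩ := Finset.mem_image.1 hc
    obtain ⟨ab', hab', rfl⟩ := Finset.mem_image.1 hc'
    exact cOf_unique hψ hq hr hX hab hab'
  calc (Al γ ψ q r).card ≤ ((Al γ ψ q r).image (cOf γ ψ q r)).card * Nat.gcd q r := hcard
    _ ≤ 1 * Nat.gcd q r := Nat.mul_le_mul_right _ himg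
    _ = Nat.gcd q r := one_mul _

/-- Nonempty overlap with small `X` forces the Bohr condition. -/
lemma alive_bohr (hψ : ∀ q, 0 ≤ ψ q) {q r : ℕ} (hq : 1 ≤ q) (hr : 1 ≤ r)
    (hne : (Al γ ψ q r).Nonempty) :
    dn ((((r / Nat.gcd q r : ℕ) : ℝ) - ((q / Nat.gcd q r : ℕ) : ℝ)) * γ) < 2 * XX ψ q r := by
  obtain ⟨⟨a, b⟩, hab⟩ := hne
  obtain ⟨c, hc, -⟩ := alive_struct hψ hq hr hab
  refine lt_of_le_of_lt ?_ hc
  have := dn_le_abs_sub ((((r / Nat.gcd q r : ℕ) : ℝ) - ((q / Nat.gcd q r : ℕ) : ℝ)) * γ) (-c)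
  refine le_trans this (le_of_eq ?_)
  congr 1
  push_cast
  ring

/-- Overlap integral bounded by the number of overlapping pairs times the smaller tent mass. -/
lemma pair_integral_le (hψ0 : ∀ q, 0 ≤ ψ q) (hψ : ∀ q, ψ q ≤ 1 / 2) {q r : ℕ} (hq : 2 ≤ q) (hr : 2 ≤ r) :
    ∫ x in (0:ℝ)..1, Phi γ ψ q x * Phi γ ψ r x
      ≤ ((Al γ ψ q r).card : ℝ) * min (ψ q / q) (ψ r / r) := by
  have hq0 : (0:ℝ) < q := by exact_mod_cast (by omega : 0 < q)
  have hq2 : (2:ℝ) ≤ q := by exact_mod_cast hq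
  have hr0 : (0:ℝ) < r := by exact_mod_cast (by omega : 0 < r)
  have hr2 : (2:ℝ) ≤ r := by exact_mod_cast hr
  have hnn : 0 ≤ ((Al γ ψ q r).card : ℝ) * min (ψ q / q) (ψ r / r) := by
    have h1 : 0 ≤ ψ q / (q:ℝ) := div_nonneg (hψ0 q) hq0.le
    have h2 : 0 ≤ ψ r / (r:ℝ) := div_nonneg (hψ0 r) hr0.le
    exact mul_nonneg (Nat.cast_nonneg _) (le_min h1 h2)
  by_cases h1 : 0 < ψ q
  swap
  · have : ∀ x, Phi γ ψ q x * Phi γ ψ r x = 0 := by
      intro x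
      unfold Phi
      simp [h1]
    simp only [this, intervalIntegral.integral_zero]
    exact hnn
  by_cases h2 : 0 < ψ r
  swap
  · have : ∀ x, Phi γ ψ q x * Phi γ ψ r x = 0 := by
      intro x
      unfold Phi
      simp [h2]
    simp only [this, intervalIntegral.integral_zero]
    exact hnn
  set ρq := ψ q / q with hρq
  set ρr := ψ r / r with hρr
  have hρq0 : 0 < ρq := div_pos h1 hq0
  have hρr0 : 0 < ρr := div_pos h2 hr0
  have hρq2 : ρq ≤ 1 / 2 := by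
    have hψq := hψ q
    rw [hρq, div_le_iff₀ hq0]
    nlinarith
  have hρr2 : ρr ≤ 1 / 2 := by
    have hψr := hψ r
    rw [hρr, div_le_iff₀ hr0]
    nlinarith
  -- the functions
  let f : ℕ → ℝ → ℝ := fun a x => tent ρq (x - ((a:ℝ) + γ) / q)
  let g : ℕ → ℝ → ℝ := fun b x => tent ρr (x - ((b:ℝ) + γ) / r)
  have hfc : ∀ a, Continuous (f a) := fun a =>
    (tent_continuous _).comp (continuous_id.sub continuous_const)
  have hgc : ∀ b, Continuous (g b) := fun b =>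
    (tent_continuous _).comp (continuous_id.sub continuous_const)
  have hexp : ∀ x, Phi γ ψ q x * Phi γ ψ r x
      = ∑ p ∈ range q ×ˢ range r, f p.1 x * g p.2 x := by
    intro x
    unfold Phi
    rw [if_pos h1, if_pos h2, Finset.sum_mul_sum, Finset.sum_product]
  simp only [hexp]
  rw [intervalIntegral.integral_finsetSum (fun p _ =>
    ((hfc p.1).mul (hgc p.2)).intervalIntegrable _ _)]
  -- terms outside `Al` vanish
  have hzero : ∀ p ∈ range q ×ˢ range r, p ∉ Al γ ψ q r →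
      ∫ x in (0:ℝ)..1, f p.1 x * g p.2 x = 0 := by
    intro p hp hnot
    have hx : ∀ x, f p.1 x * g p.2 x = 0 := by
      intro x
      by_contra hne
      have hf : 0 < f p.1 x := lt_of_le_of_ne (tent_nonneg _ _)
        (Ne.symm (left_ne_zero_of_mul hne))
      have hg : 0 < g p.2 x := lt_of_le_of_ne (tent_nonneg _ _)
        (Ne.symm (right_ne_zero_of_mul hne))
      have a1 := tent_pos_imp hρq0 hf
      have a2 := tent_pos_imp hρr0 hg
      apply hnot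
      refine Finset.mem_filter.mpr ⟨hp, ?_⟩
      have h4 := dn_sub_le (x - ((p.2:ℝ) + γ) / r) (x - ((p.1:ℝ) + γ) / q)
      have e : x - ((p.2:ℝ) + γ) / r - (x - ((p.1:ℝ) + γ) / q)
          = ((p.1:ℝ) + γ) / q - ((p.2:ℝ) + γ) / r := by ring
      rw [e] at h4
      linarith
    simp [hx]
  have hle : ∀ p ∈ Al γ ψ q r, ∫ x in (0:ℝ)..1, f p.1 x * g p.2 x ≤ min ρq ρr := by
    intro p _
    refine le_min ?_ ?_
    · calc ∫ x in (0:ℝ)..1, f p.1 x * g p.2 x ≤ ∫ x in (0:ℝ)..1, f p.1 x := by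
            refine intervalIntegral.integral_mono_on (by norm_num)
              (((hfc p.1).mul (hgc p.2)).intervalIntegrable _ _)
              ((hfc p.1).intervalIntegrable _ _) ?_
            intro x _
            have : g p.2 x ≤ 1 := tent_le_one hρr0 _
            have h0 : 0 ≤ f p.1 x := tent_nonneg _ _
            nlinarith
        _ = ρq := tent_integral hρq0 hρq2 _
    · calc ∫ x in (0:ℝ)..1, f p.1 x * g p.2 x ≤ ∫ x in (0:ℝ)..1, g p.2 x := by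
            refine intervalIntegral.integral_mono_on (by norm_num)
              (((hfc p.1).mul (hgc p.2)).intervalIntegrable _ _)
              ((hgc p.2).intervalIntegrable _ _) ?_
            intro x _
            have : f p.1 x ≤ 1 := tent_le_one hρq0 _
            have h0 : 0 ≤ g p.2 x := tent_nonneg _ _
            nlinarith
        _ = ρr := tent_integral hρr0 hρr2 _
  have hsub : Al γ ψ q r ⊆ range q ×ˢ range r := Finset.filter_subset _ _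
  rw [← Finset.sum_subset hsub (fun p hp hnot => hzero p hp hnot)]
  calc ∑ p ∈ Al γ ψ q r, ∫ x in (0:ℝ)..1, f p.1 x * g p.2 x
      ≤ ∑ _p ∈ Al γ ψ q r, min ρq ρr := Finset.sum_le_sum hle
    _ = _ := by rw [Finset.sum_const, nsmul_eq_mul]

end Over

open Vale.Agent.Lib.P028V (XX) in
/-- The overlap bound. -/
theorem overlap_le (hψ0 : ∀ q, 0 ≤ ψ q) (hψ : ∀ q, ψ q ≤ 1 / 2) {q r : ℕ} (hq : 2 ≤ q) (hr : 2 ≤ r) :
    ∫ x in (0:ℝ)..1, Phi γ ψ q x * Phi γ ψ r x ≤ 772 * (ψ q * ψ r) + pairTerm γ ψ q r := by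
  have hq1 : 1 ≤ q := by omega
  have hr1 : 1 ≤ r := by omega
  have hq0 : (0:ℝ) < q := by exact_mod_cast (by omega : 0 < q)
  have hr0 : (0:ℝ) < r := by exact_mod_cast (by omega : 0 < r)
  have hg : 0 < Nat.gcd q r := Nat.gcd_pos_of_pos_left r hq1
  have hq' : 0 < q / Nat.gcd q r := Nat.div_pos (Nat.le_of_dvd hq1 (Nat.gcd_dvd_left q r)) hg
  have hr' : 0 < r / Nat.gcd q r := Nat.div_pos (Nat.le_of_dvd hr1 (Nat.gcd_dvd_right q r)) hg
  have hq'R : (0:ℝ) < ((q / Nat.gcd q r : ℕ) : ℝ) := by exact_mod_cast hq'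
  have hr'R : (0:ℝ) < ((r / Nat.gcd q r : ℕ) : ℝ) := by exact_mod_cast hr'
  have hgR : (0:ℝ) < (Nat.gcd q r : ℝ) := by exact_mod_cast hg
  have hqe : (q:ℝ) = (Nat.gcd q r : ℝ) * ((q / Nat.gcd q r : ℕ) : ℝ) := by
    exact_mod_cast (Nat.mul_div_cancel' (Nat.gcd_dvd_left q r)).symm
  have hre : (r:ℝ) = (Nat.gcd q r : ℝ) * ((r / Nat.gcd q r : ℕ) : ℝ) := by
    exact_mod_cast (Nat.mul_div_cancel' (Nat.gcd_dvd_right q r)).symm
  have hmin : min (ψ q / ((q / Nat.gcd q r : ℕ) : ℝ)) (ψ r / ((r / Nat.gcd q r : ℕ) : ℝ)) =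
      (Nat.gcd q r : ℝ) * min (ψ q / q) (ψ r / r) := by
    have e1 : ψ q / ((q / Nat.gcd q r : ℕ) : ℝ) = (Nat.gcd q r : ℝ) * (ψ q / q) := by
      conv_rhs => rw [hqe]
      field_simp
    have e2 : ψ r / ((r / Nat.gcd q r : ℕ) : ℝ) = (Nat.gcd q r : ℝ) * (ψ r / r) := by
      conv_rhs => rw [hre]
      field_simp
    rw [e1, e2]
    exact (mul_min_of_nonneg _ _ hgR.le).symm
  have hmin0 : 0 ≤ min (ψ q / q) (ψ r / r) :=
    le_min (div_nonneg (hψ0 q) hq0.le) (div_nonneg (hψ0 r) hr0.le)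
  have hpair0 : 0 ≤ pairTerm γ ψ q r := by
    unfold pairTerm
    simp only
    split_ifs
    · rw [hmin]
      positivity
    · exact le_rfl
  have hint := Over.pair_integral_le (γ := γ) hψ0 hψ hq hr
  have hprod : 0 ≤ ψ q * ψ r := mul_nonneg (hψ0 q) (hψ0 r)
  by_cases hpos : 0 < ψ q ∧ 0 < ψ r
  swap
  · -- a zero factor
    have hzero : min (ψ q / q) (ψ r / r) = 0 := by
      apply le_antisymm _ hmin0
      by_cases h1 : 0 < ψ q
      · have h2 : ψ r = 0 := by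
          have h3 : ¬ 0 < ψ r := fun h3 => hpos ⟨h1, h3⟩
          exact le_antisymm (not_lt.1 h3) (hψ0 r)
        rw [h2]
        simp only [zero_div]
        exact min_le_right _ _
      · have h2 : ψ q = 0 := le_antisymm (not_lt.1 h1) (hψ0 q)
        rw [h2]
        simp only [zero_div]
        exact min_le_left _ _
    rw [hzero, mul_zero] at hint
    linarith
  obtain ⟨hψq, hψr⟩ := hpos
  by_cases hX : 1 / 768 ≤ XX ψ q r
  · have := Over.mid_bound (γ := γ) hψ0 hq1 hr1 hψq hψr hX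
    linarith
  · push Not at hX
    by_cases hne : (Over.Al γ ψ q r).Nonempty
    · have hb := Over.alive_bohr hψ0 hq1 hr1 hne
      have hcard := Over.bohr_card (γ := γ) hψ0 hq1 hr1 hX
      have hterm : pairTerm γ ψ q r = (Nat.gcd q r : ℝ) * min (ψ q / q) (ψ r / r) := by
        unfold pairTerm
        simp only
        rw [if_pos ⟨hX, hb⟩, hmin]
      have h1 : ((Over.Al γ ψ q r).card : ℝ) * min (ψ q / q) (ψ r / r) ≤
          (Nat.gcd q r : ℝ) * min (ψ q / q) (ψ r / r) :=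
        mul_le_mul_of_nonneg_right (by exact_mod_cast hcard) hmin0
      rw [hterm]
      linarith
    · have hempty : Over.Al γ ψ q r = ∅ := Finset.not_nonempty_iff_eq_empty.1 hne
      rw [hempty] at hint
      simp only [Finset.card_empty, Nat.cast_zero, zero_mul] at hint
      linarith

end Vale.Agent.Lib.P028T
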