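import Vale.Agent.Lib.P028.Core1

/-! Definitions for Theorem T on the weak inhomogeneous problem. See notes/P028T_blueprint.md -/

open Finset

namespace Vale.Agent.Lib.P028T

open Vale.Agent.Lib.P028

/-- The Diophantine condition on the shift (non-Liouville with exponent `k`). -/
def Dio (γ c₀ : ℝ) (k : ℕ) : Prop := ∀ n : ℕ, 1 ≤ n → c₀ / (n:ℝ) ^ k ≤ dn ((n:ℝ) * γ)

/-- Weighted count of the pairs in `U × V` with gcd in `A` and Bohr condition at width `D`. -/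
noncomputable def Off (γ D w : ℝ) (A U V : Finset ℕ) : ℝ :=
  w * (((U ×ˢ V).filter fun z : ℕ × ℕ => Nat.gcd z.1 z.2 ∈ A ∧ z.1 ≠ z.2 ∧
    dn ((((z.2 / Nat.gcd z.1 z.2 : ℕ) : ℝ) - ((z.1 / Nat.gcd z.1 z.2 : ℕ) : ℝ)) * γ) < D).card : ℝ)

/-- The number of pairs in `U × V` with gcd in `A`. -/
def Exact (A U V : Finset ℕ) : ℕ := ((U ×ˢ V).filter fun z : ℕ × ℕ => Nat.gcd z.1 z.2 ∈ A).card

/-- The number of elements of `A` dividing `x`. -/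
def TT (A : Finset ℕ) (x : ℕ) : ℕ := (A.filter (· ∣ x)).card

/-- The row sum `∑_{d'' ∈ A} 2^ω(h)/h`, `h = d''/gcd(d,d'')`. -/
noncomputable def rowSum (A : Finset ℕ) (d : ℕ) : ℝ :=
  ∑ d'' ∈ A, (2:ℝ) ^ (d'' / Nat.gcd d d'').primeFactors.card / ((d'' / Nat.gcd d d'' : ℕ) : ℝ)

/-- The constant term in the Bohr count. -/
noncomputable def Cbd (c₀ : ℝ) (k : ℕ) (D : ℝ) : ℝ := 5 * (1 / D) ^ (k - 1) / c₀ + 5

/-- The product of `1 + 1/p` over primes `p ≤ z`. -/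
noncomputable def ell (z : ℕ) : ℝ := ∏ p ∈ (Finset.range (z + 1)).filter Nat.Prime, (1 + 1 / (p:ℝ))

/-- All squarefree `z`-smooth integers in `[1, E₀]`. -/
def smooth (z E₀ : ℕ) : Finset ℕ :=
  (Finset.Icc 1 E₀).filter fun e => Squarefree e ∧ ∀ p ∈ e.primeFactors, p ≤ z

/-- The basic exponent. -/
noncomputable def cc (k : ℕ) : ℝ := 1 / (1024 * (k:ℝ))

/-- The exponent in the divisor-concentration hypothesis. -/
noncomputable def cc₃ (k : ℕ) : ℝ := cc k / 2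

/-- The exponent of the truncation scale. -/
noncomputable def cc₁ (k : ℕ) : ℝ := cc k / (2 * ((k:ℝ) + 2))

/-- The number of divisors of `x` in `[M, 2M)`. -/
def dy (x M : ℕ) : ℕ := ((Finset.Ico M (2 * M)).filter (· ∣ x)).card

/-- The data of a pair of blocks and a gcd scale. -/
structure Par where
  Q₁ : ℕ
  Q₂ : ℕ
  E : ℕ
  N₁ : ℝ
  N₂ : ℝ

namespace Par

variable (p : Par)

noncomputable def M₁ : ℝ := (p.Q₁ : ℝ) / p.E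
noncomputable def M₂ : ℝ := (p.Q₂ : ℝ) / p.E
noncomputable def D : ℝ := 4 * max (p.M₂ / p.N₁) (p.M₁ / p.N₂)
noncomputable def w : ℝ := min (2 / (p.N₁ * p.M₁)) (2 / (p.N₂ * p.M₂))
noncomputable def u : ℝ := (p.Q₂ : ℝ) / p.Q₁
noncomputable def v : ℝ := p.u * p.N₂ / p.N₁
noncomputable def Ups : ℝ := max p.u (Real.sqrt (max p.v p.v⁻¹))
/-- The side on which the one-sided bound is taken. -/
def two : Prop := p.v < 1 ∨ Real.sqrt p.v ≤ p.u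
/-- `μ₁ + μ₂`. -/
noncomputable def ms (S₁ S₂ : Finset ℕ) : ℝ := (S₁.card : ℝ) / p.N₁ + (S₂.card : ℝ) / p.N₂
/-- The bound of the one-sided estimate per unit multiplicity, at width `D'`. -/
noncomputable def B0 (c₀ : ℝ) (k : ℕ) (D' : ℝ) : ℝ :=
  20 * D' / p.Ups + 3 * Cbd c₀ k D' / Real.sqrt (p.M₂ * p.Ups)

/-- Standing positivity conditions. -/
structure Good : Prop where
  E_pos : 1 ≤ p.E
  Q₁_pos : 1 ≤ p.Q₁
  Q_le : p.Q₁ ≤ p.Q₂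
  N₁_pos : 0 < p.N₁
  N₂_pos : 0 < p.N₂

end Par

/-- The constants of the main regime (section 8 of the blueprint). -/
structure Regime (γ c₀ : ℝ) (k : ℕ) (M₀ : ℝ) (p : Par) (S₁ S₂ : Finset ℕ) (τb : ℝ) : Prop where
  dio : Dio γ c₀ k
  c₀_pos : 0 < c₀
  k_pos : 1 ≤ k
  good : p.Good
  S₁_mem : ∀ q ∈ S₁, p.Q₁ ≤ q ∧ q < 2 * p.Q₁
  S₂_mem : ∀ r ∈ S₂, p.Q₂ ≤ r ∧ r < 2 * p.Q₂
  M_large : M₀ ≤ p.M₂
  D_lt : p.D < 1 / 96
  D_ge : p.M₂ ^ (-(2 * cc k)) ≤ p.D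
  Ups_lt : p.Ups < p.M₂ ^ (32 * cc k)
  u_le : p.u ≤ 2 * p.M₂
  tau_one : 1 ≤ τb
  tau_S₁ : ∀ x ∈ S₁, (TT (Finset.Ico p.E (2 * p.E)) x : ℝ) ≤ τb
  tau_S₂ : ∀ x ∈ S₂, (TT (Finset.Ico p.E (2 * p.E)) x : ℝ) ≤ τb
  tau_y : ∀ y : ℕ, 1 ≤ y → (y:ℝ) < 2 * p.M₂ → (y.divisors.card : ℝ) ≤ τb
  tau_le : τb ≤ p.M₂ ^ cc k
  mu₁_le : (S₁.card : ℝ) / p.N₁ ≤ 2
  mu₂_le : (S₂.card : ℝ) / p.N₂ ≤ 2
  mu_big : p.D * (p.D / p.Ups) ^ ((1:ℝ) / 4) <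
    Real.sqrt ((S₁.card : ℝ) / p.N₁ * ((S₂.card : ℝ) / p.N₂))

/-- Monotonicity of the size constant. -/
lemma Regime.mono {γ c₀ : ℝ} {k : ℕ} {M₀ M₀' : ℝ} {p : Par} {S₁ S₂ : Finset ℕ} {τb : ℝ} (h : M₀ ≤ M₀')
    (R : Regime γ c₀ k M₀' p S₁ S₂ τb) : Regime γ c₀ k M₀ p S₁ S₂ τb :=
  { R with M_large := h.trans R.M_large }

/-- The threshold family size. -/
noncomputable def Ka (K₀ D Υ : ℝ) : ℝ := max (max (D ^ (-(1:ℝ) / 2)) (Υ ^ ((1:ℝ) / 2))) K₀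

/-- The sum over a pair of blocks of the small overlaps with all residues. -/
noncomputable def BlockOff (γ N₁ N₂ : ℝ) (S₁ S₂ : Finset ℕ) : ℝ :=
  ∑ z ∈ S₁ ×ˢ S₂,
    let g := Nat.gcd z.1 z.2
    let q' : ℝ := ((z.1 / g : ℕ) : ℝ)
    let r' : ℝ := ((z.2 / g : ℕ) : ℝ)
    let X := max (r' / N₁) (q' / N₂)
    if z.1 ≠ z.2 ∧ X < 1 / 768 ∧ dn ((r' - q') * γ) < 2 * X then
      min ((1 / N₁) / q') ((1 / N₂) / r') else 0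

/-- The small overlap term of a pair for a general `ψ`. -/
noncomputable def pairTerm (γ : ℝ) (ψ : ℕ → ℝ) (q r : ℕ) : ℝ :=
  let g := Nat.gcd q r
  let q' : ℝ := ((q / g : ℕ) : ℝ)
  let r' : ℝ := ((r / g : ℕ) : ℝ)
  let X := max (r' * ψ q) (q' * ψ r)
  if X < 1 / 768 ∧ dn ((r' - q') * γ) < 2 * X then min (ψ q / q') (ψ r / r') else 0

/-- `Υ` of a pair of dyadic blocks `(i, n)`. -/
noncomputable def UpsI (b₁ b₂ : ℕ × ℕ) : ℝ :=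
  (Par.mk (2 ^ b₁.1) (2 ^ b₂.1) 1 ((2:ℝ) ^ b₁.2) ((2:ℝ) ^ b₂.2)).Ups

end Vale.Agent.Lib.P028T
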