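import Vale.Agent.Lib.P028T.Tau
import Vale.Agent.Lib.P028T.Defs

/-! Module GcdSum: blueprint section 6, self-bounding argument. -/

open Finset

namespace Vale.Agent.Lib.P028T
noncomputable section

namespace GcdAux

/-! ### Heights of fractions -/

/-- Numerator of `y / x` in lowest terms. -/
def lowA (x y : ℕ) : ℕ := y / Nat.gcd x y
/-- Denominator of `y / x` in lowest terms. -/
def lowB (x y : ℕ) : ℕ := x / Nat.gcd x y
/-- Height of `y / x`. -/
def ht (x y : ℕ) : ℕ := max (lowA x y) (lowB x y)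
/-- The weight. -/
def wt (x y : ℕ) : ℝ :=
  ((lowA x y).divisors.card : ℝ) * ((lowB x y).divisors.card : ℝ) / (ht x y : ℝ)

lemma lowA_pos {x y : ℕ} (hy : 1 ≤ y) : 1 ≤ lowA x y :=
  Nat.div_pos (Nat.le_of_dvd hy (Nat.gcd_dvd_right x y)) (Nat.gcd_pos_of_pos_right x hy)

lemma lowB_pos {x y : ℕ} (hx : 1 ≤ x) : 1 ≤ lowB x y :=
  Nat.div_pos (Nat.le_of_dvd hx (Nat.gcd_dvd_left x y)) (Nat.gcd_pos_of_pos_left y hx)

lemma ht_pos {x y : ℕ} (hy : 1 ≤ y) : 1 ≤ ht x y := le_max_of_le_left (lowA_pos hy)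

lemma low_coprime {x y : ℕ} (hx : 1 ≤ x) : Nat.Coprime (lowA x y) (lowB x y) := by
  unfold lowA lowB
  have := Nat.coprime_div_gcd_div_gcd (m := x) (n := y) (Nat.gcd_pos_of_pos_left y hx)
  exact this.symm

lemma lowA_mul (x y : ℕ) : lowA x y * Nat.gcd x y = y := Nat.div_mul_cancel (Nat.gcd_dvd_right x y)
lemma lowB_mul (x y : ℕ) : lowB x y * Nat.gcd x y = x := Nat.div_mul_cancel (Nat.gcd_dvd_left x y)

lemma two_pow_le_tau {n : ℕ} (hn : 1 ≤ n) : 2 ^ n.primeFactors.card ≤ n.divisors.card := by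
  rw [Nat.card_divisors (by omega), ← Finset.prod_const]
  apply Finset.prod_le_prod'
  intro p hp
  have : 1 ≤ n.factorization p :=
    (Nat.prime_of_mem_primeFactors hp).factorization_pos_of_dvd (by omega) (Nat.dvd_of_mem_primeFactors hp)
  omega

/-- The codegree bound. -/
lemma cod_bound (x0 x1 H : ℕ) (hx0 : 1 ≤ x0) (hx1 : 1 ≤ x1) (Y : Finset ℕ)
    (hY : ∀ y ∈ Y, 1 ≤ y ∧ ht y x0 ≤ H ∧ ht y x1 ≤ H) :
    (Y.card : ℝ) ≤ wt x1 x0 * (H : ℝ) ^ 2 := by
  obtain ⟨a, ha⟩ : ∃ a, a = lowA x1 x0 := ⟨_, rfl⟩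
  obtain ⟨b, hb⟩ : ∃ b, b = lowB x1 x0 := ⟨_, rfl⟩
  have ha1 : 1 ≤ a := ha ▸ lowA_pos hx0
  have hb1 : 1 ≤ b := hb ▸ lowB_pos hx1
  have hcop : Nat.Coprime a b := by rw [ha, hb]; exact low_coprime hx1
  have haE : a * Nat.gcd x1 x0 = x0 := by rw [ha]; exact lowA_mul x1 x0
  have hbE : b * Nat.gcd x1 x0 = x1 := by rw [hb]; exact lowB_mul x1 x0
  have hgpos : 0 < Nat.gcd x1 x0 := Nat.gcd_pos_of_pos_left _ hx1
  -- the classifying map
  let gg : ℕ → ℕ × ℕ := fun y => (Nat.gcd (lowA x0 y) b, Nat.gcd a (lowB x0 y))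
  have hgg : ∀ y, gg y = (Nat.gcd (lowA x0 y) b, Nat.gcd a (lowB x0 y)) := fun _ => rfl
  have hmaps : ∀ y ∈ Y, gg y ∈ b.divisors ×ˢ a.divisors := by
    intro y _
    rw [hgg, Finset.mem_product]
    exact ⟨Nat.mem_divisors.2 ⟨Nat.gcd_dvd_right _ _, by omega⟩,
      Nat.mem_divisors.2 ⟨Nat.gcd_dvd_left _ _, by omega⟩⟩
  have hcard := Finset.card_eq_sum_card_fiberwise hmaps
  -- fibre bound
  have hfib : ∀ st ∈ b.divisors ×ˢ a.divisors,
      ((Y.filter (fun y => gg y = st)).card : ℝ) ≤ (H : ℝ) ^ 2 / (max a b : ℕ) := by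
    intro st hst
    obtain ⟨s, t⟩ := st
    obtain ⟨hs, ht'⟩ := Finset.mem_product.1 hst
    simp only at hs ht'
    have hsd : s ∣ b := Nat.dvd_of_mem_divisors hs
    have htd : t ∣ a := Nat.dvd_of_mem_divisors ht'
    have hspos : 0 < s := Nat.pos_of_dvd_of_pos hsd hb1
    have htpos : 0 < t := Nat.pos_of_dvd_of_pos htd ha1
    obtain ⟨b1, hb1d⟩ := hsd
    obtain ⟨a1, ha1d⟩ := htd
    have hb1pos : 0 < b1 := by
      rcases Nat.eq_zero_or_pos b1 with h | h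
      · subst h; omega
      · exact h
    have ha1pos : 0 < a1 := by
      rcases Nat.eq_zero_or_pos a1 with h | h
      · subst h; omega
      · exact h
    have hinj : ((Y.filter (fun y => gg y = (s, t))).card) ≤
        ((Finset.Icc 1 (min (H / s) (H / a1))) ×ˢ (Finset.Icc 1 (min (H / t) (H / b1)))).card := by
      apply Finset.card_le_card_of_injOn (fun y => (lowA x0 y / s, lowB x0 y / t))
      · intro y hy
        obtain ⟨hyY, hyg⟩ := Finset.mem_filter.1 (Finset.mem_coe.1 hy)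
        rw [hgg] at hyg
        have hy1 : Nat.gcd (lowA x0 y) b = s := (Prod.ext_iff.1 hyg).1
        have hy2 : Nat.gcd a (lowB x0 y) = t := (Prod.ext_iff.1 hyg).2
        obtain ⟨hypos, h0, h1⟩ := hY y hyY
        obtain ⟨c, hc⟩ : ∃ c, c = lowA x0 y := ⟨_, rfl⟩
        obtain ⟨f, hf⟩ : ∃ f, f = lowB x0 y := ⟨_, rfl⟩
        have hc1 : 1 ≤ c := hc ▸ lowA_pos hypos
        have hf1 : 1 ≤ f := hf ▸ lowB_pos hx0
        rw [← hc] at hy1
        rw [← hf] at hy2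
        have hcf : Nat.Coprime c f := by rw [hc, hf]; exact low_coprime hx0
        -- primed quantities
        obtain ⟨c', hc'⟩ : ∃ c', c' = lowA x1 y := ⟨_, rfl⟩
        obtain ⟨f', hf'⟩ : ∃ f', f' = lowB x1 y := ⟨_, rfl⟩
        have hc'1 : 1 ≤ c' := hc' ▸ lowA_pos hypos
        have hf'1 : 1 ≤ f' := hf' ▸ lowB_pos hx1
        -- heights in terms of these
        have hh0 : f ≤ H ∧ c ≤ H := by
          have h2 : ht y x0 = max f c := by
            unfold ht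
            rw [hf, hc]
            unfold lowA lowB
            rw [Nat.gcd_comm y x0]
          rw [h2] at h0
          exact ⟨le_trans (le_max_left _ _) h0, le_trans (le_max_right _ _) h0⟩
        have hh1 : f' ≤ H ∧ c' ≤ H := by
          have h2 : ht y x1 = max f' c' := by
            unfold ht
            rw [hf', hc']
            unfold lowA lowB
            rw [Nat.gcd_comm y x1]
          rw [h2] at h1
          exact ⟨le_trans (le_max_left _ _) h1, le_trans (le_max_right _ _) h1⟩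
        have hcE : c * Nat.gcd x0 y = y := by rw [hc]; exact lowA_mul x0 y
        have hfE : f * Nat.gcd x0 y = x0 := by rw [hf]; exact lowB_mul x0 y
        have hc'E : c' * Nat.gcd x1 y = y := by rw [hc']; exact lowA_mul x1 y
        have hf'E : f' * Nat.gcd x1 y = x1 := by rw [hf']; exact lowB_mul x1 y
        have hg0 : 0 < Nat.gcd x0 y := Nat.gcd_pos_of_pos_left _ hx0
        have hg1 : 0 < Nat.gcd x1 y := Nat.gcd_pos_of_pos_left _ hx1
        -- the key relation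
        have hrel : a * c * f' = b * f * c' := by
          have h3 : (a * c * f') * (Nat.gcd x1 x0 * Nat.gcd x0 y * Nat.gcd x1 y)
              = (b * f * c') * (Nat.gcd x1 x0 * Nat.gcd x0 y * Nat.gcd x1 y) := by
            calc (a * c * f') * (Nat.gcd x1 x0 * Nat.gcd x0 y * Nat.gcd x1 y)
                = (a * Nat.gcd x1 x0) * (c * Nat.gcd x0 y) * (f' * Nat.gcd x1 y) := by ring
              _ = x0 * y * x1 := by rw [haE, hcE, hf'E]
              _ = x1 * x0 * y := by ring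
              _ = (b * Nat.gcd x1 x0) * (f * Nat.gcd x0 y) * (c' * Nat.gcd x1 y) := by
                  rw [hbE, hfE, hc'E]
              _ = _ := by ring
          exact Nat.eq_of_mul_eq_mul_right (by positivity) h3
        -- decompose
        have hsc : s ∣ c := hy1 ▸ Nat.gcd_dvd_left _ _
        have htf : t ∣ f := hy2 ▸ Nat.gcd_dvd_right _ _
        obtain ⟨c1, hc1d⟩ := hsc
        obtain ⟨f1, hf1d⟩ := htf
        have hc1pos : 0 < c1 := by
          rcases Nat.eq_zero_or_pos c1 with h | h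
          · subst h; omega
          · exact h
        have hf1pos : 0 < f1 := by
          rcases Nat.eq_zero_or_pos f1 with h | h
          · subst h; omega
          · exact h
        have hc1b1 : Nat.Coprime c1 b1 := by
          have h := Nat.coprime_div_gcd_div_gcd (m := c) (n := b) (by rw [hy1]; exact hspos)
          rw [hy1] at h
          rwa [hc1d, hb1d, Nat.mul_div_cancel_left _ hspos, Nat.mul_div_cancel_left _ hspos] at h
        have ha1f1 : Nat.Coprime a1 f1 := by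
          have h := Nat.coprime_div_gcd_div_gcd (m := a) (n := f) (by rw [hy2]; exact htpos)
          rw [hy2] at h
          rwa [ha1d, hf1d, Nat.mul_div_cancel_left _ htpos, Nat.mul_div_cancel_left _ htpos] at h
        have ha1b1 : Nat.Coprime a1 b1 := by
          apply Nat.Coprime.coprime_dvd_left (Dvd.intro_left t ha1d.symm)
          exact Nat.Coprime.coprime_dvd_right (Dvd.intro_left s hb1d.symm) hcop
        have hc1f1 : Nat.Coprime c1 f1 := by
          apply Nat.Coprime.coprime_dvd_left (Dvd.intro_left s hc1d.symm)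
          exact Nat.Coprime.coprime_dvd_right (Dvd.intro_left t hf1d.symm) hcf
        have hrel2 : a1 * c1 * f' = b1 * f1 * c' := by
          have h3 : (t * s) * (a1 * c1 * f') = (t * s) * (b1 * f1 * c') := by
            calc (t * s) * (a1 * c1 * f') = (t * a1) * (s * c1) * f' := by ring
              _ = a * c * f' := by rw [← ha1d, ← hc1d]
              _ = b * f * c' := hrel
              _ = (s * b1) * (t * f1) * c' := by rw [← hb1d, ← hf1d]
              _ = _ := by ring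
          exact Nat.eq_of_mul_eq_mul_left (by positivity) h3
        have hcopAll : Nat.Coprime (a1 * c1) (b1 * f1) :=
          Nat.Coprime.mul_left (Nat.Coprime.mul_right ha1b1 ha1f1) (Nat.Coprime.mul_right hc1b1.symm.symm hc1f1)
        have hd1 : a1 * c1 ∣ c' := by
          apply hcopAll.dvd_of_dvd_mul_left
          exact Dvd.intro _ hrel2
        have hd2 : b1 * f1 ∣ f' := by
          apply hcopAll.symm.dvd_of_dvd_mul_left
          exact Dvd.intro _ hrel2.symm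
        have hle1 : a1 * c1 ≤ H := (Nat.le_of_dvd hc'1 hd1).trans hh1.2
        have hle2 : b1 * f1 ≤ H := (Nat.le_of_dvd hf'1 hd2).trans hh1.1
        have hle3 : s * c1 ≤ H := hc1d ▸ hh0.2
        have hle4 : t * f1 ≤ H := hf1d ▸ hh0.1
        simp only [← hc, ← hf]
        rw [hc1d, hf1d, Nat.mul_div_cancel_left _ hspos, Nat.mul_div_cancel_left _ htpos]
        rw [Finset.coe_product, Set.mem_prod]
        simp only [Finset.coe_Icc, Set.mem_Icc]
        refine ⟨⟨hc1pos, le_min ?_ ?_⟩, hf1pos, le_min ?_ ?_⟩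
        · exact (Nat.le_div_iff_mul_le hspos).2 (by linarith [mul_comm s c1])
        · exact (Nat.le_div_iff_mul_le ha1pos).2 (by linarith [mul_comm a1 c1])
        · exact (Nat.le_div_iff_mul_le htpos).2 (by linarith [mul_comm t f1])
        · exact (Nat.le_div_iff_mul_le hb1pos).2 (by linarith [mul_comm b1 f1])
      · intro y hy y' hy' hEq
        obtain ⟨hyY, hyg⟩ := Finset.mem_filter.1 (Finset.mem_coe.1 hy)
        obtain ⟨hyY', hyg'⟩ := Finset.mem_filter.1 (Finset.mem_coe.1 hy')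
        rw [hgg] at hyg hyg'
        have h1 := (Prod.ext_iff.1 hEq).1
        have h2 := (Prod.ext_iff.1 hEq).2
        simp only at h1 h2
        have hg1 : Nat.gcd (lowA x0 y) b = s := (Prod.ext_iff.1 hyg).1
        have hg2 : Nat.gcd a (lowB x0 y) = t := (Prod.ext_iff.1 hyg).2
        have hg1' : Nat.gcd (lowA x0 y') b = s := (Prod.ext_iff.1 hyg').1
        have hg2' : Nat.gcd a (lowB x0 y') = t := (Prod.ext_iff.1 hyg').2
        have hsc : s ∣ lowA x0 y := hg1 ▸ Nat.gcd_dvd_left _ _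
        have hsc' : s ∣ lowA x0 y' := hg1' ▸ Nat.gcd_dvd_left _ _
        have htf : t ∣ lowB x0 y := hg2 ▸ Nat.gcd_dvd_right _ _
        have htf' : t ∣ lowB x0 y' := hg2' ▸ Nat.gcd_dvd_right _ _
        have hcc : lowA x0 y = lowA x0 y' := by
          rw [← Nat.div_mul_cancel hsc, ← Nat.div_mul_cancel hsc', h1]
        have hff : lowB x0 y = lowB x0 y' := by
          rw [← Nat.div_mul_cancel htf, ← Nat.div_mul_cancel htf', h2]
        have hf1 : 0 < lowB x0 y := lowB_pos hx0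
        have e1 : y * lowB x0 y = x0 * lowA x0 y := by
          have h3 := lowA_mul x0 y
          have h4 := lowB_mul x0 y
          have hg : 0 < Nat.gcd x0 y := Nat.gcd_pos_of_pos_left _ hx0
          apply Nat.eq_of_mul_eq_mul_right hg
          calc y * lowB x0 y * Nat.gcd x0 y = y * (lowB x0 y * Nat.gcd x0 y) := by ring
            _ = y * x0 := by rw [h4]
            _ = x0 * (lowA x0 y * Nat.gcd x0 y) := by rw [h3]; ring
            _ = _ := by ring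
        have e2 : y' * lowB x0 y' = x0 * lowA x0 y' := by
          have h3 := lowA_mul x0 y'
          have h4 := lowB_mul x0 y'
          have hg : 0 < Nat.gcd x0 y' := Nat.gcd_pos_of_pos_left _ hx0
          apply Nat.eq_of_mul_eq_mul_right hg
          calc y' * lowB x0 y' * Nat.gcd x0 y' = y' * (lowB x0 y' * Nat.gcd x0 y') := by ring
            _ = y' * x0 := by rw [h4]
            _ = x0 * (lowA x0 y' * Nat.gcd x0 y') := by rw [h3]; ring
            _ = _ := by ring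
        rw [← hcc, ← hff] at e2
        have e3 : y * lowB x0 y = y' * lowB x0 y := by rw [e1, e2]
        exact Nat.eq_of_mul_eq_mul_right hf1 e3
    have hmax : ((max a b : ℕ) : ℝ) > 0 := by
      have : 1 ≤ max a b := le_max_of_le_left ha1
      exact_mod_cast this
    have hcardprod : ((((Finset.Icc 1 (min (H / s) (H / a1))) ×ˢ
        (Finset.Icc 1 (min (H / t) (H / b1)))).card : ℕ) : ℝ)
        = ((min (H / s) (H / a1) : ℕ) : ℝ) * ((min (H / t) (H / b1) : ℕ) : ℝ) := by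
      rw [Finset.card_product, Nat.card_Icc, Nat.card_Icc]
      simp
    have hfinal : ((min (H / s) (H / a1) : ℕ) : ℝ) * ((min (H / t) (H / b1) : ℕ) : ℝ)
        ≤ (H : ℝ) ^ 2 / (max a b : ℕ) := by
      have hdiv : ∀ u : ℕ, 0 < u → ((H / u : ℕ) : ℝ) ≤ (H : ℝ) / u := fun u _ => Nat.cast_div_le
      have hsR : (0 : ℝ) < s := by exact_mod_cast hspos
      have htR : (0 : ℝ) < t := by exact_mod_cast htpos
      have ha1R : (0 : ℝ) < a1 := by exact_mod_cast ha1pos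
      have hb1R : (0 : ℝ) < b1 := by exact_mod_cast hb1pos
      have hHR : (0 : ℝ) ≤ H := by positivity
      rcases le_total b a with hab | hab
      · have hm : max a b = a := max_eq_left hab
        rw [hm]
        have h1 : ((min (H / s) (H / a1) : ℕ) : ℝ) ≤ (H : ℝ) / a1 :=
          (Nat.cast_le.2 (min_le_right _ _)).trans (hdiv a1 ha1pos)
        have h2 : ((min (H / t) (H / b1) : ℕ) : ℝ) ≤ (H : ℝ) / t :=
          (Nat.cast_le.2 (min_le_left _ _)).trans (hdiv t htpos)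
        have h3 := mul_le_mul h1 h2 (by positivity) (by positivity)
        refine h3.trans (le_of_eq ?_)
        rw [ha1d]
        push_cast
        field_simp
      · have hm : max a b = b := max_eq_right hab
        rw [hm]
        have h1 : ((min (H / s) (H / a1) : ℕ) : ℝ) ≤ (H : ℝ) / s :=
          (Nat.cast_le.2 (min_le_left _ _)).trans (hdiv s hspos)
        have h2 : ((min (H / t) (H / b1) : ℕ) : ℝ) ≤ (H : ℝ) / b1 :=
          (Nat.cast_le.2 (min_le_right _ _)).trans (hdiv b1 hb1pos)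
        have h3 := mul_le_mul h1 h2 (by positivity) (by positivity)
        refine h3.trans (le_of_eq ?_)
        rw [hb1d]
        push_cast
        field_simp
    calc ((Y.filter (fun y => gg y = (s, t))).card : ℝ)
        ≤ _ := Nat.cast_le.2 hinj
      _ = _ := hcardprod
      _ ≤ _ := hfinal
  -- assemble
  have hsum : (Y.card : ℝ) ≤ ∑ _st ∈ b.divisors ×ˢ a.divisors, (H : ℝ) ^ 2 / (max a b : ℕ) := by
    rw [hcard, Nat.cast_sum]
    exact Finset.sum_le_sum hfib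
  rw [Finset.sum_const, Finset.card_product, nsmul_eq_mul] at hsum
  refine hsum.trans (le_of_eq ?_)
  unfold wt ht
  rw [← ha, ← hb]
  push_cast
  ring

/-- The weight sum. -/
def wS (X : Finset ℕ) : ℝ := ∑ x ∈ X, ∑ y ∈ X, wt x y

lemma wt_nonneg (x y : ℕ) : 0 ≤ wt x y := by unfold wt; positivity

/-- The number of pairs of height at most `H`. -/
def eH (X : Finset ℕ) (H : ℕ) : ℝ := ∑ x ∈ X, ∑ y ∈ X, if ht x y ≤ H then (1 : ℝ) else 0

lemma eH_nonneg (X : Finset ℕ) (H : ℕ) : 0 ≤ eH X H := by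
  unfold eH
  exact Finset.sum_nonneg fun _ _ => Finset.sum_nonneg fun _ _ => by split_ifs <;> norm_num

/-- Cauchy-Schwarz with the codegree bound. -/
lemma eH_sq (X : Finset ℕ) (H : ℕ) (hX : ∀ x ∈ X, 1 ≤ x) :
    (eH X H) ^ 2 ≤ (X.card : ℝ) * ((H : ℝ) ^ 2 * wS X) := by
  unfold eH
  refine (sq_sum_le_card_mul_sum_sq).trans ?_
  apply mul_le_mul_of_nonneg_left _ (by positivity)
  -- expand the squares
  have h1 : ∑ y ∈ X, (∑ x ∈ X, if ht y x ≤ H then (1 : ℝ) else 0) ^ 2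
      = ∑ x0 ∈ X, ∑ x1 ∈ X, ∑ y ∈ X,
        (if ht y x0 ≤ H ∧ ht y x1 ≤ H then (1 : ℝ) else 0) := by
    have h2 : ∀ y, (∑ x ∈ X, if ht y x ≤ H then (1 : ℝ) else 0) ^ 2
        = ∑ x0 ∈ X, ∑ x1 ∈ X, if ht y x0 ≤ H ∧ ht y x1 ≤ H then (1 : ℝ) else 0 := by
      intro y
      rw [sq, Finset.sum_mul_sum]
      apply Finset.sum_congr rfl; intro x0 _
      apply Finset.sum_congr rfl; intro x1 _
      by_cases h3 : ht y x0 ≤ H <;> by_cases h4 : ht y x1 ≤ H <;> simp [h3, h4]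
    simp only [h2]
    rw [Finset.sum_comm]
    apply Finset.sum_congr rfl; intro x0 _
    rw [Finset.sum_comm]
  rw [h1]
  have h5 : ∀ x0 ∈ X, ∀ x1 ∈ X, ∑ y ∈ X, (if ht y x0 ≤ H ∧ ht y x1 ≤ H then (1 : ℝ) else 0)
      ≤ wt x1 x0 * (H : ℝ) ^ 2 := by
    intro x0 hx0 x1 hx1
    rw [← Finset.natCast_card_filter]
    exact cod_bound x0 x1 H (hX x0 hx0) (hX x1 hx1) _ (by
      intro y hy
      obtain ⟨h6, h7, h8⟩ := Finset.mem_filter.1 hy
      exact ⟨hX y h6, h7, h8⟩)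
  calc ∑ x0 ∈ X, ∑ x1 ∈ X, ∑ y ∈ X, (if ht y x0 ≤ H ∧ ht y x1 ≤ H then (1 : ℝ) else 0)
      ≤ ∑ x0 ∈ X, ∑ x1 ∈ X, wt x1 x0 * (H : ℝ) ^ 2 :=
        Finset.sum_le_sum fun x0 hx0 => Finset.sum_le_sum fun x1 hx1 => h5 x0 hx0 x1 hx1
    _ = (H : ℝ) ^ 2 * wS X := by
        unfold wS
        rw [Finset.sum_comm, Finset.mul_sum]
        apply Finset.sum_congr rfl; intro x1 _
        rw [Finset.mul_sum]
        apply Finset.sum_congr rfl; intro x0 _
        ring

/-- The height bound in terms of the weight sum. -/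
lemma eH_le (X : Finset ℕ) (H : ℕ) (hX : ∀ x ∈ X, 1 ≤ x) :
    eH X H ≤ (H : ℝ) * Real.sqrt ((X.card : ℝ) * wS X) := by
  have h0 := eH_sq X H hX
  have hS : 0 ≤ wS X := Finset.sum_nonneg fun _ _ => Finset.sum_nonneg fun _ _ => wt_nonneg _ _
  have h1 : (X.card : ℝ) * ((H : ℝ) ^ 2 * wS X) = ((H : ℝ) * Real.sqrt ((X.card : ℝ) * wS X)) ^ 2 := by
    rw [mul_pow, Real.sq_sqrt (by positivity)]
    ring
  rw [h1] at h0
  exact (pow_le_pow_iff_left₀ (eH_nonneg _ _) (by positivity) (by norm_num)).1 h0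

/-- Pointwise dyadic bound. -/
lemma dyadic_point (h K : ℕ) (hh : 1 ≤ h) (hK : 1 ≤ K) (r : ℝ) (hr : 0 ≤ r) :
    (h : ℝ) ^ (-r) ≤ ∑ j ∈ Finset.range (Nat.log 2 K + 1),
        (((2 : ℝ) ^ j) ^ (-r)) * (if h ≤ 2 ^ (j + 1) then (1 : ℝ) else 0) + (K : ℝ) ^ (-r) := by
  have hhR : (0 : ℝ) < h := by exact_mod_cast hh
  have hKR : (0 : ℝ) < K := by exact_mod_cast hK
  have hnn : ∀ j ∈ Finset.range (Nat.log 2 K + 1),
      0 ≤ (((2 : ℝ) ^ j) ^ (-r)) * (if h ≤ 2 ^ (j + 1) then (1 : ℝ) else 0) := by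
    intro j _
    split_ifs <;> positivity
  by_cases hj : Nat.log 2 h ≤ Nat.log 2 K
  · have hmem : Nat.log 2 h ∈ Finset.range (Nat.log 2 K + 1) := Finset.mem_range.2 (by omega)
    have h1 := Finset.single_le_sum hnn hmem
    have h2 : h ≤ 2 ^ (Nat.log 2 h + 1) := (Nat.lt_pow_succ_log_self (by norm_num) h).le
    rw [if_pos h2, mul_one] at h1
    have h3 : (2 : ℝ) ^ Nat.log 2 h ≤ h := by
      have := Nat.pow_log_le_self 2 (x := h) (by omega)
      exact_mod_cast this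
    have h4 : (h : ℝ) ^ (-r) ≤ ((2 : ℝ) ^ Nat.log 2 h) ^ (-r) :=
      Real.rpow_le_rpow_of_nonpos (by positivity) h3 (by linarith)
    have h5 : 0 ≤ (K : ℝ) ^ (-r) := by positivity
    linarith
  · push Not at hj
    have h1 : K < 2 ^ (Nat.log 2 K + 1) := Nat.lt_pow_succ_log_self (by norm_num) K
    have h2 : 2 ^ (Nat.log 2 K + 1) ≤ 2 ^ Nat.log 2 h := Nat.pow_le_pow_right (by norm_num) hj
    have h3 : 2 ^ Nat.log 2 h ≤ h := Nat.pow_log_le_self 2 (by omega)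
    have h4 : (K : ℝ) ≤ h := by
      have : K ≤ h := by omega
      exact_mod_cast this
    have h5 : (h : ℝ) ^ (-r) ≤ (K : ℝ) ^ (-r) :=
      Real.rpow_le_rpow_of_nonpos hKR h4 (by linarith)
    have h6 := Finset.sum_nonneg hnn
    linarith

/-- The number of scales. -/
lemma log_scales (ε : ℝ) (hε : 0 < ε) (K : ℕ) (hK : 1 ≤ K) :
    ((Nat.log 2 K : ℕ) : ℝ) + 1 ≤ (1 + 1 / (ε * Real.log 2)) * (K : ℝ) ^ ε := by
  have hl2 : 0 < Real.log 2 := Real.log_pos (by norm_num)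
  have hKR : (1 : ℝ) ≤ K := by exact_mod_cast hK
  have h1 : (2 : ℝ) ^ Nat.log 2 K ≤ K := by
    have := Nat.pow_log_le_self 2 (x := K) (by omega)
    exact_mod_cast this
  have h2 : ((2 : ℝ) ^ Nat.log 2 K) ^ ε ≤ (K : ℝ) ^ ε := Real.rpow_le_rpow (by positivity) h1 hε.le
  have h3 : ((2 : ℝ) ^ Nat.log 2 K) ^ ε = Real.exp ((Nat.log 2 K : ℝ) * ε * Real.log 2) := by
    rw [← Real.rpow_natCast, ← Real.rpow_mul (by norm_num), Real.rpow_def_of_pos (by norm_num)]
    congr 1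
    ring
  have h4 := Real.add_one_le_exp ((Nat.log 2 K : ℝ) * ε * Real.log 2)
  rw [h3] at h2
  have h5 : (1 : ℝ) ≤ (K : ℝ) ^ ε := Real.one_le_rpow hKR hε.le
  have h6 : 0 < ε * Real.log 2 := by positivity
  have h7 : (Nat.log 2 K : ℝ) ≤ (1 / (ε * Real.log 2)) * (K : ℝ) ^ ε := by
    rw [one_div, inv_mul_eq_div, le_div_iff₀ h6]
    nlinarith
  nlinarith

/-- The weight against the height. -/
lemma wt_le_of (ε C : ℝ) (hε : 0 < ε) (hC : 1 ≤ C)
    (hτ : ∀ n : ℕ, 1 ≤ n → (n.divisors.card : ℝ) ≤ C * (n : ℝ) ^ ε) (x y : ℕ) (hx : 1 ≤ x) (hy : 1 ≤ y) :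
    wt x y ≤ C ^ 2 * (ht x y : ℝ) ^ (-(1 - 2 * ε)) := by
  have hht : 1 ≤ ht x y := ht_pos hy
  have hhtR : (0 : ℝ) < ht x y := by exact_mod_cast hht
  have ha := lowA_pos (x := x) hy
  have hb := lowB_pos (y := y) hx
  have h1 : ((lowA x y).divisors.card : ℝ) ≤ C * (ht x y : ℝ) ^ ε := by
    refine (hτ _ ha).trans (mul_le_mul_of_nonneg_left ?_ (by linarith))
    apply Real.rpow_le_rpow (by positivity) _ hε.le
    exact_mod_cast le_max_left _ _
  have h2 : ((lowB x y).divisors.card : ℝ) ≤ C * (ht x y : ℝ) ^ ε := by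
    refine (hτ _ hb).trans (mul_le_mul_of_nonneg_left ?_ (by linarith))
    apply Real.rpow_le_rpow (by positivity) _ hε.le
    exact_mod_cast le_max_right _ _
  have h3 := mul_le_mul h1 h2 (by positivity) (by positivity)
  unfold wt
  rw [div_le_iff₀ hhtR]
  refine h3.trans (le_of_eq ?_)
  have h4 : (ht x y : ℝ) ^ (-(1 - 2 * ε)) * (ht x y : ℝ) = (ht x y : ℝ) ^ ε * (ht x y : ℝ) ^ ε := by
    nth_rewrite 2 [← Real.rpow_one (ht x y : ℝ)]
    rw [← Real.rpow_add hhtR, ← Real.rpow_add hhtR]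
    congr 1
    ring
  calc C * (ht x y : ℝ) ^ ε * (C * (ht x y : ℝ) ^ ε) = C ^ 2 * ((ht x y : ℝ) ^ ε * (ht x y : ℝ) ^ ε) := by ring
    _ = C ^ 2 * ((ht x y : ℝ) ^ (-(1 - 2 * ε)) * (ht x y : ℝ)) := by rw [h4]
    _ = _ := by ring

/-- The self-bounding inequality. -/
lemma wS_self (ε C : ℝ) (hε : 0 < ε) (hε2 : ε ≤ 1 / 4) (hC : 1 ≤ C)
    (hτ : ∀ n : ℕ, 1 ≤ n → (n.divisors.card : ℝ) ≤ C * (n : ℝ) ^ ε)
    (X : Finset ℕ) (hX : ∀ x ∈ X, 1 ≤ x) (hK : 1 ≤ X.card) :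
    wS X ≤ (C ^ 2 * (2 * (1 + 1 / (ε * Real.log 2)) + 1) * (X.card : ℝ) ^ (3 * ε)) *
      Real.sqrt ((X.card : ℝ) * wS X) := by
  have hl2 : 0 < Real.log 2 := Real.log_pos (by norm_num)
  obtain ⟨K, hKdef⟩ : ∃ K, K = X.card := ⟨_, rfl⟩
  rw [← hKdef] at hK ⊢
  have hKR : (1 : ℝ) ≤ K := by exact_mod_cast hK
  have hK0 : (0 : ℝ) < K := by linarith
  obtain ⟨R, hR⟩ : ∃ R, R = Real.sqrt ((K : ℝ) * wS X) := ⟨_, rfl⟩
  rw [← hR]
  have hR0 : 0 ≤ R := hR ▸ Real.sqrt_nonneg _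
  obtain ⟨r, hr⟩ : ∃ r : ℝ, r = 1 - 2 * ε := ⟨_, rfl⟩
  have hr0 : 0 ≤ r := by rw [hr]; linarith
  -- termwise
  have hterm : ∀ x ∈ X, ∀ y ∈ X, wt x y ≤ C ^ 2 * (∑ j ∈ Finset.range (Nat.log 2 K + 1),
        (((2 : ℝ) ^ j) ^ (-r)) * (if ht x y ≤ 2 ^ (j + 1) then (1 : ℝ) else 0) + (K : ℝ) ^ (-r)) := by
    intro x hx y hy
    have h1 := wt_le_of ε C hε hC hτ x y (hX x hx) (hX y hy)
    rw [← hr] at h1
    refine h1.trans (mul_le_mul_of_nonneg_left ?_ (by positivity))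
    exact dyadic_point _ K (ht_pos (hX y hy)) hK r hr0
  have hsum : wS X ≤ C ^ 2 * (∑ j ∈ Finset.range (Nat.log 2 K + 1), ((2 : ℝ) ^ j) ^ (-r) * eH X (2 ^ (j + 1))
      + (K : ℝ) ^ 2 * (K : ℝ) ^ (-r)) := by
    unfold wS
    refine (Finset.sum_le_sum fun x hx => Finset.sum_le_sum fun y hy => hterm x hx y hy).trans (le_of_eq ?_)
    simp only [← Finset.mul_sum, Finset.sum_add_distrib]
    congr 1
    congr 1
    · unfold eH
      simp only [Finset.mul_sum]
      exact (Finset.sum_congr rfl (fun x _ => Finset.sum_comm)).trans Finset.sum_comm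
    · simp only [Finset.sum_const, nsmul_eq_mul, ← hKdef]
      ring
  -- each scale
  have hscale : ∀ j ∈ Finset.range (Nat.log 2 K + 1),
      ((2 : ℝ) ^ j) ^ (-r) * eH X (2 ^ (j + 1)) ≤ 2 * (K : ℝ) ^ (2 * ε) * R := by
    intro j hj
    have hjle : j ≤ Nat.log 2 K := by have := Finset.mem_range.1 hj; omega
    have h2j : (2 : ℝ) ^ j ≤ K := by
      have h1 : 2 ^ j ≤ 2 ^ Nat.log 2 K := Nat.pow_le_pow_right (by norm_num) hjle
      have h2 := Nat.pow_log_le_self 2 (x := K) (by omega)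
      exact_mod_cast h1.trans h2
    have h2jpos : (0 : ℝ) < (2 : ℝ) ^ j := by positivity
    have h1 := eH_le X (2 ^ (j + 1)) hX
    rw [← hKdef, ← hR] at h1
    push_cast at h1
    have h3 : ((2 : ℝ) ^ j) ^ (-r) * (2 : ℝ) ^ (j + 1) = 2 * ((2 : ℝ) ^ j) ^ (2 * ε) := by
      have : (2 : ℝ) ^ (j + 1) = 2 * (2 : ℝ) ^ j := by ring
      rw [this]
      have h4 : ((2 : ℝ) ^ j) ^ (2 * ε) = ((2 : ℝ) ^ j) ^ (-r) * (2 : ℝ) ^ j := by
        nth_rewrite 3 [← Real.rpow_one ((2 : ℝ) ^ j)]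
        rw [← Real.rpow_add h2jpos, hr]
        congr 1
        ring
      rw [h4]
      ring
    calc ((2 : ℝ) ^ j) ^ (-r) * eH X (2 ^ (j + 1))
        ≤ ((2 : ℝ) ^ j) ^ (-r) * ((2 : ℝ) ^ (j + 1) * R) :=
          mul_le_mul_of_nonneg_left h1 (by positivity)
      _ = 2 * ((2 : ℝ) ^ j) ^ (2 * ε) * R := by rw [← mul_assoc, h3]
      _ ≤ _ := by
          apply mul_le_mul_of_nonneg_right _ hR0
          apply mul_le_mul_of_nonneg_left _ (by norm_num)
          exact Real.rpow_le_rpow (by positivity) h2j (by positivity)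
  have hsum2 : ∑ j ∈ Finset.range (Nat.log 2 K + 1), ((2 : ℝ) ^ j) ^ (-r) * eH X (2 ^ (j + 1))
      ≤ ((Nat.log 2 K : ℕ) + 1 : ℝ) * (2 * (K : ℝ) ^ (2 * ε) * R) := by
    refine (Finset.sum_le_sum hscale).trans (le_of_eq ?_)
    rw [Finset.sum_const, Finset.card_range, nsmul_eq_mul]
    push_cast
    ring
  have hscales := log_scales ε hε K hK
  -- diagonal: `K ≤ wS`
  have hdiag : (K : ℝ) ≤ wS X := by
    unfold wS
    have hKs : (K : ℝ) = ∑ _x ∈ X, (1 : ℝ) := by rw [hKdef]; simp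
    rw [hKs]
    apply Finset.sum_le_sum
    intro x hx
    have h1 : wt x x = 1 := by
      have hx1 := hX x hx
      unfold wt ht lowA lowB
      rw [Nat.gcd_self, Nat.div_self (by omega)]
      simp
    rw [← h1]
    exact Finset.single_le_sum (f := fun y => wt x y) (fun y _ => wt_nonneg x y) hx
  have hKR' : (K : ℝ) ≤ R := by
    rw [hR]
    apply Real.le_sqrt_of_sq_le
    rw [sq]
    exact mul_le_mul_of_nonneg_left hdiag hK0.le
  have hpow2 : (K : ℝ) ^ 2 * (K : ℝ) ^ (-r) = (K : ℝ) * (K : ℝ) ^ (2 * ε) := by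
    have h1 : (K : ℝ) ^ 2 = (K : ℝ) * (K : ℝ) := by ring
    have h2 : (K : ℝ) * (K : ℝ) ^ (-r) = (K : ℝ) ^ (2 * ε) := by
      nth_rewrite 1 [← Real.rpow_one (K : ℝ)]
      rw [← Real.rpow_add hK0, hr]
      congr 1
      ring
    rw [h1, mul_assoc, h2]
  have hKe : 0 ≤ (K : ℝ) ^ ε := by positivity
  have hKe1 : 1 ≤ (K : ℝ) ^ ε := Real.one_le_rpow hKR hε.le
  have hKe2 : (K : ℝ) ^ (3 * ε) = (K : ℝ) ^ ε * (K : ℝ) ^ (2 * ε) := by
    rw [← Real.rpow_add hK0]
    congr 1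
    ring
  have hK2e : 0 ≤ (K : ℝ) ^ (2 * ε) := by positivity
  rw [hpow2] at hsum
  have hC3 : 0 ≤ 1 + 1 / (ε * Real.log 2) := by positivity
  have h8 : ∑ j ∈ Finset.range (Nat.log 2 K + 1), ((2 : ℝ) ^ j) ^ (-r) * eH X (2 ^ (j + 1))
      + (K : ℝ) * (K : ℝ) ^ (2 * ε)
      ≤ (2 * (1 + 1 / (ε * Real.log 2)) + 1) * (K : ℝ) ^ (3 * ε) * R := by
    have h9 : ((Nat.log 2 K : ℕ) + 1 : ℝ) * (2 * (K : ℝ) ^ (2 * ε) * R)
        ≤ ((1 + 1 / (ε * Real.log 2)) * (K : ℝ) ^ ε) * (2 * (K : ℝ) ^ (2 * ε) * R) :=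
      mul_le_mul_of_nonneg_right hscales (by positivity)
    have h10 : (K : ℝ) * (K : ℝ) ^ (2 * ε) ≤ R * ((K : ℝ) ^ ε * (K : ℝ) ^ (2 * ε)) := by
      have h11 : (K : ℝ) ^ (2 * ε) ≤ (K : ℝ) ^ ε * (K : ℝ) ^ (2 * ε) := by
        nlinarith
      calc (K : ℝ) * (K : ℝ) ^ (2 * ε) ≤ R * (K : ℝ) ^ (2 * ε) :=
            mul_le_mul_of_nonneg_right hKR' hK2e
        _ ≤ _ := mul_le_mul_of_nonneg_left h11 hR0
    rw [hKe2]
    nlinarith
  calc wS X ≤ C ^ 2 * _ := hsum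
    _ ≤ C ^ 2 * ((2 * (1 + 1 / (ε * Real.log 2)) + 1) * (K : ℝ) ^ (3 * ε) * R) :=
        mul_le_mul_of_nonneg_left h8 (by positivity)
    _ = _ := by ring

/-- The divisor bound with a constant at least one. -/
lemma tau_le_rpow (ε : ℝ) (hε : 0 < ε) :
    ∃ C : ℝ, 1 ≤ C ∧ ∀ n : ℕ, 1 ≤ n → (n.divisors.card : ℝ) ≤ C * (n:ℝ) ^ ε := by
  obtain ⟨C, _, h⟩ := tau_le ε hε
  refine ⟨max C 1, le_max_right _ _, fun n hn => (h n hn).trans ?_⟩
  exact mul_le_mul_of_nonneg_right (le_max_left _ _) (by positivity)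

/-- The weight sum bound. -/
theorem wS_le : ∃ C : ℝ, 0 < C ∧ ∀ X : Finset ℕ, (∀ x ∈ X, 1 ≤ x) →
    wS X ≤ C * (X.card : ℝ) ^ (1 + (1 : ℝ) / 96) := by
  obtain ⟨ε, hε⟩ : ∃ ε : ℝ, ε = 1 / 576 := ⟨_, rfl⟩
  have hε0 : 0 < ε := by rw [hε]; norm_num
  obtain ⟨C, hC, hτ⟩ := tau_le_rpow ε hε0
  have hl2 : 0 < Real.log 2 := Real.log_pos (by norm_num)
  obtain ⟨A, hA⟩ : ∃ A : ℝ, A = C ^ 2 * (2 * (1 + 1 / (ε * Real.log 2)) + 1) := ⟨_, rfl⟩
  have hApos : 0 < A := by rw [hA]; positivity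
  refine ⟨A ^ 2, by positivity, ?_⟩
  intro X hX
  by_cases hK : X.card = 0
  · have hXe : X = ∅ := Finset.card_eq_zero.1 hK
    subst hXe
    simp [wS]
    positivity
  have hK1 : 1 ≤ X.card := by omega
  have hKR : (1 : ℝ) ≤ X.card := by exact_mod_cast hK1
  have hK0 : (0 : ℝ) < X.card := by linarith
  have hself := wS_self ε C hε0 (by rw [hε]; norm_num) hC hτ X hX hK1
  rw [← hA] at hself
  have hS0 : 0 ≤ wS X := Finset.sum_nonneg fun _ _ => Finset.sum_nonneg fun _ _ => wt_nonneg _ _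
  obtain ⟨R, hR⟩ : ∃ R, R = Real.sqrt ((X.card : ℝ) * wS X) := ⟨_, rfl⟩
  rw [← hR] at hself
  have hR2 : R ^ 2 = (X.card : ℝ) * wS X := by rw [hR]; exact Real.sq_sqrt (by positivity)
  have hR0 : 0 ≤ R := hR ▸ Real.sqrt_nonneg _
  obtain ⟨B, hB⟩ : ∃ B, B = A * (X.card : ℝ) ^ (3 * ε) := ⟨_, rfl⟩
  rw [← hB] at hself
  have hB0 : 0 ≤ B := by rw [hB]; positivity
  have hS1 : wS X ≤ B ^ 2 * (X.card : ℝ) := by
    by_cases hS : wS X = 0
    · rw [hS]; positivity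
    have hSpos : 0 < wS X := lt_of_le_of_ne hS0 (Ne.symm hS)
    have h2 : (wS X) ^ 2 ≤ (B * R) ^ 2 := pow_le_pow_left₀ hS0 hself 2
    rw [mul_pow, hR2] at h2
    have h3 : wS X * wS X ≤ (B ^ 2 * (X.card : ℝ)) * wS X := by nlinarith
    exact le_of_mul_le_mul_right h3 hSpos
  refine hS1.trans (le_of_eq ?_)
  rw [hB, mul_pow]
  have h4 : ((X.card : ℝ) ^ (3 * ε)) ^ 2 * (X.card : ℝ) = (X.card : ℝ) ^ (1 + (1 : ℝ) / 96) := by
    rw [← Real.rpow_natCast, ← Real.rpow_mul hK0.le]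
    nth_rewrite 2 [← Real.rpow_one (X.card : ℝ)]
    rw [← Real.rpow_add hK0, hε]
    congr 1
    norm_num
  rw [mul_assoc, h4]

/-- The row sum is bounded by the weights. -/
lemma rowSum_le (E : ℕ) (X : Finset ℕ) (hE : 1 ≤ E) (hX : ∀ x ∈ X, E ≤ x ∧ x < 2 * E) (d : ℕ) (hd : d ∈ X) :
    rowSum X d ≤ 2 * ∑ y ∈ X, wt d y := by
  unfold rowSum
  rw [Finset.mul_sum]
  apply Finset.sum_le_sum
  intro y hy
  obtain ⟨hy1, hy2⟩ := hX y hy
  obtain ⟨hd1, hd2⟩ := hX d hd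
  have hy0 : 1 ≤ y := by omega
  have hd0 : 1 ≤ d := by omega
  have ha := lowA_pos (x := d) hy0
  have hb := lowB_pos (y := y) hd0
  change (2 : ℝ) ^ ((lowA d y).primeFactors.card) / ((lowA d y : ℕ) : ℝ) ≤ 2 * wt d y
  have h1 : (2 : ℝ) ^ ((lowA d y).primeFactors.card) ≤ ((lowA d y).divisors.card : ℝ) := by
    exact_mod_cast two_pow_le_tau ha
  have hbt : (1 : ℝ) ≤ ((lowB d y).divisors.card : ℝ) := by
    have : 1 ≤ (lowB d y).divisors.card := Finset.card_pos.2 ⟨1, Nat.mem_divisors.2 ⟨one_dvd _, by omega⟩⟩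
    exact_mod_cast this
  have haR : (0 : ℝ) < lowA d y := by exact_mod_cast ha
  have hhtR : (0 : ℝ) < ht d y := by
    have := ht_pos (x := d) hy0
    exact_mod_cast this
  have hht : (ht d y : ℝ) ≤ 2 * (lowA d y : ℝ) := by
    have hb2 : lowB d y ≤ 2 * lowA d y := by
      have h3 := lowA_mul d y
      have h4 := lowB_mul d y
      have hg : 0 < Nat.gcd d y := Nat.gcd_pos_of_pos_left _ hd0
      have h5 : lowB d y * Nat.gcd d y ≤ (2 * lowA d y) * Nat.gcd d y := by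
        rw [h4, mul_assoc, h3]
        omega
      exact Nat.le_of_mul_le_mul_right h5 hg
    have : ht d y ≤ 2 * lowA d y := by
      unfold ht
      apply max_le _ hb2
      omega
    exact_mod_cast this
  unfold wt
  rw [div_le_iff₀ haR]
  have h6 : 2 * (((lowA d y).divisors.card : ℝ) * ((lowB d y).divisors.card : ℝ) / (ht d y : ℝ)) * (lowA d y : ℝ)
      = ((lowA d y).divisors.card : ℝ) * ((lowB d y).divisors.card : ℝ) * (2 * (lowA d y : ℝ) / (ht d y : ℝ)) := by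
    ring
  rw [h6]
  have h7 : 1 ≤ 2 * (lowA d y : ℝ) / (ht d y : ℝ) := by
    rw [le_div_iff₀ hhtR]; linarith
  have h8 : 0 ≤ ((lowA d y).divisors.card : ℝ) := by positivity
  calc (2 : ℝ) ^ ((lowA d y).primeFactors.card) ≤ ((lowA d y).divisors.card : ℝ) * 1 * 1 := by linarith
    _ ≤ _ := by
        apply mul_le_mul _ h7 (by norm_num) (by positivity)
        exact mul_le_mul_of_nonneg_left hbt h8


end GcdAux

open GcdAux in
/-- The self-bounding GCD-sum lemma. -/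
theorem gcd_sum : ∃ C : ℝ, 1 ≤ C ∧ ∀ (E : ℕ) (X : Finset ℕ), 1 ≤ E → (∀ x ∈ X, E ≤ x ∧ x < 2 * E) →
    ∑ d ∈ X, rowSum X d ≤ C * (X.card : ℝ) ^ ((1:ℝ) + 1 / 96) := by
  obtain ⟨C, hC, h⟩ := wS_le
  refine ⟨2 * C + 1, by linarith, ?_⟩
  intro E X hE hX
  have h1 : ∑ d ∈ X, rowSum X d ≤ ∑ d ∈ X, 2 * ∑ y ∈ X, wt d y :=
    Finset.sum_le_sum fun d hd => rowSum_le E X hE hX d hd
  have h2 := h X (fun x hx => by have := (hX x hx).1; omega)
  unfold wS at h2
  rw [← Finset.mul_sum] at h1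
  have hpow : 0 ≤ (X.card : ℝ) ^ ((1:ℝ) + 1 / 96) := by positivity
  calc _ ≤ _ := h1
    _ ≤ 2 * (C * (X.card : ℝ) ^ (1 + (1 : ℝ) / 96)) := mul_le_mul_of_nonneg_left h2 (by norm_num)
    _ ≤ _ := by nlinarith

end
end Vale.Agent.Lib.P028T
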