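import Vale.Agent.Lib.P028T.Defs

/-! Module EllA: blueprint section 5, the Euler product. -/

open Finset

namespace Vale.Agent.Lib.P028T

namespace EllInt

/-- The primes up to `z`. -/
def primesUpTo (z : ℕ) : Finset ℕ := (Finset.range (z + 1)).filter Nat.Prime

lemma mem_primesUpTo {z p : ℕ} : p ∈ primesUpTo z ↔ p ≤ z ∧ p.Prime := by
  simp [primesUpTo]

lemma factor_ge_one (p : ℕ) : (1:ℝ) ≤ 1 + 1 / (p:ℝ) := by
  have : (0:ℝ) ≤ 1 / (p:ℝ) := by positivity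
  linarith

lemma one_le_prod_factors (s : Finset ℕ) : 1 ≤ ∏ p ∈ s, (1 + 1 / (p:ℝ)) := by
  classical
  induction s using Finset.induction_on with
  | empty => simp
  | insert a s ha ih =>
    rw [Finset.prod_insert ha]
    nlinarith [factor_ge_one a]

/-- The primes in `(2^J, 2^(J+1)]`. -/
def dyadicPrimes (J : ℕ) : Finset ℕ := (primesUpTo (2 ^ (J + 1))).filter (fun p => 2 ^ J < p)

lemma dyadic_count (J : ℕ) : J * (dyadicPrimes J).card ≤ 2 ^ (J + 2) := by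
  have h1 : (2 ^ J) ^ (dyadicPrimes J).card ≤ ∏ p ∈ dyadicPrimes J, p := by
    apply Finset.pow_card_le_prod
    intro p hp
    exact (Finset.mem_filter.mp hp).2.le
  have h2 : ∏ p ∈ dyadicPrimes J, p ≤ primorial (2 ^ (J + 1)) := by
    unfold primorial
    apply Finset.prod_le_prod_of_subset_of_one_le'
    · intro p hp
      have := (Finset.mem_filter.mp hp).1
      exact this
    · intro p hp _
      exact (Nat.Prime.one_lt (Finset.mem_filter.mp hp).2).le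
  have h3 : primorial (2 ^ (J + 1)) ≤ 4 ^ (2 ^ (J + 1)) := primorial_le_four_pow _
  have h4 : (2 ^ J) ^ (dyadicPrimes J).card ≤ 4 ^ (2 ^ (J + 1)) := h1.trans (h2.trans h3)
  have h5 : (4:ℕ) ^ (2 ^ (J + 1)) = 2 ^ (2 ^ (J + 2)) := by
    rw [show (4:ℕ) = 2 ^ 2 by norm_num, ← pow_mul]
    congr 1
    rw [pow_succ 2 (J + 1)]
    ring
  rw [h5, ← pow_mul] at h4
  exact (Nat.pow_le_pow_iff_right (by norm_num)).mp h4

/-- The sum of reciprocals of primes up to `z`. -/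
noncomputable def S (z : ℕ) : ℝ := ∑ p ∈ primesUpTo z, 1 / (p:ℝ)

lemma primesUpTo_succ_dyadic (J : ℕ) :
    primesUpTo (2 ^ (J + 1)) = primesUpTo (2 ^ J) ∪ dyadicPrimes J := by
  ext p
  simp only [Finset.mem_union, mem_primesUpTo, dyadicPrimes, Finset.mem_filter]
  constructor
  · rintro ⟨h1, h2⟩
    by_cases h : p ≤ 2 ^ J
    · exact Or.inl ⟨h, h2⟩
    · exact Or.inr ⟨⟨h1, h2⟩, by omega⟩
  · rintro (⟨h1, h2⟩ | ⟨⟨h1, h2⟩, _⟩)
    · exact ⟨h1.trans (Nat.pow_le_pow_right (by norm_num) (by omega)), h2⟩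
    · exact ⟨h1, h2⟩

lemma S_step {J : ℕ} (hJ : 1 ≤ J) : S (2 ^ (J + 1)) ≤ S (2 ^ J) + 4 / (J:ℝ) := by
  classical
  unfold S
  rw [primesUpTo_succ_dyadic]
  have hdisj : Disjoint (primesUpTo (2 ^ J)) (dyadicPrimes J) := by
    rw [Finset.disjoint_left]
    intro p hp hp'
    have h1 := (mem_primesUpTo.mp hp).1
    have h2 := (Finset.mem_filter.mp hp').2
    omega
  rw [Finset.sum_union hdisj]
  have hJR : (0:ℝ) < J := by exact_mod_cast hJ
  have h2pos : (0:ℝ) < 2 ^ J := by positivity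
  have h1 : ∑ p ∈ dyadicPrimes J, 1 / (p:ℝ) ≤ ((dyadicPrimes J).card : ℝ) * (1 / 2 ^ J) := by
    rw [← nsmul_eq_mul]
    apply Finset.sum_le_card_nsmul
    intro p hp
    have h3 : 2 ^ J < p := (Finset.mem_filter.mp hp).2
    have h4 : (2:ℝ) ^ J ≤ (p:ℝ) := by exact_mod_cast h3.le
    exact one_div_le_one_div_of_le h2pos h4
  have h2 : ((dyadicPrimes J).card : ℝ) * (1 / 2 ^ J) ≤ 4 / (J:ℝ) := by
    have h3 : (J:ℝ) * ((dyadicPrimes J).card : ℝ) ≤ (2:ℝ) ^ (J + 2) := by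
      exact_mod_cast dyadic_count J
    rw [le_div_iff₀ hJR]
    have h4 : (2:ℝ) ^ (J + 2) = 4 * 2 ^ J := by rw [pow_add]; ring
    rw [h4] at h3
    calc ((dyadicPrimes J).card : ℝ) * (1 / 2 ^ J) * (J:ℝ)
        = ((J:ℝ) * ((dyadicPrimes J).card : ℝ)) / 2 ^ J := by ring
      _ ≤ (4 * 2 ^ J) / 2 ^ J := div_le_div_of_nonneg_right h3 h2pos.le
      _ = 4 := by field_simp
  linarith

lemma S_two : S (2 ^ 1) ≤ 1 := by
  have : primesUpTo (2 ^ 1) = {2} := by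
    ext p
    rw [mem_primesUpTo, Finset.mem_singleton]
    constructor
    · rintro ⟨h1, h2⟩
      have := h2.two_le
      omega
    · rintro rfl
      exact ⟨by norm_num, Nat.prime_two⟩
  unfold S
  rw [this]
  norm_num

lemma S_le (J : ℕ) : S (2 ^ (J + 1)) ≤ 1 + 4 * (harmonic J : ℝ) := by
  induction J with
  | zero =>
    have := S_two
    simp only [harmonic_zero, Rat.cast_zero, mul_zero, add_zero]
    simpa using this
  | succ n ih =>
    have h1 := S_step (J := n + 1) (by omega)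
    have h2 : ((harmonic (n + 1) : ℚ) : ℝ) = (harmonic n : ℝ) + 1 / ((n:ℝ) + 1) := by
      rw [harmonic_succ]
      push_cast
      ring
    rw [h2]
    have h3 : (((n + 1 : ℕ) : ℝ)) = (n:ℝ) + 1 := by push_cast; ring
    rw [h3] at h1
    have h4 : 4 / ((n:ℝ) + 1) = 4 * (1 / ((n:ℝ) + 1)) := by ring
    rw [h4] at h1
    linarith

/-- `1 + x ≤ exp x` over a product. -/
lemma prod_le_exp (z : ℕ) : ell z ≤ Real.exp (S z) := by
  unfold ell S
  rw [Real.exp_sum]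
  apply Finset.prod_le_prod
  · intro p _
    linarith [factor_ge_one p]
  · intro p _
    have := Real.add_one_le_exp (1 / (p:ℝ))
    linarith

lemma ell_mono {z z' : ℕ} (h : z ≤ z') : ell z ≤ ell z' := by
  classical
  unfold ell
  have hsub : (Finset.range (z + 1)).filter Nat.Prime ⊆ (Finset.range (z' + 1)).filter Nat.Prime := by
    apply Finset.filter_subset_filter
    intro p hp
    rw [Finset.mem_range] at hp ⊢
    omega
  rw [← Finset.prod_sdiff hsub]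
  have h1 := one_le_prod_factors ((Finset.range (z' + 1)).filter Nat.Prime \ (Finset.range (z + 1)).filter Nat.Prime)
  have h2 := one_le_prod_factors ((Finset.range (z + 1)).filter Nat.Prime)
  nlinarith

/-- The bound at powers of two. -/
lemma ell_two_pow (J : ℕ) : ell (2 ^ (J + 1)) ≤ Real.exp 5 * ((J:ℝ) + 1) ^ 4 := by
  have h1 := prod_le_exp (2 ^ (J + 1))
  have h2 := S_le J
  have h3 : (harmonic J : ℝ) ≤ 1 + Real.log (J:ℝ) := harmonic_le_one_add_log J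
  have hlog : Real.log (J:ℝ) ≤ Real.log ((J:ℝ) + 1) := by
    rcases Nat.eq_zero_or_pos J with h | h
    · subst h; simp
    · apply Real.log_le_log
      · exact_mod_cast h
      · linarith
  have hJ1 : (0:ℝ) < (J:ℝ) + 1 := by positivity
  have h4 : S (2 ^ (J + 1)) ≤ 5 + 4 * Real.log ((J:ℝ) + 1) := by linarith
  have h5 : Real.exp (5 + 4 * Real.log ((J:ℝ) + 1)) = Real.exp 5 * ((J:ℝ) + 1) ^ 4 := by
    rw [Real.exp_add]
    congr 1
    rw [show 4 * Real.log ((J:ℝ) + 1) = Real.log (((J:ℝ) + 1) ^ 4) by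
      rw [Real.log_pow]; norm_num]
    exact Real.exp_log (by positivity)
  rw [← h5]
  exact h1.trans (Real.exp_le_exp.mpr h4)

end EllInt

lemma ell_ge_one (z : ℕ) : 1 ≤ ell z := EllInt.one_le_prod_factors _

/-- `∏_{p ≤ z} (1 + 1/p) ≤ C z^ε`, by dyadic Chebyshev. -/
theorem ell_le (ε : ℝ) (hε : 0 < ε) :
    ∃ C : ℝ, 1 ≤ C ∧ ∀ z : ℕ, 1 ≤ z → ell z ≤ C * (z:ℝ) ^ ε := by
  set δ : ℝ := ε * Real.log 2 with hδ
  have hlog2 : 0 < Real.log 2 := Real.log_pos (by norm_num)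
  have hδ0 : 0 < δ := by positivity
  set C0 : ℝ := Real.exp 5 * (24 / δ ^ 4 * (2:ℝ) ^ ε) with hC0
  refine ⟨max C0 1, le_max_right _ _, ?_⟩
  intro z hz
  set J : ℕ := Nat.log 2 z with hJ
  have h1 : z < 2 ^ (J + 1) := Nat.lt_pow_succ_log_self (by norm_num) z
  have h2 : 2 ^ J ≤ z := Nat.pow_log_le_self 2 (by omega)
  have h3 : ell z ≤ Real.exp 5 * ((J:ℝ) + 1) ^ 4 :=
    (EllInt.ell_mono h1.le).trans (EllInt.ell_two_pow J)
  have hJ1 : (0:ℝ) < (J:ℝ) + 1 := by positivity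
  have h4 : (((J:ℝ) + 1) * δ) ^ 4 / (Nat.factorial 4 : ℝ) ≤ Real.exp (((J:ℝ) + 1) * δ) :=
    Real.pow_div_factorial_le_exp _ (by positivity) 4
  have h5 : (Nat.factorial 4 : ℝ) = 24 := by norm_num [Nat.factorial]
  rw [h5] at h4
  have h6 : Real.exp (((J:ℝ) + 1) * δ) = (2:ℝ) ^ ε * ((2:ℝ) ^ J) ^ ε := by
    have h7 : (0:ℝ) < 2 := by norm_num
    rw [← Real.rpow_natCast (2:ℝ) J, ← Real.rpow_mul h7.le, ← Real.rpow_add h7,
      Real.rpow_def_of_pos h7]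
    congr 1
    rw [hδ]
    ring
  have h8 : ((J:ℝ) + 1) ^ 4 ≤ 24 / δ ^ 4 * ((2:ℝ) ^ ε * (z:ℝ) ^ ε) := by
    have h9 : ((2:ℝ) ^ J) ^ ε ≤ (z:ℝ) ^ ε := by
      apply Real.rpow_le_rpow (by positivity) _ hε.le
      exact_mod_cast h2
    have h10 : ((J:ℝ) + 1) ^ 4 * δ ^ 4 / 24 ≤ (2:ℝ) ^ ε * (z:ℝ) ^ ε := by
      calc ((J:ℝ) + 1) ^ 4 * δ ^ 4 / 24 = (((J:ℝ) + 1) * δ) ^ 4 / 24 := by ring
        _ ≤ Real.exp (((J:ℝ) + 1) * δ) := h4
        _ = (2:ℝ) ^ ε * ((2:ℝ) ^ J) ^ ε := h6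
        _ ≤ (2:ℝ) ^ ε * (z:ℝ) ^ ε := mul_le_mul_of_nonneg_left h9 (by positivity)
    have hδ4 : 0 < δ ^ 4 := by positivity
    calc ((J:ℝ) + 1) ^ 4 = 24 / δ ^ 4 * (((J:ℝ) + 1) ^ 4 * δ ^ 4 / 24) := by
          field_simp
      _ ≤ 24 / δ ^ 4 * ((2:ℝ) ^ ε * (z:ℝ) ^ ε) :=
          mul_le_mul_of_nonneg_left h10 (by positivity)
  have hzε : 0 ≤ (z:ℝ) ^ ε := by positivity
  calc ell z ≤ Real.exp 5 * ((J:ℝ) + 1) ^ 4 := h3
    _ ≤ Real.exp 5 * (24 / δ ^ 4 * ((2:ℝ) ^ ε * (z:ℝ) ^ ε)) :=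
        mul_le_mul_of_nonneg_left h8 (Real.exp_pos _).le
    _ = C0 * (z:ℝ) ^ ε := by rw [hC0]; ring
    _ ≤ max C0 1 * (z:ℝ) ^ ε := mul_le_mul_of_nonneg_right (le_max_left _ _) hzε

end Vale.Agent.Lib.P028T
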