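import Mathlib

/-! Module Tau: the divisor bound. -/

namespace Vale.Agent.Lib.P028T

open Finset

private lemma one_add_le_aux (ε : ℝ) (hε : 0 < ε) :
    ∃ B : ℝ, 1 ≤ B ∧ ∀ (a p : ℕ), 2 ≤ p → ((a:ℝ) + 1) ≤ B * (((p ^ a : ℕ)):ℝ) ^ ε := by
  have hlog : 0 < Real.log 2 := Real.log_pos (by norm_num)
  refine ⟨1 + 1 / (ε * Real.log 2), ?_, ?_⟩
  · have : 0 < 1 / (ε * Real.log 2) := by positivity
    linarith
  · intro a p hp
    have hδ : 0 < ε * Real.log 2 := by positivity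
    set δ := ε * Real.log 2 with hδd
    have h1 : (1:ℝ) + (a:ℝ) * δ ≤ ((p ^ a : ℕ) : ℝ) ^ ε := by
      have h2 : ((2:ℝ) ^ a) ^ ε ≤ ((p ^ a : ℕ) : ℝ) ^ ε := by
        apply Real.rpow_le_rpow (by positivity) _ hε.le
        push_cast
        exact pow_le_pow_left₀ (by norm_num) (by exact_mod_cast hp) a
      have h3 : ((2:ℝ) ^ a) ^ ε = Real.exp ((a:ℝ) * δ) := by
        rw [← Real.rpow_natCast 2 a, ← Real.rpow_mul (by norm_num), Real.rpow_def_of_pos (by norm_num)]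
        congr 1
        rw [hδd]
        ring
      have h4 := Real.add_one_le_exp ((a:ℝ) * δ)
      rw [h3] at h2
      linarith
    have hB : 0 < 1 / δ := by positivity
    have ha : (0:ℝ) ≤ a := Nat.cast_nonneg a
    calc (a:ℝ) + 1 ≤ (1 + 1 / δ) * (1 + (a:ℝ) * δ) := by
          have : (1 + 1 / δ) * (1 + (a:ℝ) * δ) = 1 + 1 / δ + (a:ℝ) * δ + (a:ℝ) := by
            field_simp
            ring
          rw [this]
          have : 0 ≤ (a:ℝ) * δ := by positivity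
          linarith
      _ ≤ _ := by
          apply mul_le_mul_of_nonneg_left h1
          positivity

private lemma large_prime_aux (ε : ℝ) (hε : 0 < ε) :
    ∃ P₀ : ℕ, ∀ (a p : ℕ), P₀ ≤ p → 2 ≤ p → ((a:ℝ) + 1) ≤ (((p ^ a : ℕ)):ℝ) ^ ε := by
  obtain ⟨P₀, hP₀⟩ := exists_nat_ge ((2:ℝ) ^ (1 / ε))
  refine ⟨P₀, ?_⟩
  intro a p hp hp2
  have hp0 : (0:ℝ) < p := by
    have : 0 < p := by omega
    exact_mod_cast this
  have h1 : (2:ℝ) ≤ (p:ℝ) ^ ε := by
    have h2 : ((2:ℝ) ^ (1 / ε)) ^ ε ≤ (p:ℝ) ^ ε := by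
      apply Real.rpow_le_rpow (by positivity) _ hε.le
      exact hP₀.trans (by exact_mod_cast hp)
    rw [← Real.rpow_mul (by norm_num), one_div, inv_mul_cancel₀ hε.ne', Real.rpow_one] at h2
    exact h2
  have h3 : (((p ^ a : ℕ)):ℝ) ^ ε = ((p:ℝ) ^ ε) ^ a := by
    push_cast
    rw [← Real.rpow_natCast (p:ℝ) a, ← Real.rpow_natCast ((p:ℝ) ^ ε) a, ← Real.rpow_mul hp0.le,
      ← Real.rpow_mul hp0.le, mul_comm]
  rw [h3]
  have h4 : (2:ℝ) ^ a ≤ ((p:ℝ) ^ ε) ^ a := pow_le_pow_left₀ (by norm_num) h1 a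
  have h5 : ((a:ℝ) + 1) ≤ (2:ℝ) ^ a := by
    have := Nat.lt_two_pow_self (n := a)
    have h6 : a + 1 ≤ 2 ^ a := this
    exact_mod_cast h6
  linarith

theorem tau_le (ε : ℝ) (hε : 0 < ε) :
    ∃ C : ℝ, 0 < C ∧ ∀ n : ℕ, 1 ≤ n → (n.divisors.card : ℝ) ≤ C * (n:ℝ) ^ ε := by
  obtain ⟨B, hB1, hB⟩ := one_add_le_aux ε hε
  obtain ⟨P₀, hP₀⟩ := large_prime_aux ε hε
  have hB0 : 0 < B := by linarith
  refine ⟨B ^ P₀, by positivity, ?_⟩
  intro n hn
  have hn0 : n ≠ 0 := by omega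
  rw [Nat.card_divisors hn0]
  push_cast
  have hnp : ((n:ℝ)) ^ ε = ∏ p ∈ n.primeFactors, (((p ^ n.factorization p : ℕ)):ℝ) ^ ε := by
    conv_lhs => rw [← Nat.prod_factorization_pow_eq_self hn0]
    rw [Finsupp.prod, Nat.support_factorization]
    push_cast
    rw [Real.finsetProd_rpow]
    intro i _
    positivity
  rw [hnp]
  have hterm : ∀ p ∈ n.primeFactors, ((n.factorization p : ℝ) + 1) ≤
      (if p < P₀ then B else 1) * (((p ^ n.factorization p : ℕ)):ℝ) ^ ε := by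
    intro p hp
    have hp2 : 2 ≤ p := (Nat.prime_of_mem_primeFactors hp).two_le
    split_ifs with h
    · exact hB _ _ hp2
    · rw [one_mul]
      exact hP₀ _ _ (not_lt.mp h) hp2
  calc ∏ p ∈ n.primeFactors, ((n.factorization p : ℝ) + 1)
      ≤ ∏ p ∈ n.primeFactors, ((if p < P₀ then B else 1) * (((p ^ n.factorization p : ℕ)):ℝ) ^ ε) :=
        Finset.prod_le_prod (fun _ _ => by positivity) hterm
    _ = (∏ p ∈ n.primeFactors, (if p < P₀ then B else 1)) *
          ∏ p ∈ n.primeFactors, (((p ^ n.factorization p : ℕ)):ℝ) ^ ε := Finset.prod_mul_distrib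
    _ ≤ B ^ P₀ * ∏ p ∈ n.primeFactors, (((p ^ n.factorization p : ℕ)):ℝ) ^ ε := by
        apply mul_le_mul_of_nonneg_right _ (Finset.prod_nonneg (fun _ _ => by positivity))
        rw [Finset.prod_ite, Finset.prod_const_one, mul_one, Finset.prod_const]
        apply pow_le_pow_right₀ hB1
        have : (n.primeFactors.filter (fun p => p < P₀)) ⊆ Finset.range P₀ := by
          intro p hp
          simp only [Finset.mem_filter] at hp
          exact Finset.mem_range.mpr hp.2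
        simpa using Finset.card_le_card this

end Vale.Agent.Lib.P028T
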