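import Vale.Agent.Lib.P028T.OneSided

/-! Pieces of the sum over the gcd scales: blueprint section 12. -/

open Finset

namespace Vale.Agent.Lib.P028T

open Vale.Agent.Lib.P028

namespace BlockAux

/-- The real cofactor bounds. -/
lemma cof_bounds {q g Q E : ℕ} (hQ : 1 ≤ Q) (hE : 1 ≤ E) (hq1 : Q ≤ q) (hq2 : q < 2 * Q) (hg1 : E ≤ g)
    (hg2 : g < 2 * E) (hd : g ∣ q) :
    ((Q : ℝ) / E) / 2 < ((q / g : ℕ) : ℝ) ∧ ((q / g : ℕ) : ℝ) < 2 * ((Q : ℝ) / E) := by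
  have hgpos : 0 < g := by omega
  have hgR : (0 : ℝ) < g := by exact_mod_cast hgpos
  have hER : (0 : ℝ) < E := by exact_mod_cast hE
  have hQR : (0 : ℝ) < Q := by exact_mod_cast hQ
  have hcast : ((q / g : ℕ) : ℝ) = (q : ℝ) / g := Nat.cast_div hd hgR.ne'
  have hq1R : (Q : ℝ) ≤ q := by exact_mod_cast hq1
  have hq2R : (q : ℝ) < 2 * Q := by exact_mod_cast hq2
  have hg1R : (E : ℝ) ≤ g := by exact_mod_cast hg1
  have hg2R : (g : ℝ) < 2 * E := by exact_mod_cast hg2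
  rw [hcast]
  constructor
  · rw [div_div, div_lt_div_iff₀ (by positivity) hgR]
    nlinarith
  · rw [← mul_div_assoc, div_lt_div_iff₀ hgR hER]
    nlinarith

/-- The geometric sum along an injective exponent map. -/
lemma sum_geom_inj (J : Finset ℕ) (f : ℕ → ℕ) (hf : Set.InjOn f J) {x : ℝ} (hx0 : 0 ≤ x) (hx1 : x < 1) :
    ∑ j ∈ J, x ^ f j ≤ (1 - x)⁻¹ := by
  have h1 : ∑ j ∈ J, x ^ f j = ∑ i ∈ J.image f, x ^ i := (Finset.sum_image hf).symm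
  rw [h1]
  exact sum_le_hasSum _ (fun i _ => pow_nonneg hx0 i) (hasSum_geometric_of_lt_one hx0 hx1)

end BlockAux

open BlockAux in
/-- Each term of `BlockOff` lies in the `Off` of its dyadic gcd scale `E = 2^j`, with `D_j < 1/96`, `E < 2 Q₁`. -/
theorem blockOff_le_sum {γ N₁ N₂ : ℝ} {Q₁ Q₂ : ℕ} (hQ₁ : 1 ≤ Q₁) (hQ : Q₁ ≤ Q₂) (hN₁ : 0 < N₁) (hN₂ : 0 < N₂)
    {S₁ S₂ : Finset ℕ} (hS₁ : ∀ q ∈ S₁, Q₁ ≤ q ∧ q < 2 * Q₁) (hS₂ : ∀ r ∈ S₂, Q₂ ≤ r ∧ r < 2 * Q₂) :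
    BlockOff γ N₁ N₂ S₁ S₂ ≤ ∑ j ∈ (Finset.range (Q₁ + 2)).filter (fun j =>
        2 ^ j < 2 * Q₁ ∧ (Par.mk Q₁ Q₂ (2 ^ j) N₁ N₂).D < 1 / 96),
      Off γ (Par.mk Q₁ Q₂ (2 ^ j) N₁ N₂).D (Par.mk Q₁ Q₂ (2 ^ j) N₁ N₂).w
        (Finset.Ico (2 ^ j) (2 * 2 ^ j)) S₁ S₂ := by
  have hQ₂ : 1 ≤ Q₂ := hQ₁.trans hQ
  have hQ₁R : (0 : ℝ) < Q₁ := by exact_mod_cast hQ₁
  have hQ₂R : (0 : ℝ) < Q₂ := by exact_mod_cast hQ₂
  -- the width is nonnegative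
  have hwnn : ∀ j : ℕ, 0 ≤ (Par.mk Q₁ Q₂ (2 ^ j) N₁ N₂).w := by
    intro j
    have hE : (0 : ℝ) < ((2 ^ j : ℕ) : ℝ) := by positivity
    apply le_min
    · simp only [Par.M₁]
      positivity
    · simp only [Par.M₂]
      positivity
  -- `Off` as a sum
  have hOff : ∀ j : ℕ, Off γ (Par.mk Q₁ Q₂ (2 ^ j) N₁ N₂).D (Par.mk Q₁ Q₂ (2 ^ j) N₁ N₂).w
        (Finset.Ico (2 ^ j) (2 * 2 ^ j)) S₁ S₂
      = ∑ z ∈ S₁ ×ˢ S₂, if (Nat.gcd z.1 z.2 ∈ Finset.Ico (2 ^ j) (2 * 2 ^ j) ∧ z.1 ≠ z.2 ∧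
          dn ((((z.2 / Nat.gcd z.1 z.2 : ℕ) : ℝ) - ((z.1 / Nat.gcd z.1 z.2 : ℕ) : ℝ)) * γ) <
            (Par.mk Q₁ Q₂ (2 ^ j) N₁ N₂).D) then (Par.mk Q₁ Q₂ (2 ^ j) N₁ N₂).w else 0 := by
    intro j
    unfold Off
    rw [Finset.card_filter]
    push_cast
    rw [Finset.mul_sum]
    apply Finset.sum_congr rfl
    intro z _
    split_ifs <;> simp
  simp only [hOff]
  rw [Finset.sum_comm]
  unfold BlockOff
  apply Finset.sum_le_sum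
  intro z hz
  obtain ⟨hq, hr⟩ := Finset.mem_product.1 hz
  obtain ⟨hq1, hq2⟩ := hS₁ _ hq
  obtain ⟨hr1, hr2⟩ := hS₂ _ hr
  obtain ⟨q, r⟩ := z
  simp only at hq1 hq2 hr1 hr2 ⊢
  obtain ⟨g, hg⟩ : ∃ g, g = Nat.gcd q r := ⟨_, rfl⟩
  have hgpos : 0 < g := by
    rw [hg]
    exact Nat.gcd_pos_of_pos_left _ (by omega)
  have hgq : g ∣ q := hg ▸ Nat.gcd_dvd_left q r
  have hgr : g ∣ r := hg ▸ Nat.gcd_dvd_right q r
  have hgle : g ≤ q := Nat.le_of_dvd (by omega) hgq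
  rw [← hg]
  obtain ⟨j, hj⟩ : ∃ j, j = Nat.log 2 g := ⟨_, rfl⟩
  have hE1 : 2 ^ j ≤ g := by rw [hj]; exact Nat.pow_log_le_self 2 (by omega)
  have hE2 : g < 2 * 2 ^ j := by
    have := Nat.lt_pow_succ_log_self (b := 2) (by norm_num) g
    rw [← hj, pow_succ] at this
    omega
  have hEpos : 1 ≤ 2 ^ j := Nat.one_le_two_pow
  have hER : (0 : ℝ) < ((2 ^ j : ℕ) : ℝ) := by positivity
  obtain ⟨hq'1, hq'2⟩ := cof_bounds hQ₁ hEpos hq1 hq2 hE1 hE2 hgq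
  obtain ⟨hr'1, hr'2⟩ := cof_bounds hQ₂ hEpos hr1 hr2 hE1 hE2 hgr
  set q' : ℝ := ((q / g : ℕ) : ℝ) with hq'
  set r' : ℝ := ((r / g : ℕ) : ℝ) with hr'
  have hM₁ : (Par.mk Q₁ Q₂ (2 ^ j) N₁ N₂).M₁ = (Q₁ : ℝ) / ((2 ^ j : ℕ) : ℝ) := rfl
  have hM₂ : (Par.mk Q₁ Q₂ (2 ^ j) N₁ N₂).M₂ = (Q₂ : ℝ) / ((2 ^ j : ℕ) : ℝ) := rfl
  set M₁ : ℝ := (Q₁ : ℝ) / ((2 ^ j : ℕ) : ℝ) with hM₁'
  set M₂ : ℝ := (Q₂ : ℝ) / ((2 ^ j : ℕ) : ℝ) with hM₂'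
  have hM₁pos : 0 < M₁ := by positivity
  have hM₂pos : 0 < M₂ := by positivity
  have hD : (Par.mk Q₁ Q₂ (2 ^ j) N₁ N₂).D = 4 * max (M₂ / N₁) (M₁ / N₂) := by
    unfold Par.D
    rw [hM₁, hM₂]
  have hw : (Par.mk Q₁ Q₂ (2 ^ j) N₁ N₂).w = min (2 / (N₁ * M₁)) (2 / (N₂ * M₂)) := by
    unfold Par.w
    rw [hM₁, hM₂]
  have hjmem : ∀ (h1 : (Par.mk Q₁ Q₂ (2 ^ j) N₁ N₂).D < 1 / 96),
      j ∈ (Finset.range (Q₁ + 2)).filter (fun j =>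
        2 ^ j < 2 * Q₁ ∧ (Par.mk Q₁ Q₂ (2 ^ j) N₁ N₂).D < 1 / 96) := by
    intro h1
    have hlt : 2 ^ j < 2 * Q₁ := by omega
    refine Finset.mem_filter.2 ⟨Finset.mem_range.2 ?_, hlt, h1⟩
    rcases j with _ | j'
    · omega
    · have h2 : 2 ^ j' < Q₁ := by
        rw [pow_succ] at hlt
        omega
      have h3 := Nat.lt_two_pow_self (n := j')
      omega
  -- the term
  split_ifs with hcond
  · obtain ⟨hne, hX, hdn⟩ := hcond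
    have hmax : max (M₂ / N₁) (M₁ / N₂) < 2 * max (r' / N₁) (q' / N₂) := by
      apply max_lt
      · have h1 : r' / N₁ ≤ max (r' / N₁) (q' / N₂) := le_max_left _ _
        have h2 : M₂ / N₁ < 2 * (r' / N₁) := by
          rw [← mul_div_assoc, div_lt_div_iff_of_pos_right hN₁]
          linarith
        linarith
      · have h1 : q' / N₂ ≤ max (r' / N₁) (q' / N₂) := le_max_right _ _
        have h2 : M₁ / N₂ < 2 * (q' / N₂) := by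
          rw [← mul_div_assoc, div_lt_div_iff_of_pos_right hN₂]
          linarith
        linarith
    have hmax2 : max (r' / N₁) (q' / N₂) < 2 * max (M₂ / N₁) (M₁ / N₂) := by
      apply max_lt
      · have h1 : M₂ / N₁ ≤ max (M₂ / N₁) (M₁ / N₂) := le_max_left _ _
        have h2 : r' / N₁ < 2 * (M₂ / N₁) := by
          rw [← mul_div_assoc, div_lt_div_iff_of_pos_right hN₁]
          linarith
        linarith
      · have h1 : M₁ / N₂ ≤ max (M₂ / N₁) (M₁ / N₂) := le_max_right _ _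
        have h2 : q' / N₂ < 2 * (M₁ / N₂) := by
          rw [← mul_div_assoc, div_lt_div_iff_of_pos_right hN₂]
          linarith
        linarith
    have hD96 : (Par.mk Q₁ Q₂ (2 ^ j) N₁ N₂).D < 1 / 96 := by
      rw [hD]
      linarith
    have hq'pos : 0 < q' := by linarith
    have hr'pos : 0 < r' := by linarith
    have hmin : min ((1 / N₁) / q') ((1 / N₂) / r') ≤ (Par.mk Q₁ Q₂ (2 ^ j) N₁ N₂).w := by
      rw [hw]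
      apply min_le_min
      · rw [div_div, div_le_div_iff₀ (by positivity) (by positivity)]
        nlinarith [mul_pos hN₁ hM₁pos]
      · rw [div_div, div_le_div_iff₀ (by positivity) (by positivity)]
        nlinarith [mul_pos hN₂ hM₂pos]
    have hIco : g ∈ Finset.Ico (2 ^ j) (2 * 2 ^ j) := Finset.mem_Ico.2 ⟨hE1, hE2⟩
    have hdn2 : dn ((r' - q') * γ) < (Par.mk Q₁ Q₂ (2 ^ j) N₁ N₂).D := by
      rw [hD]
      linarith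
    have hsingle := Finset.single_le_sum (f := fun j : ℕ =>
        if (g ∈ Finset.Ico (2 ^ j) (2 * 2 ^ j) ∧ q ≠ r ∧
          dn ((r' - q') * γ) < (Par.mk Q₁ Q₂ (2 ^ j) N₁ N₂).D) then (Par.mk Q₁ Q₂ (2 ^ j) N₁ N₂).w else 0)
      (s := (Finset.range (Q₁ + 2)).filter (fun j =>
        2 ^ j < 2 * Q₁ ∧ (Par.mk Q₁ Q₂ (2 ^ j) N₁ N₂).D < 1 / 96))
      (fun i _ => by
        split_ifs
        · exact hwnn i
        · exact le_rfl) (hjmem hD96)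
    calc min ((1 / N₁) / q') ((1 / N₂) / r') ≤ (Par.mk Q₁ Q₂ (2 ^ j) N₁ N₂).w := hmin
      _ = (if (g ∈ Finset.Ico (2 ^ j) (2 * 2 ^ j) ∧ q ≠ r ∧
          dn ((r' - q') * γ) < (Par.mk Q₁ Q₂ (2 ^ j) N₁ N₂).D) then (Par.mk Q₁ Q₂ (2 ^ j) N₁ N₂).w else 0) :=
          (if_pos ⟨hIco, hne, hdn2⟩).symm
      _ ≤ _ := hsingle
  · apply Finset.sum_nonneg
    intro i _
    split_ifs
    · exact hwnn i
    · exact le_rfl

/-- The exact counts of different dyadic scales add up to at most `|S₁||S₂|`. -/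
theorem exact_sum_le (J : Finset ℕ) (S₁ S₂ : Finset ℕ) :
    ∑ j ∈ J, Exact (Finset.Ico (2 ^ j) (2 * 2 ^ j)) S₁ S₂ ≤ S₁.card * S₂.card := by
  unfold Exact
  rw [← Finset.card_biUnion]
  · rw [← Finset.card_product]
    apply Finset.card_le_card
    intro z hz
    obtain ⟨j, _, hz2⟩ := Finset.mem_biUnion.1 hz
    exact (Finset.mem_filter.1 hz2).1
  · intro j _ j' _ hne
    rw [Function.onFun, Finset.disjoint_left]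
    intro z hz hz'
    have h1 := Finset.mem_Ico.1 (Finset.mem_filter.1 hz).2
    have h2 := Finset.mem_Ico.1 (Finset.mem_filter.1 hz').2
    apply hne
    have hg0 : Nat.gcd z.1 z.2 ≠ 0 := by
      have : 0 < 2 ^ j := by positivity
      omega
    have e1 : Nat.log 2 (Nat.gcd z.1 z.2) = j :=
      Nat.log_eq_of_pow_le_of_lt_pow h1.1 (by rw [pow_succ]; omega)
    have e2 : Nat.log 2 (Nat.gcd z.1 z.2) = j' :=
      Nat.log_eq_of_pow_le_of_lt_pow h2.1 (by rw [pow_succ]; omega)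
    rw [← e1, e2]

open BlockAux in
/-- The geometric sums over the scales. -/
theorem scale_sums {c : ℝ} (hc : 0 < c) : ∃ C : ℝ, 0 < C ∧ ∀ {Q₁ Q₂ : ℕ} {N₁ N₂ : ℝ}, 1 ≤ Q₁ → Q₁ ≤ Q₂ →
    0 < N₁ → 0 < N₂ → ∀ J : Finset ℕ,
    (∀ j ∈ J, 2 ^ j < 2 * Q₁ ∧ (Par.mk Q₁ Q₂ (2 ^ j) N₁ N₂).D < 1 / 96) →
    ∑ j ∈ J, (((Par.mk Q₁ Q₂ (2 ^ j) N₁ N₂).D / (Par.mk Q₁ Q₂ (2 ^ j) N₁ N₂).Ups) ^ c
        + ((Par.mk Q₁ Q₂ (2 ^ j) N₁ N₂).M₂ * (Par.mk Q₁ Q₂ (2 ^ j) N₁ N₂).Ups) ^ (-c))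
      ≤ C * (Par.mk Q₁ Q₂ 1 N₁ N₂).Ups ^ (-c) := by
  obtain ⟨x, hx⟩ : ∃ x : ℝ, x = ((1:ℝ) / 2) ^ c := ⟨_, rfl⟩
  have hx0 : 0 < x := by rw [hx]; positivity
  have hx1 : x < 1 := by
    rw [hx]
    exact Real.rpow_lt_one (by norm_num) (by norm_num) hc
  have hinv : 0 < (1 - x)⁻¹ := inv_pos.2 (by linarith)
  have h2c : 0 < (2:ℝ) ^ c := by positivity
  refine ⟨(1 - x)⁻¹ + (2:ℝ) ^ c * (1 - x)⁻¹, by positivity, ?_⟩
  intro Q₁ Q₂ N₁ N₂ hQ₁ hQ hN₁ hN₂ J hJ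
  have hQ₂ : 1 ≤ Q₂ := hQ₁.trans hQ
  have hQ₁R : (0 : ℝ) < Q₁ := by exact_mod_cast hQ₁
  have hQ₂R : (0 : ℝ) < Q₂ := by exact_mod_cast hQ₂
  obtain ⟨Υ, hΥ⟩ : ∃ Υ, Υ = (Par.mk Q₁ Q₂ 1 N₁ N₂).Ups := ⟨_, rfl⟩
  have hUps : ∀ j : ℕ, (Par.mk Q₁ Q₂ (2 ^ j) N₁ N₂).Ups = Υ := fun j => by rw [hΥ]; rfl
  simp only [hUps]
  rw [← hΥ]
  have hΥ1 : 1 ≤ Υ := by
    rw [hΥ]
    refine le_trans ?_ (le_max_left _ _)
    change (1 : ℝ) ≤ (Q₂ : ℝ) / Q₁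
    rw [le_div_iff₀ hQ₁R, one_mul]
    exact_mod_cast hQ
  have hΥ0 : 0 < Υ := by linarith
  by_cases hJe : J = ∅
  · subst hJe
    simp only [Finset.sum_empty]
    positivity
  have hJne : J.Nonempty := Finset.nonempty_iff_ne_empty.2 hJe
  obtain ⟨j₀, hj₀⟩ : ∃ j₀, j₀ = J.min' hJne := ⟨_, rfl⟩
  obtain ⟨j₁, hj₁⟩ : ∃ j₁, j₁ = J.max' hJne := ⟨_, rfl⟩
  have hj₀mem : j₀ ∈ J := hj₀ ▸ Finset.min'_mem J hJne
  have hj₁mem : j₁ ∈ J := hj₁ ▸ Finset.max'_mem J hJne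
  have hj₀le : ∀ j ∈ J, j₀ ≤ j := fun j hj => hj₀ ▸ Finset.min'_le J j hj
  have hj₁le : ∀ j ∈ J, j ≤ j₁ := fun j hj => hj₁ ▸ Finset.le_max' J j hj
  -- first sum
  have hD : ∀ j j' : ℕ, j ≤ j' → (Par.mk Q₁ Q₂ (2 ^ j') N₁ N₂).D
      = (Par.mk Q₁ Q₂ (2 ^ j) N₁ N₂).D * ((1:ℝ) / 2) ^ (j' - j) := by
    intro j j' hjj
    have hpow : ((2 ^ j' : ℕ) : ℝ) = ((2 ^ j : ℕ) : ℝ) * (2:ℝ) ^ (j' - j) := by
      push_cast
      rw [← pow_add]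
      congr 1
      omega
    have hrw : ((1:ℝ) / 2) ^ (j' - j) = ((2:ℝ) ^ (j' - j))⁻¹ := by
      rw [one_div, inv_pow]
    unfold Par.D Par.M₁ Par.M₂
    simp only
    rw [hpow, hrw]
    have hp : (0:ℝ) < (2:ℝ) ^ (j' - j) := by positivity
    have e1 : (Q₂ : ℝ) / (((2 ^ j : ℕ) : ℝ) * (2:ℝ) ^ (j' - j)) / N₁
        = (Q₂ : ℝ) / ((2 ^ j : ℕ) : ℝ) / N₁ * ((2:ℝ) ^ (j' - j))⁻¹ := by
      field_simp
    have e2 : (Q₁ : ℝ) / (((2 ^ j : ℕ) : ℝ) * (2:ℝ) ^ (j' - j)) / N₂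
        = (Q₁ : ℝ) / ((2 ^ j : ℕ) : ℝ) / N₂ * ((2:ℝ) ^ (j' - j))⁻¹ := by
      field_simp
    rw [e1, e2, ← max_mul_of_nonneg _ _ (by positivity)]
    ring
  have hDnn : ∀ j : ℕ, 0 ≤ (Par.mk Q₁ Q₂ (2 ^ j) N₁ N₂).D := by
    intro j
    unfold Par.D Par.M₁ Par.M₂
    simp only
    have : 0 ≤ (Q₂ : ℝ) / ((2 ^ j : ℕ) : ℝ) / N₁ := by positivity
    exact mul_nonneg (by norm_num) (this.trans (le_max_left _ _))
  have hterm1 : ∀ j ∈ J, ((Par.mk Q₁ Q₂ (2 ^ j) N₁ N₂).D / Υ) ^ c ≤ x ^ (j - j₀) * Υ ^ (-c) := by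
    intro j hj
    rw [Real.div_rpow (hDnn j) hΥ0.le, Real.rpow_neg hΥ0.le, div_eq_mul_inv]
    apply mul_le_mul_of_nonneg_right _ (by positivity)
    rw [hD j₀ j (hj₀le j hj)]
    have h1 : (Par.mk Q₁ Q₂ (2 ^ j₀) N₁ N₂).D * ((1:ℝ) / 2) ^ (j - j₀) ≤ ((1:ℝ) / 2) ^ (j - j₀) := by
      have h2 := (hJ j₀ hj₀mem).2
      have h3 : (0:ℝ) ≤ ((1:ℝ) / 2) ^ (j - j₀) := by positivity
      nlinarith
    have h4 : 0 ≤ (Par.mk Q₁ Q₂ (2 ^ j₀) N₁ N₂).D * ((1:ℝ) / 2) ^ (j - j₀) :=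
      mul_nonneg (hDnn _) (by positivity)
    refine (Real.rpow_le_rpow h4 h1 hc.le).trans (le_of_eq ?_)
    rw [hx, ← Real.rpow_natCast, ← Real.rpow_natCast, ← Real.rpow_mul (by norm_num), ← Real.rpow_mul (by norm_num),
      mul_comm]
  have hterm2 : ∀ j ∈ J, ((Par.mk Q₁ Q₂ (2 ^ j) N₁ N₂).M₂ * Υ) ^ (-c)
      ≤ (2:ℝ) ^ c * x ^ (j₁ - j) * Υ ^ (-c) := by
    intro j hj
    have hM : 0 < (Par.mk Q₁ Q₂ (2 ^ j) N₁ N₂).M₂ := by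
      unfold Par.M₂
      simp only
      positivity
    rw [Real.mul_rpow hM.le hΥ0.le]
    apply mul_le_mul_of_nonneg_right _ (by positivity)
    have hlow : (1 / 2 : ℝ) * (2:ℝ) ^ (j₁ - j) ≤ (Par.mk Q₁ Q₂ (2 ^ j) N₁ N₂).M₂ := by
      unfold Par.M₂
      simp only
      have h1 : (2:ℝ) ^ j₁ ≤ 2 * (Q₂:ℝ) := by
        have h2 := (hJ j₁ hj₁mem).1
        have h3 : 2 ^ j₁ ≤ 2 * Q₂ := by omega
        exact_mod_cast h3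
      have hpos : (0:ℝ) < ((2 ^ j : ℕ) : ℝ) := by positivity
      rw [le_div_iff₀ hpos]
      have h4 : (2:ℝ) ^ (j₁ - j) * ((2 ^ j : ℕ) : ℝ) = (2:ℝ) ^ j₁ := by
        push_cast
        rw [← pow_add]
        congr 1
        have := hj₁le j hj
        omega
      nlinarith
    have hlowpos : (0:ℝ) < (1 / 2 : ℝ) * (2:ℝ) ^ (j₁ - j) := by positivity
    have h5 : (Par.mk Q₁ Q₂ (2 ^ j) N₁ N₂).M₂ ^ (-c) ≤ ((1 / 2 : ℝ) * (2:ℝ) ^ (j₁ - j)) ^ (-c) :=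
      Real.rpow_le_rpow_of_nonpos hlowpos hlow (by linarith)
    refine h5.trans (le_of_eq ?_)
    rw [Real.mul_rpow (by norm_num) (by positivity), hx]
    have e1 : ((1 / 2 : ℝ)) ^ (-c) = (2:ℝ) ^ c := by
      rw [Real.rpow_neg (by norm_num), ← Real.inv_rpow (by norm_num)]
      norm_num
    have e2 : ((2:ℝ) ^ (j₁ - j)) ^ (-c) = (((1:ℝ) / 2) ^ c) ^ (j₁ - j) := by
      rw [← Real.rpow_natCast, ← Real.rpow_natCast, ← Real.rpow_mul (by norm_num), ← Real.rpow_mul (by norm_num)]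
      have e3 : ((1:ℝ) / 2) = (2:ℝ) ^ (-(1:ℝ)) := by
        rw [Real.rpow_neg (by norm_num), Real.rpow_one]
        norm_num
      rw [e3, ← Real.rpow_mul (by norm_num)]
      congr 1
      ring
    rw [e1, e2]
  have hs1 : ∑ j ∈ J, x ^ (j - j₀) ≤ (1 - x)⁻¹ := by
    apply sum_geom_inj J (fun j => j - j₀) _ hx0.le hx1
    intro a ha b hb hab
    have h1 := hj₀le a ha
    have h2 := hj₀le b hb
    simp only at hab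
    omega
  have hs2 : ∑ j ∈ J, x ^ (j₁ - j) ≤ (1 - x)⁻¹ := by
    apply sum_geom_inj J (fun j => j₁ - j) _ hx0.le hx1
    intro a ha b hb hab
    have h1 := hj₁le a ha
    have h2 := hj₁le b hb
    simp only at hab
    omega
  have hΥc : 0 ≤ Υ ^ (-c) := by positivity
  calc ∑ j ∈ J, (((Par.mk Q₁ Q₂ (2 ^ j) N₁ N₂).D / Υ) ^ c + ((Par.mk Q₁ Q₂ (2 ^ j) N₁ N₂).M₂ * Υ) ^ (-c))
      ≤ ∑ j ∈ J, (x ^ (j - j₀) * Υ ^ (-c) + (2:ℝ) ^ c * x ^ (j₁ - j) * Υ ^ (-c)) :=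
        Finset.sum_le_sum fun j hj => add_le_add (hterm1 j hj) (hterm2 j hj)
    _ = ((∑ j ∈ J, x ^ (j - j₀)) + (2:ℝ) ^ c * ∑ j ∈ J, x ^ (j₁ - j)) * Υ ^ (-c) := by
        rw [Finset.sum_add_distrib, add_mul, Finset.sum_mul, Finset.mul_sum, Finset.sum_mul]
    _ ≤ _ := by
        apply mul_le_mul_of_nonneg_right _ hΥc
        have := mul_le_mul_of_nonneg_left hs2 h2c.le
        linarith

end Vale.Agent.Lib.P028T
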