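import Vale.Agent.Lib.P028T.Pair
import Vale.Agent.Lib.P028T.BlockA

/-! Summing the pair lemma over the gcd scales: blueprint section 12. -/

open Finset

namespace Vale.Agent.Lib.P028T

open Vale.Agent.Lib.P028

/-- `Υ ≥ 1`. -/
private lemma one_le_Ups_bs {p : Par} (h1 : 0 < p.Q₁) (h2 : 0 < p.Q₂) (hN₁ : 0 < p.N₁) (hN₂ : 0 < p.N₂) : 1 ≤ p.Ups := by
  have hu : 0 < p.u := div_pos (by exact_mod_cast h2) (by exact_mod_cast h1)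
  have hv : 0 < p.v := div_pos (mul_pos hu hN₂) hN₁
  have hm : 1 ≤ max p.v p.v⁻¹ := by
    rcases le_total 1 p.v with h | h
    · exact le_max_of_le_left h
    · exact le_max_of_le_right (one_le_inv_iff₀.mpr ⟨hv, h⟩)
  have hs : 1 ≤ Real.sqrt (max p.v p.v⁻¹) := by
    rw [Real.one_le_sqrt]; exact hm
  exact le_max_of_le_right hs

private lemma mu_mul_aux (a b N₁ N₂ : ℝ) (hN₁ : 0 < N₁) (hN₂ : 0 < N₂) :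
    768 / (N₁ * N₂) * (a * b) = 768 * (a / N₁ * (b / N₂)) := by
  field_simp

/-- One gcd scale of the pair lemma, with the common exponent `cc k`. -/
private lemma block_term {γ : ℝ} {k : ℕ} {W C₁ : ℝ} (hC₁ : 0 < C₁) (hccle : cc k ≤ (1:ℝ) / 768)
    (hpair : ∀ {p : Par} {S₁ S₂ : Finset ℕ}, p.Good → W ≤ p.N₁ → W ≤ p.N₂ →
      (∀ q ∈ S₁, p.Q₁ ≤ q ∧ q < 2 * p.Q₁) → (∀ r ∈ S₂, p.Q₂ ≤ r ∧ r < 2 * p.Q₂) →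
      (∀ x ∈ S₁, ∀ M : ℕ, 1 ≤ M → p.N₁ ^ cc₁ k ≤ (M:ℝ) → (dy x M : ℝ) ≤ (M:ℝ) ^ cc₃ k) →
      (∀ x ∈ S₂, ∀ M : ℕ, 1 ≤ M → p.N₂ ^ cc₁ k ≤ (M:ℝ) → (dy x M : ℝ) ≤ (M:ℝ) ^ cc₃ k) →
      (S₁.card : ℝ) / p.N₁ ≤ 2 → (S₂.card : ℝ) / p.N₂ ≤ 2 → p.D < 1 / 96 →
      Off γ p.D p.w (Finset.Ico p.E (2 * p.E)) S₁ S₂
        ≤ 768 / (p.N₁ * p.N₂) * (Exact (Finset.Ico p.E (2 * p.E)) S₁ S₂ : ℝ)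
          + p.ms S₁ S₂ * C₁ * ((p.D / p.Ups) ^ ((1:ℝ) / 768) + (p.M₂ * p.Ups) ^ (-(cc k))))
    {p : Par} {S₁ S₂ : Finset ℕ} (hgood : p.Good) (hW₁ : W ≤ p.N₁) (hW₂ : W ≤ p.N₂)
    (hS₁ : ∀ q ∈ S₁, p.Q₁ ≤ q ∧ q < 2 * p.Q₁) (hS₂ : ∀ r ∈ S₂, p.Q₂ ≤ r ∧ r < 2 * p.Q₂)
    (hdy₁ : ∀ x ∈ S₁, ∀ M : ℕ, 1 ≤ M → p.N₁ ^ cc₁ k ≤ (M:ℝ) → (dy x M : ℝ) ≤ (M:ℝ) ^ cc₃ k)
    (hdy₂ : ∀ x ∈ S₂, ∀ M : ℕ, 1 ≤ M → p.N₂ ^ cc₁ k ≤ (M:ℝ) → (dy x M : ℝ) ≤ (M:ℝ) ^ cc₃ k)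
    (hμ₁ : (S₁.card : ℝ) / p.N₁ ≤ 2) (hμ₂ : (S₂.card : ℝ) / p.N₂ ≤ 2) (hD : p.D < 1 / 96) :
    Off γ p.D p.w (Finset.Ico p.E (2 * p.E)) S₁ S₂
      ≤ 768 / (p.N₁ * p.N₂) * (Exact (Finset.Ico p.E (2 * p.E)) S₁ S₂ : ℝ)
        + ((S₁.card : ℝ) / p.N₁ + (S₂.card : ℝ) / p.N₂) * C₁ *
          ((p.D / p.Ups) ^ (cc k) + (p.M₂ * p.Ups) ^ (-(cc k))) := by
  have h := hpair hgood hW₁ hW₂ hS₁ hS₂ hdy₁ hdy₂ hμ₁ hμ₂ hD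
  have hQ₁pos : 0 < p.Q₁ := hgood.Q₁_pos
  have hQ₂pos : 0 < p.Q₂ := lt_of_lt_of_le hgood.Q₁_pos hgood.Q_le
  have hN₁ := hgood.N₁_pos
  have hN₂ := hgood.N₂_pos
  have hE : (0:ℝ) < p.E := by exact_mod_cast hgood.E_pos
  have hUps : 1 ≤ p.Ups := one_le_Ups_bs hQ₁pos hQ₂pos hN₁ hN₂
  have hM₂ : 0 < p.M₂ := div_pos (by exact_mod_cast hQ₂pos) hE
  have hDpos : 0 < p.D := by
    have : 0 < p.M₂ / p.N₁ := div_pos hM₂ hN₁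
    have h2 : 0 < max (p.M₂ / p.N₁) (p.M₁ / p.N₂) := lt_max_of_lt_left this
    unfold Par.D; positivity
  have hratio0 : 0 < p.D / p.Ups := div_pos hDpos (by linarith)
  have hratio1 : p.D / p.Ups ≤ 1 := by
    rw [div_le_one (by linarith)]
    linarith
  have hpow : (p.D / p.Ups) ^ ((1:ℝ) / 768) ≤ (p.D / p.Ups) ^ (cc k) :=
    Real.rpow_le_rpow_of_exponent_ge hratio0 hratio1 hccle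
  have hms : p.ms S₁ S₂ = (S₁.card : ℝ) / p.N₁ + (S₂.card : ℝ) / p.N₂ := rfl
  rw [hms] at h
  have hcoef : 0 ≤ ((S₁.card : ℝ) / p.N₁ + (S₂.card : ℝ) / p.N₂) * C₁ := by positivity
  have := mul_le_mul_of_nonneg_left (add_le_add_left hpow ((p.M₂ * p.Ups) ^ (-(cc k)))) hcoef
  linarith

/-- The block lemma. -/
theorem block_lemma {γ c₀ : ℝ} {k : ℕ} (hγ : Dio γ c₀ k) (hc₀ : 0 < c₀) (hk : 1 ≤ k) :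
    ∃ W C : ℝ, 1 ≤ W ∧ 0 < C ∧ ∀ {Q₁ Q₂ : ℕ} {N₁ N₂ : ℝ} {S₁ S₂ : Finset ℕ}, 1 ≤ Q₁ → Q₁ ≤ Q₂ →
      W ≤ N₁ → W ≤ N₂ → (∀ q ∈ S₁, Q₁ ≤ q ∧ q < 2 * Q₁) → (∀ r ∈ S₂, Q₂ ≤ r ∧ r < 2 * Q₂) →
      (∀ x ∈ S₁, ∀ M : ℕ, 1 ≤ M → N₁ ^ cc₁ k ≤ (M:ℝ) → (dy x M : ℝ) ≤ (M:ℝ) ^ cc₃ k) →
      (∀ x ∈ S₂, ∀ M : ℕ, 1 ≤ M → N₂ ^ cc₁ k ≤ (M:ℝ) → (dy x M : ℝ) ≤ (M:ℝ) ^ cc₃ k) →
      (S₁.card : ℝ) / N₁ ≤ 2 → (S₂.card : ℝ) / N₂ ≤ 2 →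
      BlockOff γ N₁ N₂ S₁ S₂ ≤ 768 * ((S₁.card : ℝ) / N₁ * ((S₂.card : ℝ) / N₂))
        + C * ((S₁.card : ℝ) / N₁ + (S₂.card : ℝ) / N₂) * (Par.mk Q₁ Q₂ 1 N₁ N₂).Ups ^ (-(cc k)) := by
  obtain ⟨W, C₁, hW, hC₁, hpair⟩ := pair_lemma hγ hc₀ hk
  have hccpos : 0 < cc k := by
    have : (0:ℝ) < k := by exact_mod_cast hk
    unfold cc; positivity
  have hccle : cc k ≤ (1:ℝ) / 768 := by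
    have : (1:ℝ) ≤ k := by exact_mod_cast hk
    unfold cc
    rw [div_le_div_iff₀ (by positivity) (by norm_num)]
    nlinarith
  obtain ⟨C₂, hC₂, hscale⟩ := scale_sums hccpos
  refine ⟨W, C₁ * C₂, hW, mul_pos hC₁ hC₂, ?_⟩
  intro Q₁ Q₂ N₁ N₂ S₁ S₂ hQ₁ hQ hW₁ hW₂ hS₁ hS₂ hdy₁ hdy₂ hμ₁ hμ₂
  have hN₁ : 0 < N₁ := by linarith
  have hN₂ : 0 < N₂ := by linarith
  obtain ⟨J, hJ⟩ : ∃ J : Finset ℕ, J = (Finset.range (Q₁ + 2)).filter (fun j =>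
        2 ^ j < 2 * Q₁ ∧ (Par.mk Q₁ Q₂ (2 ^ j) N₁ N₂).D < 1 / 96) := ⟨_, rfl⟩
  have hJmem : ∀ j ∈ J, 2 ^ j < 2 * Q₁ ∧ (Par.mk Q₁ Q₂ (2 ^ j) N₁ N₂).D < 1 / 96 := by
    intro j hj
    rw [hJ] at hj
    exact (Finset.mem_filter.mp hj).2
  have h1 := blockOff_le_sum (γ := γ) hQ₁ hQ hN₁ hN₂ hS₁ hS₂
  rw [← hJ] at h1
  obtain ⟨μ₁, hμ₁def⟩ : ∃ μ₁ : ℝ, μ₁ = (S₁.card : ℝ) / N₁ := ⟨_, rfl⟩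
  obtain ⟨μ₂, hμ₂def⟩ : ∃ μ₂ : ℝ, μ₂ = (S₂.card : ℝ) / N₂ := ⟨_, rfl⟩
  have hμ₁nn : 0 ≤ μ₁ := by rw [hμ₁def]; positivity
  have hμ₂nn : 0 ≤ μ₂ := by rw [hμ₂def]; positivity
  have hterm : ∀ j ∈ J,
      Off γ (Par.mk Q₁ Q₂ (2 ^ j) N₁ N₂).D (Par.mk Q₁ Q₂ (2 ^ j) N₁ N₂).w
        (Finset.Ico (2 ^ j) (2 * 2 ^ j)) S₁ S₂
      ≤ 768 / (N₁ * N₂) * (Exact (Finset.Ico (2 ^ j) (2 * 2 ^ j)) S₁ S₂ : ℝ)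
        + (μ₁ + μ₂) * C₁ * (((Par.mk Q₁ Q₂ (2 ^ j) N₁ N₂).D / (Par.mk Q₁ Q₂ (2 ^ j) N₁ N₂).Ups) ^ (cc k)
          + ((Par.mk Q₁ Q₂ (2 ^ j) N₁ N₂).M₂ * (Par.mk Q₁ Q₂ (2 ^ j) N₁ N₂).Ups) ^ (-(cc k))) := by
    intro j hj
    obtain ⟨_, hD⟩ := hJmem j hj
    have hgood : (Par.mk Q₁ Q₂ (2 ^ j) N₁ N₂).Good :=
      { E_pos := Nat.one_le_two_pow
        Q₁_pos := hQ₁
        Q_le := hQ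
        N₁_pos := hN₁
        N₂_pos := hN₂ }
    have h := block_term (γ := γ) (k := k) (W := W) (C₁ := C₁) hC₁ hccle hpair
      (p := Par.mk Q₁ Q₂ (2 ^ j) N₁ N₂) (S₁ := S₁) (S₂ := S₂) hgood hW₁ hW₂ hS₁ hS₂ hdy₁ hdy₂ hμ₁ hμ₂ hD
    rw [hμ₁def, hμ₂def]
    exact h
  have hsum := Finset.sum_le_sum hterm
  rw [Finset.sum_add_distrib, ← Finset.mul_sum, ← Finset.mul_sum] at hsum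
  have hex := exact_sum_le J S₁ S₂
  have hex' : (∑ j ∈ J, (Exact (Finset.Ico (2 ^ j) (2 * 2 ^ j)) S₁ S₂ : ℝ)) ≤ (S₁.card : ℝ) * S₂.card := by
    exact_mod_cast hex
  have hsc := hscale (Q₁ := Q₁) (Q₂ := Q₂) (N₁ := N₁) (N₂ := N₂) hQ₁ hQ hN₁ hN₂ J hJmem
  have hfirst : 768 / (N₁ * N₂) * (∑ j ∈ J, (Exact (Finset.Ico (2 ^ j) (2 * 2 ^ j)) S₁ S₂ : ℝ))
      ≤ 768 * (μ₁ * μ₂) := by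
    have hcoef : 0 ≤ 768 / (N₁ * N₂) := by positivity
    have := mul_le_mul_of_nonneg_left hex' hcoef
    rw [mu_mul_aux _ _ _ _ hN₁ hN₂, ← hμ₁def, ← hμ₂def] at this
    exact this
  have hcoef : 0 ≤ (μ₁ + μ₂) * C₁ := by positivity
  have hsecond := mul_le_mul_of_nonneg_left hsc hcoef
  rw [← hμ₁def, ← hμ₂def]
  nlinarith [h1, hsum, hfirst, hsecond]

end Vale.Agent.Lib.P028T
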