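import Vale.Agent.Lib.P028T.Defs

/-! Module Bohr: blueprint section 2. -/

open Finset

namespace Vale.Agent.Lib.P028T

open Vale.Agent.Lib.P028

namespace BohrAux

/-- A finite set of integers in a half open real interval of length `L`. -/
lemma card_int_le {T : Finset ℤ} {α L : ℝ} (hL : 0 ≤ L)
    (h : ∀ z ∈ T, α ≤ (z:ℝ) ∧ (z:ℝ) < α + L) : (T.card:ℝ) ≤ L + 1 := by
  have hsub : T ⊆ Finset.Ico ⌈α⌉ ⌈α + L⌉ := by
    intro z hz
    obtain ⟨h1, h2⟩ := h z hz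
    rw [Finset.mem_Ico]
    exact ⟨Int.ceil_le.mpr h1, Int.lt_ceil.mpr h2⟩
  have hc : T.card ≤ (⌈α + L⌉ - ⌈α⌉).toNat := by
    have := Finset.card_le_card hsub
    rwa [Int.card_Ico] at this
  have hc' : (T.card:ℝ) ≤ ((⌈α + L⌉ - ⌈α⌉).toNat : ℝ) := by exact_mod_cast hc
  by_cases hd : 0 ≤ ⌈α + L⌉ - ⌈α⌉
  · have h3 : (((⌈α + L⌉ - ⌈α⌉).toNat : ℤ) : ℝ) = ((⌈α + L⌉ - ⌈α⌉ : ℤ) : ℝ) := by
      rw [Int.toNat_of_nonneg hd]
    have h4 : ((⌈α + L⌉ - ⌈α⌉).toNat : ℝ) = ((⌈α + L⌉ - ⌈α⌉ : ℤ) : ℝ) := by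
      rw [← h3]; push_cast; rfl
    rw [h4] at hc'
    push_cast at hc'
    have h5 := Int.ceil_lt_add_one (α + L)
    have h6 := Int.le_ceil α
    linarith
  · have h3 : (⌈α + L⌉ - ⌈α⌉).toNat = 0 := by
      apply Int.toNat_of_nonpos
      omega
    rw [h3] at hc'
    have h0 : (((0:ℕ)):ℝ) = 0 := by norm_num
    rw [h0] at hc'
    linarith

/-- One window of `b` consecutive integers. -/
lemma window_count {γ t D : ℝ} {a' : ℤ} {b' : ℕ} (hD : 0 < D) (hb' : 1 ≤ b')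
    (hco : IsCoprime a' (b':ℤ)) (hδ : |(b':ℝ) * γ - (a':ℝ)| ≤ D) (hDb : 1 ≤ D * b')
    (x₁ : ℤ) (T : Finset ℤ)
    (hT : ∀ x ∈ T, x₁ ≤ x ∧ x < x₁ + (b':ℤ) ∧ dn ((x:ℝ) * γ - t) < D) :
    (T.card:ℝ) ≤ 5 * D * b' := by
  classical
  set f : ℤ → ℤ := fun x => (x - x₁) * a' - round ((x:ℝ) * γ - t) * (b':ℤ) with hf
  have hbpos : (0:ℝ) < (b':ℝ) := by exact_mod_cast hb'
  have hinj : Set.InjOn f (T : Set ℤ) := by
    intro x hx y hy hxy
    have hx' := hT x hx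
    have hy' := hT y hy
    have h1 : (x - y) * a' = (round ((x:ℝ) * γ - t) - round ((y:ℝ) * γ - t)) * (b':ℤ) := by
      simp only [hf] at hxy
      linarith
    have h2 : (b':ℤ) ∣ (x - y) * a' := ⟨round ((x:ℝ) * γ - t) - round ((y:ℝ) * γ - t), by
      rw [h1]; ring⟩
    have h3 : (b':ℤ) ∣ x - y := hco.symm.dvd_of_dvd_mul_right h2
    have h4 : |x - y| < (b':ℤ) := by
      rw [abs_lt]
      constructor <;> omega
    have h5 := Int.eq_zero_of_abs_lt_dvd h3 h4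
    omega
  have hcard : (T.image f).card = T.card := Finset.card_image_of_injOn hinj
  set κ : ℝ := (b':ℝ) * ((x₁:ℝ) * γ - t) with hκ
  have hmem : ∀ z ∈ T.image f, (-κ - 2 * D * b') ≤ (z:ℝ) ∧
      (z:ℝ) < (-κ - 2 * D * b') + 4 * D * b' := by
    intro z hz
    obtain ⟨x, hx, rfl⟩ := Finset.mem_image.mp hz
    obtain ⟨h1, h2, h3⟩ := hT x hx
    set y : ℝ := (x:ℝ) * γ - t with hy
    set j : ℤ := round y with hj
    have hn0 : (0:ℝ) ≤ ((x:ℝ) - x₁) := by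
      have : (x₁:ℝ) ≤ (x:ℝ) := by exact_mod_cast h1
      linarith
    have hn1 : ((x:ℝ) - x₁) ≤ b' := by
      have : (x:ℝ) < (x₁:ℝ) + (b':ℝ) := by exact_mod_cast h2
      linarith
    set δ : ℝ := (b':ℝ) * γ - (a':ℝ) with hδdef
    have habs : |y - (j:ℝ)| < D := h3
    have hfx : ((f x : ℤ) : ℝ) = ((x:ℝ) - x₁) * a' - (j:ℝ) * b' := by
      simp only [hf]
      push_cast
      rfl
    have hid : (b':ℝ) * (y - (j:ℝ)) = κ + ((f x : ℤ) : ℝ) + ((x:ℝ) - x₁) * δ := by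
      rw [hfx, hδdef, hκ, hy]
      ring
    have hbound : |(b':ℝ) * (y - (j:ℝ))| < D * b' := by
      rw [abs_mul, abs_of_pos hbpos]
      nlinarith [abs_nonneg (y - (j:ℝ))]
    have hnδ : |((x:ℝ) - x₁) * δ| ≤ D * b' := by
      rw [abs_mul, abs_of_nonneg hn0]
      have : |δ| ≤ D := hδ
      nlinarith [abs_nonneg δ]
    rw [hid] at hbound
    have h4 := abs_lt.mp hbound
    have h5 := abs_le.mp hnδ
    constructor
    · linarith [h4.1, h5.2]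
    · nlinarith [h4.2, h5.1]
  have hL : 0 ≤ 4 * D * (b':ℝ) := by positivity
  have := card_int_le hL hmem
  rw [hcard] at this
  linarith

/-- Coprime Dirichlet approximation. -/
lemma exists_coprime_approx (γ : ℝ) {B : ℕ} (hB : 0 < B) :
    ∃ (a' : ℤ) (b' : ℕ), 1 ≤ b' ∧ b' ≤ B ∧ IsCoprime a' (b':ℤ) ∧
      |(b':ℝ) * γ - (a':ℝ)| ≤ 1 / ((B:ℝ) + 1) := by
  obtain ⟨b, hb0, hbB, hb⟩ := Real.exists_nat_abs_mul_sub_round_le γ hB
  set a : ℤ := round ((b:ℝ) * γ) with ha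
  set g : ℕ := Int.gcd a (b:ℤ) with hg
  have hbz : (b:ℤ) ≠ 0 := by exact_mod_cast hb0.ne'
  have hgpos : 0 < g := Int.gcd_pos_of_ne_zero_right _ hbz
  have hdvd1 : (g:ℤ) ∣ a := Int.gcd_dvd_left ..
  have hdvd2 : (g:ℤ) ∣ (b:ℤ) := Int.gcd_dvd_right ..
  have hdvd2' : g ∣ b := by exact_mod_cast hdvd2
  obtain ⟨a', ha'⟩ := hdvd1
  obtain ⟨b', hb'⟩ := hdvd2'
  have hb'pos : 0 < b' := by
    rcases Nat.eq_zero_or_pos b' with h | h
    · rw [h] at hb'; omega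
    · exact h
  refine ⟨a', b', hb'pos, ?_, ?_, ?_⟩
  · have : b' ≤ b := by
      rw [hb']; exact Nat.le_mul_of_pos_left _ hgpos
    omega
  · have hcop : Int.gcd (a / (g:ℤ)) ((b:ℤ) / (g:ℤ)) = 1 := Int.gcd_div_gcd_div_gcd (by simpa [hg] using hgpos)
    have h1 : a / (g:ℤ) = a' := by
      rw [ha']; exact Int.mul_ediv_cancel_left _ (by exact_mod_cast hgpos.ne')
    have h2 : (b:ℤ) / (g:ℤ) = (b':ℤ) := by
      rw [hb']; push_cast; exact Int.mul_ediv_cancel_left _ (by exact_mod_cast hgpos.ne')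
    rw [h1, h2] at hcop
    exact Int.isCoprime_iff_gcd_eq_one.mpr hcop
  · have hgr : (1:ℝ) ≤ (g:ℝ) := by exact_mod_cast hgpos
    have hba : (b:ℝ) * γ - (a:ℝ) = (g:ℝ) * ((b':ℝ) * γ - (a':ℝ)) := by
      have e1 : (a:ℝ) = (g:ℝ) * (a':ℝ) := by rw [ha']; push_cast; ring
      have e2 : (b:ℝ) = (g:ℝ) * (b':ℝ) := by rw [hb']; push_cast; ring
      rw [e1, e2]; ring
    have h3 : |(b:ℝ) * γ - (a:ℝ)| ≤ 1 / ((B:ℝ) + 1) := hb
    rw [hba, abs_mul, abs_of_pos (by linarith : (0:ℝ) < (g:ℝ))] at h3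
    have h4 : 0 ≤ |(b':ℝ) * γ - (a':ℝ)| := abs_nonneg _
    nlinarith

end BohrAux

open BohrAux in
theorem bohr_count {γ c₀ : ℝ} {k : ℕ} (hγ : Dio γ c₀ k) (hc₀ : 0 < c₀) (hk : 1 ≤ k)
    {D W a t : ℝ} (hD : 0 < D) (hD1 : D ≤ 1 / 2) (hW : 0 ≤ W) (s : Finset ℤ)
    (hs : ∀ x ∈ s, a ≤ (x:ℝ) ∧ (x:ℝ) < a + W ∧ dn ((x:ℝ) * γ - t) < D) :
    (s.card : ℝ) ≤ 5 * D * W + Cbd c₀ k D := by
  classical
  -- the constant `c₀ ≤ 1/2`
  have hc12 : c₀ ≤ 1 / 2 := by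
    have h1 := hγ 1 le_rfl
    have h2 := dn_le_half ((1:ℕ) * γ)
    simp only [Nat.cast_one, one_pow, div_one] at h1 h2
    linarith
  set R : ℝ := (1 / D) ^ k / c₀ with hR
  have hinv : (2:ℝ) ≤ 1 / D := by
    rw [le_div_iff₀ hD]; linarith
  have hpow : 1 / D ≤ (1 / D) ^ k := by
    calc 1 / D = (1 / D) ^ 1 := (pow_one _).symm
      _ ≤ (1 / D) ^ k := pow_le_pow_right₀ (by linarith) hk
  have hRpos : 0 < R := by positivity
  have hR2 : 2 / D ≤ R := by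
    have : (1 / D) ^ k * 2 ≤ R := by
      rw [hR, le_div_iff₀ hc₀]
      have : 0 < (1 / D) ^ k := by positivity
      nlinarith
    have h3 : 2 / D = (1 / D) * 2 := by ring
    rw [h3]
    nlinarith
  set B : ℕ := ⌈R⌉₊ + 1 with hB
  have hBpos : 0 < B := by omega
  have hBR : R ≤ (B:ℝ) := by
    have h1 := Nat.le_ceil R
    rw [hB]; push_cast; linarith
  have hBR' : (B:ℝ) ≤ R + 2 := by
    have h1 := Nat.ceil_lt_add_one hRpos.le
    rw [hB]; push_cast; linarith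
  obtain ⟨a', b', hb1, hbB, hco, hab⟩ := exists_coprime_approx γ hBpos
  have hBp1 : (0:ℝ) < (B:ℝ) + 1 := by positivity
  have h1B : 1 / ((B:ℝ) + 1) ≤ D := by
    rw [div_le_iff₀ hBp1]
    have : 2 / D ≤ (B:ℝ) := hR2.trans hBR
    have h3 : D * (2 / D) = 2 := by field_simp
    nlinarith
  have hδ : |(b':ℝ) * γ - (a':ℝ)| ≤ D := hab.trans h1B
  have hbpos : (0:ℝ) < (b':ℝ) := by exact_mod_cast hb1
  -- `D b' ≥ 1`
  have hDb : 1 ≤ D * b' := by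
    have h1 := hγ b' hb1
    have h2 := dn_le_abs_sub ((b':ℝ) * γ) a'
    have h3 : c₀ / (b':ℝ) ^ k ≤ 1 / ((B:ℝ) + 1) := h1.trans (h2.trans hab)
    have hbk : 0 < (b':ℝ) ^ k := by positivity
    rw [div_le_div_iff₀ hbk hBp1] at h3
    have h4 : (1 / D) ^ k ≤ (b':ℝ) ^ k := by
      have h5 : R * c₀ = (1 / D) ^ k := by
        rw [hR]; field_simp
      rw [← h5]
      nlinarith
    have h5 : 1 / D ≤ (b':ℝ) :=
      (pow_le_pow_iff_left₀ (by positivity) hbpos.le (by omega)).mp h4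
    rw [div_le_iff₀ hD] at h5
    linarith
  -- windows
  set x₀ : ℤ := ⌈a⌉ with hx₀
  have hbz : (0:ℤ) < (b':ℤ) := by exact_mod_cast hb1
  set g : ℤ → ℤ := fun x => (x - x₀) / (b':ℤ) with hg
  have hfib : ∀ i ∈ s.image g, ((s.filter fun x => g x = i).card : ℝ) ≤ 5 * D * b' := by
    intro i _
    apply window_count hD hb1 hco hδ hDb (x₀ + i * (b':ℤ))
    intro x hx
    obtain ⟨hxs, hxi⟩ := Finset.mem_filter.mp hx
    have h1 : (b':ℤ) * ((x - x₀) / (b':ℤ)) + (x - x₀) % (b':ℤ) = x - x₀ := by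
      rw [Int.emod_def]; ring
    have h2 := Int.emod_nonneg (x - x₀) hbz.ne'
    have h3 := Int.emod_lt_of_pos (x - x₀) hbz
    have h4 : (x - x₀) / (b':ℤ) = i := hxi
    rw [h4] at h1
    refine ⟨?_, ?_, (hs x hxs).2.2⟩
    · nlinarith
    · nlinarith
  have hW' : 0 ≤ W / (b':ℝ) := by positivity
  have himg : ((s.image g).card : ℝ) ≤ W / (b':ℝ) + 1 := by
    apply card_int_le (α := 0) hW'
    intro z hz
    obtain ⟨x, hx, rfl⟩ := Finset.mem_image.mp hz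
    obtain ⟨h1, h2, _⟩ := hs x hx
    have hax : x₀ ≤ x := Int.ceil_le.mpr h1
    have h0 : 0 ≤ g x := Int.ediv_nonneg (by omega) hbz.le
    have h3 : g x * (b':ℤ) ≤ x - x₀ := Int.ediv_mul_le _ hbz.ne'
    have h3' : ((g x : ℤ):ℝ) * (b':ℝ) ≤ (x:ℝ) - (x₀:ℝ) := by exact_mod_cast h3
    have h4 : a ≤ (x₀:ℝ) := Int.le_ceil a
    constructor
    · simpa using (by exact_mod_cast h0 : (0:ℝ) ≤ ((g x : ℤ):ℝ))
    · rw [zero_add, lt_div_iff₀ hbpos]
      linarith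
  have htot : (s.card:ℝ) ≤ ((s.image g).card : ℝ) * (5 * D * b') := by
    have h1 : s.card = ∑ i ∈ s.image g, (s.filter fun x => g x = i).card :=
      Finset.card_eq_sum_card_image g s
    have h2 : (s.card:ℝ) = ∑ i ∈ s.image g, ((s.filter fun x => g x = i).card : ℝ) := by
      rw [h1]; push_cast; rfl
    rw [h2]
    calc ∑ i ∈ s.image g, ((s.filter fun x => g x = i).card : ℝ)
        ≤ ∑ _i ∈ s.image g, (5 * D * (b':ℝ)) := Finset.sum_le_sum hfib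
      _ = ((s.image g).card : ℝ) * (5 * D * b') := by
        rw [Finset.sum_const, nsmul_eq_mul]
  have hpos5 : 0 ≤ 5 * D * (b':ℝ) := by positivity
  have hfinal : (s.card:ℝ) ≤ (W / (b':ℝ) + 1) * (5 * D * b') :=
    htot.trans (mul_le_mul_of_nonneg_right himg hpos5)
  have hexp : (W / (b':ℝ) + 1) * (5 * D * b') = 5 * D * W + 5 * D * b' := by
    field_simp
  rw [hexp] at hfinal
  -- the constant
  have hbB' : (b':ℝ) ≤ (B:ℝ) := by exact_mod_cast hbB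
  have hk1 : (1 / D) ^ k = (1 / D) ^ (k - 1) * (1 / D) := by
    conv_lhs => rw [show k = (k - 1) + 1 by omega]
    rw [pow_succ]
  have hconst : 5 * D * (b':ℝ) ≤ Cbd c₀ k D := by
    unfold Cbd
    have h1 : 5 * D * (b':ℝ) ≤ 5 * D * (R + 2) := by
      apply mul_le_mul_of_nonneg_left (hbB'.trans hBR') (by positivity)
    have h2 : 5 * D * R = 5 * (1 / D) ^ (k - 1) / c₀ := by
      rw [hR, hk1]
      field_simp
    nlinarith
  linarith

end Vale.Agent.Lib.P028T
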