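import Mathlib

/-! The abstract descent and the potential: blueprint section 10. -/

open Finset

namespace Vale.Agent.Lib.P028T

/-- Abstract descent. -/
theorem descent_abstract {P : Finset ℕ → Prop} (hPsub : ∀ A A', P A → A' ⊆ A → P A')
    (f : Finset ℕ → ℝ) (g Ψ : ℕ → ℝ) (W₀ Ka' : ℝ) (hKa : 0 ≤ Ka')
    (hT : ∀ A, P A → (A.card : ℝ) ≤ Ka' → f A ≤ W₀) (hΨ : ∀ K, 0 ≤ Ψ K)
    (hS : ∀ A, P A → Ka' < (A.card : ℝ) → ∃ A' ⊆ A, 2 * A'.card ≤ A.card ∧ f A ≤ f A' + g A.card)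
    (hP : ∀ K K' : ℕ, Ka' < (K:ℝ) → 2 * K' ≤ K → Ψ K' + g K ≤ Ψ K) :
    ∀ A, P A → f A ≤ W₀ + Ψ A.card := by
  intro A
  induction' h : A.card using Nat.strong_induction_on with n ih generalizing A
  intro hA
  by_cases hc : (A.card : ℝ) ≤ Ka'
  · have := hT A hA hc
    have h2 := hΨ n
    linarith
  · push Not at hc
    obtain ⟨A', hsub, hcard, hf⟩ := hS A hA hc
    have hcn : (n : ℝ) = (A.card : ℝ) := by rw [h]
    have hlt : A'.card < n := by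
      have hpos : 0 < A.card := by
        have : (0:ℝ) < (A.card : ℝ) := lt_of_le_of_lt hKa hc
        exact_mod_cast this
      omega
    have hih := ih A'.card hlt A' rfl (hPsub A A' hA hsub)
    have hp := hP A.card A'.card hc hcard
    rw [h] at hf hp
    linarith

/-- The potential. -/
noncomputable def Psi (C₁ C₂ G₁ G₂ Ka' Km : ℝ) (K : ℕ) : ℝ :=
  C₁ * G₁ * ((Ka' / 2) ^ (-(1:ℝ) / 192) - (max (K:ℝ) (Ka' / 2)) ^ (-(1:ℝ) / 192))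
    + C₂ * G₂ * (min (K:ℝ) Km) ^ ((1:ℝ) / 16)

/-- The increment of the potential dominates the error of a step. The constants are absolute. -/
theorem potential_lemma : ∃ C₁ C₂ : ℝ, 1 ≤ C₁ ∧ 1 ≤ C₂ ∧ ∀ {G₁ G₂ Ka' Km : ℝ}, 0 ≤ G₁ → 0 ≤ G₂ → 1 ≤ Ka' → 1 ≤ Km →
    (∀ K : ℕ, 0 ≤ Psi C₁ C₂ G₁ G₂ Ka' Km K) ∧
    (∀ K : ℕ, Psi C₁ C₂ G₁ G₂ Ka' Km K ≤ C₁ * G₁ * (Ka' / 2) ^ (-(1:ℝ) / 192) + C₂ * G₂ * Km ^ ((1:ℝ) / 16)) ∧
    ∀ K K' : ℕ, Ka' < (K:ℝ) → 2 * K' ≤ K →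
      Psi C₁ C₂ G₁ G₂ Ka' Km K' +
        (G₁ * (K:ℝ) ^ (-(1:ℝ) / 192) + (if (K:ℝ) ≤ Km then G₂ * (K:ℝ) ^ ((1:ℝ) / 16) else 0))
      ≤ Psi C₁ C₂ G₁ G₂ Ka' Km K := by
  -- constants
  set a : ℝ := (1:ℝ)/192 with ha
  have ha0 : 0 < a := by rw [ha]; norm_num
  set b : ℝ := (1:ℝ)/16 with hb
  have hb0 : 0 < b := by rw [hb]; norm_num
  have h2a : (1:ℝ) < 2 ^ a := Real.one_lt_rpow (by norm_num) ha0
  have h2b : ((1:ℝ)/2) ^ b < 1 := Real.rpow_lt_one (by norm_num) (by norm_num) hb0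
  refine ⟨max 1 (1 / (2 ^ a - 1)), max 1 (1 / (1 - ((1:ℝ)/2) ^ b)), le_max_left _ _, le_max_left _ _, ?_⟩
  intro G₁ G₂ Ka' Km hG₁ hG₂ hKa hKm
  set C₁ : ℝ := max 1 (1 / (2 ^ a - 1)) with hC₁
  set C₂ : ℝ := max 1 (1 / (1 - ((1:ℝ)/2) ^ b)) with hC₂
  have hC₁pos : 0 < C₁ := lt_of_lt_of_le one_pos (le_max_left _ _)
  have hC₂pos : 0 < C₂ := lt_of_lt_of_le one_pos (le_max_left _ _)
  have hKa2 : 0 < Ka' / 2 := by linarith
  have hexp : (-(1:ℝ) / 192) = -a := by rw [ha]; norm_num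
  rw [hexp]
  have hmono : ∀ K : ℕ, (max (K:ℝ) (Ka' / 2)) ^ (-a) ≤ (Ka' / 2) ^ (-a) := by
    intro K
    exact Real.rpow_le_rpow_of_nonpos hKa2 (le_max_right _ _) (by linarith)
  have hnn : ∀ K : ℕ, 0 ≤ (min (K:ℝ) Km) ^ b := by
    intro K
    apply Real.rpow_nonneg
    exact le_min (Nat.cast_nonneg _) (by linarith)
  have hle : ∀ K : ℕ, (min (K:ℝ) Km) ^ b ≤ Km ^ b := by
    intro K
    apply Real.rpow_le_rpow
    · exact le_min (Nat.cast_nonneg _) (by linarith)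
    · exact min_le_right _ _
    · exact hb0.le
  have hpos1 : ∀ K : ℕ, 0 ≤ (max (K:ℝ) (Ka' / 2)) ^ (-a) := by
    intro K
    apply Real.rpow_nonneg
    exact le_trans hKa2.le (le_max_right _ _)
  refine ⟨?_, ?_, ?_⟩
  · intro K
    unfold Psi
    rw [hexp]
    have h1 := hmono K
    have h2 := hnn K
    have t1 : 0 ≤ C₁ * G₁ * ((Ka' / 2) ^ (-a) - (max (K:ℝ) (Ka' / 2)) ^ (-a)) :=
      mul_nonneg (mul_nonneg hC₁pos.le hG₁) (by linarith)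
    have t2 : 0 ≤ C₂ * G₂ * (min (K:ℝ) Km) ^ b := mul_nonneg (mul_nonneg hC₂pos.le hG₂) h2
    exact add_nonneg t1 t2
  · intro K
    unfold Psi
    rw [hexp]
    have h1 := hpos1 K
    have h2 := hle K
    have t1 : C₁ * G₁ * ((Ka' / 2) ^ (-a) - (max (K:ℝ) (Ka' / 2)) ^ (-a)) ≤ C₁ * G₁ * (Ka' / 2) ^ (-a) :=
      mul_le_mul_of_nonneg_left (by linarith) (mul_nonneg hC₁pos.le hG₁)
    have t2 : C₂ * G₂ * (min (K:ℝ) Km) ^ b ≤ C₂ * G₂ * Km ^ b :=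
      mul_le_mul_of_nonneg_left h2 (mul_nonneg hC₂pos.le hG₂)
    linarith
  · intro K K' hK hK'
    unfold Psi
    rw [hexp]
    have hKpos : (0:ℝ) < K := by linarith
    have hK'le : (K':ℝ) ≤ K / 2 := by
      have : ((2 * K' : ℕ):ℝ) ≤ K := by exact_mod_cast hK'
      push_cast at this
      linarith
    have hmaxK : max (K:ℝ) (Ka' / 2) = K := max_eq_left (by linarith)
    have hmaxK' : max (K':ℝ) (Ka' / 2) ≤ K / 2 := max_le hK'le (by linarith)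
    have hmaxK'pos : 0 < max (K':ℝ) (Ka' / 2) := lt_of_lt_of_le hKa2 (le_max_right _ _)
    have h1 : ((K:ℝ)/2) ^ (-a) ≤ (max (K':ℝ) (Ka' / 2)) ^ (-a) :=
      Real.rpow_le_rpow_of_nonpos hmaxK'pos hmaxK' (by linarith)
    have hsplit : ((K:ℝ)/2) ^ (-a) = 2 ^ a * (K:ℝ) ^ (-a) := by
      rw [div_eq_mul_inv, Real.mul_rpow hKpos.le (by norm_num), Real.inv_rpow (by norm_num), Real.rpow_neg (by norm_num : (0:ℝ) ≤ 2), inv_inv, mul_comm]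
    have hKa_pos : 0 ≤ (K:ℝ) ^ (-a) := Real.rpow_nonneg hKpos.le _
    have hC₁' : 1 ≤ C₁ * (2 ^ a - 1) := by
      have h3 : 1 / (2 ^ a - 1) ≤ C₁ := le_max_right _ _
      have h4 : (0:ℝ) < 2 ^ a - 1 := by linarith
      calc (1:ℝ) = 1 / (2 ^ a - 1) * (2 ^ a - 1) := by field_simp
        _ ≤ C₁ * (2 ^ a - 1) := mul_le_mul_of_nonneg_right h3 h4.le
    have hfirst : G₁ * (K:ℝ) ^ (-a) ≤ C₁ * G₁ * ((max (K':ℝ) (Ka' / 2)) ^ (-a) - (max (K:ℝ) (Ka' / 2)) ^ (-a)) := by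
      rw [hmaxK]
      have h5 : C₁ * G₁ * ((2 ^ a - 1) * (K:ℝ) ^ (-a)) ≤ C₁ * G₁ * ((max (K':ℝ) (Ka' / 2)) ^ (-a) - (K:ℝ) ^ (-a)) := by
        apply mul_le_mul_of_nonneg_left _ (mul_nonneg hC₁pos.le hG₁)
        rw [hsplit] at h1
        linarith
      have h6 : G₁ * (K:ℝ) ^ (-a) ≤ C₁ * G₁ * ((2 ^ a - 1) * (K:ℝ) ^ (-a)) := by
        have : C₁ * G₁ * ((2 ^ a - 1) * (K:ℝ) ^ (-a)) = (C₁ * (2 ^ a - 1)) * (G₁ * (K:ℝ) ^ (-a)) := by ring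
        rw [this]
        have h7 : 0 ≤ G₁ * (K:ℝ) ^ (-a) := mul_nonneg hG₁ hKa_pos
        nlinarith
      linarith
    have hsecond : C₂ * G₂ * (min (K':ℝ) Km) ^ b + (if (K:ℝ) ≤ Km then G₂ * (K:ℝ) ^ b else 0) ≤ C₂ * G₂ * (min (K:ℝ) Km) ^ b := by
      have hminmono : (min (K':ℝ) Km) ^ b ≤ (min (K:ℝ) Km) ^ b := by
        apply Real.rpow_le_rpow
        · exact le_min (Nat.cast_nonneg _) (by linarith)
        · exact min_le_min_right _ (by linarith)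
        · exact hb0.le
      split_ifs with hKm'
      · have hminK : min (K:ℝ) Km = K := min_eq_left hKm'
        rw [hminK]
        have h8 : (min (K':ℝ) Km) ^ b ≤ ((K:ℝ)/2) ^ b := by
          apply Real.rpow_le_rpow
          · exact le_min (Nat.cast_nonneg _) (by linarith)
          · exact le_trans (min_le_left _ _) hK'le
          · exact hb0.le
        have hsp : ((K:ℝ)/2) ^ b = (1/2) ^ b * (K:ℝ) ^ b := by
          rw [div_eq_mul_one_div, Real.mul_rpow hKpos.le (by norm_num), mul_comm]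
        have hKb : 0 ≤ (K:ℝ) ^ b := Real.rpow_nonneg hKpos.le _
        have hC₂' : 1 ≤ C₂ * (1 - ((1:ℝ)/2) ^ b) := by
          have h3 : 1 / (1 - ((1:ℝ)/2) ^ b) ≤ C₂ := le_max_right _ _
          have h4 : (0:ℝ) < 1 - ((1:ℝ)/2) ^ b := by linarith
          calc (1:ℝ) = 1 / (1 - ((1:ℝ)/2) ^ b) * (1 - ((1:ℝ)/2) ^ b) := by field_simp
            _ ≤ C₂ * (1 - ((1:ℝ)/2) ^ b) := mul_le_mul_of_nonneg_right h3 h4.le
        have h9 : C₂ * G₂ * (min (K':ℝ) Km) ^ b ≤ C₂ * G₂ * ((1/2) ^ b * (K:ℝ) ^ b) := by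
          apply mul_le_mul_of_nonneg_left _ (mul_nonneg hC₂pos.le hG₂)
          rw [← hsp]; exact h8
        have h10 : G₂ * (K:ℝ) ^ b ≤ C₂ * G₂ * ((1 - (1/2) ^ b) * (K:ℝ) ^ b) := by
          have : C₂ * G₂ * ((1 - (1/2) ^ b) * (K:ℝ) ^ b) = (C₂ * (1 - (1/2) ^ b)) * (G₂ * (K:ℝ) ^ b) := by ring
          rw [this]
          have h7 : 0 ≤ G₂ * (K:ℝ) ^ b := mul_nonneg hG₂ hKb
          nlinarith
        have h11 : C₂ * G₂ * ((1/2) ^ b * (K:ℝ) ^ b) + C₂ * G₂ * ((1 - (1/2) ^ b) * (K:ℝ) ^ b) = C₂ * G₂ * (K:ℝ) ^ b := by ring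
        linarith
      · rw [add_zero]
        exact mul_le_mul_of_nonneg_left hminmono (mul_nonneg hC₂pos.le hG₂)
    linarith

end Vale.Agent.Lib.P028T
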