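import Vale.Agent.Lib.P028T.Rounds
import Vale.Agent.Lib.P028T.Descent

/-! The bound in the regime: blueprint section 10. -/

open Finset

namespace Vale.Agent.Lib.P028T

open Vale.Agent.Lib.P028

section numerics

/-- Elementary facts on the exponent. -/
lemma two_cc_pred {k : ℕ} (hk : 1 ≤ k) : 2 * cc k * ((k - 1 : ℕ) : ℝ) ≤ 1 / 512 := by
  unfold cc
  have h : (1:ℝ) ≤ k := by exact_mod_cast hk
  have h2 : ((k - 1 : ℕ) : ℝ) = (k:ℝ) - 1 := by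
    rw [Nat.cast_sub hk]; simp
  rw [h2]
  have h3 : 0 < (k:ℝ) := by linarith
  field_simp
  nlinarith

/-- The constant of the Bohr count is small in the regime. -/
lemma Cbd_le {c₀ : ℝ} {k : ℕ} (hc₀ : 0 < c₀) (hk : 1 ≤ k) {D M : ℝ} (hD : 0 < D) (hM : 1 ≤ M)
    (hDM : M ^ (-(2 * cc k)) ≤ D) : Cbd c₀ k D ≤ (5 / c₀ + 5) * M ^ ((1:ℝ) / 512) := by
  have hM0 : 0 < M := by linarith
  have h1 : 1 / D ≤ M ^ (2 * cc k) := by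
    rw [div_le_iff₀ hD]
    have : M ^ (2 * cc k) * M ^ (-(2 * cc k)) = 1 := by
      rw [← Real.rpow_add hM0]; simp
    calc (1:ℝ) = M ^ (2 * cc k) * M ^ (-(2 * cc k)) := this.symm
      _ ≤ M ^ (2 * cc k) * D := by
        apply mul_le_mul_of_nonneg_left hDM (by positivity)
  have h2 : (1 / D) ^ (k - 1) ≤ M ^ ((1:ℝ) / 512) := by
    calc (1 / D) ^ (k - 1) ≤ (M ^ (2 * cc k)) ^ (k - 1) := by
          apply pow_le_pow_left₀ (by positivity) h1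
      _ = M ^ (2 * cc k * ((k - 1 : ℕ) : ℝ)) := by
          rw [← Real.rpow_natCast, ← Real.rpow_mul hM0.le]
      _ ≤ M ^ ((1:ℝ) / 512) := Real.rpow_le_rpow_of_exponent_le hM (two_cc_pred hk)
  have h3 : 1 ≤ M ^ ((1:ℝ) / 512) := Real.one_le_rpow hM (by norm_num)
  unfold Cbd
  have h4 : 5 * (1 / D) ^ (k - 1) / c₀ ≤ 5 / c₀ * M ^ ((1:ℝ) / 512) := by
    rw [div_mul_eq_mul_div]
    apply div_le_div_of_nonneg_right _ hc₀.le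
    linarith
  nlinarith

/-- The main power saving. -/
lemma saving {k : ℕ} (hk : 1 ≤ k) {M Υ : ℝ} (hM : 1 ≤ M) (hΥ : 1 ≤ Υ) :
    M ^ (16 * cc k) * M ^ ((1:ℝ) / 512) / Real.sqrt (M * Υ) ≤ (M * Υ) ^ (-(cc k)) := by
  have hM0 : 0 < M := by linarith
  have hΥ0 : 0 < Υ := by linarith
  have hc := cc_pos hk
  have hc' := cc_le hk
  rw [Real.sqrt_eq_rpow, Real.mul_rpow hM0.le hΥ0.le, Real.mul_rpow hM0.le hΥ0.le,
    div_le_iff₀ (by positivity)]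
  have e1 : M ^ (-(cc k)) * Υ ^ (-(cc k)) * (M ^ ((1:ℝ) / 2) * Υ ^ ((1:ℝ) / 2))
      = M ^ ((1:ℝ) / 2 - cc k) * Υ ^ ((1:ℝ) / 2 - cc k) := by
    rw [sub_eq_add_neg, Real.rpow_add hM0, Real.rpow_add hΥ0]; ring
  rw [e1, ← Real.rpow_add hM0]
  have h1 : M ^ (16 * cc k + 1 / 512) ≤ M ^ ((1:ℝ) / 2 - cc k) :=
    Real.rpow_le_rpow_of_exponent_le hM (by linarith)
  have h2 : 1 ≤ Υ ^ ((1:ℝ) / 2 - cc k) := Real.one_le_rpow hΥ (by linarith)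
  have h3 : 0 ≤ M ^ ((1:ℝ) / 2 - cc k) := by positivity
  nlinarith

lemma rpow_half_neg {D : ℝ} (hD : 0 < D) : D ^ (-(1:ℝ) / 2) = 1 / D ^ ((1:ℝ) / 2) := by
  have e : (-(1:ℝ) / 2) = -((1:ℝ) / 2) := by norm_num
  rw [e, Real.rpow_neg hD.le, inv_eq_one_div]

/-- The three bounds by `X = (D/Υ)^(1/768)`. -/
lemma bounds_X {D Υ : ℝ} (hD : 0 < D) (hD1 : D ≤ 1) (hΥ : 1 ≤ Υ) :
    1 / D ^ ((1:ℝ) / 2) * (D / Υ) ≤ (D / Υ) ^ ((1:ℝ) / 768) ∧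
    Υ ^ ((1:ℝ) / 2) * (D / Υ) ≤ (D / Υ) ^ ((1:ℝ) / 768) ∧ D / Υ ≤ (D / Υ) ^ ((1:ℝ) / 768) := by
  have hΥ0 : 0 < Υ := by linarith
  obtain ⟨s, hs⟩ : ∃ s, s = D ^ ((1:ℝ) / 2) := ⟨_, rfl⟩
  obtain ⟨t, ht⟩ : ∃ t, t = Υ ^ ((1:ℝ) / 2) := ⟨_, rfl⟩
  have hs0 : 0 < s := by rw [hs]; positivity
  have hs1 : s ≤ 1 := by rw [hs]; exact Real.rpow_le_one hD.le hD1 (by norm_num)
  have hs2 : s ^ 2 = D := by
    rw [hs, ← Real.rpow_natCast, ← Real.rpow_mul hD.le]; norm_num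
  have ht0 : 0 < t := by rw [ht]; positivity
  have ht1 : 1 ≤ t := by rw [ht]; exact Real.one_le_rpow hΥ (by norm_num)
  have ht2 : t ^ 2 = Υ := by
    rw [ht, ← Real.rpow_natCast, ← Real.rpow_mul hΥ0.le]; norm_num
  rw [← hs, ← ht]
  have hZsq : D / Υ = (s / t) ^ 2 := by rw [div_pow, hs2, ht2]
  have hst0 : 0 < s / t := by positivity
  have hst1 : s / t ≤ 1 := by
    rw [div_le_one ht0]; linarith
  have hstX : s / t ≤ (D / Υ) ^ ((1:ℝ) / 768) := by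
    rw [hZsq, ← Real.rpow_natCast, ← Real.rpow_mul hst0.le]
    calc s / t = (s / t) ^ (1:ℝ) := (Real.rpow_one _).symm
      _ ≤ (s / t) ^ (((2:ℕ):ℝ) * (1 / 768)) :=
        Real.rpow_le_rpow_of_exponent_ge hst0 hst1 (by norm_num)
  refine ⟨?_, ?_, ?_⟩
  · refine le_trans (le_of_eq_of_le ?_ (?_ : (s / t) * (1 / t) ≤ s / t)) hstX
    · rw [hZsq]; field_simp
    · have h1 : 1 / t ≤ 1 := by
        rw [div_le_one ht0]; exact ht1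
      nlinarith
  · refine le_trans (le_of_eq_of_le ?_ (?_ : (s / t) * s ≤ s / t)) hstX
    · rw [hZsq]; field_simp
    · nlinarith
  · refine le_trans (le_of_eq_of_le hZsq ?_) hstX
    nlinarith

/-- The bound for the negative power of `K/2`. -/
lemma tail_X {D Υ K : ℝ} (hD : 0 < D) (hΥ : 1 ≤ Υ) (hK0 : 0 < K)
    (hKa : 1 / D ^ ((1:ℝ) / 2) ≤ K) (hKb : Υ ^ ((1:ℝ) / 2) ≤ K) :
    (K / 2) ^ (-(1:ℝ) / 192) ≤ 16 * (D / Υ) ^ ((1:ℝ) / 768) := by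
  have hΥ0 : 0 < Υ := by linarith
  obtain ⟨s, hs⟩ : ∃ s, s = D ^ ((1:ℝ) / 2) := ⟨_, rfl⟩
  obtain ⟨t, ht⟩ : ∃ t, t = Υ ^ ((1:ℝ) / 2) := ⟨_, rfl⟩
  have hs0 : 0 < s := by rw [hs]; positivity
  have hs2 : s ^ 2 = D := by
    rw [hs, ← Real.rpow_natCast, ← Real.rpow_mul hD.le]; norm_num
  have ht0 : 0 < t := by rw [ht]; positivity
  have ht2 : t ^ 2 = Υ := by
    rw [ht, ← Real.rpow_natCast, ← Real.rpow_mul hΥ0.le]; norm_num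
  rw [← hs] at hKa
  rw [← ht] at hKb
  obtain ⟨y, hy⟩ : ∃ y, y = (K / 2)⁻¹ := ⟨_, rfl⟩
  have hy0 : 0 < y := by rw [hy]; positivity
  have e1 : (K / 2) ^ (-(1:ℝ) / 192) = (y ^ 4) ^ ((1:ℝ) / 768) := by
    have e : (-(1:ℝ) / 192) = -((1:ℝ) / 192) := by norm_num
    rw [e, Real.rpow_neg (by positivity), ← Real.rpow_natCast y 4, ← Real.rpow_mul hy0.le, hy,
      Real.inv_rpow (by positivity)]
    norm_num
  have hZ0 : 0 < D / Υ := by positivity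
  have e2 : y ^ 4 ≤ 16 * (D / Υ) := by
    have h1 : 1 / K ≤ s := by
      rw [div_le_iff₀ hK0]
      rw [div_le_iff₀ hs0] at hKa
      linarith
    have h2 : 1 / K ≤ 1 / t := one_div_le_one_div_of_le ht0 hKb
    have h0 : 0 < 1 / K := by positivity
    have h3 : y = 2 * (1 / K) := by rw [hy]; field_simp
    have h4 : (1 / K) ^ 2 ≤ s ^ 2 := pow_le_pow_left₀ h0.le h1 2
    have h5 : (1 / K) ^ 2 ≤ (1 / t) ^ 2 := pow_le_pow_left₀ h0.le h2 2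
    have h6 : D / Υ = s ^ 2 * (1 / t) ^ 2 := by rw [← hs2, ← ht2]; field_simp
    rw [h3, h6]
    have h7 : (1 / K) ^ 2 * (1 / K) ^ 2 ≤ s ^ 2 * (1 / t) ^ 2 :=
      mul_le_mul h4 h5 (by positivity) (by positivity)
    nlinarith
  rw [e1]
  calc (y ^ 4) ^ ((1:ℝ) / 768) ≤ (16 * (D / Υ)) ^ ((1:ℝ) / 768) :=
        Real.rpow_le_rpow (by positivity) e2 (by norm_num)
    _ = (16:ℝ) ^ ((1:ℝ) / 768) * (D / Υ) ^ ((1:ℝ) / 768) := by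
        rw [Real.mul_rpow (by norm_num) hZ0.le]
    _ ≤ 16 * (D / Υ) ^ ((1:ℝ) / 768) := by
        apply mul_le_mul_of_nonneg_right _ (by positivity)
        calc (16:ℝ) ^ ((1:ℝ) / 768) ≤ (16:ℝ) ^ (1:ℝ) :=
              Real.rpow_le_rpow_of_exponent_le (by norm_num) (by norm_num)
          _ = 16 := Real.rpow_one _

/-- `D^(-1/2)` and `Υ^(1/2)` are at most `M^(16c)`. -/
lemma bounds_P {k : ℕ} (hk : 1 ≤ k) {D M Υ : ℝ} (hM : 1 ≤ M) (hΥ : 1 ≤ Υ)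
    (hDM : M ^ (-(2 * cc k)) ≤ D) (hΥM : Υ ≤ M ^ (32 * cc k)) :
    1 / D ^ ((1:ℝ) / 2) ≤ M ^ (16 * cc k) ∧ Υ ^ ((1:ℝ) / 2) ≤ M ^ (16 * cc k) := by
  have hM0 : 0 < M := by linarith
  have hΥ0 : 0 < Υ := by linarith
  have hc := cc_pos hk
  have hD : 0 < D := lt_of_lt_of_le (by positivity) hDM
  constructor
  · rw [div_le_iff₀ (by positivity)]
    have h1 : M ^ (-(cc k)) ≤ D ^ ((1:ℝ) / 2) := by
      have e : M ^ (-(cc k)) = (M ^ (-(2 * cc k))) ^ ((1:ℝ) / 2) := by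
        rw [← Real.rpow_mul hM0.le]; congr 1; ring
      rw [e]
      exact Real.rpow_le_rpow (by positivity) hDM (by norm_num)
    have h2 : M ^ (cc k) * M ^ (-(cc k)) = 1 := by
      rw [← Real.rpow_add hM0]; simp
    have h3 : M ^ (cc k) ≤ M ^ (16 * cc k) := Real.rpow_le_rpow_of_exponent_le hM (by linarith)
    calc (1:ℝ) = M ^ (cc k) * M ^ (-(cc k)) := h2.symm
      _ ≤ M ^ (16 * cc k) * D ^ ((1:ℝ) / 2) := mul_le_mul h3 h1 (by positivity) (by positivity)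
  · have e : M ^ (16 * cc k) = (M ^ (32 * cc k)) ^ ((1:ℝ) / 2) := by
      rw [← Real.rpow_mul hM0.le]; congr 1; ring
    rw [e]
    exact Real.rpow_le_rpow hΥ0.le hΥM (by norm_num)

lemma bounds_Km {k : ℕ} (hk : 1 ≤ k) {D M : ℝ} (hD : 0 < D) (hM : 1 ≤ M) :
    (min (D ^ (-(8:ℝ))) (M ^ (16 * cc k))) ^ ((1:ℝ) / 16) ≤ 1 / D ^ ((1:ℝ) / 2) ∧
    (min (D ^ (-(8:ℝ))) (M ^ (16 * cc k))) ^ ((1:ℝ) / 16) ≤ M ^ (16 * cc k) := by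
  have hM0 : 0 < M := by linarith
  have hc := cc_pos hk
  have hKmpos : 0 < min (D ^ (-(8:ℝ))) (M ^ (16 * cc k)) := by
    apply lt_min <;> positivity
  constructor
  · have h2 := Real.rpow_le_rpow hKmpos.le (min_le_left _ _) (show (0:ℝ) ≤ (1:ℝ) / 16 by norm_num)
    refine h2.trans (le_of_eq ?_)
    rw [← Real.rpow_mul hD.le, ← rpow_half_neg hD]; norm_num
  · have h2 := Real.rpow_le_rpow hKmpos.le (min_le_right _ _) (show (0:ℝ) ≤ (1:ℝ) / 16 by norm_num)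
    refine h2.trans ?_
    rw [← Real.rpow_mul hM0.le]
    exact Real.rpow_le_rpow_of_exponent_le hM (by nlinarith)

lemma bound_PW {c₀ : ℝ} {k : ℕ} (hc₀ : 0 < c₀) (hk : 1 ≤ k) {D M Υ : ℝ} (hD : 0 < D) (hM : 1 ≤ M) (hΥ : 1 ≤ Υ)
    (hDM : M ^ (-(2 * cc k)) ≤ D) :
    M ^ (16 * cc k) * (3 * Cbd c₀ k D / Real.sqrt (M * Υ)) ≤ 3 * (5 / c₀ + 5) * (M * Υ) ^ (-(cc k)) := by
  have hM0 : 0 < M := by linarith
  have hΥ0 : 0 < Υ := by linarith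
  have hsq : 0 < Real.sqrt (M * Υ) := Real.sqrt_pos.2 (by positivity)
  have h1 := Cbd_le hc₀ hk hD hM hDM
  have h2 := saving hk hM hΥ
  have hCb0 : 0 < 5 / c₀ + 5 := by positivity
  have hP0 : 0 ≤ M ^ (16 * cc k) := by positivity
  have h4 : M ^ (16 * cc k) * (3 * Cbd c₀ k D / Real.sqrt (M * Υ))
      ≤ M ^ (16 * cc k) * (3 * ((5 / c₀ + 5) * M ^ ((1:ℝ) / 512)) / Real.sqrt (M * Υ)) := by
    apply mul_le_mul_of_nonneg_left _ hP0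
    apply div_le_div_of_nonneg_right _ hsq.le
    linarith
  have h5 : M ^ (16 * cc k) * (3 * ((5 / c₀ + 5) * M ^ ((1:ℝ) / 512)) / Real.sqrt (M * Υ))
      = 3 * (5 / c₀ + 5) * (M ^ (16 * cc k) * M ^ ((1:ℝ) / 512) / Real.sqrt (M * Υ)) := by
    ring
  rw [h5] at h4
  exact h4.trans (mul_le_mul_of_nonneg_left h2 (by positivity))

/-- The final real inequality. -/
lemma final_ineq {K K₀ C₁ Cs C₂ Z W Km' X Y P a t Cb T : ℝ} (hK₀ : 1 ≤ K₀) (hC₁ : 1 ≤ C₁) (hCs : 1 ≤ Cs) (hC₂ : 1 ≤ C₂)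
    (hK : K ≤ a + t + K₀) (ha : a ≤ P) (ht : t ≤ P) (hP : 1 ≤ P) (hZ0 : 0 ≤ Z) (hW0 : 0 ≤ W)
    (hX0 : 0 ≤ X) (hY0 : 0 ≤ Y) (hCb : 0 ≤ Cb)
    (h1 : a * Z ≤ X) (h2 : t * Z ≤ X) (h3 : Z ≤ X) (hPW : P * W ≤ 3 * Cb * Y)
    (hT : T ≤ 16 * X) (hKm1 : Km' ≤ a) (hKm2 : Km' ≤ P) (hKm0 : 0 ≤ Km') :
    K * (20 * Z + W) + C₁ * Cs * T + C₂ * (20 * Z + W) * Km'
      ≤ ((2 + K₀) * 20 + C₁ * Cs * 16 + C₂ * 20 + (2 + K₀) * 3 * Cb + C₂ * 3 * Cb) * (X + Y) := by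
  have hKP : K ≤ (2 + K₀) * P := by nlinarith
  have t1 : K * Z ≤ (2 + K₀) * X := by
    have h0 : K * Z ≤ (a + t + K₀) * Z := mul_le_mul_of_nonneg_right hK hZ0
    have h0' : K₀ * Z ≤ K₀ * X := mul_le_mul_of_nonneg_left h3 (by linarith)
    nlinarith
  have t2 : K * W ≤ (2 + K₀) * (3 * Cb * Y) := by
    have h0 : K * W ≤ (2 + K₀) * P * W := mul_le_mul_of_nonneg_right hKP hW0
    have h0' : (2 + K₀) * (P * W) ≤ (2 + K₀) * (3 * Cb * Y) :=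
      mul_le_mul_of_nonneg_left hPW (by linarith)
    nlinarith
  have t3 : C₁ * Cs * T ≤ C₁ * Cs * (16 * X) := mul_le_mul_of_nonneg_left hT (by positivity)
  have t4 : Z * Km' ≤ X := by
    have h0 : Z * Km' ≤ Z * a := mul_le_mul_of_nonneg_left hKm1 hZ0
    nlinarith
  have t5 : W * Km' ≤ 3 * Cb * Y := by
    have h0 : W * Km' ≤ W * P := mul_le_mul_of_nonneg_left hKm2 hW0
    nlinarith
  have t6 : C₂ * (Z * Km') ≤ C₂ * X := mul_le_mul_of_nonneg_left t4 (by linarith)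
  have t7 : C₂ * (W * Km') ≤ C₂ * (3 * Cb * Y) := mul_le_mul_of_nonneg_left t5 (by linarith)
  have e : K * (20 * Z + W) + C₁ * Cs * T + C₂ * (20 * Z + W) * Km'
      = 20 * (K * Z) + K * W + C₁ * Cs * T + 20 * (C₂ * (Z * Km')) + C₂ * (W * Km') := by ring
  rw [e]
  have hcs : 0 ≤ C₁ * Cs := by positivity
  have p1 : 0 ≤ ((2 + K₀) * 20 + C₁ * Cs * 16 + C₂ * 20) * Y := by positivity
  have p2 : 0 ≤ ((2 + K₀) * 3 * Cb + C₂ * 3 * Cb) * X := by positivity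
  have e2 : ((2 + K₀) * 20 + C₁ * Cs * 16 + C₂ * 20 + (2 + K₀) * 3 * Cb + C₂ * 3 * Cb) * (X + Y)
      = 20 * ((2 + K₀) * X) + (2 + K₀) * (3 * Cb * Y) + C₁ * Cs * (16 * X) + 20 * (C₂ * X) + C₂ * (3 * Cb * Y)
        + ((2 + K₀) * 20 + C₁ * Cs * 16 + C₂ * 20) * Y + ((2 + K₀) * 3 * Cb + C₂ * 3 * Cb) * X := by ring
  rw [e2]
  linarith

/-- The numerics, abstractly. -/
theorem numerics_core {c₀ : ℝ} {k : ℕ} (hc₀ : 0 < c₀) (hk : 1 ≤ k) (K₀ Cs C₁ C₂ : ℝ) (hK₀ : 1 ≤ K₀) (hCs : 1 ≤ Cs) (hC₁ : 1 ≤ C₁)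
    (hC₂ : 1 ≤ C₂) {D M Υ : ℝ} (hD : 0 < D) (hD1 : D ≤ 1) (hM : 1 ≤ M) (hΥ : 1 ≤ Υ)
    (hDM : M ^ (-(2 * cc k)) ≤ D) (hΥM : Υ ≤ M ^ (32 * cc k)) :
    (Ka K₀ D Υ) * (20 * D / Υ + 3 * Cbd c₀ k D / Real.sqrt (M * Υ))
        + C₁ * Cs * ((Ka K₀ D Υ) / 2) ^ (-(1:ℝ) / 192)
        + C₂ * (20 * D / Υ + 3 * Cbd c₀ k D / Real.sqrt (M * Υ)) * (min (D ^ (-(8:ℝ))) (M ^ (16 * cc k))) ^ ((1:ℝ) / 16)
      ≤ ((2 + K₀) * 20 + C₁ * Cs * 16 + C₂ * 20 + (2 + K₀) * 3 * (5 / c₀ + 5) + C₂ * 3 * (5 / c₀ + 5))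
        * ((D / Υ) ^ ((1:ℝ) / 768) + (M * Υ) ^ (-(cc k))) := by
  have hM0 : 0 < M := by linarith
  have hΥ0 : 0 < Υ := by linarith
  have hc := cc_pos hk
  obtain ⟨b1, b2, b3⟩ := bounds_X hD hD1 hΥ
  obtain ⟨p1, p2⟩ := bounds_P hk hM hΥ hDM hΥM
  obtain ⟨k1, k2⟩ := bounds_Km hk hD hM
  have hPW := bound_PW (c₀ := c₀) hc₀ hk hD hM hΥ hDM
  have hKa : 1 / D ^ ((1:ℝ) / 2) ≤ Ka K₀ D Υ := by
    rw [← rpow_half_neg hD]; exact le_trans (le_max_left _ _) (le_max_left _ _)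
  have hKb : Υ ^ ((1:ℝ) / 2) ≤ Ka K₀ D Υ := le_trans (le_max_right _ _) (le_max_left _ _)
  have hKc : K₀ ≤ Ka K₀ D Υ := le_max_right _ _
  have hK0 : 0 < Ka K₀ D Υ := by linarith
  have hKle : Ka K₀ D Υ ≤ 1 / D ^ ((1:ℝ) / 2) + Υ ^ ((1:ℝ) / 2) + K₀ := by
    unfold Ka
    rw [rpow_half_neg hD]
    have h1 : 0 < 1 / D ^ ((1:ℝ) / 2) := by positivity
    have h2 : 0 < Υ ^ ((1:ℝ) / 2) := by positivity
    apply max_le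
    · apply max_le <;> linarith
    · linarith
  have hT := tail_X hD hΥ hK0 hKa hKb
  have e20 : 20 * D / Υ = 20 * (D / Υ) := by ring
  rw [e20]
  have hCbd0 : 0 ≤ Cbd c₀ k D := by
    unfold Cbd
    have : 0 ≤ (1 / D) ^ (k - 1) := by positivity
    positivity
  exact final_ineq hK₀ hC₁ hCs hC₂ hKle p1 p2 (Real.one_le_rpow hM (by positivity)) (by positivity)
    (by positivity) (by positivity) (by positivity) (by positivity) b1 b2 b3 hPW hT k1 k2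
    (by positivity)

end numerics

/-- The numerics of section 10: the final value of the potential and of the terminal bound. -/
theorem regime_numerics {c₀ : ℝ} {k : ℕ} (hc₀ : 0 < c₀) (hk : 1 ≤ k) (K₀ Cs C₁ C₂ M₀ : ℝ) (hK₀ : 1 ≤ K₀) (hCs : 1 ≤ Cs) (hC₁ : 1 ≤ C₁)
    (hC₂ : 1 ≤ C₂) (hM₀ : 1 ≤ M₀) :
    ∃ C : ℝ, 0 < C ∧ ∀ {γ : ℝ} {p : Par} {S₁ S₂ : Finset ℕ} {τb : ℝ}, Regime γ c₀ k M₀ p S₁ S₂ τb →
      (Ka K₀ p.D p.Ups) * p.B0 c₀ k p.D + C₁ * Cs * ((Ka K₀ p.D p.Ups) / 2) ^ (-(1:ℝ) / 192)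
        + C₂ * p.B0 c₀ k p.D * (min (p.D ^ (-(8:ℝ))) (p.M₂ ^ (16 * cc k))) ^ ((1:ℝ) / 16)
      ≤ C * ((p.D / p.Ups) ^ ((1:ℝ) / 768) + (p.M₂ * p.Ups) ^ (-(cc k))) := by
  have hCb : 0 < 5 / c₀ + 5 := by positivity
  refine ⟨((2 + K₀) * 20 + C₁ * Cs * 16 + C₂ * 20 + (2 + K₀) * 3 * (5 / c₀ + 5) + C₂ * 3 * (5 / c₀ + 5)),
    by positivity, fun {γ p S₁ S₂ τb} R => ?_⟩
  obtain ⟨hM, hD0, hD1, hΥ, -, -, -, -, -⟩ := R.facts hM₀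
  have := numerics_core hc₀ hk K₀ Cs C₁ C₂ hK₀ hCs hC₁ hC₂ hD0 hD1 hM hΥ R.D_ge R.Ups_lt.le
  exact this

/-- The bound in the regime: from `descent_abstract`, `step_main`, `terminal_bound`, `potential_lemma`, `regime_numerics`.
`f A = Off A - (768/(N₁N₂)) Exact A`, `off_union_family`, `exact_sdiff`. -/
theorem regime_bound {c₀ : ℝ} {k : ℕ} (hc₀ : 0 < c₀) (hk : 1 ≤ k) :
    ∃ M₀ C : ℝ, 1 ≤ M₀ ∧ 0 < C ∧ ∀ {γ : ℝ} {p : Par} {S₁ S₂ : Finset ℕ} {τb : ℝ},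
      Regime γ c₀ k M₀ p S₁ S₂ τb → ∀ {A : Finset ℕ}, (∀ d ∈ A, p.E ≤ d ∧ d < 2 * p.E) →
      Off γ p.D p.w A S₁ S₂ ≤ 768 / (p.N₁ * p.N₂) * (Exact A S₁ S₂ : ℝ)
        + p.ms S₁ S₂ * C * ((p.D / p.Ups) ^ ((1:ℝ) / 768) + (p.M₂ * p.Ups) ^ (-(cc k))) := by
  obtain ⟨M₀, K₀, Cs, hM₀, hK₀, hCs, hstep⟩ := step_main hc₀ hk
  obtain ⟨C₁, C₂, hC₁, hC₂, hpot⟩ := potential_lemma
  obtain ⟨C, hC, hnum⟩ := regime_numerics hc₀ hk K₀ Cs C₁ C₂ M₀ hK₀ hCs hC₁ hC₂ hM₀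
  refine ⟨M₀, C, hM₀, hC, fun {γ p S₁ S₂ τb} R {A} hA => ?_⟩
  obtain ⟨hM, hD0, hD1, hΥ, hms, hB0, hw, -, -⟩ := R.facts hM₀
  have hN₁ := R.good.N₁_pos
  have hN₂ := R.good.N₂_pos
  set cE : ℝ := 768 / (p.N₁ * p.N₂) with hcE
  have hcE0 : 0 ≤ cE := by positivity
  set Km : ℝ := min (p.D ^ (-(8:ℝ))) (p.M₂ ^ (16 * cc k)) with hKm
  have hKm1 : 1 ≤ Km := by
    apply le_min
    · rw [Real.rpow_neg hD0.le]
      exact (one_le_inv₀ (by positivity)).2 (Real.rpow_le_one hD0.le hD1 (by norm_num))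
    · exact Real.one_le_rpow hM (by have := cc_pos hk; positivity)
  set Ka' : ℝ := Ka K₀ p.D p.Ups with hKa'
  have hKa1 : 1 ≤ Ka' := le_trans hK₀ (le_max_right _ _)
  obtain ⟨hΨ0, hΨle, hΨstep⟩ := hpot (G₁ := p.ms S₁ S₂ * Cs) (G₂ := p.ms S₁ S₂ * p.B0 c₀ k p.D)
    (Ka' := Ka') (Km := Km) (by positivity) (by positivity) hKa1 hKm1
  let f : Finset ℕ → ℝ := fun A => Off γ p.D p.w A S₁ S₂ - cE * (Exact A S₁ S₂ : ℝ)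
  let Pd : Finset ℕ → Prop := fun A => ∀ d ∈ A, p.E ≤ d ∧ d < 2 * p.E
  have key := descent_abstract (P := Pd) (fun A A' h hs d hd => h d (hs hd)) f
    (gg c₀ k Cs p S₁ S₂) (Psi C₁ C₂ (p.ms S₁ S₂ * Cs) (p.ms S₁ S₂ * p.B0 c₀ k p.D) Ka' Km)
    (p.ms S₁ S₂ * Ka' * p.B0 c₀ k p.D) Ka' (by linarith) ?_ hΨ0 ?_ ?_ A hA
  · have h1 := hΨle A.card
    have h2 := hnum R
    have e : f A = Off γ p.D p.w A S₁ S₂ - cE * (Exact A S₁ S₂ : ℝ) := rfl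
    have h3 : Off γ p.D p.w A S₁ S₂ ≤ cE * (Exact A S₁ S₂ : ℝ) + (p.ms S₁ S₂ * Ka' * p.B0 c₀ k p.D
        + (C₁ * (p.ms S₁ S₂ * Cs) * (Ka' / 2) ^ (-(1:ℝ) / 192)
          + C₂ * (p.ms S₁ S₂ * p.B0 c₀ k p.D) * Km ^ ((1:ℝ) / 16))) := by
      linarith
    refine h3.trans ?_
    have h4 := mul_le_mul_of_nonneg_left h2 hms
    nlinarith
  · intro B hB hcard
    have h0 := terminal_bound hM₀ R hB
    have h1 : (0:ℝ) ≤ cE * (Exact B S₁ S₂ : ℝ) := by positivity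
    have h2 : p.ms S₁ S₂ * (B.card : ℝ) * p.B0 c₀ k p.D ≤ p.ms S₁ S₂ * Ka' * p.B0 c₀ k p.D := by
      apply mul_le_mul_of_nonneg_right _ hB0
      exact mul_le_mul_of_nonneg_left hcard hms
    show Off γ p.D p.w B S₁ S₂ - cE * (Exact B S₁ S₂ : ℝ) ≤ _
    linarith
  · intro B hB hcard
    obtain ⟨B', hB's, hB'c, hB'⟩ := hstep R hB hcard
    refine ⟨B', hB's, hB'c, ?_⟩
    have h1 := off_union_family (γ := γ) (D := p.D) hw.le B' (B \ B') S₁ S₂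
    have e1 : B' ∪ (B \ B') = B := Finset.union_sdiff_of_subset hB's
    rw [e1] at h1
    have h2 : (Exact (B \ B') S₁ S₂ : ℝ) + (Exact B' S₁ S₂ : ℝ) = (Exact B S₁ S₂ : ℝ) := by
      exact_mod_cast exact_sdiff hB's S₁ S₂
    show Off γ p.D p.w B S₁ S₂ - cE * (Exact B S₁ S₂ : ℝ)
      ≤ Off γ p.D p.w B' S₁ S₂ - cE * (Exact B' S₁ S₂ : ℝ) + gg c₀ k Cs p S₁ S₂ B.card
    rw [← h2]
    nlinarith
  · intro K K' hK hK'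
    have h := hΨstep K K' hK hK'
    have e : gg c₀ k Cs p S₁ S₂ K = (p.ms S₁ S₂ * Cs) * (K:ℝ) ^ (-(1:ℝ) / 192)
        + (if (K:ℝ) ≤ Km then (p.ms S₁ S₂ * p.B0 c₀ k p.D) * (K:ℝ) ^ ((1:ℝ) / 16) else 0) := by
      unfold gg
      split_ifs <;> ring
    rw [e]
    exact h

end Vale.Agent.Lib.P028T
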