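import Vale.Agent.Lib.P028T.EllA

/-! Module Ell: blueprint section 5, sums over smooth squarefree integers. -/

open Finset

namespace Vale.Agent.Lib.P028T

lemma card_smooth_le (z E₀ : ℕ) : (smooth z E₀).card ≤ E₀ := by
  have h : (smooth z E₀).card ≤ (Finset.Icc 1 E₀).card := Finset.card_filter_le _ _
  simpa using h

/-! ### Row sum over squarefree smooth numbers -/

lemma ell_pos_aux (z : ℕ) : 0 < ell z := by
  unfold ell
  apply Finset.prod_pos
  intro p _
  positivity

lemma gcd_prod_primes (S : Finset ℕ) (hS : ∀ p ∈ S, p.Prime) (h : ℕ) :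
    Nat.gcd (∏ p ∈ S, p) h = ∏ p ∈ S, Nat.gcd p h := by
  classical
  induction S using Finset.induction_on with
  | empty => simp
  | insert a S ha ih =>
    rw [Finset.prod_insert ha, Finset.prod_insert ha]
    have hcop : Nat.Coprime a (∏ p ∈ S, p) := by
      apply Nat.Coprime.prod_right
      intro p hp
      apply (Nat.coprime_primes (hS a (Finset.mem_insert_self _ _))
        (hS p (Finset.mem_insert_of_mem hp))).2
      rintro rfl
      exact ha hp
    rw [Nat.gcd_comm, Nat.Coprime.gcd_mul h hcop, Nat.gcd_comm h, Nat.gcd_comm h, ih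
      (fun p hp => hS p (Finset.mem_insert_of_mem hp))]

lemma sum_gcd_div_le (z : ℕ) (Ee : Finset ℕ)
    (hEe : ∀ e ∈ Ee, Squarefree e ∧ ∀ p, p.Prime → p ∣ e → p ≤ z) (h : ℕ) (hh : 0 < h) :
    ∑ e ∈ Ee, ((Nat.gcd e h : ℕ) : ℝ) / e ≤ (2:ℝ) ^ h.primeFactors.card * ell z := by
  classical
  set PP := (range (z + 1)).filter Nat.Prime with hPP
  set g : ℕ → ℝ := fun p => ((Nat.gcd p h : ℕ) : ℝ) / p with hg
  have hg0 : ∀ p, 0 ≤ g p := fun p => by
    rw [hg]
    positivity
  have hval : ∀ e ∈ Ee, ((Nat.gcd e h : ℕ) : ℝ) / e = ∏ p ∈ e.primeFactors, g p := by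
    intro e he
    have hprod := Nat.prod_primeFactors_of_squarefree (hEe e he).1
    have h1 := gcd_prod_primes e.primeFactors (fun p hp => Nat.prime_of_mem_primeFactors hp) h
    rw [hprod] at h1
    rw [h1]
    conv_lhs => rw [← hprod]
    rw [hprod]
    simp only [hg]
    rw [Finset.prod_div_distrib]
    push_cast
    congr 1
    conv_lhs => rw [← hprod]
    push_cast
    rfl
  have hsub : ∀ e ∈ Ee, e.primeFactors ∈ PP.powerset := by
    intro e he
    rw [Finset.mem_powerset]
    intro p hp
    have hpp := Nat.prime_of_mem_primeFactors hp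
    have hd := Nat.dvd_of_mem_primeFactors hp
    have := (hEe e he).2 p hpp hd
    rw [hPP]
    simp only [mem_filter, mem_range]
    exact ⟨by omega, hpp⟩
  have hinj : Set.InjOn (fun e : ℕ => e.primeFactors) (Ee : Set ℕ) := by
    intro a ha b hb hab
    have h1 := Nat.prod_primeFactors_of_squarefree (hEe a ha).1
    have h2 := Nat.prod_primeFactors_of_squarefree (hEe b hb).1
    simp only at hab
    rw [← h1, ← h2, hab]
  calc ∑ e ∈ Ee, ((Nat.gcd e h : ℕ) : ℝ) / e
      = ∑ e ∈ Ee, ∏ p ∈ e.primeFactors, g p := Finset.sum_congr rfl hval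
    _ = ∑ S ∈ Ee.image (fun e : ℕ => e.primeFactors), ∏ p ∈ S, g p := by
        rw [Finset.sum_image hinj]
    _ ≤ ∑ S ∈ PP.powerset, ∏ p ∈ S, g p := by
        apply Finset.sum_le_sum_of_subset_of_nonneg
        · intro S hS
          obtain ⟨e, he, rfl⟩ := Finset.mem_image.mp hS
          exact hsub e he
        · intro S _ _
          exact Finset.prod_nonneg (fun p _ => hg0 p)
    _ = ∏ p ∈ PP, (1 + g p) := (Finset.prod_one_add _).symm
    _ ≤ ∏ p ∈ PP, ((if p ∣ h then (2:ℝ) else 1) * (1 + 1 / (p : ℝ))) := by
        apply Finset.prod_le_prod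
        · intro p _
          have := hg0 p
          positivity
        · intro p hp
          have hpp : p.Prime := (mem_filter.mp hp).2
          have hpR : (1:ℝ) ≤ p := by exact_mod_cast hpp.one_lt.le
          have h0 : (0:ℝ) ≤ 1 / p := by positivity
          have h1 : 1 / (p:ℝ) ≤ 1 := by
            rw [div_le_one (by linarith)]
            exact hpR
          split_ifs with hd
          · have : g p ≤ 1 := by
              rw [hg]
              simp only
              rw [Nat.gcd_eq_left hd, div_self (by linarith)]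
            nlinarith
          · have : Nat.gcd p h = 1 := by
              rcases (Nat.dvd_prime hpp).1 (Nat.gcd_dvd_left p h) with h2 | h2
              · exact h2
              · exfalso
                apply hd
                rw [← h2]
                exact Nat.gcd_dvd_right _ _
            rw [hg]
            simp only
            rw [this]
            simp
    _ = (∏ p ∈ PP, (if p ∣ h then (2:ℝ) else 1)) * ell z := by
        rw [Finset.prod_mul_distrib]
        rfl
    _ ≤ (2:ℝ) ^ h.primeFactors.card * ell z := by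
        apply mul_le_mul_of_nonneg_right _ (ell_pos_aux z).le
        rw [Finset.prod_ite, Finset.prod_const, Finset.prod_const_one, mul_one]
        apply pow_le_pow_right₀ (by norm_num)
        apply Finset.card_le_card
        intro p hp
        have h1 := mem_filter.mp hp
        have hpp : p.Prime := (mem_filter.mp h1.1).2
        exact Nat.mem_primeFactors.mpr ⟨hpp, h1.2, hh.ne'⟩


/-- `∑_{e} gcd(e,h)/e ≤ 2^ω(h) ell(z)` over squarefree `z`-smooth `e`. -/
theorem sum_smooth_gcd (z E₀ h : ℕ) (hh : 1 ≤ h) :
    ∑ e ∈ smooth z E₀, (Nat.gcd e h : ℝ) / e ≤ (2:ℝ) ^ h.primeFactors.card * ell z := by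
  apply sum_gcd_div_le z (smooth z E₀) _ h hh
  intro e he
  have he' := (Finset.mem_filter.mp he)
  have he1 : 1 ≤ e := (Finset.mem_Icc.mp he'.1).1
  refine ⟨he'.2.1, fun p hp hd => he'.2.2 p ?_⟩
  exact Nat.mem_primeFactors.mpr ⟨hp, hd, by omega⟩

/-- The Moebius identity for the `z`-coprimality of `n`. -/
theorem moebius_smooth (z n : ℕ) (hn : 1 ≤ n) :
    ∑ e ∈ n.divisors.filter (fun e => Squarefree e ∧ ∀ p ∈ e.primeFactors, p ≤ z),
        ((ArithmeticFunction.moebius e : ℤ) : ℝ)
      = if ∀ p ∈ n.primeFactors, z < p then 1 else 0 := by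
  classical
  set R := n.primeFactors.filter (· ≤ z) with hR
  set m := ∏ p ∈ R, p with hm
  have hRprime : ∀ p ∈ R, p.Prime := fun p hp =>
    Nat.prime_of_mem_primeFactors (Finset.mem_filter.mp hp).1
  have hmpos : m ≠ 0 := by
    rw [hm]
    exact Finset.prod_ne_zero_iff.mpr (fun p hp => (hRprime p hp).ne_zero)
  have hmsq : Squarefree m := by
    rw [hm]
    apply Finset.squarefree_prod_of_pairwise_isCoprime
    · intro a ha b hb hab
      exact Nat.coprime_iff_isRelPrime.mp ((Nat.coprime_primes (hRprime a ha) (hRprime b hb)).2 hab)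
    · intro p hp
      exact (hRprime p hp).squarefree
  have hmdvd : m ∣ n := by
    have h1 : m ∣ ∏ p ∈ n.primeFactors, p := by
      rw [hm]
      exact Finset.prod_dvd_prod_of_subset _ _ _ (Finset.filter_subset _ _)
    exact h1.trans (Nat.prod_primeFactors_dvd n)
  have hpf : m.primeFactors = R := by
    rw [hm]
    exact Nat.primeFactors_prod hRprime
  have hset : n.divisors.filter (fun e => Squarefree e ∧ ∀ p ∈ e.primeFactors, p ≤ z)
      = m.divisors := by
    ext e
    simp only [Finset.mem_filter, Nat.mem_divisors]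
    constructor
    · rintro ⟨⟨h1, _⟩, h2, h3⟩
      refine ⟨?_, hmpos⟩
      rw [← Nat.prod_primeFactors_of_squarefree h2, hm]
      apply Finset.prod_dvd_prod_of_subset
      intro p hp
      refine Finset.mem_filter.mpr ⟨?_, h3 p hp⟩
      exact Nat.primeFactors_mono h1 (by omega) hp
    · rintro ⟨h1, _⟩
      refine ⟨⟨h1.trans hmdvd, by omega⟩, hmsq.squarefree_of_dvd h1, ?_⟩
      intro p hp
      have : p ∈ m.primeFactors := Nat.primeFactors_mono h1 hmpos hp
      rw [hpf] at this
      exact (Finset.mem_filter.mp this).2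
  rw [hset]
  have hsum : ∑ e ∈ m.divisors, ((ArithmeticFunction.moebius e : ℤ) : ℝ)
      = if m = 1 then 1 else 0 := by
    have h1 : (ArithmeticFunction.moebius * (ArithmeticFunction.zeta : ArithmeticFunction ℤ)) m
        = (1 : ArithmeticFunction ℤ) m := by
      rw [ArithmeticFunction.moebius_mul_coe_zeta]
    rw [ArithmeticFunction.coe_mul_zeta_apply, ArithmeticFunction.one_apply] at h1
    have h2 : ((∑ e ∈ m.divisors, ArithmeticFunction.moebius e : ℤ) : ℝ)
        = (((if m = 1 then 1 else 0 : ℤ)) : ℝ) := by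
      rw [h1]
    push_cast at h2
    exact h2
  rw [hsum]
  have hiff : m = 1 ↔ ∀ p ∈ n.primeFactors, z < p := by
    constructor
    · intro h1 p hp
      by_contra hcon
      push Not at hcon
      have : p ∈ R := Finset.mem_filter.mpr ⟨hp, hcon⟩
      rw [← hpf, h1] at this
      simp at this
    · intro h1
      have : R = ∅ := by
        apply Finset.eq_empty_of_forall_notMem
        intro p hp
        have h2 := Finset.mem_filter.mp hp
        have := h1 p h2.1
        omega
      rw [hm, this]
      simp
  simp only [hiff]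

end Vale.Agent.Lib.P028T
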