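import Vale.Agent.Lib.P028T.Defs

/-! Preparations for Theorem T: blueprint section 0. -/

open Finset

namespace Vale.Agent.Lib.P028T

/-- Dyadic rounding of a single number. -/
private lemma exists_dyadic {t : ℝ} (h0 : 0 < t) (h1 : t ≤ 1) :
    ∃ n : ℕ, ((1:ℝ) / 2) ^ n < t ∧ t ≤ 2 * ((1:ℝ) / 2) ^ n := by
  obtain ⟨n, hn1, hn2⟩ := exists_nat_pow_near_of_lt_one h0 h1 (by norm_num : (0:ℝ) < 1 / 2)
    (by norm_num : (1:ℝ) / 2 < 1)
  refine ⟨n + 1, hn1, ?_⟩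
  rw [pow_succ]
  linarith

/-- Dyadic rounding: from `ψ` with divergent truncated sum to a dyadic `ψ̂ ≤ ψ`, `ψ̂ ≤ min(1/2, q^-δ)`, divergent sum. -/
theorem dyadic_round {δ : ℝ} (hδ : 0 < δ) (ψ : ℕ → ℝ) (hψ : ∀ q, 0 ≤ ψ q)
    (hdiv : ¬ Summable fun q : ℕ => min (ψ q) ((q:ℝ) ^ (-δ))) :
    ∃ φ : ℕ → ℝ, (∀ q, 0 ≤ φ q ∧ φ q ≤ ψ q ∧ φ q ≤ 1 / 2 ∧ (1 ≤ q → φ q ≤ (q:ℝ) ^ (-δ))) ∧
      (∀ q, φ q ≠ 0 → ∃ n : ℕ, φ q = ((1:ℝ) / 2) ^ n) ∧ ¬ Summable φ := by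
  classical
  -- the capped function
  set m : ℕ → ℝ := fun q => min (min (ψ q) ((q:ℝ) ^ (-δ))) (1 / 2) with hm
  have hrpow0 : ∀ q : ℕ, 0 ≤ (q:ℝ) ^ (-δ) := fun q => Real.rpow_nonneg (Nat.cast_nonneg q) _
  have hm0 : ∀ q, 0 ≤ m q := fun q =>
    le_min (le_min (hψ q) (hrpow0 q)) (by norm_num)
  have hm1 : ∀ q, m q ≤ 1 := fun q => (min_le_right _ _).trans (by norm_num)
  have hrpow1 : ∀ q : ℕ, (q:ℝ) ^ (-δ) ≤ 1 := by
    intro q
    rcases Nat.eq_zero_or_pos q with rfl | hq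
    · rw [Nat.cast_zero, Real.zero_rpow (by linarith)]
      norm_num
    · have : (1:ℝ) ≤ q := by exact_mod_cast hq
      exact Real.rpow_le_one_of_one_le_of_nonpos this (by linarith)
  have hm2 : ∀ q, min (ψ q) ((q:ℝ) ^ (-δ)) ≤ 2 * m q := by
    intro q
    have h1 : min (ψ q) ((q:ℝ) ^ (-δ)) ≤ 1 := (min_le_right _ _).trans (hrpow1 q)
    have h0 : 0 ≤ min (ψ q) ((q:ℝ) ^ (-δ)) := le_min (hψ q) (hrpow0 q)
    by_cases h : min (ψ q) ((q:ℝ) ^ (-δ)) ≤ 1 / 2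
    · simp only [hm, min_eq_left h]
      linarith
    · push Not at h
      simp only [hm, min_eq_right h.le]
      linarith
  -- the dyadic function
  have hex : ∀ q, ∃ x : ℝ, (m q = 0 → x = 0) ∧ (0 < m q → (∃ n : ℕ, x = ((1:ℝ) / 2) ^ n) ∧ x < m q ∧ m q ≤ 2 * x) := by
    intro q
    by_cases h : 0 < m q
    · obtain ⟨n, h1, h2⟩ := exists_dyadic h (hm1 q)
      exact ⟨((1:ℝ) / 2) ^ n, fun h' => absurd h' h.ne', fun _ => ⟨⟨n, rfl⟩, h1, h2⟩⟩
    · exact ⟨0, fun _ => rfl, fun h' => absurd h' h⟩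
  choose φ hφ0 hφ1 using hex
  have hφnn : ∀ q, 0 ≤ φ q := by
    intro q
    rcases (hm0 q).eq_or_lt with h | h
    · rw [hφ0 q h.symm]
    · obtain ⟨⟨n, hn⟩, _, _⟩ := hφ1 q h
      rw [hn]
      positivity
  have hφle : ∀ q, φ q ≤ m q := by
    intro q
    rcases (hm0 q).eq_or_lt with h | h
    · rw [hφ0 q h.symm]
      exact h.le
    · exact (hφ1 q h).2.1.le
  have hmle : ∀ q, m q ≤ 2 * φ q := by
    intro q
    rcases (hm0 q).eq_or_lt with h | h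
    · rw [hφ0 q h.symm, ← h]
      norm_num
    · exact (hφ1 q h).2.2
  refine ⟨φ, fun q => ⟨hφnn q, ?_, ?_, fun _ => ?_⟩, fun q hq => ?_, fun hs => ?_⟩
  · exact (hφle q).trans ((min_le_left _ _).trans (min_le_left _ _))
  · exact (hφle q).trans (min_le_right _ _)
  · exact (hφle q).trans ((min_le_left _ _).trans (min_le_right _ _))
  · rcases (hm0 q).eq_or_lt with h | h
    · exact absurd (hφ0 q h.symm) hq
    · exact (hφ1 q h).1
  · apply hdiv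
    refine Summable.of_nonneg_of_le (fun q => le_min (hψ q) (hrpow0 q)) (fun q => ?_) (hs.mul_left 4)
    calc min (ψ q) ((q:ℝ) ^ (-δ)) ≤ 2 * m q := hm2 q
      _ ≤ 2 * (2 * φ q) := by linarith [hmle q]
      _ = 4 * φ q := by ring

/-- Choice of the finite set of mass in `[1,2]` above `Y`. -/
theorem exists_block {φ : ℕ → ℝ} (h0 : ∀ q, 0 ≤ φ q) (h1 : ∀ q, φ q ≤ 1 / 2) (hdiv : ¬ Summable φ) (Y : ℕ) :
    ∃ F : Finset ℕ, (∀ q ∈ F, Y ≤ q ∧ φ q ≠ 0) ∧ 1 ≤ ∑ q ∈ F, φ q ∧ ∑ q ∈ F, φ q ≤ 2 := by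
  classical
  set T : ℕ → ℝ := fun n => ∑ i ∈ Finset.range n, φ i with hT
  have hlim : Filter.Tendsto T Filter.atTop Filter.atTop :=
    (not_summable_iff_tendsto_nat_atTop_of_nonneg h0).mp hdiv
  have hmono : Monotone T := by
    intro a b hab
    exact Finset.sum_le_sum_of_subset_of_nonneg
      (Finset.range_subset_range.mpr hab) (fun i _ _ => h0 i)
  have hex : ∃ N, T Y + 1 ≤ T N :=
    (hlim.eventually_ge_atTop (T Y + 1)).exists
  set N := Nat.find hex with hN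
  have hN1 : T Y + 1 ≤ T N := Nat.find_spec hex
  have hYN : Y < N := by
    by_contra h
    push Not at h
    have := hmono h
    linarith
  have hN2 : T (N - 1) < T Y + 1 := by
    have hlt : N - 1 < N := by omega
    have := Nat.find_min hex hlt
    push Not at this
    exact this
  have hstep : T N = T (N - 1) + φ (N - 1) := by
    have e : N = (N - 1) + 1 := by omega
    simp only [hT]
    conv_lhs => rw [e]
    rw [Finset.sum_range_succ]
  refine ⟨(Finset.Ico Y N).filter (fun q => φ q ≠ 0), fun q hq => ?_, ?_⟩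
  · have := Finset.mem_filter.mp hq
    exact ⟨(Finset.mem_Ico.mp this.1).1, this.2⟩
  · have hsum : ∑ q ∈ (Finset.Ico Y N).filter (fun q => φ q ≠ 0), φ q = T N - T Y := by
      rw [Finset.sum_filter_ne_zero, Finset.sum_Ico_eq_sub _ hYN.le]
    rw [hsum]
    have := h1 (N - 1)
    constructor <;> linarith

end Vale.Agent.Lib.P028T
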