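import Vale.Agent.Lib.P028T.Schur
import Vale.Agent.Lib.P028T.FinalA
import Vale.Agent.Lib.P028T.PhiOver
import Vale.Agent.Lib.P028V.Abstract
import Vale.Agent.Lib.P028T.Tau

/-! Theorem T: blueprint section 0. -/

open MeasureTheory Filter Finset

namespace Vale.Agent.Lib.P028T

open Vale.Agent.Lib.P028
open Vale.Agent.Lib.P028V (abstract_main)

/-- The exponent of the truncation. -/
noncomputable def CC (k : ℕ) : ℝ := 2048 * (k:ℝ) * ((k:ℝ) + 2)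

lemma CC_mul (k : ℕ) (hk : 1 ≤ k) : CC k * cc₁ k = 1 := by
  have hk0 : (k:ℝ) ≠ 0 := by positivity
  have hk2 : (k:ℝ) + 2 ≠ 0 := by positivity
  unfold CC cc₁ cc
  field_simp
  norm_num

private lemma exists_dyadic' {t : ℝ} (h0 : 0 < t) (h1 : t ≤ 1) :
    ∃ n : ℕ, ((1:ℝ) / 2) ^ n < t ∧ t ≤ 2 * ((1:ℝ) / 2) ^ n := by
  classical
  have hex : ∃ n : ℕ, ((1:ℝ) / 2) ^ n < t := exists_pow_lt_of_lt_one h0 (by norm_num)
  refine ⟨Nat.find hex, Nat.find_spec hex, ?_⟩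
  rcases Nat.eq_zero_or_pos (Nat.find hex) with h | h
  · rw [h]
    norm_num
    linarith
  · have h2 := Nat.find_min hex (Nat.sub_lt h Nat.one_pos)
    push Not at h2
    have h3 : ((1:ℝ) / 2) ^ (Nat.find hex) = ((1:ℝ) / 2) ^ (Nat.find hex - 1) * (1 / 2) := by
      rw [← pow_succ]
      congr 1
      omega
    rw [h3]
    linarith

/-- Dyadic rounding of a divergent sequence in `[0,1]`. -/
theorem dyadic_round_general (m : ℕ → ℝ) (hm0 : ∀ q, 0 ≤ m q) (hm1 : ∀ q, m q ≤ 1) (hdiv : ¬ Summable m) :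
    ∃ φ : ℕ → ℝ, (∀ q, 0 ≤ φ q ∧ φ q ≤ m q) ∧
      (∀ q, φ q ≠ 0 → ∃ n : ℕ, φ q = ((1:ℝ) / 2) ^ n) ∧ ¬ Summable φ := by
  classical
  have hex : ∀ q, ∃ x : ℝ, (m q = 0 → x = 0) ∧ (0 < m q → (∃ n : ℕ, x = ((1:ℝ) / 2) ^ n) ∧ x < m q ∧ m q ≤ 2 * x) := by
    intro q
    by_cases h : 0 < m q
    · obtain ⟨n, h1, h2⟩ := exists_dyadic' h (hm1 q)
      exact ⟨((1:ℝ) / 2) ^ n, fun h' => absurd h' h.ne', fun _ => ⟨⟨n, rfl⟩, h1, h2⟩⟩
    · exact ⟨0, fun _ => rfl, fun h' => absurd h' h⟩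
  choose φ hφ0 hφ1 using hex
  have hφnn : ∀ q, 0 ≤ φ q := by
    intro q
    rcases (hm0 q).eq_or_lt with h | h
    · rw [hφ0 q h.symm]
    · obtain ⟨⟨n, hn⟩, _, _⟩ := hφ1 q h
      rw [hn]
      positivity
  have hφle : ∀ q, φ q ≤ m q := by
    intro q
    rcases (hm0 q).eq_or_lt with h | h
    · rw [hφ0 q h.symm]
      exact h.le
    · exact (hφ1 q h).2.1.le
  have hmle : ∀ q, m q ≤ 2 * φ q := by
    intro q
    rcases (hm0 q).eq_or_lt with h | h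
    · rw [hφ0 q h.symm, ← h]
      norm_num
    · exact (hφ1 q h).2.2
  refine ⟨φ, fun q => ⟨hφnn q, hφle q⟩, fun q hq => ?_, fun hs => ?_⟩
  · rcases (hm0 q).eq_or_lt with h | h
    · exact absurd (hφ0 q h.symm) hq
    · exact (hφ1 q h).1
  · exact hdiv (Summable.of_nonneg_of_le hm0 hmle (hs.mul_left 2))

/-- Theorem T2: the general form. `θ q` is any scale above which `q` has few divisors in dyadic intervals. -/
theorem main_T2 {γ c₀ : ℝ} {k : ℕ} (hγ : Dio γ c₀ k) (hc₀ : 0 < c₀) (hk : 1 ≤ k)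
    (ψ θ : ℕ → ℝ) (hψ : ∀ q, 0 ≤ ψ q) (hθ1 : ∀ q, 1 ≤ θ q)
    (hθ : ∀ q M : ℕ, 1 ≤ q → 1 ≤ M → θ q ≤ (M:ℝ) → (dy q M : ℝ) ≤ (M:ℝ) ^ cc₃ k)
    (hdiv : ¬ Summable fun q : ℕ => min (ψ q) ((θ q) ^ (-(CC k)))) :
    ∀ᵐ x : ℝ, ∃ᶠ q : ℕ in atTop, dn ((q:ℝ) * x - γ) < ψ q := by
  classical
  obtain ⟨W, C₀, hW, hC₀, hcore⟩ := core_sum hγ hc₀ hk
  have hCC : 0 < CC k := by
    have hk0 : (0:ℝ) < k := by exact_mod_cast hk
    unfold CC
    positivity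
  have hcc1 : 0 < cc₁ k := by
    have hmul := CC_mul k hk
    by_contra hcon
    push Not at hcon
    nlinarith
  set ε : ℝ := min (1 / W) (1 / 2) with hε
  have hW0 : 0 < W := by linarith
  have hε0 : 0 < ε := lt_min (by positivity) (by norm_num)
  have hε1 : ε ≤ 1 / 2 := min_le_right _ _
  have hεW : ε ≤ 1 / W := min_le_left _ _
  have hθ0 : ∀ q, 0 < θ q := fun q => by linarith [hθ1 q]
  have hθpow0 : ∀ q, 0 < θ q ^ (-(CC k)) := fun q => Real.rpow_pos_of_pos (hθ0 q) _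
  have hθpow1 : ∀ q, θ q ^ (-(CC k)) ≤ 1 := fun q =>
    Real.rpow_le_one_of_one_le_of_nonpos (hθ1 q) (by linarith)
  set m : ℕ → ℝ := fun q => ε * min (ψ q) (θ q ^ (-(CC k))) with hm
  have hmin0 : ∀ q, 0 ≤ min (ψ q) (θ q ^ (-(CC k))) := fun q => le_min (hψ q) (hθpow0 q).le
  have hmin1 : ∀ q, min (ψ q) (θ q ^ (-(CC k))) ≤ 1 := fun q => (min_le_right _ _).trans (hθpow1 q)
  have hm0 : ∀ q, 0 ≤ m q := fun q => mul_nonneg hε0.le (hmin0 q)
  have hmε : ∀ q, m q ≤ ε := fun q => by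
    have := mul_le_mul_of_nonneg_left (hmin1 q) hε0.le
    simpa [hm] using this
  have hmdiv : ¬ Summable m := by
    intro hs
    apply hdiv
    have := hs.mul_left (1 / ε)
    refine this.congr fun q => ?_
    simp only [hm]
    field_simp
  obtain ⟨φ, hφ, hφd, hφdiv⟩ := dyadic_round_general m hm0 (fun q => (hmε q).trans (by linarith)) hmdiv
  have hφ0 : ∀ q, 0 ≤ φ q := fun q => (hφ q).1
  have hφ1 : ∀ q, φ q ≤ 1 / 2 := fun q => ((hφ q).2.trans (hmε q)).trans hε1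
  have hφψ : ∀ q, φ q ≤ ψ q := by
    intro q
    have h1 : m q ≤ min (ψ q) (θ q ^ (-(CC k))) := by
      have := mul_le_mul_of_nonneg_right (hε1.trans (by norm_num : (1:ℝ) / 2 ≤ 1)) (hmin0 q)
      simpa [hm] using this
    exact (hφ q).2.trans (h1.trans (min_le_left _ _))
  have hφθ : ∀ q, φ q ≤ θ q ^ (-(CC k)) := by
    intro q
    have h1 : m q ≤ min (ψ q) (θ q ^ (-(CC k))) := by
      have := mul_le_mul_of_nonneg_right (hε1.trans (by norm_num : (1:ℝ) / 2 ≤ 1)) (hmin0 q)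
      simpa [hm] using this
    exact (hφ q).2.trans (h1.trans (min_le_right _ _))
  -- the divisor condition
  have hdy : ∀ q, 1 ≤ q → φ q ≠ 0 → ∀ M : ℕ, 1 ≤ M → (1 / φ q) ^ cc₁ k ≤ (M:ℝ) → (dy q M : ℝ) ≤ (M:ℝ) ^ cc₃ k := by
    intro q hq hne M hM hle
    apply hθ q M hq hM
    refine le_trans ?_ hle
    have hφpos : 0 < φ q := lt_of_le_of_ne (hφ0 q) (Ne.symm hne)
    have h1 : θ q ^ (CC k) ≤ 1 / φ q := by
      rw [le_div_iff₀ hφpos]
      have h2 := mul_le_mul_of_nonneg_left (hφθ q) (Real.rpow_nonneg (hθ0 q).le (CC k))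
      have h3 : θ q ^ (CC k) * θ q ^ (-(CC k)) = 1 := by
        rw [← Real.rpow_add (hθ0 q)]
        simp
      linarith
    have h4 := Real.rpow_le_rpow (Real.rpow_nonneg (hθ0 q).le (CC k)) h1 hcc1.le
    rw [← Real.rpow_mul (hθ0 q).le, CC_mul k hk, Real.rpow_one] at h4
    exact h4
  have hblocks : ∃ C₁ : ℝ, 0 < C₁ ∧ ∀ Y : ℕ, ∃ F : Finset ℕ, (∀ r ∈ F, Y ≤ r) ∧
      1 ≤ ∑ r ∈ F, ∫ x in (0:ℝ)..1, Phi γ φ r x ∧
      ∑ r ∈ F, ∑ q ∈ F.filter (· < r), ∫ x in (0:ℝ)..1, Phi γ φ q x * Phi γ φ r x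
        ≤ C₁ * (∑ r ∈ F, ∫ x in (0:ℝ)..1, Phi γ φ r x) ^ 2 := by
    refine ⟨772 + C₀, by linarith, fun Y => ?_⟩
    obtain ⟨F, hF, hF1, hF2⟩ := exists_block hφ0 hφ1 hφdiv (max Y 2)
    have hqY : ∀ q ∈ F, Y ≤ q := fun q hq => (le_max_left _ _).trans (hF q hq).1
    have hq2 : ∀ q ∈ F, 2 ≤ q := fun q hq => (le_max_right _ _).trans (hF q hq).1
    have hint : ∑ r ∈ F, ∫ x in (0:ℝ)..1, Phi γ φ r x = ∑ r ∈ F, φ r :=
      Finset.sum_congr rfl fun r hr => integral_phi hφ0 hφ1 (hq2 r hr)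
    refine ⟨F, hqY, ?_, ?_⟩
    · rw [hint]
      exact hF1
    · rw [hint]
      have h1 : ∑ r ∈ F, ∑ q ∈ F.filter (· < r), ∫ x in (0:ℝ)..1, Phi γ φ q x * Phi γ φ r x
          ≤ ∑ r ∈ F, ∑ q ∈ F.filter (· < r), (772 * (φ q * φ r) + pairTerm γ φ q r) :=
        Finset.sum_le_sum fun r hr => Finset.sum_le_sum fun q hq =>
          overlap_le hφ0 hφ1 (hq2 q (Finset.filter_subset _ _ hq)) (hq2 r hr)
      have h2 : ∑ r ∈ F, ∑ q ∈ F.filter (· < r), φ q * φ r ≤ (∑ r ∈ F, φ r) ^ 2 := by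
        calc ∑ r ∈ F, ∑ q ∈ F.filter (· < r), φ q * φ r
            ≤ ∑ r ∈ F, ∑ q ∈ F, φ q * φ r :=
              Finset.sum_le_sum fun r _ => Finset.sum_le_sum_of_subset_of_nonneg (Finset.filter_subset _ _)
                (fun q _ _ => mul_nonneg (hφ0 q) (hφ0 r))
          _ = (∑ r ∈ F, φ r) ^ 2 := by
              rw [sq, Finset.sum_mul_sum, Finset.sum_comm]
      have h3 := hcore F φ (fun q hq => by have := hq2 q hq; omega) (fun q hq => ?_) hF2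
      · have h4 : ∑ r ∈ F, ∑ q ∈ F.filter (· < r), (772 * (φ q * φ r) + pairTerm γ φ q r)
            = 772 * ∑ r ∈ F, ∑ q ∈ F.filter (· < r), φ q * φ r
              + ∑ r ∈ F, ∑ q ∈ F.filter (· < r), pairTerm γ φ q r := by
          simp only [Finset.sum_add_distrib, Finset.mul_sum]
        have h5 : (1:ℝ) ≤ (∑ r ∈ F, φ r) ^ 2 := by nlinarith
        nlinarith
      · have hne := (hF q hq).2
        refine ⟨hφd q hne, ?_, hdy q (by have := hq2 q hq; omega) hne⟩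
        exact ((hφ q).2.trans (hmε q)).trans hεW
  have h := abstract_main (Phi γ φ) phi_lip (fun r x => phi_nonneg r x)
    (fun r hr x => phi_le_one hφ1 hr x) (fun r x => phi_periodic r x)
    (fun L ε hL hε => phi_mix hφ0 hφ1 L ε hL hε) hblocks
  filter_upwards [h] with x hx
  apply (hx.and_eventually (eventually_ge_atTop 1)).mono
  intro q hq
  exact lt_of_lt_of_le (phi_pos_imp hq.2 hq.1) (hφψ q)

/-- Theorem T: power truncation. `θ q = A q^(δ/C)`, `A` from the divisor bound. -/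
theorem main_T {γ c₀ δ : ℝ} {k : ℕ} (hγ : Dio γ c₀ k) (hc₀ : 0 < c₀) (hk : 1 ≤ k) (hδ : 0 < δ)
    (ψ : ℕ → ℝ) (hψ : ∀ q, 0 ≤ ψ q) (hdiv : ¬ Summable fun q : ℕ => min (ψ q) ((q:ℝ) ^ (-δ))) :
    ∀ᵐ x : ℝ, ∃ᶠ q : ℕ in atTop, dn ((q:ℝ) * x - γ) < ψ q := by
  classical
  have hCC : 0 < CC k := by
    have hk0 : (0:ℝ) < k := by exact_mod_cast hk
    unfold CC
    positivity
  have hcc3 : 0 < cc₃ k := by
    have hk0 : (0:ℝ) < k := by exact_mod_cast hk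
    unfold cc₃ cc
    positivity
  set η : ℝ := δ / CC k with hη
  have hη0 : 0 < η := div_pos hδ hCC
  obtain ⟨C, hC, hτ⟩ := tau_le (η * cc₃ k) (mul_pos hη0 hcc3)
  set A : ℝ := max 1 (C ^ (1 / cc₃ k)) with hA
  have hA1 : 1 ≤ A := le_max_left _ _
  have hA0 : 0 < A := by linarith
  have hAC : C ≤ A ^ cc₃ k := by
    have h1 : C ^ (1 / cc₃ k) ≤ A := le_max_right _ _
    have h2 := Real.rpow_le_rpow (Real.rpow_nonneg hC.le _) h1 hcc3.le
    rw [← Real.rpow_mul hC.le, one_div, inv_mul_cancel₀ hcc3.ne', Real.rpow_one] at h2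
    exact h2
  set θ : ℕ → ℝ := fun q => A * (max 1 (q:ℝ)) ^ η with hθdef
  have hmax1 : ∀ q : ℕ, (1:ℝ) ≤ max 1 (q:ℝ) := fun q => le_max_left _ _
  have hθ1 : ∀ q, 1 ≤ θ q := by
    intro q
    have h1 : 1 ≤ (max 1 (q:ℝ)) ^ η := Real.one_le_rpow (hmax1 q) hη0.le
    simp only [hθdef]
    nlinarith
  refine main_T2 hγ hc₀ hk ψ θ hψ hθ1 ?_ ?_
  · intro q M hq hM hle
    have hq1 : (1:ℝ) ≤ q := by exact_mod_cast hq
    have hmaxq : max 1 (q:ℝ) = q := max_eq_right hq1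
    have hdy : dy q M ≤ q.divisors.card := by
      unfold dy
      apply Finset.card_le_card
      intro y hy
      rw [Finset.mem_filter] at hy
      exact Nat.mem_divisors.2 ⟨hy.2, by omega⟩
    have h1 : (dy q M : ℝ) ≤ C * (q:ℝ) ^ (η * cc₃ k) :=
      (by exact_mod_cast hdy : (dy q M : ℝ) ≤ (q.divisors.card : ℝ)).trans (hτ q hq)
    have h2 : A * (q:ℝ) ^ η ≤ (M:ℝ) := by
      simpa [hθdef, hmaxq] using hle
    have h3 : (A * (q:ℝ) ^ η) ^ cc₃ k ≤ (M:ℝ) ^ cc₃ k :=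
      Real.rpow_le_rpow (by positivity) h2 hcc3.le
    have h4 : (A * (q:ℝ) ^ η) ^ cc₃ k = A ^ cc₃ k * (q:ℝ) ^ (η * cc₃ k) := by
      rw [Real.mul_rpow hA0.le (by positivity), ← Real.rpow_mul (by positivity)]
    rw [h4] at h3
    have h5 : C * (q:ℝ) ^ (η * cc₃ k) ≤ A ^ cc₃ k * (q:ℝ) ^ (η * cc₃ k) :=
      mul_le_mul_of_nonneg_right hAC (by positivity)
    linarith
  · intro hs
    apply hdiv
    have hApow : 0 < A ^ (-(CC k)) := Real.rpow_pos_of_pos hA0 _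
    have hApow1 : A ^ (-(CC k)) ≤ 1 := Real.rpow_le_one_of_one_le_of_nonpos hA1 (by linarith)
    have hs2 := hs.mul_left (1 / A ^ (-(CC k)))
    refine Summable.of_nonneg_of_le (fun q => le_min (hψ q) (Real.rpow_nonneg (Nat.cast_nonneg q) _)) (fun q => ?_) hs2
    rw [one_div, ← div_eq_inv_mul, le_div_iff₀ hApow]
    rcases Nat.eq_zero_or_pos q with rfl | hq
    · have h0 : ((0:ℕ):ℝ) ^ (-δ) = 0 := by
        rw [Nat.cast_zero, Real.zero_rpow (by linarith)]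
      rw [h0, min_eq_right (hψ 0), zero_mul]
      exact le_min (hψ 0) (by positivity)
    · have hq1 : (1:ℝ) ≤ q := by exact_mod_cast hq
      have hmaxq : max 1 (q:ℝ) = q := max_eq_right hq1
      have hθq : θ q ^ (-(CC k)) = A ^ (-(CC k)) * (q:ℝ) ^ (-δ) := by
        simp only [hθdef, hmaxq]
        rw [Real.mul_rpow hA0.le (by positivity), ← Real.rpow_mul (by positivity)]
        congr 2
        rw [hη]
        field_simp
      rw [hθq]
      have h6 : 0 ≤ (q:ℝ) ^ (-δ) := by positivity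
      refine le_min ?_ ?_
      · calc min (ψ q) ((q:ℝ) ^ (-δ)) * A ^ (-(CC k)) ≤ ψ q * 1 :=
              mul_le_mul (min_le_left _ _) hApow1 hApow.le (hψ q)
          _ = ψ q := mul_one _
      · calc min (ψ q) ((q:ℝ) ^ (-δ)) * A ^ (-(CC k)) ≤ (q:ℝ) ^ (-δ) * A ^ (-(CC k)) :=
              mul_le_mul_of_nonneg_right (min_le_right _ _) hApow.le
          _ = A ^ (-(CC k)) * (q:ℝ) ^ (-δ) := mul_comm _ _

end Vale.Agent.Lib.P028T
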