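import Vale.Agent.Lib.P028T.OneSided
import Vale.Agent.Lib.P028T.Tau

/-! The gate: blueprint section 11. -/

open Finset

namespace Vale.Agent.Lib.P028T

open Vale.Agent.Lib.P028

private lemma dn_neg_aux (t : ℝ) : dn (-t) = dn t := by
  apply le_antisymm
  · have h := dn_le_abs_sub (-t) (-(round t))
    have h2 : |(-t) - ((-(round t) : ℤ) : ℝ)| = dn t := by
      unfold dn
      push_cast
      rw [← abs_neg]
      congr 1
      ring
    rw [h2] at h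
    exact h
  · have h := dn_le_abs_sub t (-(round (-t)))
    have h2 : |t - ((-(round (-t)) : ℤ) : ℝ)| = dn (-t) := by
      unfold dn
      push_cast
      rw [← abs_neg]
      congr 1
      ring
    rw [h2] at h
    exact h

/-- The gate: a nonzero count forces `min(N₁,N₂)` small in terms of `M₂`. -/
theorem gate {γ c₀ : ℝ} {k : ℕ} (hγ : Dio γ c₀ k) (hc₀ : 0 < c₀) (hk : 1 ≤ k)
    {p : Par} (hp : p.Good) {S₁ S₂ : Finset ℕ}
    (hS₁ : ∀ q ∈ S₁, p.Q₁ ≤ q ∧ q < 2 * p.Q₁) (hS₂ : ∀ r ∈ S₂, p.Q₂ ≤ r ∧ r < 2 * p.Q₂)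
    (h : Off γ p.D p.w (Finset.Ico p.E (2 * p.E)) S₁ S₂ ≠ 0) :
    p.u ≤ 2 * p.M₂ ∧ min p.N₁ p.N₂ * c₀ ≤ 2 * (2 * p.M₂) ^ (k + 1) := by
  have hE1 : (1:ℝ) ≤ p.E := by exact_mod_cast hp.E_pos
  have hEpos : (0:ℝ) < p.E := by linarith
  have hQ1R : (1:ℝ) ≤ p.Q₁ := by exact_mod_cast hp.Q₁_pos
  have hQ1pos : (0:ℝ) < p.Q₁ := by linarith
  have hQ12R : (p.Q₁:ℝ) ≤ p.Q₂ := by exact_mod_cast hp.Q_le
  have hQ2pos : (0:ℝ) < p.Q₂ := by linarith
  have hN1pos := hp.N₁_pos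
  have hN2pos := hp.N₂_pos
  -- extract a pair
  have hne : (((S₁ ×ˢ S₂).filter fun z : ℕ × ℕ => Nat.gcd z.1 z.2 ∈ Finset.Ico p.E (2 * p.E) ∧ z.1 ≠ z.2 ∧
      dn ((((z.2 / Nat.gcd z.1 z.2 : ℕ) : ℝ) - ((z.1 / Nat.gcd z.1 z.2 : ℕ) : ℝ)) * γ) < p.D)).Nonempty := by
    by_contra hcon
    rw [Finset.not_nonempty_iff_eq_empty] at hcon
    apply h
    unfold Off
    rw [hcon]
    simp
  obtain ⟨⟨q, r⟩, hz⟩ := hne
  simp only [Finset.mem_filter, Finset.mem_product, Finset.mem_Ico] at hz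
  obtain ⟨⟨hq, hr⟩, ⟨hg1, hg2⟩, hqr, hdn⟩ := hz
  set g := Nat.gcd q r with hg
  have hgpos : 0 < g := lt_of_lt_of_le hp.E_pos hg1
  have hgq : g ∣ q := Nat.gcd_dvd_left q r
  have hgr : g ∣ r := Nat.gcd_dvd_right q r
  obtain ⟨hq1, hq2⟩ := hS₁ q hq
  obtain ⟨hr1, hr2⟩ := hS₂ r hr
  have hqpos : 0 < q := lt_of_lt_of_le hp.Q₁_pos hq1
  have hgleq : g ≤ q := Nat.le_of_dvd hqpos hgq
  have hElt : (p.E:ℝ) < 2 * p.Q₁ := by
    have : p.E < 2 * p.Q₁ := by omega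
    exact_mod_cast this
  -- u ≤ 2 M₂
  have hu : p.u ≤ 2 * p.M₂ := by
    unfold Par.u Par.M₂
    rw [div_le_iff₀ hQ1pos, mul_assoc, div_mul_eq_mul_div, ← mul_div_assoc, le_div_iff₀ hEpos]
    have : (p.Q₂:ℝ) * (p.E:ℝ) ≤ (p.Q₂:ℝ) * (2 * (p.Q₁:ℝ)) := mul_le_mul_of_nonneg_left hElt.le hQ2pos.le
    nlinarith
  have hM1M2 : p.M₁ ≤ p.M₂ := by
    unfold Par.M₁ Par.M₂
    exact div_le_div_of_nonneg_right hQ12R hEpos.le
  refine ⟨hu, ?_⟩
  -- the quotients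
  obtain ⟨q', hq'⟩ := hgq
  obtain ⟨r', hr'⟩ := hgr
  have hqdiv : q / g = q' := by rw [hq']; exact Nat.mul_div_cancel_left _ hgpos
  have hrdiv : r / g = r' := by rw [hr']; exact Nat.mul_div_cancel_left _ hgpos
  rw [hqdiv, hrdiv] at hdn
  have hq'ne : q' ≠ r' := by
    intro hh
    apply hqr
    rw [hq', hr', hh]
  have hEg : (p.E:ℝ) ≤ g := by exact_mod_cast hg1
  have hq'lt : (q':ℝ) < 2 * p.M₁ := by
    unfold Par.M₁
    rw [← mul_div_assoc, lt_div_iff₀ hEpos]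
    have h1 : (q:ℝ) = g * q' := by rw [hq']; push_cast; ring
    have h2 : (q:ℝ) < 2 * p.Q₁ := by exact_mod_cast hq2
    have h3 : (q':ℝ) * p.E ≤ q' * g := mul_le_mul_of_nonneg_left hEg (Nat.cast_nonneg _)
    nlinarith
  have hr'lt : (r':ℝ) < 2 * p.M₂ := by
    unfold Par.M₂
    rw [← mul_div_assoc, lt_div_iff₀ hEpos]
    have h1 : (r:ℝ) = g * r' := by rw [hr']; push_cast; ring
    have h2 : (r:ℝ) < 2 * p.Q₂ := by exact_mod_cast hr2
    have h3 : (r':ℝ) * p.E ≤ r' * g := mul_le_mul_of_nonneg_left hEg (Nat.cast_nonneg _)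
    nlinarith
  -- the difference
  obtain ⟨n, hn1, hnlt, hndn⟩ : ∃ n : ℕ, 1 ≤ n ∧ (n:ℝ) < 2 * p.M₂ ∧ dn ((n:ℝ) * γ) < p.D := by
    rcases lt_or_gt_of_ne hq'ne with hlt | hgt
    · refine ⟨r' - q', by omega, ?_, ?_⟩
      · rw [Nat.cast_sub hlt.le]
        have : (0:ℝ) ≤ q' := Nat.cast_nonneg _
        linarith
      · rw [Nat.cast_sub hlt.le]
        exact hdn
    · refine ⟨q' - r', by omega, ?_, ?_⟩
      · rw [Nat.cast_sub hgt.le]
        have : (0:ℝ) ≤ r' := Nat.cast_nonneg _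
        linarith
      · rw [Nat.cast_sub hgt.le, ← dn_neg_aux]
        have : -(((q':ℝ) - r') * γ) = ((r':ℝ) - q') * γ := by ring
        rw [this]
        exact hdn
  have hnR : (1:ℝ) ≤ n := by exact_mod_cast hn1
  set Y : ℝ := 2 * p.M₂ with hY
  have hY1 : 1 ≤ Y := by linarith
  have hYpos : 0 < Y := by linarith
  have hDio := hγ n hn1
  -- c₀ / Y^k < D
  have hc : c₀ < p.D * Y ^ k := by
    have h1 : c₀ / (n:ℝ) ^ k < p.D := lt_of_le_of_lt hDio hndn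
    have h2 : (n:ℝ) ^ k ≤ Y ^ k := pow_le_pow_left₀ (by linarith) hnlt.le _
    have h3 : (0:ℝ) < (n:ℝ) ^ k := by positivity
    rw [div_lt_iff₀ h3] at h1
    have hDpos : 0 < p.D := by
      have h4 : 0 < c₀ / (n:ℝ) ^ k := by positivity
      have h5 := lt_of_le_of_lt hDio hndn
      linarith
    calc c₀ < p.D * (n:ℝ) ^ k := h1
      _ ≤ p.D * Y ^ k := mul_le_mul_of_nonneg_left h2 hDpos.le
  have hYk : 0 < Y ^ k := by positivity
  have hminpos : 0 < min p.N₁ p.N₂ := lt_min hN1pos hN2pos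
  have hDle : p.D ≤ 2 * Y / min p.N₁ p.N₂ := by
    unfold Par.D
    have h2 : 2 * Y / min p.N₁ p.N₂ = 4 * (p.M₂ / min p.N₁ p.N₂) := by rw [hY]; ring
    rw [h2]
    apply mul_le_mul_of_nonneg_left _ (by norm_num)
    apply max_le
    · exact div_le_div_of_nonneg_left (by linarith) hminpos (min_le_left _ _)
    · calc p.M₁ / p.N₂ ≤ p.M₂ / p.N₂ := div_le_div_of_nonneg_right hM1M2 hN2pos.le
        _ ≤ p.M₂ / min p.N₁ p.N₂ := div_le_div_of_nonneg_left (by linarith) hminpos (min_le_right _ _)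
  have h3 : c₀ ≤ 2 * Y / min p.N₁ p.N₂ * Y ^ k := le_trans hc.le (mul_le_mul_of_nonneg_right hDle hYk.le)
  have h4 : 2 * Y / min p.N₁ p.N₂ * Y ^ k = 2 * Y ^ (k + 1) / min p.N₁ p.N₂ := by rw [pow_succ]; ring
  rw [h4, le_div_iff₀ hminpos] at h3
  linarith

/-- The block of the chosen side: `N_σ ≤ (2/c₀) (2 M₂)^(k+2)`. -/
theorem N_side {c₀ : ℝ} {k : ℕ} (hc₀ : 0 < c₀) {p : Par} (hp : p.Good) (hu : p.u ≤ 2 * p.M₂)
    (hmin : min p.N₁ p.N₂ * c₀ ≤ 2 * (2 * p.M₂) ^ (k + 1)) :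
    (p.two → p.N₂ ≤ (2 / c₀) * (2 * p.M₂) ^ (k + 2)) ∧ (¬ p.two → p.N₁ ≤ (2 / c₀) * (2 * p.M₂) ^ (k + 2)) := by
  have hu1 := Par.u_ge_one hp
  have hN1pos := hp.N₁_pos
  have hN2pos := hp.N₂_pos
  set Y : ℝ := 2 * p.M₂ with hY
  have hY1 : 1 ≤ Y := by linarith
  have hYpos : 0 < Y := by linarith
  have hmin' : min p.N₁ p.N₂ ≤ (2 / c₀) * Y ^ (k + 1) := by
    have h : (2 / c₀) * Y ^ (k + 1) = (2 * Y ^ (k + 1)) / c₀ := by ring
    rw [h, le_div_iff₀ hc₀]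
    exact hmin
  have hstep : (2 / c₀) * Y ^ (k + 1) ≤ (2 / c₀) * Y ^ (k + 2) :=
    mul_le_mul_of_nonneg_left (pow_le_pow_right₀ hY1 (by omega)) (by positivity)
  have hmin'' : min p.N₁ p.N₂ ≤ (2 / c₀) * Y ^ (k + 2) := le_trans hmin' hstep
  have hvdef : p.v = p.u * p.N₂ / p.N₁ := rfl
  constructor
  · intro htwo
    rcases le_or_gt p.N₂ p.N₁ with hle | hgt
    · rw [min_eq_right hle] at hmin''
      exact hmin''
    · -- `N₁ < N₂` so `v ≥ u ≥ 1` and the second alternative holds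
      have hv1 : 1 ≤ p.v := by
        rw [hvdef, le_div_iff₀ hN1pos]
        nlinarith
      have hs : Real.sqrt p.v ≤ p.u := by
        rcases htwo with h | h
        · linarith
        · exact h
      have hv2 : p.v ≤ p.u ^ 2 := (Real.sqrt_le_iff.1 hs).2
      have h2 : p.N₂ ≤ p.u * p.N₁ := by
        rw [hvdef, div_le_iff₀ hN1pos] at hv2
        have hupos : 0 < p.u := by linarith
        have : p.u * p.N₂ ≤ p.u * (p.u * p.N₁) := by nlinarith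
        exact le_of_mul_le_mul_left this hupos
      rw [min_eq_left hgt.le] at hmin'
      have h3 : p.u * p.N₁ ≤ Y * ((2 / c₀) * Y ^ (k + 1)) := mul_le_mul hu hmin' hN1pos.le hYpos.le
      have h4 : Y * ((2 / c₀) * Y ^ (k + 1)) = (2 / c₀) * Y ^ (k + 2) := by
        rw [pow_succ Y (k + 1)]; ring
      linarith
  · intro htwo
    unfold Par.two at htwo
    push Not at htwo
    obtain ⟨hv1, hs⟩ := htwo
    have hu2 : p.u ^ 2 < p.v := (Real.lt_sqrt (by linarith)).1 hs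
    have hle : p.N₁ ≤ p.N₂ := by
      have h2 : p.u < p.v := by nlinarith
      rw [hvdef, lt_div_iff₀ hN1pos] at h2
      have hupos : 0 < p.u := by linarith
      exact le_of_lt (lt_of_mul_lt_mul_left h2 hupos.le)
    rw [min_eq_left hle] at hmin''
    exact hmin''

/-- Both blocks when `Υ < M₂^(32 c)`: `max(N₁,N₂) ≤ min(N₁,N₂) Υ³`. -/
theorem N_both {c₀ : ℝ} {k : ℕ} (hc₀ : 0 < c₀) (hk : 1 ≤ k) {p : Par} (hp : p.Good) (hM : 1 ≤ p.M₂)
    (hmin : min p.N₁ p.N₂ * c₀ ≤ 2 * (2 * p.M₂) ^ (k + 1)) (hUps : p.Ups < p.M₂ ^ (32 * cc k)) :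
    p.N₁ ≤ (2 / c₀) * (2 * p.M₂) ^ (k + 2) ∧ p.N₂ ≤ (2 / c₀) * (2 * p.M₂) ^ (k + 2) := by
  have hu1 := Par.u_ge_one hp
  have hUps1 := Par.Ups_ge_one hp
  have huUps := Par.u_le_Ups hp
  have hN1pos := hp.N₁_pos
  have hN2pos := hp.N₂_pos
  have hkR : (1:ℝ) ≤ k := by exact_mod_cast hk
  have hUpos : 0 < p.Ups := by linarith
  set Y : ℝ := 2 * p.M₂ with hY
  have hY1 : 1 ≤ Y := by linarith
  have hYpos : 0 < Y := by linarith
  have hmin' : min p.N₁ p.N₂ ≤ (2 / c₀) * Y ^ (k + 1) := by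
    have h : (2 / c₀) * Y ^ (k + 1) = (2 * Y ^ (k + 1)) / c₀ := by ring
    rw [h, le_div_iff₀ hc₀]
    exact hmin
  -- `Υ³ ≤ M₂ ≤ Y`
  have hU3 : p.Ups ^ 3 ≤ Y := by
    have h1 : p.Ups ^ 3 ≤ (p.M₂ ^ (32 * cc k)) ^ 3 := pow_le_pow_left₀ hUpos.le hUps.le 3
    have h2 : (p.M₂ ^ (32 * cc k)) ^ 3 = p.M₂ ^ (96 * cc k) := by
      rw [← Real.rpow_natCast, ← Real.rpow_mul (by linarith)]
      congr 1
      push_cast
      ring
    have h3 : 96 * cc k ≤ 1 := by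
      unfold cc
      rw [mul_one_div, div_le_one (by positivity)]
      linarith
    have h4 : p.M₂ ^ (96 * cc k) ≤ p.M₂ ^ (1:ℝ) := Real.rpow_le_rpow_of_exponent_le hM h3
    rw [Real.rpow_one] at h4
    rw [h2] at h1
    linarith
  -- `v` and `1/v`
  have hvpos : 0 < p.v := by
    unfold Par.v
    have hupos : 0 < p.u := by linarith
    positivity
  have hsq : Real.sqrt (max p.v p.v⁻¹) ≤ p.Ups := le_max_right _ _
  have hsq2 : max p.v p.v⁻¹ ≤ p.Ups ^ 2 := (Real.sqrt_le_iff.1 hsq).2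
  have hv2 : p.v ≤ p.Ups ^ 2 := le_trans (le_max_left _ _) hsq2
  have hvi2 : p.v⁻¹ ≤ p.Ups ^ 2 := le_trans (le_max_right _ _) hsq2
  have hvdef : p.v = p.u * p.N₂ / p.N₁ := rfl
  have hU23 : p.Ups ^ 2 ≤ p.Ups ^ 3 := pow_le_pow_right₀ hUps1 (by norm_num)
  -- `N₂ ≤ Υ³ N₁`
  have hA : p.N₂ ≤ p.Ups ^ 3 * p.N₁ := by
    have h1 : p.u * p.N₂ / p.N₁ ≤ p.Ups ^ 2 := by rw [← hvdef]; exact hv2
    rw [div_le_iff₀ hN1pos] at h1
    have h2 : p.N₂ ≤ p.u * p.N₂ := by nlinarith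
    have h3 : p.Ups ^ 2 * p.N₁ ≤ p.Ups ^ 3 * p.N₁ := mul_le_mul_of_nonneg_right hU23 hN1pos.le
    linarith
  -- `N₁ ≤ Υ³ N₂`
  have hB : p.N₁ ≤ p.Ups ^ 3 * p.N₂ := by
    have hvi : p.v⁻¹ = p.N₁ / (p.u * p.N₂) := by
      rw [hvdef, inv_div]
    have hupos : 0 < p.u := by linarith
    rw [hvi, div_le_iff₀ (by positivity)] at hvi2
    have h2 : p.Ups ^ 2 * (p.u * p.N₂) ≤ p.Ups ^ 2 * (p.Ups * p.N₂) := by
      apply mul_le_mul_of_nonneg_left _ (by positivity)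
      exact mul_le_mul_of_nonneg_right huUps hN2pos.le
    have h3 : p.Ups ^ 2 * (p.Ups * p.N₂) = p.Ups ^ 3 * p.N₂ := by ring
    linarith
  have hminpos : 0 < min p.N₁ p.N₂ := lt_min hN1pos hN2pos
  have hU3pos : 0 < p.Ups ^ 3 := by positivity
  have hfinal : p.Ups ^ 3 * min p.N₁ p.N₂ ≤ (2 / c₀) * Y ^ (k + 2) := by
    have h3 : p.Ups ^ 3 * min p.N₁ p.N₂ ≤ Y * ((2 / c₀) * Y ^ (k + 1)) :=
      mul_le_mul hU3 hmin' hminpos.le hYpos.le
    have h4 : Y * ((2 / c₀) * Y ^ (k + 1)) = (2 / c₀) * Y ^ (k + 2) := by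
      rw [pow_succ Y (k + 1)]; ring
    linarith
  have hN1 : p.N₁ ≤ p.Ups ^ 3 * min p.N₁ p.N₂ := by
    rcases le_total p.N₁ p.N₂ with h | h
    · rw [min_eq_left h]
      have : (1:ℝ) ≤ p.Ups ^ 3 := one_le_pow₀ hUps1
      nlinarith
    · rw [min_eq_right h]
      exact hB
  have hN2 : p.N₂ ≤ p.Ups ^ 3 * min p.N₁ p.N₂ := by
    rcases le_total p.N₁ p.N₂ with h | h
    · rw [min_eq_left h]
      exact hA
    · rw [min_eq_right h]
      have : (1:ℝ) ≤ p.Ups ^ 3 := one_le_pow₀ hUps1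
      nlinarith
  exact ⟨le_trans hN1 hfinal, le_trans hN2 hfinal⟩

/-- The multiplicity from the concentration hypothesis: `d ↦ x/d` maps into `[M', 4M')`, `M' = ⌈Q/(2E)⌉`. -/
theorem dyadic_T {x E Q : ℕ} (hE : 1 ≤ E) (hQ : 1 ≤ Q) (hx : Q ≤ x ∧ x < 2 * Q) {N c₁ c₃ : ℝ} (hc₃ : 0 ≤ c₃) (hc₁ : 0 ≤ c₁) (hN0 : 0 < N)
    (hN : ∀ M : ℕ, 1 ≤ M → N ^ c₁ ≤ (M:ℝ) → (dy x M : ℝ) ≤ (M:ℝ) ^ c₃) :
    (TT (Finset.Ico E (2 * E)) x : ℝ) ≤ max (2 * (2 * ((Q:ℝ) / E) + 2) ^ c₃) (3 * N ^ c₁) := by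
  have hER : (1:ℝ) ≤ E := by exact_mod_cast hE
  have hEpos : (0:ℝ) < E := by linarith
  have hQR : (1:ℝ) ≤ Q := by exact_mod_cast hQ
  have hxpos : 0 < x := by omega
  set M' : ℕ := ⌈(Q:ℝ) / (2 * E)⌉₊ with hM'
  have haux : (0:ℝ) < (Q:ℝ) / (2 * E) := by positivity
  have hM'1 : 1 ≤ M' := Nat.ceil_pos.2 haux
  have hM'le : (Q:ℝ) / (2 * E) ≤ M' := Nat.le_ceil _
  have hM'ub : (M':ℝ) < (Q:ℝ) / (2 * E) + 1 := Nat.ceil_lt_add_one haux.le
  -- the injection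
  have hcard : TT (Finset.Ico E (2 * E)) x ≤ dy x M' + dy x (2 * M') := by
    unfold TT dy
    have hsub : ∀ d ∈ (Finset.Ico E (2 * E)).filter (· ∣ x),
        x / d ∈ ((Finset.Ico M' (2 * M')).filter (· ∣ x)) ∪ ((Finset.Ico (2 * M') (2 * (2 * M'))).filter (· ∣ x)) := by
      intro d hd
      rw [Finset.mem_filter, Finset.mem_Ico] at hd
      obtain ⟨⟨hd1, hd2⟩, hdx⟩ := hd
      obtain ⟨y, hy⟩ := hdx
      have hdpos : 0 < d := by omega
      have hdiv : x / d = y := by rw [hy]; exact Nat.mul_div_cancel_left _ hdpos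
      rw [hdiv]
      have hyx : y ∣ x := ⟨d, by rw [hy]; ring⟩
      have hd1R : (E:ℝ) ≤ d := by exact_mod_cast hd1
      have hd2R : (d:ℝ) < 2 * E := by exact_mod_cast hd2
      have hxR : (x:ℝ) = d * y := by rw [hy]; push_cast; ring
      have hx1R : (Q:ℝ) ≤ x := by exact_mod_cast hx.1
      have hx2R : (x:ℝ) < 2 * Q := by exact_mod_cast hx.2
      have hy0 : (0:ℝ) ≤ y := Nat.cast_nonneg _
      have hlow : M' ≤ y := by
        apply Nat.ceil_le.2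
        rw [div_le_iff₀ (by positivity)]
        nlinarith
      have hupp : y < 2 * (2 * M') := by
        have h1 : (y:ℝ) * E < 2 * Q := by nlinarith
        have h2 : (Q:ℝ) ≤ M' * (2 * E) := by
          rwa [div_le_iff₀ (by positivity)] at hM'le
        have h3 : (y:ℝ) < 2 * (2 * M') := by
          have h4 : (y:ℝ) * E < (2 * (2 * M')) * E := by nlinarith
          exact lt_of_mul_lt_mul_right h4 hEpos.le
        exact_mod_cast h3
      rw [Finset.mem_union, Finset.mem_filter, Finset.mem_filter, Finset.mem_Ico, Finset.mem_Ico]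
      by_cases hc : y < 2 * M'
      · exact Or.inl ⟨⟨hlow, hc⟩, hyx⟩
      · exact Or.inr ⟨⟨by omega, hupp⟩, hyx⟩
    have hinj : Set.InjOn (fun d => x / d) ((Finset.Ico E (2 * E)).filter (· ∣ x) : Finset ℕ) := by
      intro d₁ hd₁ d₂ hd₂ he
      simp only [Finset.coe_filter, Finset.mem_Ico, Set.mem_ofPred_eq] at hd₁ hd₂
      simp only at he
      have h1 := Nat.mul_div_cancel' hd₁.2
      have h2 := Nat.mul_div_cancel' hd₂.2
      have hy0 : 0 < x / d₁ := by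
        rcases Nat.eq_zero_or_pos (x / d₁) with h | h
        · rw [h] at h1; omega
        · exact h
      have h3 : d₁ * (x / d₁) = d₂ * (x / d₁) := by
        rw [h1]; rw [he]; exact h2.symm
      exact Nat.eq_of_mul_eq_mul_right hy0 h3
    have h1 := Finset.card_le_card_of_injOn (fun d => x / d) (fun d hd => hsub d hd) hinj
    exact le_trans h1 (Finset.card_union_le _ _)
  have hcardR : (TT (Finset.Ico E (2 * E)) x : ℝ) ≤ (dy x M' : ℝ) + (dy x (2 * M') : ℝ) := by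
    exact_mod_cast hcard
  have hM'pos : (1:ℝ) ≤ M' := by exact_mod_cast hM'1
  by_cases hcase : N ^ c₁ ≤ (M':ℝ)
  · apply le_trans _ (le_max_left _ _)
    have h1 := hN M' hM'1 hcase
    have h2 := hN (2 * M') (by omega) (by push_cast; linarith)
    have hbase : (2:ℝ) * M' ≤ 2 * ((Q:ℝ) / E) + 2 := by
      have h3 : (Q:ℝ) / (2 * E) = ((Q:ℝ) / E) / 2 := by field_simp
      have h4 : (0:ℝ) < (Q:ℝ) / E := by positivity
      rw [h3] at hM'ub
      linarith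
    have h3 : (M':ℝ) ^ c₃ ≤ (2 * ((Q:ℝ) / E) + 2) ^ c₃ :=
      Real.rpow_le_rpow (by linarith) (by linarith) hc₃
    have h4 : (((2 * M' : ℕ)):ℝ) ^ c₃ ≤ (2 * ((Q:ℝ) / E) + 2) ^ c₃ := by
      push_cast
      exact Real.rpow_le_rpow (by linarith) hbase hc₃
    linarith
  · push Not at hcase
    apply le_trans _ (le_max_right _ _)
    have h1 : dy x M' ≤ M' := by
      unfold dy
      refine le_trans (Finset.card_filter_le _ _) ?_
      simp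
      omega
    have h2 : dy x (2 * M') ≤ 2 * M' := by
      unfold dy
      refine le_trans (Finset.card_filter_le _ _) ?_
      simp
      omega
    have h1R : (dy x M' : ℝ) ≤ M' := by exact_mod_cast h1
    have h2R : (dy x (2 * M') : ℝ) ≤ 2 * M' := by exact_mod_cast h2
    linarith

/-- Numerics: the multiplicity is at most `M₂^c`, and the divisor bound for `y < 2 M₂`. -/
theorem gate_num {c₀ : ℝ} {k : ℕ} (hc₀ : 0 < c₀) (hk : 1 ≤ k) :
    ∃ M₀ : ℝ, 1 ≤ M₀ ∧ ∀ {M₂ : ℝ}, M₀ ≤ M₂ →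
      (∀ M N : ℝ, 0 ≤ M → M ≤ M₂ → 0 < N → N ≤ (2 / c₀) * (2 * M₂) ^ (k + 2) →
        max (2 * (2 * M + 2) ^ cc₃ k) (3 * N ^ cc₁ k) ≤ M₂ ^ cc k) ∧
      (∀ y : ℕ, 1 ≤ y → (y:ℝ) < 2 * M₂ → (y.divisors.card : ℝ) ≤ M₂ ^ cc k) := by
  have hkR : (1:ℝ) ≤ k := by exact_mod_cast hk
  set c : ℝ := cc k with hc
  have hcpos : 0 < c := by rw [hc]; unfold cc; positivity
  have hc3 : cc₃ k = c / 2 := rfl
  set e : ℝ := c / 2 with he
  have hepos : 0 < e := by rw [he]; positivity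
  set c1 : ℝ := cc₁ k with hc1
  have hc1pos : 0 < c1 := by
    rw [hc1]; unfold cc₁; rw [← hc]; positivity
  obtain ⟨C, hC1, hC⟩ := tau_le e hepos
  set A₁ : ℝ := 2 * 4 ^ e with hA₁
  set A₂ : ℝ := 3 * (2 / c₀) ^ c1 * 2 ^ e with hA₂
  set A₃ : ℝ := C * 2 ^ e with hA₃
  set A : ℝ := max 1 (max A₁ (max A₂ A₃)) with hA
  have hA1 : 1 ≤ A := le_max_left _ _
  have hAA₁ : A₁ ≤ A := le_trans (le_max_left _ _) (le_max_right _ _)
  have hAA₂ : A₂ ≤ A := le_trans (le_trans (le_max_left _ _) (le_max_right _ _)) (le_max_right _ _)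
  have hAA₃ : A₃ ≤ A := le_trans (le_trans (le_max_right _ _) (le_max_right _ _)) (le_max_right _ _)
  refine ⟨max 1 (A ^ (1 / e)), le_max_left _ _, ?_⟩
  intro M₂ hM₂
  have hM1 : 1 ≤ M₂ := le_trans (le_max_left _ _) hM₂
  have hMpos : 0 < M₂ := by linarith
  have hMA : A ^ (1 / e) ≤ M₂ := le_trans (le_max_right _ _) hM₂
  have hAle : A ≤ M₂ ^ e := by
    have h2 : (A ^ (1 / e)) ^ e ≤ M₂ ^ e := Real.rpow_le_rpow (by positivity) hMA hepos.le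
    rw [← Real.rpow_mul (by linarith), one_div, inv_mul_cancel₀ hepos.ne', Real.rpow_one] at h2
    exact h2
  have hMc : M₂ ^ c = M₂ ^ e * M₂ ^ e := by
    rw [← Real.rpow_add hMpos]
    congr 1
    rw [he]; ring
  have hMe : 0 < M₂ ^ e := by positivity
  have hmain : ∀ X : ℝ, X ≤ A → X * M₂ ^ e ≤ M₂ ^ c := by
    intro X hX
    rw [hMc]
    exact mul_le_mul_of_nonneg_right (le_trans hX hAle) hMe.le
  constructor
  · intro M N hM0 hMM hN0 hNle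
    apply max_le
    · rw [hc3]
      have h1 : (2 * M + 2) ^ e ≤ (4 * M₂) ^ e :=
        Real.rpow_le_rpow (by linarith) (by linarith) hepos.le
      have h2 : (4 * M₂) ^ e = 4 ^ e * M₂ ^ e := Real.mul_rpow (by norm_num) hMpos.le
      have h3 := hmain A₁ hAA₁
      rw [hA₁] at h3
      have h4 : 2 * (2 * M + 2) ^ e ≤ 2 * (4 ^ e * M₂ ^ e) := by
        rw [← h2]; linarith
      have h5 : 2 * (4 ^ e * M₂ ^ e) = 2 * 4 ^ e * M₂ ^ e := by ring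
      linarith
    · have h0 : (2 * M₂) ≥ 0 := by linarith
      have h1 : N ^ c1 ≤ ((2 / c₀) * (2 * M₂) ^ (k + 2)) ^ c1 :=
        Real.rpow_le_rpow hN0.le hNle hc1pos.le
      have h2 : ((2 / c₀) * (2 * M₂) ^ (k + 2)) ^ c1 = (2 / c₀) ^ c1 * ((2 * M₂) ^ (k + 2)) ^ c1 :=
        Real.mul_rpow (by positivity) (by positivity)
      have h3 : ((2 * M₂) ^ (k + 2)) ^ c1 = (2 * M₂) ^ e := by
        rw [← Real.rpow_natCast, ← Real.rpow_mul h0]
        congr 1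
        rw [hc1, he, hc]
        unfold cc₁
        push_cast
        field_simp
      have h4 : (2 * M₂) ^ e = 2 ^ e * M₂ ^ e := Real.mul_rpow (by norm_num) hMpos.le
      have h5 := hmain A₂ hAA₂
      rw [hA₂] at h5
      have h6 : 3 * N ^ c1 ≤ 3 * ((2 / c₀) ^ c1 * (2 ^ e * M₂ ^ e)) := by
        rw [h2, h3, h4] at h1
        linarith
      have h7 : 3 * ((2 / c₀) ^ c1 * (2 ^ e * M₂ ^ e)) = 3 * (2 / c₀) ^ c1 * 2 ^ e * M₂ ^ e := by ring
      linarith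
  · intro y hy hylt
    have h1 := hC y hy
    have hy0 : (0:ℝ) ≤ y := Nat.cast_nonneg _
    have h2 : (y:ℝ) ^ e ≤ (2 * M₂) ^ e := Real.rpow_le_rpow hy0 hylt.le hepos.le
    have h3 : (2 * M₂) ^ e = 2 ^ e * M₂ ^ e := Real.mul_rpow (by norm_num) hMpos.le
    have h4 := hmain A₃ hAA₃
    rw [hA₃] at h4
    have h5 : C * (y:ℝ) ^ e ≤ C * (2 ^ e * M₂ ^ e) := by
      apply mul_le_mul_of_nonneg_left _ (by linarith)
      rw [← h3]; exact h2
    have h6 : C * (2 ^ e * M₂ ^ e) = C * 2 ^ e * M₂ ^ e := by ring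
    linarith

end Vale.Agent.Lib.P028T
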