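import Vale.Agent.Lib.P028T.Defs

/-! Module Geom: blueprint section 4, additive characters, geometric sums, Fejer kernel. -/

open Finset Complex

namespace Vale.Agent.Lib.P028T

open Vale.Agent.Lib.P028

/-- The additive character. -/
noncomputable def ee (t : ℝ) : ℂ := Complex.exp (2 * Real.pi * t * Complex.I)

lemma ee_add (s t : ℝ) : ee (s + t) = ee s * ee t := by
  unfold ee
  rw [← Complex.exp_add]
  congr 1
  push_cast
  ring

lemma norm_ee (t : ℝ) : ‖ee t‖ = 1 := by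
  unfold ee
  have : (2 * (Real.pi : ℂ) * (t : ℂ) * Complex.I) = ((2 * Real.pi * t : ℝ) : ℂ) * Complex.I := by
    push_cast
    ring
  rw [this, Complex.norm_exp_ofReal_mul_I]

lemma ee_zero : ee 0 = 1 := by
  simp [ee]

lemma ee_int (z : ℤ) : ee (z : ℝ) = 1 := by
  unfold ee
  have : (2 * (Real.pi : ℂ) * ((z : ℝ) : ℂ) * Complex.I) = (z : ℂ) * (2 * Real.pi * Complex.I) := by
    push_cast
    ring
  rw [this, Complex.exp_int_mul_two_pi_mul_I]

lemma ee_neg (t : ℝ) : ee (-t) = (starRingEnd ℂ) (ee t) := by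
  unfold ee
  rw [← Complex.exp_conj]
  congr 1
  simp only [map_mul, Complex.conj_ofReal, Complex.conj_I, map_ofNat]
  push_cast
  ring

lemma ee_mul_conj (t : ℝ) : ee t * (starRingEnd ℂ) (ee t) = 1 := by
  rw [Complex.mul_conj, Complex.normSq_eq_norm_sq, norm_ee]
  simp

lemma ee_sub (s t : ℝ) : ee (s - t) = ee s * (starRingEnd ℂ) (ee t) := by
  rw [sub_eq_add_neg, ee_add, ee_neg]

lemma ee_add_int (t : ℝ) (n : ℤ) : ee (t + n) = ee t := by
  rw [ee_add, ee_int, mul_one]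

lemma ee_round (t : ℝ) : ee t = ee (t - round t) := by
  have := ee_add_int (t - round t) (round t)
  rw [sub_add_cancel] at this
  exact this

/-- `|e(t) - 1| >= 4 ||t||`. -/
lemma norm_ee_sub_one_ge (t : ℝ) : 4 * dn t ≤ ‖ee t - 1‖ := by
  set s := t - round t with hs
  have hs2 : |s| ≤ 1 / 2 := abs_sub_round t
  have h1 : ee t = ee s := ee_round t
  have hsin : ‖ee s - 1‖ = 2 * |Real.sin (Real.pi * s)| := by
    unfold ee
    have : (2 * (Real.pi : ℂ) * (s : ℂ) * Complex.I) = ((2 * Real.pi * s : ℝ) : ℂ) * Complex.I := by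
      push_cast
      ring
    rw [this]
    have h := Complex.norm_exp_I_mul_ofReal_sub_one (2 * Real.pi * s)
    rw [mul_comm] at h
    rw [h, Real.norm_eq_abs, abs_mul, abs_of_pos (by norm_num : (0:ℝ) < 2)]
    congr 2
    ring_nf
  rw [h1, hsin]
  have hpi := Real.pi_pos
  have key : 2 * |s| ≤ |Real.sin (Real.pi * s)| := by
    rcases le_total 0 s with h0 | h0
    · rw [abs_of_nonneg h0]
      have h2 : s ≤ 1 / 2 := (abs_le.mp hs2).2
      have h3 : 0 ≤ Real.pi * s := by positivity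
      have h4 : Real.pi * s ≤ Real.pi / 2 := by nlinarith
      have h5 := Real.mul_le_sin h3 h4
      have h6 : 2 / Real.pi * (Real.pi * s) = 2 * s := by
        field_simp
      rw [h6] at h5
      exact h5.trans (le_abs_self _)
    · rw [abs_of_nonpos h0]
      have h2 : -s ≤ 1 / 2 := by linarith [(abs_le.mp hs2).1]
      have h3 : 0 ≤ Real.pi * (-s) := by
        have : 0 ≤ -s := by linarith
        positivity
      have h4 : Real.pi * (-s) ≤ Real.pi / 2 := by nlinarith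
      have h5 := Real.mul_le_sin h3 h4
      have h6 : 2 / Real.pi * (Real.pi * (-s)) = 2 * (-s) := by
        field_simp
      rw [h6] at h5
      have h7 : Real.sin (Real.pi * (-s)) = - Real.sin (Real.pi * s) := by
        rw [← Real.sin_neg]
        congr 1
        ring
      rw [h7] at h5
      exact h5.trans (neg_le_abs _)
  unfold dn
  rw [← hs]
  linarith

lemma ee_mul_nat (t : ℝ) (n : ℕ) : ee (n * t) = ee t ^ n := by
  induction n with
  | zero => simp [ee_zero]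
  | succ n ih =>
    have : ((n + 1 : ℕ) : ℝ) * t = n * t + t := by
      push_cast
      ring
    rw [this, ee_add, ih, pow_succ]

/-- Geometric sum over `range n`. -/
lemma norm_sum_range_ee_le (θ : ℝ) (hθ : 0 < dn θ) (n : ℕ) :
    ‖∑ t ∈ range n, ee (t * θ)‖ ≤ 1 / (2 * dn θ) := by
  have hne : ee θ ≠ 1 := by
    intro h
    have := norm_ee_sub_one_ge θ
    rw [h] at this
    simp at this
    linarith
  have h1 : ∑ t ∈ range n, ee (t * θ) = (ee θ ^ n - 1) / (ee θ - 1) := by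
    rw [← geom_sum_eq hne]
    exact Finset.sum_congr rfl (fun t _ => ee_mul_nat θ t)
  rw [h1, norm_div]
  have h2 : ‖ee θ ^ n - 1‖ ≤ 2 := by
    calc ‖ee θ ^ n - 1‖ ≤ ‖ee θ ^ n‖ + ‖(1:ℂ)‖ := norm_sub_le _ _
      _ = 2 := by
        rw [norm_pow, norm_ee]
        simp
        norm_num
  have h3 := norm_ee_sub_one_ge θ
  have h4 : 0 < 4 * dn θ := by linarith
  have h5 : 0 < ‖ee θ - 1‖ := by linarith
  rw [div_le_div_iff₀ h5 (by linarith)]
  nlinarith

/-- Geometric sum over an integer-parameter interval `a, a+1, ..., a+n-1`. -/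
lemma norm_sum_Ico_ee_le (θ : ℝ) (hθ : 0 < dn θ) (a b : ℕ) :
    ‖∑ t ∈ Ico a b, ee (t * θ)‖ ≤ 1 / (2 * dn θ) := by
  rw [Finset.sum_Ico_eq_sum_range]
  have h : ∑ i ∈ range (b - a), ee (((a + i : ℕ) : ℝ) * θ)
      = ee (a * θ) * ∑ i ∈ range (b - a), ee (i * θ) := by
    rw [Finset.mul_sum]
    refine Finset.sum_congr rfl (fun i _ => ?_)
    rw [← ee_add]
    congr 1
    push_cast
    ring
  rw [h, norm_mul, norm_ee, one_mul]
  exact norm_sum_range_ee_le θ hθ _

/-- the Fejer kernel -/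
noncomputable def Fej (L : ℕ) (t : ℝ) : ℝ := ‖∑ n ∈ range L, ee (n * t)‖ ^ 2 / (L : ℝ) ^ 2

lemma Fej_nonneg (L : ℕ) (t : ℝ) : 0 ≤ Fej L t := by
  unfold Fej
  positivity

lemma Fej_le_one (L : ℕ) (t : ℝ) : Fej L t ≤ 1 := by
  unfold Fej
  rcases Nat.eq_zero_or_pos L with h | h
  · subst h
    simp
  have hL : (0:ℝ) < L := by exact_mod_cast h
  rw [div_le_one (by positivity)]
  have : ‖∑ n ∈ range L, ee (n * t)‖ ≤ L := by
    calc ‖∑ n ∈ range L, ee (n * t)‖ ≤ ∑ n ∈ range L, ‖ee (n * t)‖ := norm_sum_le _ _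
      _ = L := by simp [norm_ee]
  exact pow_le_pow_left₀ (norm_nonneg _) this 2

/-- expansion of the Fejer kernel into the characters -/
lemma Fej_expand (L : ℕ) (t : ℝ) :
    ((Fej L t : ℝ) : ℂ) * (L : ℂ) ^ 2
      = ∑ n ∈ range L, ∑ n' ∈ range L, ee (((n : ℝ) - n') * t) := by
  rcases Nat.eq_zero_or_pos L with h | h
  · subst h
    simp
  have hL : (L : ℂ) ≠ 0 := by exact_mod_cast h.ne'
  have h1 : ((‖∑ n ∈ range L, ee (n * t)‖ ^ 2 : ℝ) : ℂ)
      = (∑ n ∈ range L, ee (n * t)) * (starRingEnd ℂ) (∑ n ∈ range L, ee (n * t)) := by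
    rw [Complex.mul_conj, Complex.normSq_eq_norm_sq]
  unfold Fej
  push_cast
  rw [div_mul_cancel₀ _ (pow_ne_zero 2 hL)]
  have h2 := h1
  push_cast at h2
  rw [h2, map_sum, Finset.sum_mul_sum]
  refine Finset.sum_congr rfl (fun n _ => Finset.sum_congr rfl (fun n' _ => ?_))
  rw [← ee_sub]
  congr 1
  ring

/-- `6 L D <= 1` and `||t|| < D` give `Fej L t >= 1/4` (for `L >= 1`). -/
lemma Fej_ge (L : ℕ) (hL : 1 ≤ L) (t D : ℝ) (hD : 6 * L * D ≤ 1) (ht : dn t < D) :
    1 / 4 ≤ Fej L t := by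
  set s := t - round t with hs
  have hLpos : (0:ℝ) < L := by exact_mod_cast hL
  have hee : ∀ n : ℕ, ee (n * t) = ee (n * s) := by
    intro n
    have : (n : ℝ) * t = n * s + ((n : ℤ) * round t : ℤ) := by
      rw [hs]
      push_cast
      ring
    rw [this, ee_add_int]
  have hsabs : |s| < D := ht
  have hD0 : 0 < D := lt_of_le_of_lt (abs_nonneg _) hsabs
  -- the real part of every term is at least 1/2
  have hre : ∀ n ∈ range L, (1:ℝ) / 2 ≤ (ee (n * s)).re := by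
    intro n hn
    have hn' : (n : ℝ) < L := by exact_mod_cast Finset.mem_range.mp hn
    have hn0 : (0:ℝ) ≤ n := Nat.cast_nonneg n
    have hbound : |(n : ℝ) * s| ≤ 1 / 6 := by
      rw [abs_mul, abs_of_nonneg hn0]
      have : (n : ℝ) * |s| ≤ L * D := by
        apply mul_le_mul hn'.le hsabs.le (abs_nonneg _) hLpos.le
      nlinarith
    have h1 : (ee (n * s)).re = Real.cos (2 * Real.pi * (n * s)) := by
      unfold ee
      have : (2 * (Real.pi : ℂ) * (((n * s : ℝ)) : ℂ) * Complex.I)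
          = ((2 * Real.pi * (n * s) : ℝ) : ℂ) * Complex.I := by
        push_cast
        ring
      rw [this, Complex.exp_ofReal_mul_I_re]
    rw [h1]
    have hpi := Real.pi_pos
    have habs : |2 * Real.pi * ((n : ℝ) * s)| ≤ Real.pi / 3 := by
      rw [abs_mul, abs_of_pos (by positivity : 0 < 2 * Real.pi)]
      nlinarith
    have h2 : Real.cos (Real.pi / 3) ≤ Real.cos |2 * Real.pi * ((n : ℝ) * s)| :=
      Real.cos_le_cos_of_nonneg_of_le_pi (abs_nonneg _) (by linarith) habs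
    rw [Real.cos_abs, Real.cos_pi_div_three] at h2
    exact h2
  have hsumre : (L : ℝ) * (1 / 2) ≤ (∑ n ∈ range L, ee (n * t)).re := by
    rw [Complex.re_sum]
    have : ∑ n ∈ range L, (ee (n * t)).re = ∑ n ∈ range L, (ee (n * s)).re :=
      Finset.sum_congr rfl (fun n _ => by rw [hee])
    rw [this]
    calc (L : ℝ) * (1 / 2) = ∑ _n ∈ range L, (1:ℝ) / 2 := by simp
      _ ≤ _ := Finset.sum_le_sum hre
  have hnorm : (L : ℝ) * (1 / 2) ≤ ‖∑ n ∈ range L, ee (n * t)‖ :=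
    hsumre.trans (Complex.re_le_norm _)
  unfold Fej
  rw [le_div_iff₀ (by positivity)]
  have : ((L : ℝ) * (1 / 2)) ^ 2 ≤ ‖∑ n ∈ range L, ee (n * t)‖ ^ 2 :=
    pow_le_pow_left₀ (by positivity) hnorm 2
  nlinarith

/-- Geometric sum. -/
theorem geom_bound (θ : ℝ) (hθ : 0 < dn θ) (a b : ℕ) :
    ‖∑ t ∈ Finset.Ico a b, ee (θ * t)‖ ≤ 1 / (2 * dn θ) := by
  have := norm_sum_Ico_ee_le θ hθ a b
  simpa only [mul_comm] using this

lemma fej_nonneg (L : ℕ) (t : ℝ) : 0 ≤ Fej L t := Fej_nonneg L t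

lemma fej_le_one {L : ℕ} (_hL : 1 ≤ L) (t : ℝ) : Fej L t ≤ 1 := Fej_le_one L t

/-- On the Bohr window the kernel is at least `1/4`. -/
lemma fej_ge {L : ℕ} {D t : ℝ} (hL : 1 ≤ L) (hLD : 6 * (L:ℝ) * D ≤ 1) (ht : dn t < D) :
    1 / 4 ≤ Fej L t := Fej_ge L hL t D hLD ht

/-- Expansion of the kernel. -/
lemma fej_expand {L : ℕ} (hL : 1 ≤ L) (t : ℝ) :
    ((Fej L t : ℝ) : ℂ) = 1 / (L:ℂ) + 1 / (L:ℂ) ^ 2 *
      ∑ n ∈ Finset.range L, ∑ n' ∈ (Finset.range L).erase n, ee (((n:ℝ) - (n':ℝ)) * t) := by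
  have hLne : (L : ℂ) ≠ 0 := by
    have : L ≠ 0 := by omega
    exact_mod_cast this
  have h1 := Fej_expand L t
  have h2 : ∀ n ∈ Finset.range L, ∑ n' ∈ Finset.range L, ee (((n:ℝ) - (n':ℝ)) * t)
      = 1 + ∑ n' ∈ (Finset.range L).erase n, ee (((n:ℝ) - (n':ℝ)) * t) := by
    intro n hn
    rw [← Finset.add_sum_erase _ _ hn]
    congr 1
    simp [ee_zero]
  rw [Finset.sum_congr rfl h2, Finset.sum_add_distrib] at h1
  simp only [Finset.sum_const, Finset.card_range, nsmul_eq_mul, mul_one] at h1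
  have h3 : ((Fej L t : ℝ) : ℂ) = ((L : ℂ) + ∑ n ∈ Finset.range L, ∑ n' ∈ (Finset.range L).erase n,
      ee (((n:ℝ) - (n':ℝ)) * t)) / (L : ℂ) ^ 2 := by
    rw [eq_div_iff (pow_ne_zero 2 hLne)]
    exact h1
  rw [h3]
  generalize (∑ n ∈ Finset.range L, ∑ n' ∈ (Finset.range L).erase n,
      ee (((n:ℝ) - (n':ℝ)) * t)) = S
  field_simp

end Vale.Agent.Lib.P028T
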