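import Vale.Agent.Lib.P028T.LSA

/-! Module LS: blueprint section 5, the large sieve over gcds. -/

open Finset

namespace Vale.Agent.Lib.P028T

open Vale.Agent.Lib.P028

namespace LSI

/-- The Diophantine hypothesis with the positivity of the constant. -/
def DioI (γ c0 : ℝ) (k : ℕ) : Prop :=
  0 < c0 ∧ ∀ n : ℕ, 1 ≤ n → c0 / (n : ℝ) ^ k ≤ dn ((n : ℝ) * γ)

lemma DioI.int {γ c0 : ℝ} {k : ℕ} (h : DioI γ c0 k) (ν : ℤ) (hν : ν ≠ 0) :
    c0 / (|(ν : ℝ)|) ^ k ≤ dn ((ν : ℝ) * γ) := by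
  have hn : 1 ≤ ν.natAbs := Int.natAbs_pos.mpr hν
  have h1 := h.2 ν.natAbs hn
  have h2 : ((ν.natAbs : ℕ) : ℝ) = |(ν : ℝ)| := by
    rw [Nat.cast_natAbs]
    push_cast
    rfl
  rw [h2] at h1
  rcases abs_cases (ν : ℝ) with ⟨h3, _⟩ | ⟨h3, _⟩
  · rw [h3] at h1 ⊢
    exact h1
  · rw [h3] at h1 ⊢
    rw [neg_mul, dn_neg] at h1
    exact h1

/-- The characters of the large sieve -/
noncomputable def chi (γ : ℝ) (l : ℤ) (i : ℕ × ℕ) (x : ℕ) : ℂ :=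
  if i.1 * i.2 ∣ x then ee ((l : ℝ) * γ * x / i.1) else 0

/-- Correlation sums are over multiples of the lcm. -/
lemma corr_eq (γ : ℝ) (l : ℤ) (i j : ℕ × ℕ) (d2 P : ℕ) :
    ∑ x ∈ (Ico P (2 * P)).filter (d2 ∣ ·), (starRingEnd ℂ) (chi γ l i x) *
        (starRingEnd ℂ) ((starRingEnd ℂ) (chi γ l j x))
      = ∑ x ∈ (Ico P (2 * P)).filter (Nat.lcm (Nat.lcm (i.1 * i.2) (j.1 * j.2)) d2 ∣ ·),
          ee ((x : ℝ) * ((l : ℝ) * γ * (1 / (j.1 : ℝ) - 1 / (i.1 : ℝ)))) := by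
  rw [Finset.sum_filter, Finset.sum_filter]
  refine Finset.sum_congr rfl (fun x _ => ?_)
  simp only [Complex.conj_conj, chi]
  by_cases h2 : d2 ∣ x <;> by_cases hi : i.1 * i.2 ∣ x <;> by_cases hj : j.1 * j.2 ∣ x <;>
    simp [h2, hi, hj, Nat.lcm_dvd_iff]
  rw [← ee_neg, ← ee_add]
  congr 1
  have e1 : (l : ℝ) * γ * x / j.1 = (x : ℝ) * ((l : ℝ) * γ * (1 / (j.1 : ℝ))) := by ring
  have e2 : (l : ℝ) * γ * x / i.1 = (x : ℝ) * ((l : ℝ) * γ * (1 / (i.1 : ℝ))) := by ring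
  rw [e1, e2]
  ring

/-- Trivial bound for correlation sums -/
lemma corr_le_card (θ : ℝ) (P m : ℕ) (hm : 0 < m) :
    ‖∑ x ∈ (Ico P (2 * P)).filter (m ∣ ·), ee ((x : ℝ) * θ)‖ ≤ (P : ℝ) / m + 1 := by
  refine (norm_sum_le _ _).trans ?_
  simp only [norm_ee, Finset.sum_const, nsmul_eq_mul, mul_one]
  exact card_multiples_le P m hm

/-- Oscillation bound for correlation sums -/
lemma corr_le_geom {γ c0 : ℝ} {k : ℕ} (hD : DioI γ c0 k) (θ : ℝ) (P m : ℕ) (hm : 0 < m)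
    (ν : ℤ) (hν : ν ≠ 0) (hθ : (m : ℝ) * θ = ν * γ) :
    ‖∑ x ∈ (Ico P (2 * P)).filter (m ∣ ·), ee ((x : ℝ) * θ)‖ ≤ |(ν : ℝ)| ^ k / (2 * c0) := by
  rw [multiples_Ico P m hm]
  have hinj : Set.InjOn (fun t : ℕ => m * t) (Ico ((P + m - 1) / m) ((2 * P + m - 1) / m) : Set ℕ) :=
    fun a _ b _ h => Nat.eq_of_mul_eq_mul_left hm h
  rw [Finset.sum_image hinj]
  have h1 : ∀ t : ℕ, ee (((m * t : ℕ) : ℝ) * θ) = ee ((t : ℝ) * ((ν : ℝ) * γ)) := by
    intro t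
    congr 1
    push_cast
    rw [← hθ]
    ring
  simp only [h1]
  have hd := hD.int ν hν
  have hc0 := hD.1
  have hνpos : 0 < |(ν : ℝ)| := by
    rw [abs_pos]
    exact_mod_cast hν
  have hdn : 0 < dn ((ν : ℝ) * γ) := lt_of_lt_of_le (by positivity) hd
  refine (norm_sum_Ico_ee_le _ hdn _ _).trans ?_
  rw [div_le_div_iff₀ (by positivity) (by positivity)]
  rw [div_le_iff₀ (by positivity)] at hd
  nlinarith

/-- The integer frequency of the off-diagonal terms. -/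
lemma exists_nu (γ : ℝ) (l : ℤ) (hl : l ≠ 0) (d d2 m E : ℕ) (hE : 0 < E) (hd : E ≤ d) (hd2 : E ≤ d2)
    (hne : d ≠ d2) (hm : 0 < m) (hdvd : Nat.lcm d d2 ∣ m) :
    ∃ ν : ℤ, ν ≠ 0 ∧ (m : ℝ) * ((l : ℝ) * γ * (1 / (d2 : ℝ) - 1 / (d : ℝ))) = ν * γ ∧
      |(ν : ℝ)| ≤ |(l : ℝ)| * m / E := by
  have hdpos : 0 < d := lt_of_lt_of_le hE hd
  have hd2pos : 0 < d2 := lt_of_lt_of_le hE hd2
  set g := Nat.gcd d d2 with hg
  have hgpos : 0 < g := Nat.gcd_pos_of_pos_left _ hdpos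
  obtain ⟨a, b, _, ha, hb⟩ := Nat.exists_coprime d d2
  rw [← hg] at ha hb
  have hapos : 0 < a := by
    rcases Nat.eq_zero_or_pos a with h | h
    · rw [h] at ha
      omega
    · exact h
  have hbpos : 0 < b := by
    rcases Nat.eq_zero_or_pos b with h | h
    · rw [h] at hb
      omega
    · exact h
  have hlcm : Nat.lcm d d2 = a * b * g := by
    have h1 := Nat.gcd_mul_lcm d d2
    rw [← hg] at h1
    have h2 : g * Nat.lcm d d2 = g * (a * b * g) := by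
      rw [h1]
      conv_lhs => rw [ha, hb]
      ring
    exact Nat.eq_of_mul_eq_mul_left hgpos h2
  obtain ⟨m1, hm1⟩ := hdvd
  rw [hlcm] at hm1
  have hne' : (a : ℤ) ≠ b := by
    intro h
    apply hne
    have : a = b := by exact_mod_cast h
    rw [ha, hb, this]
  refine ⟨l * m1 * ((a : ℤ) - b), ?_, ?_, ?_⟩
  · have hm1pos : m1 ≠ 0 := by
      rintro rfl
      simp at hm1
      omega
    have h3 : (a : ℤ) - b ≠ 0 := sub_ne_zero.mpr hne'
    have h4 : (m1 : ℤ) ≠ 0 := by exact_mod_cast hm1pos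
    exact mul_ne_zero (mul_ne_zero hl h4) h3
  · have haR : (0:ℝ) < a := by exact_mod_cast hapos
    have hbR : (0:ℝ) < b := by exact_mod_cast hbpos
    have hgR : (0:ℝ) < g := by exact_mod_cast hgpos
    have h5 : (d : ℝ) = a * g := by exact_mod_cast ha
    have h6 : (d2 : ℝ) = b * g := by exact_mod_cast hb
    have h7 : (m : ℝ) = a * b * g * m1 := by exact_mod_cast hm1
    rw [h5, h6, h7]
    push_cast
    field_simp
  · have haR : (0:ℝ) < a := by exact_mod_cast hapos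
    have hbR : (0:ℝ) < b := by exact_mod_cast hbpos
    have hgR : (0:ℝ) < g := by exact_mod_cast hgpos
    have hER : (0:ℝ) < E := by exact_mod_cast hE
    have h5 : (E : ℝ) ≤ a * g := by
      have : (E : ℝ) ≤ d := by exact_mod_cast hd
      have h51 : (d : ℝ) = a * g := by exact_mod_cast ha
      linarith
    have h6 : (E : ℝ) ≤ b * g := by
      have : (E : ℝ) ≤ d2 := by exact_mod_cast hd2
      have h51 : (d2 : ℝ) = b * g := by exact_mod_cast hb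
      linarith
    have h7 : (m : ℝ) = a * b * g * m1 := by exact_mod_cast hm1
    have hm1R : (0:ℝ) ≤ m1 := Nat.cast_nonneg _
    rw [le_div_iff₀ hER, h7]
    push_cast
    rw [abs_mul, abs_mul, abs_of_nonneg hm1R]
    have h8 : |(a : ℝ) - b| * E ≤ a * b * g := by
      rcases abs_cases ((a : ℝ) - b) with ⟨h, h'⟩ | ⟨h, h'⟩
      · rw [h]
        have : ((a : ℝ) - b) * E ≤ a * E := by
          apply mul_le_mul_of_nonneg_right _ hER.le
          linarith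
        nlinarith
      · rw [h]
        have : (-((a : ℝ) - b)) * E ≤ b * E := by
          apply mul_le_mul_of_nonneg_right _ hER.le
          linarith
        nlinarith
    have h9 := abs_nonneg (l : ℝ)
    calc |(l : ℝ)| * m1 * |(a : ℝ) - b| * E = |(l : ℝ)| * m1 * (|(a : ℝ) - b| * E) := by ring
      _ ≤ |(l : ℝ)| * m1 * (a * b * g) := by
          apply mul_le_mul_of_nonneg_left h8 (by positivity)
      _ = _ := by ring

/-- The weight on the diagonal. -/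
noncomputable def fd (P E d d2 e : ℕ) : ℝ :=
  (P : ℝ) / E * (((Nat.gcd e (d2 / Nat.gcd d d2) : ℕ) : ℝ) /
    ((e : ℝ) * ((d2 / Nat.gcd d d2 : ℕ) : ℝ)))

lemma fd_nonneg (P E d d2 e : ℕ) : 0 ≤ fd P E d d2 e := by
  unfold fd
  positivity

/-- Sum of the diagonal weights over `e`. -/
lemma sum_fd_le (P E d d2 z : ℕ) (hd : 0 < d) (hd2 : 0 < d2) (Ee : Finset ℕ)
    (hEe : ∀ e ∈ Ee, Squarefree e ∧ ∀ p, p.Prime → p ∣ e → p ≤ z) :
    ∑ e ∈ Ee, fd P E d d2 e ≤ (P : ℝ) / E * ell z *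
      ((2 : ℝ) ^ ((d2 / Nat.gcd d d2).primeFactors.card) / ((d2 / Nat.gcd d d2 : ℕ) : ℝ)) := by
  set h := d2 / Nat.gcd d d2 with hh
  have hhpos : 0 < h := by
    apply Nat.div_pos (Nat.le_of_dvd hd2 (Nat.gcd_dvd_right _ _))
    exact Nat.gcd_pos_of_pos_left _ hd
  have hhR : (0:ℝ) < h := by exact_mod_cast hhpos
  have h1 := sum_gcd_div_le z Ee hEe h hhpos
  have h2 : ∑ e ∈ Ee, fd P E d d2 e
      = (P : ℝ) / E / h * ∑ e ∈ Ee, ((Nat.gcd e h : ℕ) : ℝ) / e := by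
    rw [Finset.mul_sum]
    refine Finset.sum_congr rfl (fun e _ => ?_)
    unfold fd
    rw [← hh]
    rcases Nat.eq_zero_or_pos e with he | he
    · simp [he]
    have heR : (0:ℝ) < e := by exact_mod_cast he
    field_simp
  rw [h2]
  have h3 : 0 ≤ (P : ℝ) / E / h := by positivity
  calc (P : ℝ) / E / h * ∑ e ∈ Ee, ((Nat.gcd e h : ℕ) : ℝ) / e
      ≤ (P : ℝ) / E / h * ((2 : ℝ) ^ h.primeFactors.card * ell z) :=
        mul_le_mul_of_nonneg_left h1 h3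
    _ = _ := by ring

/-- Pointwise bound of a term of the quadratic form. -/
lemma term_bound {γ c0 : ℝ} {k : ℕ} (hD : DioI γ c0 k) (E P : ℕ) (hE : 0 < E) (l : ℤ) (hl : l ≠ 0)
    (L : ℝ) (hlL : |(l : ℝ)| ≤ L) (B : ℝ) (hB0 : 0 ≤ B)
    (hB : ∀ m : ℕ, 1 ≤ m → min ((P : ℝ) / m + 1) ((L * m / E) ^ k / (2 * c0)) ≤ B)
    (i j : ℕ × ℕ) (d2 : ℕ) (hi1 : E ≤ i.1) (hj1 : E ≤ j.1) (hi2 : 0 < i.2) (hj2 : 0 < j.2)
    (hd2 : 0 < d2) (x y : ℝ) (hx : 0 ≤ x) (hy : 0 ≤ y) :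
    x * y * ‖∑ u ∈ (Ico P (2 * P)).filter (Nat.lcm (Nat.lcm (i.1 * i.2) (j.1 * j.2)) d2 ∣ ·),
          ee ((u : ℝ) * ((l : ℝ) * γ * (1 / (j.1 : ℝ) - 1 / (i.1 : ℝ))))‖
      ≤ (x ^ 2 * (B + if i.1 = j.1 then 1 + fd P E i.1 d2 j.2 else 0)
        + y ^ 2 * (B + if j.1 = i.1 then 1 + fd P E j.1 d2 i.2 else 0)) / 2 := by
  have hipos : 0 < i.1 := lt_of_lt_of_le hE hi1
  have hjpos : 0 < j.1 := lt_of_lt_of_le hE hj1
  set m := Nat.lcm (Nat.lcm (i.1 * i.2) (j.1 * j.2)) d2 with hm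
  have hmpos : 0 < m := by
    apply Nat.lcm_pos _ hd2
    exact Nat.lcm_pos (Nat.mul_pos hipos hi2) (Nat.mul_pos hjpos hj2)
  set A := ‖∑ u ∈ (Ico P (2 * P)).filter (m ∣ ·),
    ee ((u : ℝ) * ((l : ℝ) * γ * (1 / (j.1 : ℝ) - 1 / (i.1 : ℝ))))‖ with hA
  have hA0 : 0 ≤ A := norm_nonneg _
  have hA1 : A ≤ (P : ℝ) / m + 1 := corr_le_card _ P m hmpos
  by_cases hij : i.1 = j.1
  · -- diagonal
    rw [if_pos hij, if_pos hij.symm]
    have hdiv1 : Nat.lcm (i.1 * i.2) d2 ∣ m := by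
      apply Nat.lcm_dvd_iff.mpr
      exact ⟨(Nat.dvd_lcm_left _ _).trans (Nat.dvd_lcm_left _ _), Nat.dvd_lcm_right _ _⟩
    have hdiv2 : Nat.lcm (j.1 * j.2) d2 ∣ m := by
      apply Nat.lcm_dvd_iff.mpr
      exact ⟨(Nat.dvd_lcm_right _ _).trans (Nat.dvd_lcm_left _ _), Nat.dvd_lcm_right _ _⟩
    have hf1 : (P : ℝ) / m ≤ fd P E j.1 d2 i.2 := by
      have := div_le_of_lcm_dvd P E i.1 i.2 d2 m hE hi1 hd2 hi2 hmpos hdiv1
      unfold fd
      rw [← hij]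
      exact this
    have hf2 : (P : ℝ) / m ≤ fd P E i.1 d2 j.2 := by
      have := div_le_of_lcm_dvd P E j.1 j.2 d2 m hE hj1 hd2 hj2 hmpos hdiv2
      unfold fd
      rw [hij]
      exact this
    set f1 := fd P E i.1 d2 j.2 with hf1def
    set f2 := fd P E j.1 d2 i.2 with hf2def
    have hf10 : 0 ≤ f1 := fd_nonneg _ _ _ _ _
    have hf20 : 0 ≤ f2 := fd_nonneg _ _ _ _ _
    have hxy : 0 ≤ x * y := mul_nonneg hx hy
    have h1 : x * y * A ≤ x * y * (1 + min f1 f2) := by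
      apply mul_le_mul_of_nonneg_left _ hxy
      have : (P : ℝ) / m ≤ min f1 f2 := le_min hf2 hf1
      linarith
    have h2 : x * y * min f1 f2 ≤ (x ^ 2 * f1 + y ^ 2 * f2) / 2 := by
      rcases le_total f1 f2 with hle | hle
      · rw [min_eq_left hle]
        nlinarith [sq_nonneg (x - y), mul_nonneg (sq_nonneg y) (sub_nonneg.mpr hle),
          mul_nonneg hf10 (sq_nonneg (x - y))]
      · rw [min_eq_right hle]
        nlinarith [sq_nonneg (x - y), mul_nonneg (sq_nonneg x) (sub_nonneg.mpr hle),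
          mul_nonneg hf20 (sq_nonneg (x - y))]
    nlinarith [sq_nonneg (x - y), mul_nonneg (sq_nonneg x) hB0, mul_nonneg (sq_nonneg y) hB0]
  · -- off diagonal
    rw [if_neg hij, if_neg (Ne.symm hij)]
    have hdvd : Nat.lcm i.1 j.1 ∣ m := by
      apply Nat.lcm_dvd_iff.mpr
      constructor
      · exact (Dvd.intro _ rfl : i.1 ∣ i.1 * i.2).trans
          ((Nat.dvd_lcm_left _ _).trans (Nat.dvd_lcm_left _ _))
      · exact (Dvd.intro _ rfl : j.1 ∣ j.1 * j.2).trans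
          ((Nat.dvd_lcm_right _ _).trans (Nat.dvd_lcm_left _ _))
    obtain ⟨ν, hν, hθ, hνle⟩ := exists_nu γ l hl i.1 j.1 m E hE hi1 hj1 hij hmpos hdvd
    have hA2 := corr_le_geom hD ((l : ℝ) * γ * (1 / (j.1 : ℝ) - 1 / (i.1 : ℝ))) P m hmpos ν hν hθ
    have hc0 := hD.1
    have hER : (0:ℝ) < E := by exact_mod_cast hE
    have hνL : |(ν : ℝ)| ≤ L * m / E := by
      refine hνle.trans ?_
      apply div_le_div_of_nonneg_right _ hER.le
      apply mul_le_mul_of_nonneg_right hlL (Nat.cast_nonneg _)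
    have hA3 : A ≤ (L * m / E) ^ k / (2 * c0) := by
      refine hA2.trans ?_
      apply div_le_div_of_nonneg_right _ (by positivity)
      exact pow_le_pow_left₀ (abs_nonneg _) hνL k
    have hAB : A ≤ B := by
      refine le_trans ?_ (hB m hmpos)
      exact le_min hA1 hA3
    have hxy : 0 ≤ x * y := mul_nonneg hx hy
    have : x * y * A ≤ x * y * B := mul_le_mul_of_nonneg_left hAB hxy
    nlinarith [mul_nonneg (sq_nonneg (x - y)) hB0]

/-- The row bound. -/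
lemma row_bound (E P z : ℕ) (G G' Ee : Finset ℕ) (hG' : G' ⊆ G) (hE : 0 < E) (hG : ∀ d ∈ G, E ≤ d)
    (K : ℝ) (hK : (G.card : ℝ) ≤ K)
    (hEe : ∀ e ∈ Ee, Squarefree e ∧ ∀ p, p.Prime → p ∣ e → p ≤ z) (t : ℝ)
    (ht : ∀ d ∈ G', rowSum G d ≤ t) (B : ℝ) (hB0 : 0 ≤ B) (i : ℕ × ℕ) (hi : i ∈ G' ×ˢ Ee) :
    ∑ d2 ∈ G, ∑ j ∈ G' ×ˢ Ee, (B + if i.1 = j.1 then 1 + fd P E i.1 d2 j.2 else 0)
      ≤ (P : ℝ) / E * ell z * t + K ^ 2 * Ee.card * B + K * Ee.card := by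
  classical
  have hi1 : i.1 ∈ G' := (Finset.mem_product.mp hi).1
  have hipos : 0 < i.1 := lt_of_lt_of_le hE (hG _ (hG' hi1))
  have hK0 : 0 ≤ K := le_trans (Nat.cast_nonneg _) hK
  have hinner : ∀ d2 ∈ G, ∑ j ∈ G' ×ˢ Ee, (B + if i.1 = j.1 then 1 + fd P E i.1 d2 j.2 else 0)
      ≤ (G'.card : ℝ) * Ee.card * B + Ee.card + (P : ℝ) / E * ell z *
        ((2 : ℝ) ^ ((d2 / Nat.gcd i.1 d2).primeFactors.card) / ((d2 / Nat.gcd i.1 d2 : ℕ) : ℝ)) := by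
    intro d2 hd2
    have hd2pos : 0 < d2 := lt_of_lt_of_le hE (hG _ hd2)
    rw [Finset.sum_add_distrib, Finset.sum_const, Finset.card_product, Finset.sum_product]
    have h1 : ∑ d' ∈ G', ∑ e' ∈ Ee, (if i.1 = d' then 1 + fd P E i.1 d2 e' else 0)
        = ∑ e' ∈ Ee, (1 + fd P E i.1 d2 e') := by
      have : ∀ d' ∈ G', ∑ e' ∈ Ee, (if i.1 = d' then 1 + fd P E i.1 d2 e' else 0)
          = if i.1 = d' then ∑ e' ∈ Ee, (1 + fd P E i.1 d2 e') else 0 := by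
        intro d' _
        split_ifs <;> simp
      rw [Finset.sum_congr rfl this, Finset.sum_ite_eq]
      simp [hi1]
    simp only at h1 ⊢
    rw [h1, Finset.sum_add_distrib]
    have h2 := sum_fd_le P E i.1 d2 z hipos hd2pos Ee hEe
    simp only [Finset.sum_const, nsmul_eq_mul, mul_one]
    push_cast
    nlinarith
  have hrow : ∑ d2 ∈ G, ((2 : ℝ) ^ ((d2 / Nat.gcd i.1 d2).primeFactors.card) /
      ((d2 / Nat.gcd i.1 d2 : ℕ) : ℝ)) ≤ t := ht i.1 hi1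
  have hcard : (G'.card : ℝ) ≤ G.card := by exact_mod_cast Finset.card_le_card hG'
  have hcoef : 0 ≤ (P : ℝ) / E * ell z := mul_nonneg (by positivity) (ell_pos_aux z).le
  calc ∑ d2 ∈ G, ∑ j ∈ G' ×ˢ Ee, (B + if i.1 = j.1 then 1 + fd P E i.1 d2 j.2 else 0)
      ≤ ∑ d2 ∈ G, ((G'.card : ℝ) * Ee.card * B + Ee.card + (P : ℝ) / E * ell z *
        ((2 : ℝ) ^ ((d2 / Nat.gcd i.1 d2).primeFactors.card) / ((d2 / Nat.gcd i.1 d2 : ℕ) : ℝ))) :=
        Finset.sum_le_sum hinner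
    _ = (G.card : ℝ) * ((G'.card : ℝ) * Ee.card * B + Ee.card) + (P : ℝ) / E * ell z *
        ∑ d2 ∈ G, ((2 : ℝ) ^ ((d2 / Nat.gcd i.1 d2).primeFactors.card) /
          ((d2 / Nat.gcd i.1 d2 : ℕ) : ℝ)) := by
        rw [Finset.sum_add_distrib, Finset.sum_const, nsmul_eq_mul, Finset.mul_sum]
    _ ≤ K * (K * Ee.card * B + Ee.card) + (P : ℝ) / E * ell z * t := by
        have hE0 : (0:ℝ) ≤ Ee.card := Nat.cast_nonneg _
        have h3 : (G'.card : ℝ) * Ee.card * B ≤ K * Ee.card * B := by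
          apply mul_le_mul_of_nonneg_right _ hB0
          apply mul_le_mul_of_nonneg_right (hcard.trans hK) hE0
        have h4 : 0 ≤ (G'.card : ℝ) * Ee.card * B + Ee.card := by positivity
        have h5 : (G.card : ℝ) * ((G'.card : ℝ) * Ee.card * B + Ee.card)
            ≤ K * (K * Ee.card * B + Ee.card) := by
          apply mul_le_mul hK (by linarith) h4 hK0
        have h6 := mul_le_mul_of_nonneg_left hrow hcoef
        linarith
    _ = _ := by ring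

/-- The large sieve lemma (blueprint section 5). -/
theorem ls_core {γ c0 : ℝ} {k : ℕ} (hD : DioI γ c0 k) {G G' Ee : Finset ℕ} (hG' : G' ⊆ G) {E : ℕ}
    (hE : 0 < E) (hG : ∀ d ∈ G, E ≤ d) (K : ℝ) (hK : (G.card : ℝ) ≤ K) (z : ℕ)
    (hEe : ∀ e ∈ Ee, Squarefree e ∧ ∀ p, p.Prime → p ∣ e → p ≤ z)
    (l : ℤ) (hl : l ≠ 0) (L : ℝ) (hlL : |(l : ℝ)| ≤ L) (P : ℕ) (U : Finset ℕ)
    (hU : ∀ x ∈ U, P ≤ x ∧ x < 2 * P) (t : ℝ) (ht0 : 0 ≤ t) (ht : ∀ d ∈ G', rowSum G d ≤ t)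
    (B : ℝ) (hB0 : 0 ≤ B)
    (hB : ∀ m : ℕ, 1 ≤ m → min ((P : ℝ) / m + 1) ((L * m / E) ^ k / (2 * c0)) ≤ B) :
    ∑ d ∈ G', ∑ e ∈ Ee, ‖∑ x ∈ U.filter (d * e ∣ ·), ee ((l : ℝ) * γ * x / d)‖ ^ 2
      ≤ ((P : ℝ) / E * ell z * t + K ^ 2 * Ee.card * B + K * Ee.card) *
        ∑ x ∈ U, 1 / (TT G x : ℝ) := by
  classical
  have hK0 : 0 ≤ K := le_trans (Nat.cast_nonneg _) hK
  have hΛ0 : 0 ≤ (P : ℝ) / E * ell z * t + K ^ 2 * Ee.card * B + K * Ee.card := by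
    have := ell_pos_aux z
    positivity
  have hsupp : ∀ i ∈ G' ×ˢ Ee, ∀ x ∈ U, chi γ l i x ≠ 0 → 0 < (TT G x : ℝ) := by
    intro i hi x _ hne
    have hdvd : i.1 * i.2 ∣ x := by
      by_contra hcon
      apply hne
      simp [chi, hcon]
    have hi1 : i.1 ∈ G := hG' (Finset.mem_product.mp hi).1
    have : 0 < TT G x := by
      unfold TT
      apply Finset.card_pos.mpr
      exact ⟨i.1, Finset.mem_filter.mpr ⟨hi1, (Dvd.intro _ rfl).trans hdvd⟩⟩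
    exact_mod_cast this
  have H : ∀ c : ℕ × ℕ → ℂ, ∑ x ∈ U, (TT G x : ℝ) *
      ‖∑ i ∈ G' ×ˢ Ee, c i * (starRingEnd ℂ) (chi γ l i x)‖ ^ 2
      ≤ ((P : ℝ) / E * ell z * t + K ^ 2 * Ee.card * B + K * Ee.card) *
        ∑ i ∈ G' ×ˢ Ee, ‖c i‖ ^ 2 := by
    intro c
    set I := G' ×ˢ Ee with hI
    set F : ℕ → ℝ := fun x => ‖∑ i ∈ I, c i * (starRingEnd ℂ) (chi γ l i x)‖ ^ 2 with hF
    have hstep1 : ∑ x ∈ U, (TT G x : ℝ) * F x ≤ ∑ x ∈ Ico P (2 * P), (TT G x : ℝ) * F x := by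
      apply Finset.sum_le_sum_of_subset_of_nonneg
      · intro x hx
        exact Finset.mem_Ico.mpr (hU x hx)
      · intro x _ _
        positivity
    have hstep2 : ∑ x ∈ Ico P (2 * P), (TT G x : ℝ) * F x
        = ∑ d2 ∈ G, ∑ x ∈ (Ico P (2 * P)).filter (d2 ∣ ·), F x := by
      have : ∀ x, (TT G x : ℝ) * F x = ∑ d2 ∈ G, if d2 ∣ x then F x else 0 := by
        intro x
        unfold TT
        rw [Finset.card_filter]
        push_cast
        rw [Finset.sum_mul]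
        refine Finset.sum_congr rfl (fun d2 _ => ?_)
        split_ifs <;> simp
      simp only [this]
      rw [Finset.sum_comm]
      refine Finset.sum_congr rfl (fun d2 _ => ?_)
      rw [Finset.sum_filter]
    have hstep3 : ∀ d2 ∈ G, ∑ x ∈ (Ico P (2 * P)).filter (d2 ∣ ·), F x
        ≤ ∑ i ∈ I, ‖c i‖ ^ 2 * ∑ j ∈ I, (B + if i.1 = j.1 then 1 + fd P E i.1 d2 j.2 else 0) := by
      intro d2 hd2
      have hd2pos : 0 < d2 := lt_of_lt_of_le hE (hG _ hd2)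
      have h1 := sum_norm_sq_le ((Ico P (2 * P)).filter (d2 ∣ ·)) I
        (fun i x => (starRingEnd ℂ) (chi γ l i x)) c
      refine h1.trans ?_
      rw [← sum_sym_half]
      refine Finset.sum_le_sum (fun i hi => Finset.sum_le_sum (fun j hj => ?_))
      have hi' := Finset.mem_product.mp hi
      have hj' := Finset.mem_product.mp hj
      rw [corr_eq]
      exact term_bound hD E P hE l hl L hlL B hB0 hB i j d2 (hG _ (hG' hi'.1)) (hG _ (hG' hj'.1))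
        (Nat.pos_of_ne_zero (hEe _ hi'.2).1.ne_zero) (Nat.pos_of_ne_zero (hEe _ hj'.2).1.ne_zero)
        hd2pos _ _ (norm_nonneg _) (norm_nonneg _)
    calc ∑ x ∈ U, (TT G x : ℝ) * F x
        ≤ ∑ d2 ∈ G, ∑ i ∈ I, ‖c i‖ ^ 2 *
            ∑ j ∈ I, (B + if i.1 = j.1 then 1 + fd P E i.1 d2 j.2 else 0) :=
          hstep1.trans (hstep2.le.trans (Finset.sum_le_sum hstep3))
      _ = ∑ i ∈ I, ‖c i‖ ^ 2 *
            ∑ d2 ∈ G, ∑ j ∈ I, (B + if i.1 = j.1 then 1 + fd P E i.1 d2 j.2 else 0) := by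
          rw [Finset.sum_comm]
          refine Finset.sum_congr rfl (fun i _ => ?_)
          rw [Finset.mul_sum]
      _ ≤ ∑ i ∈ I, ‖c i‖ ^ 2 * ((P : ℝ) / E * ell z * t + K ^ 2 * Ee.card * B + K * Ee.card) := by
          refine Finset.sum_le_sum (fun i hi => ?_)
          exact mul_le_mul_of_nonneg_left
            (row_bound E P z G G' Ee hG' hE hG K hK hEe t ht B hB0 i hi) (by positivity)
      _ = _ := by
          rw [Finset.mul_sum]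
          refine Finset.sum_congr rfl (fun i _ => ?_)
          ring
  have key := dual_weighted (G' ×ˢ Ee) U (chi γ l) (fun x => (TT G x : ℝ))
    (fun x => Nat.cast_nonneg _) hsupp _ hΛ0 H
  rw [Finset.sum_product] at key
  refine le_trans (le_of_eq ?_) key
  refine Finset.sum_congr rfl (fun d _ => Finset.sum_congr rfl (fun e _ => ?_))
  rw [Finset.sum_filter]
  congr 2

end LSI

open LSI in
/-- The LS Lemma. -/
theorem ls_lemma {γ c₀ : ℝ} {k : ℕ} (hγ : Dio γ c₀ k) (hc₀ : 0 < c₀) (_hk : 1 ≤ k)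
    {E P z L E₀ : ℕ} (hE : 1 ≤ E) (_hP : 1 ≤ P) (_hL : 1 ≤ L)
    {G G' U : Finset ℕ} (hG' : G' ⊆ G) (hG : ∀ d ∈ G, E ≤ d ∧ d < 2 * E)
    (hU : ∀ x ∈ U, P ≤ x ∧ x < 2 * P)
    {l : ℤ} (hl : l ≠ 0) (hlL : |l| ≤ (L:ℤ))
    {t B : ℝ} (ht0 : 0 ≤ t) (ht : ∀ d ∈ G', rowSum G d ≤ t)
    (hB : ∀ m : ℕ, 1 ≤ m → min ((P:ℝ) / m + 1) (((L:ℝ) * m / E) ^ k / (2 * c₀)) ≤ B) :
    ∑ d ∈ G', ∑ e ∈ smooth z E₀, ‖VV γ l U d e‖ ^ 2
      ≤ Lam P E z E₀ G t B * ∑ x ∈ U, ((TT G x : ℝ))⁻¹ := by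
  have hEe : ∀ e ∈ smooth z E₀, Squarefree e ∧ ∀ p, p.Prime → p ∣ e → p ≤ z := by
    intro e he
    have he' := (Finset.mem_filter.mp he)
    have he1 : 1 ≤ e := (Finset.mem_Icc.mp he'.1).1
    refine ⟨he'.2.1, fun p hp hd => he'.2.2 p ?_⟩
    exact Nat.mem_primeFactors.mpr ⟨hp, hd, by omega⟩
  have hB0 : 0 ≤ B := by
    refine le_trans ?_ (hB 1 le_rfl)
    apply le_min
    · positivity
    · positivity
  have hlL' : |(l : ℝ)| ≤ (L : ℝ) := by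
    have : ((|l| : ℤ) : ℝ) ≤ ((L : ℤ) : ℝ) := by exact_mod_cast hlL
    simpa using this
  have := ls_core (γ := γ) (c0 := c₀) (k := k) ⟨hc₀, hγ⟩ hG' (E := E) hE
    (fun d hd => (hG d hd).1) (G.card : ℝ) le_rfl z hEe l hl L hlL' P U hU t ht0 ht B hB0 hB
  unfold Lam VV
  simp only [one_div] at this
  exact this

end Vale.Agent.Lib.P028T
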