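import Vale.Agent.Lib.P028T.Ell
import Vale.Agent.Lib.P028T.Geom

/-! Module LSA: blueprint section 5, duality and the number `B`. -/

open Finset

namespace Vale.Agent.Lib.P028T

open Vale.Agent.Lib.P028

section abstract
variable {ι ξ : Type*}

/-- Abstract duality principle with a weight `w` -/
lemma dual_weighted (I : Finset ι) (U : Finset ξ) (a : ι → ξ → ℂ) (w : ξ → ℝ) (hw : ∀ x, 0 ≤ w x)
    (hsupp : ∀ i ∈ I, ∀ x ∈ U, a i x ≠ 0 → 0 < w x) (Λ : ℝ) (hΛ : 0 ≤ Λ)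
    (H : ∀ c : ι → ℂ, ∑ x ∈ U, w x * ‖∑ i ∈ I, c i * (starRingEnd ℂ) (a i x)‖ ^ 2
      ≤ Λ * ∑ i ∈ I, ‖c i‖ ^ 2) :
    ∑ i ∈ I, ‖∑ x ∈ U, a i x‖ ^ 2 ≤ Λ * ∑ x ∈ U, 1 / w x := by
  classical
  set V : ι → ℂ := fun i => ∑ x ∈ U, a i x with hV
  set F : ξ → ℂ := fun x => ∑ i ∈ I, V i * (starRingEnd ℂ) (a i x) with hF
  set S : ℝ := ∑ i ∈ I, ‖V i‖ ^ 2 with hS
  have hS0 : 0 ≤ S := by positivity
  have h1 : (S : ℂ) = ∑ x ∈ U, (starRingEnd ℂ) (F x) := by
    have : ∀ x, (starRingEnd ℂ) (F x) = ∑ i ∈ I, (starRingEnd ℂ) (V i) * a i x := by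
      intro x
      rw [hF]
      simp only [map_sum, map_mul, Complex.conj_conj]
    simp only [this]
    rw [Finset.sum_comm]
    rw [hS]
    push_cast
    refine Finset.sum_congr rfl (fun i _ => ?_)
    rw [← Finset.mul_sum]
    show ((‖V i‖ : ℂ)) ^ 2 = (starRingEnd ℂ) (V i) * V i
    rw [Complex.conj_mul']
  have h2 : S ≤ ∑ x ∈ U, ‖F x‖ := by
    have : ‖(S : ℂ)‖ = S := by
      rw [Complex.norm_real, Real.norm_eq_abs, abs_of_nonneg hS0]
    rw [← this, h1]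
    refine (norm_sum_le _ _).trans (le_of_eq ?_)
    refine Finset.sum_congr rfl (fun x _ => ?_)
    exact Complex.norm_conj _
  have h3 : (∑ x ∈ U, ‖F x‖) ^ 2 ≤ (∑ x ∈ U, 1 / w x) * ∑ x ∈ U, w x * ‖F x‖ ^ 2 := by
    have hfg : ∀ x ∈ U, ‖F x‖ = Real.sqrt (1 / w x) * (Real.sqrt (w x) * ‖F x‖) := by
      intro x hx
      rcases (hw x).lt_or_eq with hpos | hzero
      · rw [← mul_assoc, ← Real.sqrt_mul (by positivity)]
        have : 1 / w x * w x = 1 := by field_simp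
        rw [this, Real.sqrt_one, one_mul]
      · have : F x = 0 := by
          rw [hF]
          apply Finset.sum_eq_zero
          intro i hi
          have : a i x = 0 := by
            by_contra hne
            have := hsupp i hi x hx hne
            linarith
          simp [this]
        simp [this]
    have := Finset.sum_mul_sq_le_sq_mul_sq U (fun x => Real.sqrt (1 / w x))
      (fun x => Real.sqrt (w x) * ‖F x‖)
    have e1 : ∑ x ∈ U, ‖F x‖ = ∑ x ∈ U, Real.sqrt (1 / w x) * (Real.sqrt (w x) * ‖F x‖) :=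
      Finset.sum_congr rfl hfg
    rw [e1]
    refine this.trans (le_of_eq ?_)
    congr 1
    · refine Finset.sum_congr rfl (fun x _ => ?_)
      rw [Real.sq_sqrt]
      have := hw x
      positivity
    · refine Finset.sum_congr rfl (fun x _ => ?_)
      rw [mul_pow, Real.sq_sqrt (hw x)]
  have h4 : ∑ x ∈ U, w x * ‖F x‖ ^ 2 ≤ Λ * S := H V
  have hW0 : 0 ≤ ∑ x ∈ U, 1 / w x := by
    apply Finset.sum_nonneg
    intro x _
    have := hw x
    positivity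
  have h5 : S ^ 2 ≤ (∑ x ∈ U, 1 / w x) * (Λ * S) := by
    calc S ^ 2 ≤ (∑ x ∈ U, ‖F x‖) ^ 2 := pow_le_pow_left₀ hS0 h2 2
      _ ≤ _ := h3
      _ ≤ _ := mul_le_mul_of_nonneg_left h4 hW0
  rcases hS0.lt_or_eq with hpos | hzero
  · have : S ≤ (∑ x ∈ U, 1 / w x) * Λ := by
      by_contra hcon
      push Not at hcon
      have := mul_lt_mul_of_pos_right hcon hpos
      nlinarith
    linarith
  · rw [← hzero]
    positivity

/-- Expansion of a sum of squares of linear forms. -/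
lemma sum_norm_sq_le (X : Finset ξ) (I : Finset ι) (b : ι → ξ → ℂ) (c : ι → ℂ) :
    ∑ x ∈ X, ‖∑ i ∈ I, c i * b i x‖ ^ 2
      ≤ ∑ i ∈ I, ∑ j ∈ I, ‖c i‖ * ‖c j‖ * ‖∑ x ∈ X, b i x * (starRingEnd ℂ) (b j x)‖ := by
  classical
  have h1 : ((∑ x ∈ X, ‖∑ i ∈ I, c i * b i x‖ ^ 2 : ℝ) : ℂ)
      = ∑ i ∈ I, ∑ j ∈ I, (c i * (starRingEnd ℂ) (c j))
          * ∑ x ∈ X, b i x * (starRingEnd ℂ) (b j x) := by
    push_cast
    have : ∀ x, ((‖∑ i ∈ I, c i * b i x‖ : ℂ)) ^ 2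
        = ∑ i ∈ I, ∑ j ∈ I, (c i * (starRingEnd ℂ) (c j)) * (b i x * (starRingEnd ℂ) (b j x)) := by
      intro x
      rw [← Complex.mul_conj', map_sum, Finset.sum_mul_sum]
      refine Finset.sum_congr rfl (fun i _ => Finset.sum_congr rfl (fun j _ => ?_))
      rw [map_mul]
      ring
    simp only [this]
    rw [Finset.sum_comm]
    refine Finset.sum_congr rfl (fun i _ => ?_)
    rw [Finset.sum_comm]
    refine Finset.sum_congr rfl (fun j _ => ?_)
    rw [Finset.mul_sum]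
  have h0 : 0 ≤ ∑ x ∈ X, ‖∑ i ∈ I, c i * b i x‖ ^ 2 := by positivity
  have h2 : ‖((∑ x ∈ X, ‖∑ i ∈ I, c i * b i x‖ ^ 2 : ℝ) : ℂ)‖
      = ∑ x ∈ X, ‖∑ i ∈ I, c i * b i x‖ ^ 2 := by
    rw [Complex.norm_real, Real.norm_eq_abs, abs_of_nonneg h0]
  rw [← h2, h1]
  refine (norm_sum_le _ _).trans (Finset.sum_le_sum (fun i _ => ?_))
  refine (norm_sum_le _ _).trans (Finset.sum_le_sum (fun j _ => ?_))
  rw [norm_mul, norm_mul, Complex.norm_conj]

/-- Symmetrised sums -/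
lemma sum_sym_half (I : Finset ι) (p : ι → ℝ) (q : ι → ι → ℝ) :
    ∑ i ∈ I, ∑ j ∈ I, (p i * q i j + p j * q j i) / 2 = ∑ i ∈ I, p i * ∑ j ∈ I, q i j := by
  have h1 : ∑ i ∈ I, ∑ j ∈ I, p j * q j i = ∑ i ∈ I, ∑ j ∈ I, p i * q i j := by
    rw [Finset.sum_comm]
  have h2 : ∑ i ∈ I, ∑ j ∈ I, (p i * q i j + p j * q j i) / 2
      = (∑ i ∈ I, ∑ j ∈ I, p i * q i j + ∑ i ∈ I, ∑ j ∈ I, p j * q j i) / 2 := by
    rw [← Finset.sum_add_distrib, Finset.sum_div]
    refine Finset.sum_congr rfl (fun i _ => ?_)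
    rw [← Finset.sum_add_distrib, Finset.sum_div]
  rw [h2, h1]
  simp only [Finset.mul_sum]
  ring

end abstract

/-! ### Multiples in a dyadic window -/

lemma multiples_Ico (P m : ℕ) (hm : 0 < m) :
    (Ico P (2 * P)).filter (m ∣ ·)
      = (Ico ((P + m - 1) / m) ((2 * P + m - 1) / m)).image (m * ·) := by
  ext x
  simp only [mem_filter, mem_Ico, mem_image]
  constructor
  · rintro ⟨⟨h1, h2⟩, t, rfl⟩
    refine ⟨t, ⟨?_, ?_⟩, rfl⟩
    · have : (P + m - 1) / m < t + 1 := by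
        rw [Nat.div_lt_iff_lt_mul hm]
        have : (t + 1) * m = m * t + m := by ring
        omega
      omega
    · have : t + 1 ≤ (2 * P + m - 1) / m := by
        rw [Nat.le_div_iff_mul_le hm]
        have : (t + 1) * m = m * t + m := by ring
        omega
      omega
  · rintro ⟨t, ⟨h1, h2⟩, rfl⟩
    refine ⟨⟨?_, ?_⟩, Dvd.intro _ rfl⟩
    · have : (P + m - 1) / m < t + 1 := by omega
      rw [Nat.div_lt_iff_lt_mul hm] at this
      have h3 : (t + 1) * m = m * t + m := by ring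
      omega
    · have : t + 1 ≤ (2 * P + m - 1) / m := by omega
      rw [Nat.le_div_iff_mul_le hm] at this
      have h3 : (t + 1) * m = m * t + m := by ring
      omega

lemma card_multiples_le (P m : ℕ) (hm : 0 < m) :
    ((((Ico P (2 * P)).filter (m ∣ ·)).card : ℕ) : ℝ) ≤ (P : ℝ) / m + 1 := by
  rw [multiples_Ico P m hm]
  have hinj : Function.Injective (fun t : ℕ => m * t) := fun a b h => Nat.eq_of_mul_eq_mul_left hm h
  rw [card_image_of_injective _ hinj, Nat.card_Ico]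
  set a := (P + m - 1) / m with ha
  set b := (2 * P + m - 1) / m with hb
  have hmR : (0:ℝ) < m := by exact_mod_cast hm
  have h1 : P ≤ a * m := by
    have : (P + m - 1) / m < a + 1 := by omega
    rw [Nat.div_lt_iff_lt_mul hm] at this
    have h3 : (a + 1) * m = a * m + m := by ring
    omega
  have h2 : b * m ≤ 2 * P + m - 1 := Nat.div_mul_le_self _ _
  have h3 : (b - a) * m ≤ P + m := by
    rw [Nat.sub_mul]
    omega
  have h4 : (((b - a : ℕ) : ℝ)) * m ≤ (P : ℝ) + m := by exact_mod_cast h3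
  have h5 : (P : ℝ) / m + 1 = ((P : ℝ) + m) / m := by
    field_simp
  rw [h5, le_div_iff₀ hmR]
  exact h4

/-! ### lcm arithmetic -/

/-- `lcm(d e, d'') gcd(e, h) = d e h` where `h = d'' / gcd(d, d'')`. -/
lemma lcm_mul_gcd_eq (d e d2 : ℕ) (hd : 0 < d) (hd2 : 0 < d2) :
    Nat.lcm (d * e) d2 * Nat.gcd e (d2 / Nat.gcd d d2) = d * e * (d2 / Nat.gcd d d2) := by
  set g := Nat.gcd d d2 with hg
  have hgpos : 0 < g := Nat.gcd_pos_of_pos_left _ hd
  obtain ⟨d1, hd1⟩ : g ∣ d := Nat.gcd_dvd_left _ _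
  obtain ⟨h, hh⟩ : g ∣ d2 := Nat.gcd_dvd_right _ _
  have hdiv : d2 / g = h := by
    rw [hh]
    exact Nat.mul_div_cancel_left _ hgpos
  rw [hdiv]
  have hcop : Nat.Coprime d1 h := by
    have := Nat.coprime_div_gcd_div_gcd (m := d) (n := d2) hgpos
    rw [← hg] at this
    have h1 : d / g = d1 := by
      conv_lhs => rw [hd1]
      exact Nat.mul_div_cancel_left _ hgpos
    rw [h1, hdiv] at this
    exact this
  have hlcm : Nat.lcm (d * e) d2 = g * Nat.lcm (d1 * e) h := by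
    conv_lhs => rw [hd1, hh, mul_assoc]
    exact Nat.lcm_mul_left _ _ _
  have hgcd : Nat.gcd e h = Nat.gcd (d1 * e) h := by
    rw [Nat.Coprime.gcd_mul_left_cancel e hcop]
  rw [hlcm, hgcd, mul_assoc, mul_comm (Nat.lcm _ _), Nat.gcd_mul_lcm]
  conv_rhs => rw [hd1]
  ring

/-- `P / m <= (P/E) gcd(e,h)/(e h)` when `m` is a multiple of `lcm (d e) d''`. -/
lemma div_le_of_lcm_dvd (P E d e d2 m : ℕ) (hE : 0 < E) (hdE : E ≤ d) (hd2 : 0 < d2) (he : 0 < e)
    (hm : 0 < m) (hdvd : Nat.lcm (d * e) d2 ∣ m) :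
    (P : ℝ) / m ≤ (P : ℝ) / E *
      (((Nat.gcd e (d2 / Nat.gcd d d2) : ℕ) : ℝ) / ((e : ℝ) * ((d2 / Nat.gcd d d2 : ℕ) : ℝ))) := by
  have hd : 0 < d := lt_of_lt_of_le hE hdE
  set h := d2 / Nat.gcd d d2 with hh
  have hhpos : 0 < h := by
    apply Nat.div_pos (Nat.le_of_dvd hd2 (Nat.gcd_dvd_right _ _))
    exact Nat.gcd_pos_of_pos_left _ hd
  have h1 := lcm_mul_gcd_eq d e d2 hd hd2
  rw [← hh] at h1
  have h2 : Nat.lcm (d * e) d2 ≤ m := Nat.le_of_dvd hm hdvd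
  have h3 : E * e * h ≤ m * Nat.gcd e h := by
    calc E * e * h ≤ d * e * h := by gcongr
      _ = Nat.lcm (d * e) d2 * Nat.gcd e h := h1.symm
      _ ≤ m * Nat.gcd e h := by gcongr
  have h3R : (E : ℝ) * e * h ≤ m * (Nat.gcd e h : ℕ) := by exact_mod_cast h3
  have hER : (0:ℝ) < E := by exact_mod_cast hE
  have heR : (0:ℝ) < e := by exact_mod_cast he
  have hhR : (0:ℝ) < h := by exact_mod_cast hhpos
  have hmR : (0:ℝ) < m := by exact_mod_cast hm
  have hP : (0:ℝ) ≤ P := Nat.cast_nonneg _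
  rw [div_mul_div_comm, div_le_div_iff₀ hmR (by positivity)]
  nlinarith [mul_le_mul_of_nonneg_left h3R hP]


/-- The number `B` is admissible in the main regime. -/
theorem B_admissible {c₀ : ℝ} {k : ℕ} (hc₀ : 0 < c₀) (hk : 1 ≤ k) {E P L : ℕ} (hE : 1 ≤ E) (hP : E ≤ P)
    (hL : 1 ≤ L) (hLM : (L:ℝ) ≤ ((P:ℝ) / E) ^ ((1:ℝ) / (4 * k))) (m : ℕ) (hm : 1 ≤ m) :
    min ((P:ℝ) / m + 1) (((L:ℝ) * m / E) ^ k / (2 * c₀))
      ≤ (2 + 1 / (2 * c₀)) * ((P:ℝ) / E) ^ ((1:ℝ) - 1 / (4 * k)) := by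
  have hER : (0:ℝ) < E := by exact_mod_cast hE
  have hkR : (1:ℝ) ≤ k := by exact_mod_cast hk
  have hkpos : (0:ℝ) < k := by linarith
  have hLR : (1:ℝ) ≤ L := by exact_mod_cast hL
  have hmR : (1:ℝ) ≤ m := by exact_mod_cast hm
  set M : ℝ := (P:ℝ) / E with hM
  have hM1 : 1 ≤ M := by
    rw [hM, le_div_iff₀ hER, one_mul]
    exact_mod_cast hP
  have hMpos : 0 < M := by linarith
  have hbig : 1 ≤ M ^ ((1:ℝ) - 1 / (4 * k)) := by
    apply Real.one_le_rpow hM1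
    have : (1:ℝ) / (4 * k) ≤ 1 / 4 := by
      apply div_le_div_of_nonneg_left <;> nlinarith
    linarith
  set R : ℝ := M ^ ((1:ℝ) - 1 / (4 * k)) with hR
  have hcinv : 0 ≤ 1 / (2 * c₀) := by positivity
  by_cases hcase : (L:ℝ) * m / E ≤ M ^ ((1:ℝ) / (2 * k))
  · -- the Diophantine branch
    have h1 : ((L:ℝ) * m / E) ^ k ≤ M ^ ((1:ℝ) / 2) := by
      have h2 : 0 ≤ (L:ℝ) * m / E := by positivity
      calc ((L:ℝ) * m / E) ^ k ≤ (M ^ ((1:ℝ) / (2 * k))) ^ k := pow_le_pow_left₀ h2 hcase k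
        _ = M ^ ((1:ℝ) / 2) := by
          rw [← Real.rpow_natCast, ← Real.rpow_mul hMpos.le]
          congr 1
          field_simp
    have h3 : M ^ ((1:ℝ) / 2) ≤ R := by
      apply Real.rpow_le_rpow_of_exponent_le hM1
      have : (1:ℝ) / (4 * k) ≤ 1 / 4 := by
        apply div_le_div_of_nonneg_left <;> nlinarith
      linarith
    have h4 : ((L:ℝ) * m / E) ^ k / (2 * c₀) ≤ R * (1 / (2 * c₀)) := by
      rw [div_eq_mul_one_div]
      apply mul_le_mul_of_nonneg_right (h1.trans h3) hcinv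
    calc min ((P:ℝ) / m + 1) (((L:ℝ) * m / E) ^ k / (2 * c₀))
        ≤ ((L:ℝ) * m / E) ^ k / (2 * c₀) := min_le_right _ _
      _ ≤ R * (1 / (2 * c₀)) := h4
      _ ≤ (2 + 1 / (2 * c₀)) * R := by nlinarith
  · -- the trivial branch
    push Not at hcase
    have hmpos : (0:ℝ) < m := by linarith
    have h1 : (P:ℝ) / m ≤ R := by
      -- `P / m = M * (L / (L m / E)) <= M * L * M ^ (-1/(2k))`
      have h2 : (P:ℝ) / m = M * L / ((L:ℝ) * m / E) := by
        rw [hM]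
        field_simp
      rw [h2]
      have h3 : 0 < M ^ ((1:ℝ) / (2 * k)) := Real.rpow_pos_of_pos hMpos _
      have h4 : M * L / ((L:ℝ) * m / E) ≤ M * L / M ^ ((1:ℝ) / (2 * k)) := by
        apply div_le_div_of_nonneg_left (by positivity) h3 hcase.le
      refine h4.trans ?_
      rw [div_le_iff₀ h3, hR, ← Real.rpow_add hMpos]
      have h5 : (1:ℝ) - 1 / (4 * k) + 1 / (2 * k) = 1 + 1 / (4 * k) := by
        field_simp
        ring
      rw [h5, Real.rpow_add hMpos, Real.rpow_one]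
      apply mul_le_mul_of_nonneg_left _ hMpos.le
      have h6 : (1:ℝ) / (4 * (k:ℝ)) = 1 / (4 * k) := rfl
      exact hLM
    calc min ((P:ℝ) / m + 1) (((L:ℝ) * m / E) ^ k / (2 * c₀))
        ≤ (P:ℝ) / m + 1 := min_le_left _ _
      _ ≤ R + R := by linarith
      _ ≤ (2 + 1 / (2 * c₀)) * R := by nlinarith

/-- The inner sum attached to `(d, e)`. -/
noncomputable def VV (γ : ℝ) (l : ℤ) (U : Finset ℕ) (d e : ℕ) : ℂ :=
  ∑ x ∈ U.filter (fun x => d * e ∣ x), ee ((l:ℝ) * γ * (x:ℝ) / (d:ℝ))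

/-- The number `Λ` of the LS Lemma. -/
noncomputable def Lam (P E : ℕ) (z E₀ : ℕ) (G : Finset ℕ) (t B : ℝ) : ℝ :=
  (P:ℝ) / E * ell z * t + (G.card:ℝ) ^ 2 * ((smooth z E₀).card : ℝ) * B
    + (G.card:ℝ) * ((smooth z E₀).card : ℝ)

end Vale.Agent.Lib.P028T
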