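import Vale.Agent.Lib.P028T.StepDefs

/-! Step B: the two counting bounds (excess and tail). Blueprint section 7. -/

open Finset

namespace Vale.Agent.Lib.P028T

open Vale.Agent.Lib.P028

variable {z E₀ E Q₁ Q₂ : ℕ} {G' U₁ U₂ : Finset ℕ}

/-- The multiples of `m` in a set of positive integers below `B`. -/
lemma card_multiples_stepb {S : Finset ℕ} {B m : ℕ} (hm : 1 ≤ m) (hS : ∀ x ∈ S, 1 ≤ x ∧ x < B) :
    (((S.filter (m ∣ ·)).card : ℕ) : ℝ) ≤ (B:ℝ) / m := by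
  have hm0 : 0 < m := hm
  have hmR : (0:ℝ) < m := by exact_mod_cast hm0
  have hinj : Set.InjOn (fun x => x / m) (S.filter (m ∣ ·) : Set ℕ) := by
    intro x hx y hy hxy
    have hx' := (Finset.mem_filter.1 hx).2
    have hy' := (Finset.mem_filter.1 hy).2
    simp only at hxy
    calc x = m * (x / m) := (Nat.mul_div_cancel' hx').symm
      _ = m * (y / m) := by rw [hxy]
      _ = y := Nat.mul_div_cancel' hy'
  have hsub : (S.filter (m ∣ ·)).image (fun x => x / m) ⊆ Finset.Icc 1 (B / m) := by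
    intro a ha
    obtain ⟨x, hx, rfl⟩ := Finset.mem_image.1 ha
    obtain ⟨hxS, hdvd⟩ := Finset.mem_filter.1 hx
    obtain ⟨h1, h2⟩ := hS x hxS
    refine Finset.mem_Icc.2 ⟨?_, Nat.div_le_div_right h2.le⟩
    exact Nat.div_pos (Nat.le_of_dvd h1 hdvd) hm0
  have hc : (S.filter (m ∣ ·)).card ≤ B / m := by
    have := Finset.card_le_card hsub
    rw [Finset.card_image_of_injOn hinj] at this
    simpa using this
  calc (((S.filter (m ∣ ·)).card : ℕ) : ℝ) ≤ ((B / m : ℕ) : ℝ) := by exact_mod_cast hc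
    _ ≤ (B:ℝ) / m := Nat.cast_div_le

/-- The coprimality count for one `d`. -/
lemma copI_sum_one {d : ℕ} (hE : 1 ≤ E) (hz : 1 ≤ z) (hd : E ≤ d)
    (hU₁ : ∀ x ∈ U₁, 1 ≤ x ∧ x < 2 * Q₁) (hU₂ : ∀ x ∈ U₂, 1 ≤ x ∧ x < 2 * Q₂) :
    ∑ y ∈ PrD d U₁ U₂, copI z d y
      ≤ (((PrD d U₁ U₂).filter fun y => Nat.gcd y.1 y.2 = d).card : ℝ)
        + 4 * ((Q₁:ℝ) / E) * ((Q₂:ℝ) / E) / z := by
  classical
  have hd0 : 0 < d := lt_of_lt_of_le hE hd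
  have hdR : (0:ℝ) < d := by exact_mod_cast hd0
  have hER : (0:ℝ) < E := by exact_mod_cast hE
  have hzR : (0:ℝ) < z := by exact_mod_cast hz
  set N := max z (2 * Q₁) with hN
  have hzN : z ≤ N := le_max_left _ _
  have hsum : ∑ y ∈ PrD d U₁ U₂, copI z d y = (((PrD d U₁ U₂).filter (copZ z d)).card : ℝ) := by
    simp only [copI]
    rw [Finset.card_filter]
    push_cast
    exact Finset.sum_congr rfl (fun y _ => by congr)
  rw [hsum]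
  have hsub : (PrD d U₁ U₂).filter (copZ z d) ⊆
      ((PrD d U₁ U₂).filter fun y => Nat.gcd y.1 y.2 = d) ∪
        (Finset.Ioc z N).biUnion (fun n => (U₁.filter (d * n ∣ ·)) ×ˢ (U₂.filter (d * n ∣ ·))) := by
    intro y hy
    obtain ⟨hyP, hcop⟩ := Finset.mem_filter.1 hy
    obtain ⟨hy1, hy2⟩ := Finset.mem_product.1 hyP
    obtain ⟨hq, hdq⟩ := Finset.mem_filter.1 hy1
    obtain ⟨hr, hdr⟩ := Finset.mem_filter.1 hy2
    obtain ⟨a, ha⟩ := hdq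
    obtain ⟨b, hb⟩ := hdr
    have hqa : y.1 / d = a := by rw [ha]; exact Nat.mul_div_cancel_left _ hd0
    have hrb : y.2 / d = b := by rw [hb]; exact Nat.mul_div_cancel_left _ hd0
    have hgcd : Nat.gcd y.1 y.2 = d * Nat.gcd a b := by rw [ha, hb, Nat.gcd_mul_left]
    by_cases hg1 : Nat.gcd a b = 1
    · apply Finset.mem_union_left
      refine Finset.mem_filter.2 ⟨hyP, ?_⟩
      rw [hgcd, hg1, mul_one]
    · apply Finset.mem_union_right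
      obtain ⟨p, hp, hpg⟩ := Nat.exists_prime_and_dvd hg1
      have ha0 : a ≠ 0 := by
        rintro rfl
        have := (hU₁ _ hq).1
        rw [ha] at this
        simp at this
      have hg0 : Nat.gcd a b ≠ 0 := fun h => ha0 (Nat.eq_zero_of_gcd_eq_zero_left h)
      have hpmem : p ∈ (Nat.gcd (y.1 / d) (y.2 / d)).primeFactors := by
        rw [hqa, hrb]
        exact Nat.mem_primeFactors.2 ⟨hp, hpg, hg0⟩
      have hzp : z < p := hcop p hpmem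
      have hpa : p ∣ a := hpg.trans (Nat.gcd_dvd_left _ _)
      have hpb : p ∣ b := hpg.trans (Nat.gcd_dvd_right _ _)
      have hple : p ≤ a := Nat.le_of_dvd (Nat.pos_of_ne_zero ha0) hpa
      have hq2 := (hU₁ _ hq).2
      have haq : a ≤ y.1 := by
        rw [ha]
        exact Nat.le_mul_of_pos_left _ hd0
      have hpN : p ≤ N := le_trans (by omega) (le_max_right _ _)
      refine Finset.mem_biUnion.2 ⟨p, Finset.mem_Ioc.2 ⟨hzp, hpN⟩, Finset.mem_product.2 ⟨?_, ?_⟩⟩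
      · refine Finset.mem_filter.2 ⟨hq, ?_⟩
        rw [ha]
        exact Nat.mul_dvd_mul_left _ hpa
      · refine Finset.mem_filter.2 ⟨hr, ?_⟩
        rw [hb]
        exact Nat.mul_dvd_mul_left _ hpb
  have hcard := (Finset.card_le_card hsub).trans (Finset.card_union_le _ _)
  have hbi := Finset.card_biUnion_le (s := Finset.Ioc z N)
    (t := fun n => (U₁.filter (d * n ∣ ·)) ×ˢ (U₂.filter (d * n ∣ ·)))
  have hcR : (((PrD d U₁ U₂).filter (copZ z d)).card : ℝ) ≤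
      (((PrD d U₁ U₂).filter fun y => Nat.gcd y.1 y.2 = d).card : ℝ) +
        ∑ n ∈ Finset.Ioc z N, (((U₁.filter (d * n ∣ ·)) ×ˢ (U₂.filter (d * n ∣ ·))).card : ℝ) := by
    have h := hcard.trans (Nat.add_le_add_left hbi _)
    exact_mod_cast h
  refine hcR.trans (add_le_add le_rfl ?_)
  have hterm : ∀ n ∈ Finset.Ioc z N,
      (((U₁.filter (d * n ∣ ·)) ×ˢ (U₂.filter (d * n ∣ ·))).card : ℝ) ≤
        (4 * ((Q₁:ℝ) / E) * ((Q₂:ℝ) / E)) * ((n:ℝ) ^ 2)⁻¹ := by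
    intro n hn
    have hn1 : 0 < n := lt_of_le_of_lt (Nat.zero_le _) (Finset.mem_Ioc.1 hn).1
    have hnR : (0:ℝ) < n := by exact_mod_cast hn1
    have hdn : 1 ≤ d * n := Nat.mul_pos hd0 hn1
    rw [Finset.card_product]
    push_cast
    have h1 := card_multiples_stepb (S := U₁) (B := 2 * Q₁) hdn hU₁
    have h2 := card_multiples_stepb (S := U₂) (B := 2 * Q₂) hdn hU₂
    push_cast at h1 h2
    have hEd : (E:ℝ) ≤ d := by exact_mod_cast hd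
    have h1' : (2 * (Q₁:ℝ)) / ((d:ℝ) * n) ≤ 2 * ((Q₁:ℝ) / E) * (n:ℝ)⁻¹ := by
      rw [div_le_iff₀ (by positivity)]
      have : 2 * ((Q₁:ℝ) / E) * (n:ℝ)⁻¹ * ((d:ℝ) * n) = 2 * (Q₁:ℝ) * (d / E) := by
        field_simp
      rw [this]
      have h3 : (1:ℝ) ≤ d / E := by rw [le_div_iff₀ hER]; linarith
      have h4 : (0:ℝ) ≤ 2 * (Q₁:ℝ) := by positivity
      nlinarith
    have h2' : (2 * (Q₂:ℝ)) / ((d:ℝ) * n) ≤ 2 * ((Q₂:ℝ) / E) * (n:ℝ)⁻¹ := by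
      rw [div_le_iff₀ (by positivity)]
      have : 2 * ((Q₂:ℝ) / E) * (n:ℝ)⁻¹ * ((d:ℝ) * n) = 2 * (Q₂:ℝ) * (d / E) := by
        field_simp
      rw [this]
      have h3 : (1:ℝ) ≤ d / E := by rw [le_div_iff₀ hER]; linarith
      have h4 : (0:ℝ) ≤ 2 * (Q₂:ℝ) := by positivity
      nlinarith
    calc ((U₁.filter (d * n ∣ ·)).card : ℝ) * ((U₂.filter (d * n ∣ ·)).card : ℝ)
        ≤ (2 * ((Q₁:ℝ) / E) * (n:ℝ)⁻¹) * (2 * ((Q₂:ℝ) / E) * (n:ℝ)⁻¹) :=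
          mul_le_mul (h1.trans h1') (h2.trans h2') (by positivity) (by positivity)
      _ = (4 * ((Q₁:ℝ) / E) * ((Q₂:ℝ) / E)) * ((n:ℝ) ^ 2)⁻¹ := by
          field_simp
          ring
  refine (Finset.sum_le_sum hterm).trans ?_
  rw [← Finset.mul_sum]
  have hz0 : z ≠ 0 := by omega
  have hs := sum_Ioc_inv_sq_le_sub (α := ℝ) hz0 hzN
  have hNinv : (0:ℝ) ≤ ((N:ℝ))⁻¹ := by positivity
  have hs' : ∑ n ∈ Finset.Ioc z N, ((n:ℝ) ^ 2)⁻¹ ≤ (z:ℝ)⁻¹ := by linarith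
  have hc0 : (0:ℝ) ≤ 4 * ((Q₁:ℝ) / E) * ((Q₂:ℝ) / E) := by positivity
  calc (4 * ((Q₁:ℝ) / E) * ((Q₂:ℝ) / E)) * ∑ n ∈ Finset.Ioc z N, ((n:ℝ) ^ 2)⁻¹
      ≤ (4 * ((Q₁:ℝ) / E) * ((Q₂:ℝ) / E)) * (z:ℝ)⁻¹ := mul_le_mul_of_nonneg_left hs' hc0
    _ = 4 * ((Q₁:ℝ) / E) * ((Q₂:ℝ) / E) / z := (div_eq_mul_inv _ _).symm

/-- `z`-coprime triples: exact pairs plus those with a common prime above `z`. -/
theorem copI_sum_le (hE : 1 ≤ E) (hz : 1 ≤ z) (hG' : ∀ d ∈ G', E ≤ d)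
    (hU₁ : ∀ x ∈ U₁, 1 ≤ x ∧ x < 2 * Q₁) (hU₂ : ∀ x ∈ U₂, 1 ≤ x ∧ x < 2 * Q₂) :
    ∑ d ∈ G', ∑ y ∈ PrD d U₁ U₂, copI z d y
      ≤ (Exact G' U₁ U₂ : ℝ) + (G'.card : ℝ) * (4 * ((Q₁:ℝ) / E) * ((Q₂:ℝ) / E) / z) := by
  classical
  have h1 : ∑ d ∈ G', ∑ y ∈ PrD d U₁ U₂, copI z d y ≤
      ∑ d ∈ G', ((((PrD d U₁ U₂).filter fun y => Nat.gcd y.1 y.2 = d).card : ℝ)
        + 4 * ((Q₁:ℝ) / E) * ((Q₂:ℝ) / E) / z) :=
    Finset.sum_le_sum (fun d hd => copI_sum_one hE hz (hG' d hd) hU₁ hU₂)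
  refine h1.trans ?_
  rw [Finset.sum_add_distrib, Finset.sum_const, nsmul_eq_mul]
  refine add_le_add ?_ le_rfl
  have hfib := Finset.card_eq_sum_card_fiberwise
    (s := (U₁ ×ˢ U₂).filter fun y : ℕ × ℕ => Nat.gcd y.1 y.2 ∈ G') (t := G')
    (f := fun y : ℕ × ℕ => Nat.gcd y.1 y.2)
    (fun y hy => (Finset.mem_filter.1 hy).2)
  have hE' : (Exact G' U₁ U₂ : ℝ) = ∑ d ∈ G',
      ((((U₁ ×ˢ U₂).filter fun y : ℕ × ℕ => Nat.gcd y.1 y.2 ∈ G').filter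
        fun y => Nat.gcd y.1 y.2 = d).card : ℝ) := by
    unfold Exact
    rw [hfib]
    push_cast
    rfl
  rw [hE']
  refine Finset.sum_le_sum (fun d hd => ?_)
  have : ((PrD d U₁ U₂).filter fun y => Nat.gcd y.1 y.2 = d) ⊆
      (((U₁ ×ˢ U₂).filter fun y : ℕ × ℕ => Nat.gcd y.1 y.2 ∈ G').filter
        fun y => Nat.gcd y.1 y.2 = d) := by
    intro y hy
    obtain ⟨hyP, hg⟩ := Finset.mem_filter.1 hy
    obtain ⟨hy1, hy2⟩ := Finset.mem_product.1 hyP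
    refine Finset.mem_filter.2 ⟨Finset.mem_filter.2 ⟨Finset.mem_product.2
      ⟨(Finset.mem_filter.1 hy1).1, (Finset.mem_filter.1 hy2).1⟩, ?_⟩, hg⟩
    show Nat.gcd y.1 y.2 ∈ G'
    rw [hg]
    exact hd
  exact_mod_cast Finset.card_le_card this

/-- The tail for fixed `d ∣ r`: sum over `q`. -/
lemma tail_fixed {d r : ℕ} (hE : 1 ≤ E) (hE₀ : 1 ≤ E₀) (hd : E ≤ d) (hdr : d ∣ r) (hr : 1 ≤ r)
    (hU₁ : ∀ x ∈ U₁, 1 ≤ x ∧ x < 2 * Q₁) :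
    ∑ q ∈ U₁.filter (d ∣ ·), (tailC E₀ d (q, r) : ℝ)
      ≤ (((r / d).divisors.card : ℕ) : ℝ) * (2 * ((Q₁:ℝ) / E) / E₀) := by
  classical
  have hd0 : 0 < d := lt_of_lt_of_le hE hd
  have hER : (0:ℝ) < E := by exact_mod_cast hE
  have hE₀R : (0:ℝ) < E₀ := by exact_mod_cast hE₀
  have hr0 : r ≠ 0 := by omega
  have hrd0 : r / d ≠ 0 := (Nat.div_pos (Nat.le_of_dvd hr hdr) hd0).ne'
  have hstep : ∀ q ∈ U₁.filter (d ∣ ·), (tailC E₀ d (q, r) : ℝ) ≤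
      ∑ e ∈ (r / d).divisors, if E₀ < e ∧ d * e ∣ q then (1:ℝ) else 0 := by
    intro q hq
    obtain ⟨hqU, hdq⟩ := Finset.mem_filter.1 hq
    have hq1 := (hU₁ q hqU).1
    unfold tailC
    simp only
    have hsub : ((Nat.gcd (q / d) (r / d)).divisors.filter fun e => Squarefree e ∧ E₀ < e) ⊆
        (r / d).divisors.filter fun e => E₀ < e ∧ d * e ∣ q := by
      intro e he
      obtain ⟨hed, -, he2⟩ := Finset.mem_filter.1 he
      have hedvd := Nat.dvd_of_mem_divisors hed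
      refine Finset.mem_filter.2 ⟨Nat.mem_divisors.2 ⟨hedvd.trans (Nat.gcd_dvd_right _ _), hrd0⟩,
        he2, ?_⟩
      have h1 : e ∣ q / d := hedvd.trans (Nat.gcd_dvd_left _ _)
      have h2 : d * e ∣ d * (q / d) := Nat.mul_dvd_mul_left _ h1
      rwa [Nat.mul_div_cancel' hdq] at h2
    have hc := Finset.card_le_card hsub
    rw [Finset.card_filter ((fun e => E₀ < e ∧ d * e ∣ q))] at hc
    have hc' : (((Nat.gcd (q / d) (r / d)).divisors.filter fun e => Squarefree e ∧ E₀ < e).card : ℝ) ≤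
        ((∑ e ∈ (r / d).divisors, if E₀ < e ∧ d * e ∣ q then 1 else 0 : ℕ) : ℝ) := by
      exact_mod_cast hc
    refine hc'.trans (le_of_eq ?_)
    push_cast
    rfl
  refine (Finset.sum_le_sum hstep).trans ?_
  rw [Finset.sum_comm]
  have hX : (0:ℝ) ≤ 2 * ((Q₁:ℝ) / E) / E₀ := by positivity
  have hterm : ∀ e ∈ (r / d).divisors,
      (∑ q ∈ U₁.filter (d ∣ ·), if E₀ < e ∧ d * e ∣ q then (1:ℝ) else 0) ≤
        2 * ((Q₁:ℝ) / E) / E₀ := by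
    intro e _
    by_cases heE : E₀ < e
    · have he0 : 0 < e := lt_of_le_of_lt (Nat.zero_le _) heE
      have hde : 1 ≤ d * e := Nat.mul_pos hd0 he0
      have h1 : (∑ q ∈ U₁.filter (d ∣ ·), if E₀ < e ∧ d * e ∣ q then (1:ℝ) else 0) ≤
          ((U₁.filter (d * e ∣ ·)).card : ℝ) := by
        rw [Finset.card_filter]
        push_cast
        calc (∑ q ∈ U₁.filter (d ∣ ·), if E₀ < e ∧ d * e ∣ q then (1:ℝ) else 0)
            ≤ ∑ q ∈ U₁, if E₀ < e ∧ d * e ∣ q then (1:ℝ) else 0 :=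
              Finset.sum_le_sum_of_subset_of_nonneg (Finset.filter_subset _ _)
                (fun _ _ _ => by split_ifs <;> norm_num)
          _ = ∑ q ∈ U₁, if d * e ∣ q then (1:ℝ) else 0 := by
              simp only [heE, true_and]
      refine h1.trans ((card_multiples_stepb (S := U₁) (B := 2 * Q₁) hde hU₁).trans ?_)
      push_cast
      have hEd : (E:ℝ) ≤ d := by exact_mod_cast hd
      have hEe : (E₀:ℝ) ≤ e := by exact_mod_cast heE.le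
      have hprod : (E:ℝ) * E₀ ≤ (d:ℝ) * e := mul_le_mul hEd hEe hE₀R.le (by positivity)
      have h2 : 2 * ((Q₁:ℝ) / E) / E₀ = (2 * (Q₁:ℝ)) / ((E:ℝ) * E₀) := by
        field_simp
      rw [h2]
      exact div_le_div_of_nonneg_left (by positivity) (by positivity) hprod
    · simp only [heE, false_and, if_false, Finset.sum_const_zero]
      exact hX
  refine (Finset.sum_le_sum hterm).trans ?_
  rw [Finset.sum_const, nsmul_eq_mul]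

/-- The tail: fix `r ∈ U₂`, `d ∣ r` (at most `τb` choices), `e ∣ r/d` with `r/d < 2 Q₂/E` (at most `τc` choices), then `q/d` is a
positive multiple of `e` below `2 Q₁/E`. -/
theorem tail_le_two (hE : 1 ≤ E) (hE₀ : 1 ≤ E₀) (hG' : ∀ d ∈ G', E ≤ d)
    (hU₁ : ∀ x ∈ U₁, 1 ≤ x ∧ x < 2 * Q₁) (hU₂ : ∀ x ∈ U₂, 1 ≤ x ∧ x < 2 * Q₂)
    {τb τc : ℝ} (hτb0 : 0 ≤ τb) (hτc0 : 0 ≤ τc) (hτb : ∀ x ∈ U₂, (TT G' x : ℝ) ≤ τb)
    (hτc : ∀ y : ℕ, 1 ≤ y → (y:ℝ) < 2 * ((Q₂:ℝ) / E) → (y.divisors.card : ℝ) ≤ τc) :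
    ∑ d ∈ G', ∑ y ∈ PrD d U₁ U₂, (tailC E₀ d y : ℝ)
      ≤ (U₂.card : ℝ) * (τb * τc) * (2 * ((Q₁:ℝ) / E) / E₀) := by
  classical
  have hER : (0:ℝ) < E := by exact_mod_cast hE
  have hE₀R : (0:ℝ) < E₀ := by exact_mod_cast hE₀
  have hX : (0:ℝ) ≤ 2 * ((Q₁:ℝ) / E) / E₀ := by positivity
  have h1 : ∑ d ∈ G', ∑ y ∈ PrD d U₁ U₂, (tailC E₀ d y : ℝ) =
      ∑ r ∈ U₂, ∑ d ∈ G'.filter (· ∣ r), ∑ q ∈ U₁.filter (d ∣ ·), (tailC E₀ d (q, r) : ℝ) := by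
    have : ∀ d ∈ G', ∑ y ∈ PrD d U₁ U₂, (tailC E₀ d y : ℝ) =
        ∑ r ∈ U₂, if d ∣ r then ∑ q ∈ U₁.filter (d ∣ ·), (tailC E₀ d (q, r) : ℝ) else 0 := by
      intro d _
      unfold PrD
      rw [Finset.sum_product_right, Finset.sum_filter]
    rw [Finset.sum_congr rfl this, Finset.sum_comm]
    refine Finset.sum_congr rfl (fun r _ => ?_)
    rw [Finset.sum_filter]
  rw [h1]
  have h2 : ∀ r ∈ U₂, ∑ d ∈ G'.filter (· ∣ r), ∑ q ∈ U₁.filter (d ∣ ·), (tailC E₀ d (q, r) : ℝ)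
      ≤ (τb * τc) * (2 * ((Q₁:ℝ) / E) / E₀) := by
    intro r hr
    obtain ⟨hr1, hr2⟩ := hU₂ r hr
    have hin : ∀ d ∈ G'.filter (· ∣ r), ∑ q ∈ U₁.filter (d ∣ ·), (tailC E₀ d (q, r) : ℝ) ≤
        τc * (2 * ((Q₁:ℝ) / E) / E₀) := by
      intro d hd
      obtain ⟨hdG, hdr⟩ := Finset.mem_filter.1 hd
      have hd0 : 0 < d := lt_of_lt_of_le hE (hG' d hdG)
      refine (tail_fixed hE hE₀ (hG' d hdG) hdr hr1 hU₁).trans
        (mul_le_mul_of_nonneg_right ?_ hX)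
      refine hτc (r / d) (Nat.div_pos (Nat.le_of_dvd hr1 hdr) hd0) ?_
      have h3 : ((r / d : ℕ) : ℝ) = (r:ℝ) / d := Nat.cast_div hdr (by exact_mod_cast hd0.ne')
      rw [h3]
      have hEd : (E:ℝ) ≤ d := by exact_mod_cast hG' d hdG
      have hrR : (r:ℝ) < 2 * (Q₂:ℝ) := by exact_mod_cast hr2
      have hd0R : (0:ℝ) < d := by exact_mod_cast hd0
      calc (r:ℝ) / d ≤ (r:ℝ) / E := div_le_div_of_nonneg_left (by positivity) hER hEd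
        _ < (2 * (Q₂:ℝ)) / E := div_lt_div_of_pos_right hrR hER
        _ = 2 * ((Q₂:ℝ) / E) := by ring
    refine (Finset.sum_le_sum hin).trans ?_
    rw [Finset.sum_const, nsmul_eq_mul]
    have hcard : ((G'.filter (· ∣ r)).card : ℝ) ≤ τb := hτb r hr
    calc ((G'.filter (· ∣ r)).card : ℝ) * (τc * (2 * ((Q₁:ℝ) / E) / E₀))
        ≤ τb * (τc * (2 * ((Q₁:ℝ) / E) / E₀)) :=
          mul_le_mul_of_nonneg_right hcard (mul_nonneg hτc0 hX)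
      _ = (τb * τc) * (2 * ((Q₁:ℝ) / E) / E₀) := by ring
  refine (Finset.sum_le_sum h2).trans ?_
  rw [Finset.sum_const, nsmul_eq_mul]
  exact le_of_eq (by ring)

/-- Swapping the two sides in the tail. -/
lemma tail_swap (d : ℕ) :
    ∑ y ∈ PrD d U₁ U₂, (tailC E₀ d y : ℝ) = ∑ y ∈ PrD d U₂ U₁, (tailC E₀ d y : ℝ) := by
  unfold PrD
  rw [Finset.sum_product, Finset.sum_product_right]
  refine Finset.sum_congr rfl (fun a _ => Finset.sum_congr rfl (fun b _ => ?_))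
  unfold tailC
  simp only [Nat.gcd_comm]

/-- The same on side one. -/
theorem tail_le_one (hE : 1 ≤ E) (hE₀ : 1 ≤ E₀) (hG' : ∀ d ∈ G', E ≤ d)
    (hU₁ : ∀ x ∈ U₁, 1 ≤ x ∧ x < 2 * Q₁) (hU₂ : ∀ x ∈ U₂, 1 ≤ x ∧ x < 2 * Q₂)
    {τb τc : ℝ} (hτb0 : 0 ≤ τb) (hτc0 : 0 ≤ τc) (hτb : ∀ x ∈ U₁, (TT G' x : ℝ) ≤ τb)
    (hτc : ∀ y : ℕ, 1 ≤ y → (y:ℝ) < 2 * ((Q₁:ℝ) / E) → (y.divisors.card : ℝ) ≤ τc) :
    ∑ d ∈ G', ∑ y ∈ PrD d U₁ U₂, (tailC E₀ d y : ℝ)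
      ≤ (U₁.card : ℝ) * (τb * τc) * (2 * ((Q₂:ℝ) / E) / E₀) := by
  have h : ∑ d ∈ G', ∑ y ∈ PrD d U₁ U₂, (tailC E₀ d y : ℝ) =
      ∑ d ∈ G', ∑ y ∈ PrD d U₂ U₁, (tailC E₀ d y : ℝ) :=
    Finset.sum_congr rfl (fun d _ => tail_swap d)
  rw [h]
  exact tail_le_two hE hE₀ hG' hU₂ hU₁ hτb0 hτc0 hτb hτc

end Vale.Agent.Lib.P028T
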