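import Vale.Agent.Lib.P028T.StepDefs

/-! Step C: the oscillating sum by Cauchy-Schwarz and the LS Lemma. Blueprint section 7. -/

open Finset

namespace Vale.Agent.Lib.P028T

open Vale.Agent.Lib.P028

/-- The phase splits. -/
private lemma ee_phase_split (γ : ℝ) (l : ℤ) (d : ℕ) (y : ℕ × ℕ) :
    ee ((l:ℝ) * phase γ d y) =
      (starRingEnd ℂ) (ee ((l:ℝ) * γ * (y.1:ℝ) / (d:ℝ))) * ee ((l:ℝ) * γ * (y.2:ℝ) / (d:ℝ)) := by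
  rw [← ee_neg, ← ee_add]
  congr 1
  unfold phase
  ring

/-- The filtered product for one pair `(d, e)`. -/
private lemma conj_mul_VV (γ : ℝ) (l : ℤ) (U₁ U₂ : Finset ℕ) (d e : ℕ) :
    (starRingEnd ℂ) (VV γ l U₁ d e) * VV γ l U₂ d e =
      ∑ y ∈ PrD d U₁ U₂, if d * e ∣ y.1 ∧ d * e ∣ y.2 then ee ((l:ℝ) * phase γ d y) else 0 := by
  classical
  unfold VV
  rw [map_sum, Finset.sum_mul_sum, ← Finset.sum_product']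
  rw [← Finset.sum_filter]
  apply Finset.sum_congr
  · ext ⟨a, b⟩
    simp only [mem_product, mem_filter, PrD]
    constructor
    · rintro ⟨⟨h1, h2⟩, h3, h4⟩
      exact ⟨⟨⟨h1, Dvd.dvd.trans (Dvd.intro _ rfl) h2⟩, ⟨h3, Dvd.dvd.trans (Dvd.intro _ rfl) h4⟩⟩, h2, h4⟩
    · rintro ⟨⟨⟨h1, _⟩, ⟨h3, _⟩⟩, h2, h4⟩
      exact ⟨⟨h1, h2⟩, h3, h4⟩
  · rintro ⟨a, b⟩ _
    rw [ee_phase_split]

/-- `lsSum` as a bilinear form in the `VV`. -/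
theorem lsSum_eq {γ : ℝ} {z E₀ : ℕ} {G' U₁ U₂ : Finset ℕ} (_hG' : ∀ d ∈ G', 1 ≤ d) (l : ℤ) :
    lsSum γ z E₀ G' U₁ U₂ l = ∑ d ∈ G', ∑ e ∈ smooth z E₀,
      ((ArithmeticFunction.moebius e : ℤ) : ℂ) * ((starRingEnd ℂ) (VV γ l U₁ d e) * VV γ l U₂ d e) := by
  classical
  unfold lsSum
  apply Finset.sum_congr rfl
  intro d _
  simp_rw [conj_mul_VV, Finset.mul_sum]
  rw [Finset.sum_comm]
  apply Finset.sum_congr rfl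
  intro y _
  unfold smallM
  push_cast
  rw [Finset.sum_mul]
  apply Finset.sum_congr rfl
  intro e _
  split_ifs <;> simp

theorem lsSum_le {γ c₀ : ℝ} {k : ℕ} (hγ : Dio γ c₀ k) (hc₀ : 0 < c₀) (hk : 1 ≤ k)
    {E Q₁ Q₂ z L E₀ : ℕ} (hE : 1 ≤ E) (hQ₁ : 1 ≤ Q₁) (hQ₂ : 1 ≤ Q₂) (hL : 1 ≤ L)
    {G G' U₁ U₂ : Finset ℕ} (hG' : G' ⊆ G) (hG : ∀ d ∈ G, E ≤ d ∧ d < 2 * E)
    (hU₁ : ∀ x ∈ U₁, Q₁ ≤ x ∧ x < 2 * Q₁) (hU₂ : ∀ x ∈ U₂, Q₂ ≤ x ∧ x < 2 * Q₂)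
    {t B₁ B₂ : ℝ} (ht0 : 0 ≤ t) (ht : ∀ d ∈ G', rowSum G d ≤ t)
    (hB₁ : ∀ m : ℕ, 1 ≤ m → min ((Q₁:ℝ) / m + 1) (((L:ℝ) * m / E) ^ k / (2 * c₀)) ≤ B₁)
    (hB₂ : ∀ m : ℕ, 1 ≤ m → min ((Q₂:ℝ) / m + 1) (((L:ℝ) * m / E) ^ k / (2 * c₀)) ≤ B₂)
    {l : ℤ} (hl : l ≠ 0) (hlL : |l| ≤ (L:ℤ)) :
    ‖lsSum γ z E₀ G' U₁ U₂ l‖ ≤ Real.sqrt
      ((Lam Q₁ E z E₀ G t B₁ * ∑ x ∈ U₁, ((TT G x : ℝ))⁻¹) *
       (Lam Q₂ E z E₀ G t B₂ * ∑ x ∈ U₂, ((TT G x : ℝ))⁻¹)) := by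
  classical
  have hG'1 : ∀ d ∈ G', 1 ≤ d := fun d hd => hE.trans (hG d (hG' hd)).1
  have h1 := ls_lemma hγ hc₀ hk (z := z) (E₀ := E₀) hE hQ₁ hL hG' hG hU₁ hl hlL ht0 ht hB₁
  have h2 := ls_lemma hγ hc₀ hk (z := z) (E₀ := E₀) hE hQ₂ hL hG' hG hU₂ hl hlL ht0 ht hB₂
  rw [lsSum_eq hG'1]
  -- triangle inequality
  have hmu : ∀ e : ℕ, ‖((ArithmeticFunction.moebius e : ℤ) : ℂ)‖ ≤ 1 := by
    intro e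
    rw [Complex.norm_intCast]
    have := ArithmeticFunction.abs_moebius_le_one (n := e)
    exact_mod_cast this
  have hT : ‖∑ d ∈ G', ∑ e ∈ smooth z E₀,
      ((ArithmeticFunction.moebius e : ℤ) : ℂ) * ((starRingEnd ℂ) (VV γ l U₁ d e) * VV γ l U₂ d e)‖
      ≤ ∑ p ∈ G' ×ˢ smooth z E₀, ‖VV γ l U₁ p.1 p.2‖ * ‖VV γ l U₂ p.1 p.2‖ := by
    rw [Finset.sum_product]
    refine (norm_sum_le _ _).trans (Finset.sum_le_sum fun d _ => ?_)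
    refine (norm_sum_le _ _).trans (Finset.sum_le_sum fun e _ => ?_)
    rw [norm_mul, norm_mul, RCLike.norm_conj]
    have h0 : 0 ≤ ‖VV γ l U₁ d e‖ * ‖VV γ l U₂ d e‖ := by positivity
    calc _ ≤ 1 * (‖VV γ l U₁ d e‖ * ‖VV γ l U₂ d e‖) :=
          mul_le_mul_of_nonneg_right (hmu e) h0
      _ = _ := one_mul _
  have hCS := Real.sum_mul_le_sqrt_mul_sqrt (G' ×ˢ smooth z E₀)
    (fun p => ‖VV γ l U₁ p.1 p.2‖) (fun p => ‖VV γ l U₂ p.1 p.2‖)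
  refine hT.trans (hCS.trans ?_)
  rw [Finset.sum_product, Finset.sum_product]
  have hA0 : 0 ≤ ∑ x ∈ G', ∑ y ∈ smooth z E₀, ‖VV γ l U₁ x y‖ ^ 2 :=
    Finset.sum_nonneg fun _ _ => Finset.sum_nonneg fun _ _ => by positivity
  have hB0 : 0 ≤ ∑ x ∈ G', ∑ y ∈ smooth z E₀, ‖VV γ l U₂ x y‖ ^ 2 :=
    Finset.sum_nonneg fun _ _ => Finset.sum_nonneg fun _ _ => by positivity
  rw [← Real.sqrt_mul hA0]
  apply Real.sqrt_le_sqrt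
  exact mul_le_mul h1 h2 hB0 (hA0.trans h1)

end Vale.Agent.Lib.P028T
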