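import Vale.Agent.Lib.P028T.StepA
import Vale.Agent.Lib.P028T.StepB
import Vale.Agent.Lib.P028T.StepC

/-! The LS step: assembly of Steps A, B, C. Blueprint section 7. -/

open Finset

namespace Vale.Agent.Lib.P028T

open Vale.Agent.Lib.P028

theorem ls_step {γ c₀ : ℝ} {k : ℕ} (hγ : Dio γ c₀ k) (hc₀ : 0 < c₀) (hk : 1 ≤ k)
    {E Q₁ Q₂ z L E₀ : ℕ} (hE : 1 ≤ E) (hQ₁ : 1 ≤ Q₁) (hQ₂ : 1 ≤ Q₂) (hz : 1 ≤ z) (hL : 1 ≤ L)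
    (hE₀ : 1 ≤ E₀) {D w : ℝ} (hw : 0 ≤ w) (hLD : 6 * (L:ℝ) * D ≤ 1)
    {G G' U₁ U₂ : Finset ℕ} (hG' : G' ⊆ G) (hG : ∀ d ∈ G, E ≤ d ∧ d < 2 * E)
    (hU₁ : ∀ x ∈ U₁, Q₁ ≤ x ∧ x < 2 * Q₁) (hU₂ : ∀ x ∈ U₂, Q₂ ≤ x ∧ x < 2 * Q₂)
    {t B₁ B₂ Tl : ℝ} (ht0 : 0 ≤ t) (ht : ∀ d ∈ G', rowSum G d ≤ t)
    (hB₁ : ∀ m : ℕ, 1 ≤ m → min ((Q₁:ℝ) / m + 1) (((L:ℝ) * m / E) ^ k / (2 * c₀)) ≤ B₁)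
    (hB₂ : ∀ m : ℕ, 1 ≤ m → min ((Q₂:ℝ) / m + 1) (((L:ℝ) * m / E) ^ k / (2 * c₀)) ≤ B₂)
    (hTl : (∃ τb τc : ℝ, 0 ≤ τb ∧ 0 ≤ τc ∧ (∀ x ∈ U₂, (TT G' x : ℝ) ≤ τb) ∧
              (∀ y : ℕ, 1 ≤ y → (y:ℝ) < 2 * ((Q₂:ℝ) / E) → (y.divisors.card : ℝ) ≤ τc) ∧
              (U₂.card : ℝ) * (τb * τc) * (2 * ((Q₁:ℝ) / E) / E₀) ≤ Tl) ∨
           (∃ τb τc : ℝ, 0 ≤ τb ∧ 0 ≤ τc ∧ (∀ x ∈ U₁, (TT G' x : ℝ) ≤ τb) ∧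
              (∀ y : ℕ, 1 ≤ y → (y:ℝ) < 2 * ((Q₁:ℝ) / E) → (y.divisors.card : ℝ) ≤ τc) ∧
              (U₁.card : ℝ) * (τb * τc) * (2 * ((Q₂:ℝ) / E) / E₀) ≤ Tl)) :
    Off γ D w G' U₁ U₂ ≤ 4 * w * ((1 / (L:ℝ)) *
        ((Exact G' U₁ U₂ : ℝ) + (G'.card : ℝ) * (4 * ((Q₁:ℝ) / E) * ((Q₂:ℝ) / E) / z))
      + 2 * Tl + Real.sqrt
      ((Lam Q₁ E z E₀ G t B₁ * ∑ x ∈ U₁, ((TT G x : ℝ))⁻¹) *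
       (Lam Q₂ E z E₀ G t B₂ * ∑ x ∈ U₂, ((TT G x : ℝ))⁻¹))) := by
  have hG'E : ∀ d ∈ G', E ≤ d := fun d hd => (hG d (hG' hd)).1
  have hG'1 : ∀ d ∈ G', 1 ≤ d := fun d hd => hE.trans (hG'E d hd)
  have hU₁1 : ∀ x ∈ U₁, 1 ≤ x := fun x hx => hQ₁.trans (hU₁ x hx).1
  have hU₂1 : ∀ x ∈ U₂, 1 ≤ x := fun x hx => hQ₂.trans (hU₂ x hx).1
  have hLpos : (0:ℝ) < L := by exact_mod_cast hL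
  set R : ℝ := Real.sqrt
      ((Lam Q₁ E z E₀ G t B₁ * ∑ x ∈ U₁, ((TT G x : ℝ))⁻¹) *
       (Lam Q₂ E z E₀ G t B₂ * ∑ x ∈ U₂, ((TT G x : ℝ))⁻¹)) with hRdef
  have hR0 : 0 ≤ R := Real.sqrt_nonneg _
  have hR : ∀ l : ℤ, l ≠ 0 → |l| ≤ (L:ℤ) → ‖lsSum γ z E₀ G' U₁ U₂ l‖ ≤ R := fun l hl hlL =>
    lsSum_le hγ hc₀ hk hE hQ₁ hQ₂ hL hG' hG hU₁ hU₂ ht0 ht hB₁ hB₂ hl hlL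
  have h1 := off_le_fej (γ := γ) (D := D) (z := z) (G' := G') hw hL hLD hU₁1 hU₂1
  have h2 := fej_sum_le (γ := γ) (z := z) (E₀ := E₀) hL hG'1 hU₁1 hU₂1 hR hR0
  have h3 := copI_sum_le (z := z) (E := E) (Q₁ := Q₁) (Q₂ := Q₂) (G' := G') (U₁ := U₁) (U₂ := U₂)
    hE hz hG'E (fun x hx => ⟨hU₁1 x hx, (hU₁ x hx).2⟩) (fun x hx => ⟨hU₂1 x hx, (hU₂ x hx).2⟩)
  have h4 : ∑ d ∈ G', ∑ y ∈ PrD d U₁ U₂, (tailC E₀ d y : ℝ) ≤ Tl := by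
    rcases hTl with ⟨τb, τc, h0, h0', hτ, hτ', hle⟩ | ⟨τb, τc, h0, h0', hτ, hτ', hle⟩
    · exact (tail_le_two hE hE₀ hG'E (fun x hx => ⟨hU₁1 x hx, (hU₁ x hx).2⟩)
        (fun x hx => ⟨hU₂1 x hx, (hU₂ x hx).2⟩) h0 h0' hτ hτ').trans hle
    · exact (tail_le_one hE hE₀ hG'E (fun x hx => ⟨hU₁1 x hx, (hU₁ x hx).2⟩)
        (fun x hx => ⟨hU₂1 x hx, (hU₂ x hx).2⟩) h0 h0' hτ hτ').trans hle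
  refine h1.trans (mul_le_mul_of_nonneg_left ?_ (by positivity))
  refine h2.trans ?_
  have h5 : (1 / (L:ℝ)) * ∑ d ∈ G', ∑ y ∈ PrD d U₁ U₂, copI z d y ≤
      (1 / (L:ℝ)) * ((Exact G' U₁ U₂ : ℝ) + (G'.card : ℝ) * (4 * ((Q₁:ℝ) / E) * ((Q₂:ℝ) / E) / z)) :=
    mul_le_mul_of_nonneg_left h3 (by positivity)
  linarith

end Vale.Agent.Lib.P028T
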