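import Vale.Agent.Lib.P028T.Bohr

/-! Module OffBasic: blueprint sections 1 and 3, bookkeeping for `Off` and `Exact`. -/

open Finset

namespace Vale.Agent.Lib.P028T

open Vale.Agent.Lib.P028

variable {γ D w : ℝ}

lemma off_nonneg (hw : 0 ≤ w) (A U V : Finset ℕ) : 0 ≤ Off γ D w A U V := by
  unfold Off
  positivity

lemma off_mono (hw : 0 ≤ w) {A A' U U' V V' : Finset ℕ} (hA : A ⊆ A') (hU : U ⊆ U') (hV : V ⊆ V') :
    Off γ D w A U V ≤ Off γ D w A' U' V' := by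
  unfold Off
  apply mul_le_mul_of_nonneg_left _ hw
  norm_cast
  apply Finset.card_le_card
  intro z hz
  simp only [Finset.mem_filter, Finset.mem_product] at hz ⊢
  exact ⟨⟨hU hz.1.1, hV hz.1.2⟩, hA hz.2.1, hz.2.2⟩

lemma off_union_family (hw : 0 ≤ w) (A B U V : Finset ℕ) :
    Off γ D w (A ∪ B) U V ≤ Off γ D w A U V + Off γ D w B U V := by
  unfold Off
  rw [← mul_add]
  apply mul_le_mul_of_nonneg_left _ hw
  norm_cast
  refine le_trans (Finset.card_le_card ?_) (Finset.card_union_le _ _)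
  intro z hz
  simp only [Finset.mem_filter, Finset.mem_product, Finset.mem_union] at hz ⊢
  rcases hz.2.1 with h | h
  · exact Or.inl ⟨hz.1, h, hz.2.2⟩
  · exact Or.inr ⟨hz.1, h, hz.2.2⟩

lemma off_union_left (hw : 0 ≤ w) (A U U' V : Finset ℕ) :
    Off γ D w A (U ∪ U') V ≤ Off γ D w A U V + Off γ D w A U' V := by
  unfold Off
  rw [← mul_add]
  apply mul_le_mul_of_nonneg_left _ hw
  norm_cast
  refine le_trans (Finset.card_le_card ?_) (Finset.card_union_le _ _)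
  intro z hz
  simp only [Finset.mem_filter, Finset.mem_product, Finset.mem_union] at hz ⊢
  rcases hz.1.1 with h | h
  · exact Or.inl ⟨⟨h, hz.1.2⟩, hz.2⟩
  · exact Or.inr ⟨⟨h, hz.1.2⟩, hz.2⟩

lemma off_union_right (hw : 0 ≤ w) (A U V V' : Finset ℕ) :
    Off γ D w A U (V ∪ V') ≤ Off γ D w A U V + Off γ D w A U V' := by
  unfold Off
  rw [← mul_add]
  apply mul_le_mul_of_nonneg_left _ hw
  norm_cast
  refine le_trans (Finset.card_le_card ?_) (Finset.card_union_le _ _)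
  intro z hz
  simp only [Finset.mem_filter, Finset.mem_product, Finset.mem_union] at hz ⊢
  rcases hz.1.2 with h | h
  · exact Or.inl ⟨⟨hz.1.1, h⟩, hz.2⟩
  · exact Or.inr ⟨⟨hz.1.1, h⟩, hz.2⟩

lemma off_swap (A U V : Finset ℕ) : Off γ D w A U V = Off γ D w A V U := by
  unfold Off
  congr 2
  apply Finset.card_bij (fun z _ => (z.2, z.1))
  · intro z hz
    simp only [Finset.mem_filter, Finset.mem_product] at hz ⊢
    refine ⟨⟨hz.1.2, hz.1.1⟩, ?_, hz.2.2.1.symm, ?_⟩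
    · rw [Nat.gcd_comm]; exact hz.2.1
    · rw [Nat.gcd_comm, ← dn_neg]
      have e : -((((z.1 / Nat.gcd z.1 z.2 : ℕ) : ℝ) - ((z.2 / Nat.gcd z.1 z.2 : ℕ) : ℝ)) * γ)
          = (((z.2 / Nat.gcd z.1 z.2 : ℕ) : ℝ) - ((z.1 / Nat.gcd z.1 z.2 : ℕ) : ℝ)) * γ := by ring
      rw [e]; exact hz.2.2.2
  · intro a _ b _ h
    simp only [Prod.mk.injEq] at h
    exact Prod.ext h.2 h.1
  · intro z hz
    simp only [Finset.mem_filter, Finset.mem_product] at hz
    refine ⟨(z.2, z.1), ?_, rfl⟩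
    simp only [Finset.mem_filter, Finset.mem_product]
    refine ⟨⟨hz.1.2, hz.1.1⟩, ?_, hz.2.2.1.symm, ?_⟩
    · rw [Nat.gcd_comm]; exact hz.2.1
    · rw [Nat.gcd_comm, ← dn_neg]
      have e : -((((z.1 / Nat.gcd z.1 z.2 : ℕ) : ℝ) - ((z.2 / Nat.gcd z.1 z.2 : ℕ) : ℝ)) * γ)
          = (((z.2 / Nat.gcd z.1 z.2 : ℕ) : ℝ) - ((z.1 / Nat.gcd z.1 z.2 : ℕ) : ℝ)) * γ := by ring
      rw [e]; exact hz.2.2.2

lemma exact_mono {A A' U U' V V' : Finset ℕ} (hA : A ⊆ A') (hU : U ⊆ U') (hV : V ⊆ V') :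
    Exact A U V ≤ Exact A' U' V' := by
  unfold Exact
  apply Finset.card_le_card
  intro z hz
  simp only [Finset.mem_filter, Finset.mem_product] at hz ⊢
  exact ⟨⟨hU hz.1.1, hV hz.1.2⟩, hA hz.2⟩

/-- Additivity of `Exact` in the family. -/
lemma exact_sdiff {A A' : Finset ℕ} (h : A' ⊆ A) (U V : Finset ℕ) :
    Exact (A \ A') U V + Exact A' U V = Exact A U V := by
  unfold Exact
  rw [← Finset.card_union_of_disjoint]
  · congr 1
    ext z
    simp only [Finset.mem_union, Finset.mem_filter, Finset.mem_product, Finset.mem_sdiff]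
    constructor
    · rintro (⟨h1, h2, _⟩ | ⟨h1, h2⟩)
      · exact ⟨h1, h2⟩
      · exact ⟨h1, h h2⟩
    · rintro ⟨h1, h2⟩
      by_cases h3 : Nat.gcd z.1 z.2 ∈ A'
      · exact Or.inr ⟨h1, h3⟩
      · exact Or.inl ⟨h1, h2, h3⟩
  · rw [Finset.disjoint_left]
    intro z hz hz'
    simp only [Finset.mem_filter, Finset.mem_sdiff] at hz hz'
    exact hz.2.2 hz'.2

/-- Disjoint parts of the left set. -/
lemma exact_disjoint_left {A U U' V : Finset ℕ} (h : Disjoint U U') :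
    Exact A U V + Exact A U' V = Exact A (U ∪ U') V := by
  unfold Exact
  rw [← Finset.card_union_of_disjoint]
  · congr 1
    ext z
    simp only [Finset.mem_union, Finset.mem_filter, Finset.mem_product]
    tauto
  · rw [Finset.disjoint_left]
    intro z hz hz'
    simp only [Finset.mem_filter, Finset.mem_product] at hz hz'
    exact (Finset.disjoint_left.mp h) hz.1.1 hz'.1.1

/-- Counting incidences. -/
lemma sum_filter_dvd (A U : Finset ℕ) :
    ∑ d ∈ A, (U.filter (d ∣ ·)).card = ∑ x ∈ U, TT A x := by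
  unfold TT
  simp only [Finset.card_filter]
  rw [Finset.sum_comm]

/-- The trivial bound, dropping the Bohr condition and exactness. -/
lemma off_le_trivial (hw : 0 ≤ w) (A U V : Finset ℕ) :
    Off γ D w A U V ≤ w * ∑ d ∈ A, ((U.filter (d ∣ ·)).card : ℝ) * ((V.filter (d ∣ ·)).card : ℝ) := by
  unfold Off
  apply mul_le_mul_of_nonneg_left _ hw
  have key : ((U ×ˢ V).filter fun z : ℕ × ℕ => Nat.gcd z.1 z.2 ∈ A ∧ z.1 ≠ z.2 ∧
      dn ((((z.2 / Nat.gcd z.1 z.2 : ℕ) : ℝ) - ((z.1 / Nat.gcd z.1 z.2 : ℕ) : ℝ)) * γ) < D).card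
      ≤ ∑ d ∈ A, (U.filter (d ∣ ·)).card * (V.filter (d ∣ ·)).card := by
    simp only [← Finset.card_product]
    rw [← Finset.card_sigma]
    apply Finset.card_le_card_of_injOn (fun z => ⟨Nat.gcd z.1 z.2, z⟩)
    · intro z hz
      simp only [Finset.coe_filter, Finset.mem_product, Set.mem_ofPred_eq] at hz
      simp only [Finset.coe_sigma, Set.mem_sigma_iff, Finset.mem_coe, Finset.mem_product,
        Finset.mem_filter]
      exact ⟨hz.2.1, ⟨hz.1.1, Nat.gcd_dvd_left _ _⟩, ⟨hz.1.2, Nat.gcd_dvd_right _ _⟩⟩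
    · intro a _ b _ h
      simp only [Sigma.mk.injEq] at h
      exact eq_of_heq h.2
  calc (_ : ℝ) ≤ ((∑ d ∈ A, (U.filter (d ∣ ·)).card * (V.filter (d ∣ ·)).card : ℕ) : ℝ) := by
        exact_mod_cast key
    _ = _ := by push_cast; rfl

lemma off_le_card (hw : 0 ≤ w) (A U V : Finset ℕ) :
    Off γ D w A U V ≤ w * ((U.card : ℝ) * V.card) := by
  unfold Off
  apply mul_le_mul_of_nonneg_left _ hw
  have : ((U ×ˢ V).filter fun z : ℕ × ℕ => Nat.gcd z.1 z.2 ∈ A ∧ z.1 ≠ z.2 ∧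
      dn ((((z.2 / Nat.gcd z.1 z.2 : ℕ) : ℝ) - ((z.1 / Nat.gcd z.1 z.2 : ℕ) : ℝ)) * γ) < D).card
      ≤ U.card * V.card := by
    rw [← Finset.card_product]
    exact Finset.card_filter_le _ _
  exact_mod_cast this

/-- The one-sided bound. Fix `r ∈ U`, then `d ∣ r`, then count `q/d` by the Bohr count. -/
theorem off_one_sided {c₀ : ℝ} {k : ℕ} (hγ : Dio γ c₀ k) (hc₀ : 0 < c₀) (hk : 1 ≤ k)
    {A U V : Finset ℕ} {a D' : ℝ} {E P : ℕ} (hw : 0 ≤ w) (hE : 1 ≤ E) (hA : ∀ d ∈ A, E ≤ d)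
    (hV : ∀ q ∈ V, q < 2 * P) (hU : ∀ r ∈ U, (TT A r : ℝ) ≤ a) (ha : 0 ≤ a)
    (hD' : 0 < D') (hD'1 : D' ≤ 1 / 2) (hDD' : D ≤ D') :
    Off γ D w A V U ≤ w * U.card * a * (5 * D' * (2 * (P:ℝ) / E) + Cbd c₀ k D') := by
  have hEpos : (0:ℝ) < E := by exact_mod_cast hE
  set W : ℝ := 2 * (P:ℝ) / E with hWdef
  have hW : 0 ≤ W := by positivity
  set Bd : ℝ := 5 * D' * W + Cbd c₀ k D' with hBd
  have hBd0 : 0 ≤ Bd := by
    have : 0 ≤ Cbd c₀ k D' := by unfold Cbd; positivity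
    positivity
  -- the fibre bound
  have fibre : ∀ r ∈ U, ∀ d ∈ A.filter (· ∣ r),
      (((V.filter fun q => Nat.gcd q r = d ∧
        dn ((((r / Nat.gcd q r : ℕ) : ℝ) - ((q / Nat.gcd q r : ℕ) : ℝ)) * γ) < D).card : ℕ) : ℝ) ≤ Bd := by
    intro r _ d hd
    obtain ⟨hdA, _⟩ := Finset.mem_filter.mp hd
    have hdE : E ≤ d := hA d hdA
    have hdpos : 0 < d := lt_of_lt_of_le hE hdE
    set F := V.filter fun q => Nat.gcd q r = d ∧
        dn ((((r / Nat.gcd q r : ℕ) : ℝ) - ((q / Nat.gcd q r : ℕ) : ℝ)) * γ) < D with hF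
    set s : Finset ℤ := F.image (fun q => ((q / d : ℕ) : ℤ)) with hs
    have hcard : s.card = F.card := by
      apply Finset.card_image_of_injOn
      intro x hx y hy hxy
      have hx' := (Finset.mem_filter.mp (Finset.mem_coe.mp hx)).2.1
      have hy' := (Finset.mem_filter.mp (Finset.mem_coe.mp hy)).2.1
      have hdx : d ∣ x := hx' ▸ Nat.gcd_dvd_left x r
      have hdy : d ∣ y := hy' ▸ Nat.gcd_dvd_left y r
      have e : x / d = y / d := by
        have h0 := hxy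
        simp only at h0
        exact_mod_cast h0
      calc x = d * (x / d) := (Nat.mul_div_cancel' hdx).symm
        _ = d * (y / d) := by rw [e]
        _ = y := Nat.mul_div_cancel' hdy
    have hb := bohr_count hγ hc₀ hk (D := D') (W := W) (a := 0) (t := ((r / d : ℕ) : ℝ) * γ)
      hD' hD'1 hW s (by
        intro x hx
        obtain ⟨q, hq, rfl⟩ := Finset.mem_image.mp hx
        obtain ⟨hqV, hqg, hqd⟩ := Finset.mem_filter.mp hq
        rw [hqg] at hqd
        have hlt : q < 2 * P := hV q hqV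
        refine ⟨by rw [Int.cast_natCast]; positivity, ?_, ?_⟩
        · rw [zero_add, hWdef, Int.cast_natCast, lt_div_iff₀ hEpos]
          have h1 : ((q / d : ℕ) : ℝ) * d ≤ q := by
            have := Nat.div_mul_le_self q d
            exact_mod_cast this
          have h2 : ((q / d : ℕ) : ℝ) * E ≤ ((q / d : ℕ) : ℝ) * d := by
            apply mul_le_mul_of_nonneg_left _ (by positivity)
            exact_mod_cast hdE
          have h3 : (q:ℝ) < 2 * P := by exact_mod_cast hlt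
          linarith
        · have e : (((q / d : ℕ) : ℤ) : ℝ) * γ - ((r / d : ℕ) : ℝ) * γ
              = -((((r / d : ℕ) : ℝ) - ((q / d : ℕ) : ℝ)) * γ) := by
            rw [Int.cast_natCast]; ring
          rw [e, dn_neg]
          exact lt_of_lt_of_le hqd hDD')
    rw [hcard] at hb
    simpa [zero_add] using hb
  -- summation
  have hsum : ((((V ×ˢ U).filter fun z : ℕ × ℕ => Nat.gcd z.1 z.2 ∈ A ∧ z.1 ≠ z.2 ∧
      dn ((((z.2 / Nat.gcd z.1 z.2 : ℕ) : ℝ) - ((z.1 / Nat.gcd z.1 z.2 : ℕ) : ℝ)) * γ) < D).card : ℕ) : ℝ)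
      ≤ ∑ r ∈ U, ∑ d ∈ A.filter (· ∣ r), (((V.filter fun q => Nat.gcd q r = d ∧
        dn ((((r / Nat.gcd q r : ℕ) : ℝ) - ((q / Nat.gcd q r : ℕ) : ℝ)) * γ) < D).card : ℕ) : ℝ) := by
    have : ((V ×ˢ U).filter fun z : ℕ × ℕ => Nat.gcd z.1 z.2 ∈ A ∧ z.1 ≠ z.2 ∧
      dn ((((z.2 / Nat.gcd z.1 z.2 : ℕ) : ℝ) - ((z.1 / Nat.gcd z.1 z.2 : ℕ) : ℝ)) * γ) < D).card
      ≤ ∑ r ∈ U, ∑ d ∈ A.filter (· ∣ r), (V.filter fun q => Nat.gcd q r = d ∧
        dn ((((r / Nat.gcd q r : ℕ) : ℝ) - ((q / Nat.gcd q r : ℕ) : ℝ)) * γ) < D).card := by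
      simp only [← Finset.card_sigma]
      apply Finset.card_le_card_of_injOn (fun z => ⟨z.2, ⟨Nat.gcd z.1 z.2, z.1⟩⟩)
      · intro z hz
        simp only [Finset.coe_filter, Finset.mem_product, Set.mem_ofPred_eq] at hz
        simp only [Finset.coe_sigma, Set.mem_sigma_iff, Finset.mem_coe, Finset.mem_filter]
        exact ⟨hz.1.2, ⟨hz.2.1, Nat.gcd_dvd_right _ _⟩, hz.1.1, trivial, hz.2.2.2⟩
      · intro a _ b _ h
        simp only [Sigma.mk.injEq] at h
        have h1 := h.1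
        have h2 := eq_of_heq h.2
        simp only [Sigma.mk.injEq] at h2
        exact Prod.ext (eq_of_heq h2.2) h1
    exact_mod_cast this
  have hbound : ∑ r ∈ U, ∑ d ∈ A.filter (· ∣ r), (((V.filter fun q => Nat.gcd q r = d ∧
        dn ((((r / Nat.gcd q r : ℕ) : ℝ) - ((q / Nat.gcd q r : ℕ) : ℝ)) * γ) < D).card : ℕ) : ℝ)
      ≤ ∑ r ∈ U, a * Bd := by
    apply Finset.sum_le_sum
    intro r hr
    calc _ ≤ ∑ d ∈ A.filter (· ∣ r), Bd := Finset.sum_le_sum (fibre r hr)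
      _ = (TT A r : ℝ) * Bd := by simp [TT, Finset.sum_const, nsmul_eq_mul]
      _ ≤ a * Bd := mul_le_mul_of_nonneg_right (hU r hr) hBd0
  rw [Finset.sum_const, nsmul_eq_mul] at hbound
  unfold Off
  calc w * _ ≤ w * ((U.card : ℝ) * (a * Bd)) :=
        mul_le_mul_of_nonneg_left (hsum.trans hbound) hw
    _ = _ := by rw [hBd]; ring

end Vale.Agent.Lib.P028T
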