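import Vale.Agent.Lib.P028T.OffBasic

/-! Module OneSided: blueprint sections 1 and 3, the arithmetic of `Par` and the master one-sided bound. -/

open Finset

namespace Vale.Agent.Lib.P028T

open Vale.Agent.Lib.P028

namespace Par

variable {p : Par} (hp : p.Good)
include hp

private lemma E_pos' : (0:ℝ) < p.E := by
  have := hp.E_pos
  exact_mod_cast (by omega : 0 < p.E)

private lemma Q₁_pos' : (0:ℝ) < p.Q₁ := by
  have := hp.Q₁_pos
  exact_mod_cast (by omega : 0 < p.Q₁)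

private lemma Q₂_pos' : (0:ℝ) < p.Q₂ := by
  have h1 := hp.Q₁_pos
  have h2 := hp.Q_le
  exact_mod_cast (by omega : 0 < p.Q₂)

lemma M₁_pos : 0 < p.M₁ := by
  unfold M₁
  exact div_pos (Q₁_pos' hp) (E_pos' hp)

lemma M₂_pos : 0 < p.M₂ := by
  unfold M₂
  exact div_pos (Q₂_pos' hp) (E_pos' hp)

lemma w_pos : 0 < p.w := by
  unfold w
  have h1 := M₁_pos hp
  have h2 := M₂_pos hp
  have h3 := hp.N₁_pos
  have h4 := hp.N₂_pos
  exact lt_min (by positivity) (by positivity)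

lemma D_pos : 0 < p.D := by
  unfold D
  have h2 := M₂_pos hp
  have h3 := hp.N₁_pos
  have : 0 < p.M₂ / p.N₁ := by positivity
  have h5 : p.M₂ / p.N₁ ≤ max (p.M₂ / p.N₁) (p.M₁ / p.N₂) := le_max_left _ _
  linarith

lemma u_ge_one : 1 ≤ p.u := by
  unfold u
  rw [le_div_iff₀ (Q₁_pos' hp), one_mul]
  exact_mod_cast hp.Q_le

lemma u_le_Ups : p.u ≤ p.Ups := by
  unfold Ups
  exact le_max_left _ _

lemma Ups_ge_one : 1 ≤ p.Ups := (u_ge_one hp).trans (u_le_Ups hp)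

lemma M₁_le_M₂ : p.M₁ ≤ p.M₂ := by
  unfold M₁ M₂
  have h : (p.Q₁ : ℝ) ≤ p.Q₂ := by exact_mod_cast hp.Q_le
  exact div_le_div_of_nonneg_right h (E_pos' hp).le

/-- `M₂ = u M₁`. -/
lemma M₂_eq : p.M₂ = p.u * p.M₁ := by
  unfold M₂ u M₁
  have h1 := (Q₁_pos' hp).ne'
  have h2 := (E_pos' hp).ne'
  field_simp

omit hp in
private lemma w_le1 : p.w ≤ 2 / (p.N₁ * p.M₁) := min_le_left _ _
omit hp in
private lemma w_le2 : p.w ≤ 2 / (p.N₂ * p.M₂) := min_le_right _ _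

omit hp in
private lemma D_ge1 : 4 * (p.M₂ / p.N₁) ≤ p.D := by
  unfold D
  have h5 : p.M₂ / p.N₁ ≤ max (p.M₂ / p.N₁) (p.M₁ / p.N₂) := le_max_left _ _
  linarith

lemma w_mul_D : p.w * p.D ≤ 8 / (p.N₁ * p.N₂) := by
  have hw := w_pos hp
  have h1 := M₁_pos hp
  have h2 := M₂_pos hp
  have h3 := hp.N₁_pos
  have h4 := hp.N₂_pos
  unfold D
  rcases le_total (p.M₂ / p.N₁) (p.M₁ / p.N₂) with h | h
  · rw [max_eq_right h]
    calc p.w * (4 * (p.M₁ / p.N₂)) ≤ 2 / (p.N₁ * p.M₁) * (4 * (p.M₁ / p.N₂)) := by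
          apply mul_le_mul_of_nonneg_right (w_le1 (p := p)) (by positivity)
      _ = 8 / (p.N₁ * p.N₂) := by field_simp; ring
  · rw [max_eq_left h]
    calc p.w * (4 * (p.M₂ / p.N₁)) ≤ 2 / (p.N₂ * p.M₂) * (4 * (p.M₂ / p.N₁)) := by
          apply mul_le_mul_of_nonneg_right (w_le2 (p := p)) (by positivity)
      _ = 8 / (p.N₁ * p.N₂) := by field_simp; ring

lemma w_M_M : p.w * (p.M₁ * p.M₂) ≤ p.D / 2 := by
  have hw := w_pos hp
  have h1 := M₁_pos hp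
  have h2 := M₂_pos hp
  have h3 := hp.N₁_pos
  have h4 := hp.N₂_pos
  have h5 := D_ge1 (p := p)
  calc p.w * (p.M₁ * p.M₂) ≤ 2 / (p.N₁ * p.M₁) * (p.M₁ * p.M₂) := by
        apply mul_le_mul_of_nonneg_right (w_le1 (p := p)) (by positivity)
    _ = 2 * (p.M₂ / p.N₁) := by field_simp
    _ ≤ p.D / 2 := by linarith

lemma w_sq_M_M : p.w ^ 2 * (p.M₁ * p.M₂) ≤ 4 / (p.N₁ * p.N₂) := by
  have hw := w_pos hp
  have h1 := M₁_pos hp
  have h2 := M₂_pos hp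
  have h3 := hp.N₁_pos
  have h4 := hp.N₂_pos
  have h5 : p.w ^ 2 ≤ 2 / (p.N₁ * p.M₁) * (2 / (p.N₂ * p.M₂)) := by
    rw [sq]
    exact mul_le_mul (w_le1 (p := p)) (w_le2 (p := p)) hw.le (by positivity)
  calc p.w ^ 2 * (p.M₁ * p.M₂) ≤ 2 / (p.N₁ * p.M₁) * (2 / (p.N₂ * p.M₂)) * (p.M₁ * p.M₂) := by
        apply mul_le_mul_of_nonneg_right h5 (by positivity)
    _ = 4 / (p.N₁ * p.N₂) := by field_simp; ring

private lemma v_pos : 0 < p.v := by
  unfold v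
  have h := lt_of_lt_of_le one_pos (u_ge_one hp)
  have h3 := hp.N₁_pos
  have h4 := hp.N₂_pos
  positivity

/-- `w N₂ M₁ ≤ 2/u` and `≤ 2 v/u`. -/
private lemma wN₂M₁_le : p.w * p.N₂ * p.M₁ ≤ 2 / p.u ∧ p.w * p.N₂ * p.M₁ ≤ 2 * p.v / p.u := by
  have hw := w_pos hp
  have h1 := M₁_pos hp
  have h2 := M₂_pos hp
  have h3 := hp.N₁_pos
  have h4 := hp.N₂_pos
  have hu := lt_of_lt_of_le one_pos (u_ge_one hp)
  have e := M₂_eq hp
  constructor
  · calc p.w * p.N₂ * p.M₁ ≤ 2 / (p.N₂ * p.M₂) * p.N₂ * p.M₁ := by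
          apply mul_le_mul_of_nonneg_right _ h1.le
          apply mul_le_mul_of_nonneg_right (w_le2 (p := p)) h4.le
      _ = 2 / p.u := by rw [e]; field_simp
  · calc p.w * p.N₂ * p.M₁ ≤ 2 / (p.N₁ * p.M₁) * p.N₂ * p.M₁ := by
          apply mul_le_mul_of_nonneg_right _ h1.le
          apply mul_le_mul_of_nonneg_right (w_le1 (p := p)) h4.le
      _ = 2 * p.v / p.u := by unfold v; field_simp

/-- `v < 1` case of the size of `Υ`. -/
private lemma Ups_small {hv : p.v < 1} : p.Ups = p.u ∨ p.Ups = Real.sqrt p.v⁻¹ := by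
  have hv0 := v_pos hp
  have h1 : p.v ≤ p.v⁻¹ := by
    have : 1 ≤ p.v⁻¹ := (one_le_inv₀ hv0).mpr hv.le
    linarith
  unfold Ups
  rw [max_eq_right h1]
  rcases le_total p.u (Real.sqrt p.v⁻¹) with h | h
  · right; exact max_eq_right h
  · left; exact max_eq_left h

private lemma Ups_large {hv : 1 ≤ p.v} : p.Ups = max p.u (Real.sqrt p.v) := by
  have hv0 := v_pos hp
  have h1 : p.v⁻¹ ≤ p.v := by
    have : p.v⁻¹ ≤ 1 := inv_le_one_of_one_le₀ hv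
    linarith
  unfold Ups
  rw [max_eq_left h1]

/-- Side 2: `w N₂ M₁ ≤ 2/Υ`. -/
lemma side_two {hh : p.two} : p.w * p.N₂ * p.M₁ ≤ 2 / p.Ups := by
  have hU := lt_of_lt_of_le one_pos (Ups_ge_one hp)
  have hu := lt_of_lt_of_le one_pos (u_ge_one hp)
  have hv0 := v_pos hp
  obtain ⟨h1, h2⟩ := wN₂M₁_le hp
  by_cases hv : p.v < 1
  · rcases Ups_small hp (hv := hv) with h | h
    · rw [h]; exact h1
    · rw [h]
      have hs : 0 < Real.sqrt p.v := Real.sqrt_pos.mpr hv0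
      have hss : Real.sqrt p.v * Real.sqrt p.v = p.v := Real.mul_self_sqrt hv0.le
      have hs1 : Real.sqrt p.v ≤ 1 := Real.sqrt_le_one.mpr hv.le
      have hinv : Real.sqrt p.v⁻¹ = (Real.sqrt p.v)⁻¹ := Real.sqrt_inv _
      rw [hinv]
      refine h2.trans ?_
      have : 2 / (Real.sqrt p.v)⁻¹ = 2 * Real.sqrt p.v := by field_simp
      rw [this]
      have h3 : 2 * p.v / p.u ≤ 2 * p.v := div_le_self (by positivity) (u_ge_one hp)
      refine h3.trans ?_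
      nlinarith
  · have hv1 : 1 ≤ p.v := not_lt.mp hv
    have hsq : Real.sqrt p.v ≤ p.u := by
      rcases hh with h | h
      · exact absurd h hv
      · exact h
    have : p.Ups = p.u := by
      rw [Ups_large hp (hv := hv1)]; exact max_eq_left hsq
    rw [this]; exact h1

/-- Side 1: `w N₁ M₂ ≤ 2/Υ`. -/
lemma side_one {hh : ¬ p.two} : p.w * p.N₁ * p.M₂ ≤ 2 / p.Ups := by
  have hw := w_pos hp
  have h1 := M₁_pos hp
  have h2 := M₂_pos hp
  have h3 := hp.N₁_pos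
  have h4 := hp.N₂_pos
  have hu := lt_of_lt_of_le one_pos (u_ge_one hp)
  have hv0 := v_pos hp
  have hh' : ¬ p.v < 1 ∧ ¬ Real.sqrt p.v ≤ p.u := by
    unfold two at hh
    exact not_or.mp hh
  have hv1 : 1 ≤ p.v := not_lt.mp hh'.1
  have hlt : p.u < Real.sqrt p.v := not_le.mp hh'.2
  have hU : p.Ups = Real.sqrt p.v := by
    rw [Ups_large hp (hv := hv1)]; exact max_eq_right hlt.le
  have hs : 0 < Real.sqrt p.v := Real.sqrt_pos.mpr hv0
  have hss : Real.sqrt p.v * Real.sqrt p.v = p.v := Real.mul_self_sqrt hv0.le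
  rw [hU]
  have step : p.w * p.N₁ * p.M₂ ≤ 2 / (p.N₂ * p.M₂) * p.N₁ * p.M₂ := by
    apply mul_le_mul_of_nonneg_right _ h2.le
    apply mul_le_mul_of_nonneg_right (w_le2 (p := p)) h3.le
  refine step.trans ?_
  have e : 2 / (p.N₂ * p.M₂) * p.N₁ * p.M₂ = 2 * p.u / p.v := by
    unfold v; field_simp
  rw [e, div_le_div_iff₀ hv0 hs]
  nlinarith

/-- Side 2: `w N₂ ≤ 3/sqrt(M₂ Υ)`. -/
lemma side_two' (hM : 1 ≤ p.M₂) (hu : p.u ≤ 2 * p.M₂) {hh : p.two} :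
    p.w * p.N₂ ≤ 3 / Real.sqrt (p.M₂ * p.Ups) := by
  have hw := w_pos hp
  have h1 := M₁_pos hp
  have h2 := M₂_pos hp
  have h3 := hp.N₁_pos
  have h4 := hp.N₂_pos
  have hu0 := lt_of_lt_of_le one_pos (u_ge_one hp)
  have hU := lt_of_lt_of_le one_pos (Ups_ge_one hp)
  have hv0 := v_pos hp
  have e := M₂_eq hp
  have b1 : p.w * p.N₂ ≤ 2 / p.M₂ := by
    calc p.w * p.N₂ ≤ 2 / (p.N₂ * p.M₂) * p.N₂ := mul_le_mul_of_nonneg_right (w_le2 (p := p)) h4.le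
      _ = 2 / p.M₂ := by field_simp
  have b2 : p.w * p.N₂ ≤ 2 * p.v / p.M₂ := by
    calc p.w * p.N₂ ≤ 2 / (p.N₁ * p.M₁) * p.N₂ := mul_le_mul_of_nonneg_right (w_le1 (p := p)) h4.le
      _ = 2 * p.v / p.M₂ := by rw [e]; unfold v; field_simp
  have hprod : 0 < p.M₂ * p.Ups := by positivity
  -- reduce to a squared inequality
  suffices hs : ∃ m : ℝ, 0 ≤ m ∧ p.w * p.N₂ ≤ 2 * m / p.M₂ ∧ 4 * m ^ 2 * p.Ups ≤ 9 * p.M₂ by
    obtain ⟨m, hm0, hm1, hm2⟩ := hs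
    refine hm1.trans ?_
    rw [div_le_div_iff₀ h2 (Real.sqrt_pos.mpr hprod)]
    have hsq : Real.sqrt (p.M₂ * p.Ups) * Real.sqrt (p.M₂ * p.Ups) = p.M₂ * p.Ups :=
      Real.mul_self_sqrt hprod.le
    have hnn := Real.sqrt_nonneg (p.M₂ * p.Ups)
    have : (2 * m * Real.sqrt (p.M₂ * p.Ups)) ^ 2 ≤ (3 * p.M₂) ^ 2 := by
      calc (2 * m * Real.sqrt (p.M₂ * p.Ups)) ^ 2
          = 4 * m ^ 2 * (Real.sqrt (p.M₂ * p.Ups) * Real.sqrt (p.M₂ * p.Ups)) := by ring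
        _ = (4 * m ^ 2 * p.Ups) * p.M₂ := by rw [hsq]; ring
        _ ≤ (9 * p.M₂) * p.M₂ := mul_le_mul_of_nonneg_right hm2 h2.le
        _ = (3 * p.M₂) ^ 2 := by ring
    exact abs_le_of_sq_le_sq' this (by positivity) |>.2
  by_cases hv : p.v < 1
  · refine ⟨p.v, hv0.le, b2, ?_⟩
    have hv2 : p.v ^ 2 ≤ 1 := by nlinarith
    rcases Ups_small hp (hv := hv) with h | h
    · rw [h]
      have : 4 * p.v ^ 2 * p.u ≤ 4 * 1 * p.u := by
        apply mul_le_mul_of_nonneg_right _ hu0.le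
        linarith
      linarith
    · rw [h]
      have hs : 0 < Real.sqrt p.v := Real.sqrt_pos.mpr hv0
      have hss : Real.sqrt p.v * Real.sqrt p.v = p.v := Real.mul_self_sqrt hv0.le
      have hs1 : Real.sqrt p.v ≤ 1 := Real.sqrt_le_one.mpr hv.le
      have hinv : Real.sqrt p.v⁻¹ = (Real.sqrt p.v)⁻¹ := Real.sqrt_inv _
      rw [hinv]
      have : p.v ^ 2 * (Real.sqrt p.v)⁻¹ ≤ 1 := by
        have e2 : p.v ^ 2 * (Real.sqrt p.v)⁻¹ = p.v * Real.sqrt p.v := by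
          field_simp
          nlinarith
        rw [e2]
        nlinarith
      nlinarith
  · have hv1 : 1 ≤ p.v := not_lt.mp hv
    have hsq : Real.sqrt p.v ≤ p.u := by
      rcases hh with h | h
      · exact absurd h hv
      · exact h
    have hUe : p.Ups = p.u := by
      rw [Ups_large hp (hv := hv1)]; exact max_eq_left hsq
    refine ⟨1, zero_le_one, by simpa using b1, ?_⟩
    rw [hUe]
    nlinarith

/-- Side 1: `w N₁ ≤ 3/sqrt(M₂ Υ)`. -/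
lemma side_one' (hM : 1 ≤ p.M₂) (hu : p.u ≤ 2 * p.M₂) {hh : ¬ p.two} :
    p.w * p.N₁ ≤ 3 / Real.sqrt (p.M₂ * p.Ups) := by
  have hw := w_pos hp
  have h1 := M₁_pos hp
  have h2 := M₂_pos hp
  have h3 := hp.N₁_pos
  have h4 := hp.N₂_pos
  have hu0 := lt_of_lt_of_le one_pos (u_ge_one hp)
  have hv0 := v_pos hp
  have hh' : ¬ p.v < 1 ∧ ¬ Real.sqrt p.v ≤ p.u := by
    unfold two at hh
    exact not_or.mp hh
  have hv1 : 1 ≤ p.v := not_lt.mp hh'.1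
  have hlt : p.u < Real.sqrt p.v := not_le.mp hh'.2
  have hUe : p.Ups = Real.sqrt p.v := by
    rw [Ups_large hp (hv := hv1)]; exact max_eq_right hlt.le
  have hs : 0 < Real.sqrt p.v := Real.sqrt_pos.mpr hv0
  have hss : Real.sqrt p.v * Real.sqrt p.v = p.v := Real.mul_self_sqrt hv0.le
  have hs1 : 1 ≤ Real.sqrt p.v := by
    rw [Real.one_le_sqrt]; exact hv1
  have b : p.w * p.N₁ ≤ 2 * p.u / (p.v * p.M₂) := by
    calc p.w * p.N₁ ≤ 2 / (p.N₂ * p.M₂) * p.N₁ := mul_le_mul_of_nonneg_right (w_le2 (p := p)) h3.le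
      _ = 2 * p.u / (p.v * p.M₂) := by unfold v; field_simp
  refine b.trans ?_
  rw [hUe]
  have hprod : 0 < p.M₂ * Real.sqrt p.v := by positivity
  have hR := Real.sqrt_pos.mpr hprod
  rw [div_le_div_iff₀ (by positivity) hR]
  have hsq : Real.sqrt (p.M₂ * Real.sqrt p.v) * Real.sqrt (p.M₂ * Real.sqrt p.v)
      = p.M₂ * Real.sqrt p.v := Real.mul_self_sqrt hprod.le
  have key : (2 * p.u * Real.sqrt (p.M₂ * Real.sqrt p.v)) ^ 2 ≤ (3 * (p.v * p.M₂)) ^ 2 := by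
    have e1 : (2 * p.u * Real.sqrt (p.M₂ * Real.sqrt p.v)) ^ 2
        = 4 * p.u ^ 2 * (p.M₂ * Real.sqrt p.v) := by
      calc (2 * p.u * Real.sqrt (p.M₂ * Real.sqrt p.v)) ^ 2
          = 4 * p.u ^ 2 * (Real.sqrt (p.M₂ * Real.sqrt p.v) * Real.sqrt (p.M₂ * Real.sqrt p.v)) := by
            ring
        _ = 4 * p.u ^ 2 * (p.M₂ * Real.sqrt p.v) := by rw [hsq]
    rw [e1]
    have hu2 : p.u ^ 2 ≤ p.v := by
      have : p.u * p.u ≤ Real.sqrt p.v * Real.sqrt p.v :=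
        mul_le_mul hlt.le hlt.le hu0.le hs.le
      nlinarith
    have step1 : 4 * p.u ^ 2 * (p.M₂ * Real.sqrt p.v) ≤ 4 * p.v * (p.M₂ * Real.sqrt p.v) := by
      apply mul_le_mul_of_nonneg_right _ (by positivity)
      linarith
    have hsv : Real.sqrt p.v ≤ p.v := by nlinarith
    have step2 : 4 * p.v * (p.M₂ * Real.sqrt p.v) ≤ 4 * p.v * (p.M₂ * p.v) := by
      apply mul_le_mul_of_nonneg_left _ (by positivity)
      exact mul_le_mul_of_nonneg_left hsv h2.le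
    have step3 : 4 * p.v * (p.M₂ * p.v) ≤ (3 * (p.v * p.M₂)) ^ 2 := by
      have : (3 * (p.v * p.M₂)) ^ 2 = 9 * p.v * p.v * p.M₂ * p.M₂ := by ring
      rw [this]
      have hvm : 0 ≤ p.v * p.v * p.M₂ := by positivity
      nlinarith
    linarith
  exact abs_le_of_sq_le_sq' key (by positivity) |>.2

end Par

/-- The master one-sided bound. -/
theorem one_sided_master {γ c₀ : ℝ} {k : ℕ} (hγ : Dio γ c₀ k) (hc₀ : 0 < c₀) (hk : 1 ≤ k)
    {p : Par} (hp : p.Good) {S₁ S₂ U₁ U₂ A : Finset ℕ} (hU₁ : U₁ ⊆ S₁) (hU₂ : U₂ ⊆ S₂)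
    (hS₁ : ∀ q ∈ S₁, q < 2 * p.Q₁) (hS₂ : ∀ r ∈ S₂, r < 2 * p.Q₂) (hA : ∀ d ∈ A, p.E ≤ d)
    {a D' : ℝ} (ha : 0 ≤ a)
    (hT2 : p.two → ∀ r ∈ U₂, (TT A r : ℝ) ≤ a) (hT1 : ¬ p.two → ∀ q ∈ U₁, (TT A q : ℝ) ≤ a)
    (hD' : 0 < D') (hD'1 : D' ≤ 1 / 2) (hDD' : p.D ≤ D') (hM : 1 ≤ p.M₂) (hu : p.u ≤ 2 * p.M₂) :
    Off γ p.D p.w A U₁ U₂ ≤ p.ms S₁ S₂ * a * p.B0 c₀ k D' := by
  have hw := Par.w_pos hp
  have hN₁ := hp.N₁_pos
  have hN₂ := hp.N₂_pos
  have hUps := lt_of_lt_of_le one_pos (Par.Ups_ge_one hp)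
  have hM₂ := Par.M₂_pos hp
  have hCbd : 0 < Cbd c₀ k D' := by
    unfold Cbd
    have : 0 ≤ 5 * (1 / D') ^ (k - 1) / c₀ := by positivity
    linarith
  have hsq : 0 ≤ 3 * Cbd c₀ k D' / Real.sqrt (p.M₂ * p.Ups) := by positivity
  have hB0 : 0 ≤ p.B0 c₀ k D' := by
    unfold Par.B0
    positivity
  have hμ₁ : 0 ≤ (S₁.card : ℝ) / p.N₁ := by positivity
  have hμ₂ : 0 ≤ (S₂.card : ℝ) / p.N₂ := by positivity
  by_cases htwo : p.two
  · -- side two: fix `r ∈ U₂`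
    have h := off_one_sided (γ := γ) (D := p.D) (w := p.w) hγ hc₀ hk (A := A) (U := U₂) (V := U₁)
      (a := a) (D' := D') (E := p.E) (P := p.Q₁) hw.le hp.E_pos hA
      (fun q hq => hS₁ q (hU₁ hq)) (hT2 htwo) ha hD' hD'1 hDD'
    have hcard : (U₂.card : ℝ) ≤ S₂.card := by exact_mod_cast Finset.card_le_card hU₂
    have e : 5 * D' * (2 * (p.Q₁ : ℝ) / p.E) = 10 * D' * p.M₁ := by
      unfold Par.M₁; ring
    rw [e] at h
    have s1 := Par.side_two hp (hh := htwo)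
    have s2 := Par.side_two' hp hM hu (hh := htwo)
    have hM₁ := Par.M₁_pos hp
    have main : p.w * U₂.card * a * (10 * D' * p.M₁ + Cbd c₀ k D')
        ≤ (S₂.card : ℝ) / p.N₂ * a * p.B0 c₀ k D' := by
      have hmass : p.w * U₂.card ≤ (p.w * p.N₂) * ((S₂.card : ℝ) / p.N₂) := by
        have : (p.w * p.N₂) * ((S₂.card : ℝ) / p.N₂) = p.w * S₂.card := by field_simp
        rw [this]
        exact mul_le_mul_of_nonneg_left hcard hw.le
      have inner : (p.w * p.N₂) * (10 * D' * p.M₁ + Cbd c₀ k D') ≤ p.B0 c₀ k D' := by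
        unfold Par.B0
        have t1 : (p.w * p.N₂) * (10 * D' * p.M₁) = 10 * D' * (p.w * p.N₂ * p.M₁) := by ring
        have t2 : 10 * D' * (p.w * p.N₂ * p.M₁) ≤ 10 * D' * (2 / p.Ups) :=
          mul_le_mul_of_nonneg_left s1 (by positivity)
        have t3 : (p.w * p.N₂) * Cbd c₀ k D' ≤ 3 / Real.sqrt (p.M₂ * p.Ups) * Cbd c₀ k D' :=
          mul_le_mul_of_nonneg_right s2 hCbd.le
        have t4 : 10 * D' * (2 / p.Ups) = 20 * D' / p.Ups := by ring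
        have t5 : 3 / Real.sqrt (p.M₂ * p.Ups) * Cbd c₀ k D'
            = 3 * Cbd c₀ k D' / Real.sqrt (p.M₂ * p.Ups) := by ring
        rw [mul_add, t1]
        linarith
      have hpos : 0 ≤ 10 * D' * p.M₁ + Cbd c₀ k D' := by positivity
      calc p.w * U₂.card * a * (10 * D' * p.M₁ + Cbd c₀ k D')
          ≤ (p.w * p.N₂) * ((S₂.card : ℝ) / p.N₂) * a * (10 * D' * p.M₁ + Cbd c₀ k D') := by
            apply mul_le_mul_of_nonneg_right _ hpos
            exact mul_le_mul_of_nonneg_right hmass ha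
        _ = (S₂.card : ℝ) / p.N₂ * a * ((p.w * p.N₂) * (10 * D' * p.M₁ + Cbd c₀ k D')) := by ring
        _ ≤ (S₂.card : ℝ) / p.N₂ * a * p.B0 c₀ k D' :=
            mul_le_mul_of_nonneg_left inner (by positivity)
    have hms : (S₂.card : ℝ) / p.N₂ * a * p.B0 c₀ k D' ≤ p.ms S₁ S₂ * a * p.B0 c₀ k D' := by
      unfold Par.ms
      have : (S₂.card : ℝ) / p.N₂ ≤ (S₁.card : ℝ) / p.N₁ + (S₂.card : ℝ) / p.N₂ := by linarith
      exact mul_le_mul_of_nonneg_right (mul_le_mul_of_nonneg_right this ha) hB0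
    exact h.trans (main.trans hms)
  · -- side one: fix `q ∈ U₁`
    rw [off_swap]
    have h := off_one_sided (γ := γ) (D := p.D) (w := p.w) hγ hc₀ hk (A := A) (U := U₁) (V := U₂)
      (a := a) (D' := D') (E := p.E) (P := p.Q₂) hw.le hp.E_pos hA
      (fun q hq => hS₂ q (hU₂ hq)) (hT1 htwo) ha hD' hD'1 hDD'
    have hcard : (U₁.card : ℝ) ≤ S₁.card := by exact_mod_cast Finset.card_le_card hU₁
    have e : 5 * D' * (2 * (p.Q₂ : ℝ) / p.E) = 10 * D' * p.M₂ := by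
      unfold Par.M₂; ring
    rw [e] at h
    have s1 := Par.side_one hp (hh := htwo)
    have s2 := Par.side_one' hp hM hu (hh := htwo)
    have main : p.w * U₁.card * a * (10 * D' * p.M₂ + Cbd c₀ k D')
        ≤ (S₁.card : ℝ) / p.N₁ * a * p.B0 c₀ k D' := by
      have hmass : p.w * U₁.card ≤ (p.w * p.N₁) * ((S₁.card : ℝ) / p.N₁) := by
        have : (p.w * p.N₁) * ((S₁.card : ℝ) / p.N₁) = p.w * S₁.card := by field_simp
        rw [this]
        exact mul_le_mul_of_nonneg_left hcard hw.le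
      have inner : (p.w * p.N₁) * (10 * D' * p.M₂ + Cbd c₀ k D') ≤ p.B0 c₀ k D' := by
        unfold Par.B0
        have t1 : (p.w * p.N₁) * (10 * D' * p.M₂) = 10 * D' * (p.w * p.N₁ * p.M₂) := by ring
        have t2 : 10 * D' * (p.w * p.N₁ * p.M₂) ≤ 10 * D' * (2 / p.Ups) :=
          mul_le_mul_of_nonneg_left s1 (by positivity)
        have t3 : (p.w * p.N₁) * Cbd c₀ k D' ≤ 3 / Real.sqrt (p.M₂ * p.Ups) * Cbd c₀ k D' :=
          mul_le_mul_of_nonneg_right s2 hCbd.le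
        have t4 : 10 * D' * (2 / p.Ups) = 20 * D' / p.Ups := by ring
        have t5 : 3 / Real.sqrt (p.M₂ * p.Ups) * Cbd c₀ k D'
            = 3 * Cbd c₀ k D' / Real.sqrt (p.M₂ * p.Ups) := by ring
        rw [mul_add, t1]
        linarith
      have hpos : 0 ≤ 10 * D' * p.M₂ + Cbd c₀ k D' := by positivity
      calc p.w * U₁.card * a * (10 * D' * p.M₂ + Cbd c₀ k D')
          ≤ (p.w * p.N₁) * ((S₁.card : ℝ) / p.N₁) * a * (10 * D' * p.M₂ + Cbd c₀ k D') := by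
            apply mul_le_mul_of_nonneg_right _ hpos
            exact mul_le_mul_of_nonneg_right hmass ha
        _ = (S₁.card : ℝ) / p.N₁ * a * ((p.w * p.N₁) * (10 * D' * p.M₂ + Cbd c₀ k D')) := by ring
        _ ≤ (S₁.card : ℝ) / p.N₁ * a * p.B0 c₀ k D' :=
            mul_le_mul_of_nonneg_left inner (by positivity)
    have hms : (S₁.card : ℝ) / p.N₁ * a * p.B0 c₀ k D' ≤ p.ms S₁ S₂ * a * p.B0 c₀ k D' := by
      unfold Par.ms
      have : (S₁.card : ℝ) / p.N₁ ≤ (S₁.card : ℝ) / p.N₁ + (S₂.card : ℝ) / p.N₂ := by linarith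
      exact mul_le_mul_of_nonneg_right (mul_le_mul_of_nonneg_right this ha) hB0
    exact h.trans (main.trans hms)

/-- The crude bound `Off ≤ 8 μ₁ μ₂ / D`. -/
theorem off_le_mu {γ : ℝ} {p : Par} (hp : p.Good) (A U₁ U₂ : Finset ℕ) :
    Off γ p.D p.w A U₁ U₂
      ≤ 8 * ((U₁.card : ℝ) / p.N₁ * ((U₂.card : ℝ) / p.N₂)) / p.D := by
  have hw := Par.w_pos hp
  have hD := Par.D_pos hp
  have hN₁ := hp.N₁_pos
  have hN₂ := hp.N₂_pos
  have h := off_le_card (γ := γ) (D := p.D) hw.le A U₁ U₂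
  refine h.trans ?_
  rw [le_div_iff₀ hD]
  have hwD := Par.w_mul_D hp
  have hc : 0 ≤ (U₁.card : ℝ) * U₂.card := by positivity
  calc p.w * ((U₁.card : ℝ) * U₂.card) * p.D
      = (p.w * p.D) * ((U₁.card : ℝ) * U₂.card) := by ring
    _ ≤ 8 / (p.N₁ * p.N₂) * ((U₁.card : ℝ) * U₂.card) := mul_le_mul_of_nonneg_right hwD hc
    _ = 8 * ((U₁.card : ℝ) / p.N₁ * ((U₂.card : ℝ) / p.N₂)) := by field_simp

end Vale.Agent.Lib.P028T
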