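import Vale.Agent.Lib.P028T.OneSided

/-! The simple cases of the pair lemma: blueprint section 11. -/

open Finset

namespace Vale.Agent.Lib.P028T

open Vale.Agent.Lib.P028

private lemma cc_pos {k : ℕ} (hk : 1 ≤ k) : 0 < cc k := by
  unfold cc
  have : (1:ℝ) ≤ k := by exact_mod_cast hk
  positivity

private lemma cc_le {k : ℕ} (hk : 1 ≤ k) : cc k ≤ 1 / 1024 := by
  unfold cc
  have h : (1:ℝ) ≤ k := by exact_mod_cast hk
  apply one_div_le_one_div_of_le (by norm_num)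
  nlinarith

private lemma cc_mul {k : ℕ} (hk : 1 ≤ k) : 2 * cc k * ((k - 1 : ℕ) : ℝ) ≤ 1 / 512 := by
  have h : (1:ℝ) ≤ k := by exact_mod_cast hk
  have hk0 : (0:ℝ) < k := by linarith
  have h1 : (((k - 1 : ℕ) : ℝ)) = (k:ℝ) - 1 := by
    rw [Nat.cast_sub hk]; simp
  rw [h1]
  unfold cc
  have : 2 * (1 / (1024 * (k:ℝ))) * ((k:ℝ) - 1) = (1 / 512) * (1 - 1 / (k:ℝ)) := by
    field_simp
    ring
  rw [this]
  have h2 : 0 < 1 / (k:ℝ) := by positivity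
  nlinarith

/-- The second term of the master bound. -/
private lemma term_two {c₀ : ℝ} {k : ℕ} (hc₀ : 0 < c₀) (hk : 1 ≤ k) {x y τb D' : ℝ}
    (hx : 1 ≤ x) (hy : 1 ≤ y) (hτ : τb ≤ x ^ cc k) (hτ0 : 0 ≤ τb) (hD' : 0 < D')
    (hDx : 1 / D' ≤ x ^ (2 * cc k)) :
    τb * (3 * Cbd c₀ k D' / Real.sqrt (x * y)) ≤ 3 * (5 / c₀ + 5) * (x * y) ^ (-(cc k)) := by
  have hc := cc_pos hk
  have hc2 := cc_le hk
  have hx0 : 0 < x := by linarith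
  have hy0 : 0 < y := by linarith
  have hxy : 1 ≤ x * y := by nlinarith
  have hxy0 : 0 < x * y := by linarith
  -- bound on `Cbd`
  have h1 : (1 / D') ^ (k - 1) ≤ x ^ ((1:ℝ) / 512) := by
    calc (1 / D') ^ (k - 1) ≤ (x ^ (2 * cc k)) ^ (k - 1) :=
          pow_le_pow_left₀ (by positivity) hDx _
      _ = x ^ (2 * cc k * ((k - 1 : ℕ) : ℝ)) := by
          rw [← Real.rpow_natCast, ← Real.rpow_mul hx0.le]
      _ ≤ x ^ ((1:ℝ) / 512) := Real.rpow_le_rpow_of_exponent_le hx (cc_mul hk)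
  have hone : 1 ≤ x ^ ((1:ℝ) / 512) := Real.one_le_rpow hx (by norm_num)
  have h2 : Cbd c₀ k D' ≤ (5 / c₀ + 5) * x ^ ((1:ℝ) / 512) := by
    unfold Cbd
    have h5 : 5 * (1 / D') ^ (k - 1) / c₀ ≤ 5 / c₀ * x ^ ((1:ℝ) / 512) := by
      have h5c : 0 ≤ 5 / c₀ := by positivity
      calc 5 * (1 / D') ^ (k - 1) / c₀ = 5 / c₀ * (1 / D') ^ (k - 1) := by ring
        _ ≤ 5 / c₀ * x ^ ((1:ℝ) / 512) := mul_le_mul_of_nonneg_left h1 h5c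
    nlinarith
  have h3 : τb ≤ x ^ ((1:ℝ) / 1024) :=
    hτ.trans (Real.rpow_le_rpow_of_exponent_le hx hc2)
  have hCbd0 : 0 ≤ Cbd c₀ k D' := by unfold Cbd; positivity
  have h4 : τb * Cbd c₀ k D' ≤ (5 / c₀ + 5) * x ^ ((3:ℝ) / 1024) := by
    have : x ^ ((3:ℝ) / 1024) = x ^ ((1:ℝ) / 1024) * x ^ ((1:ℝ) / 512) := by
      rw [← Real.rpow_add hx0]; norm_num
    rw [this]
    calc τb * Cbd c₀ k D' ≤ x ^ ((1:ℝ) / 1024) * ((5 / c₀ + 5) * x ^ ((1:ℝ) / 512)) :=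
          mul_le_mul h3 h2 hCbd0 (by positivity)
      _ = _ := by ring
  -- compare with the square root
  have hsq : Real.sqrt (x * y) = (x * y) ^ ((1:ℝ) / 2) := Real.sqrt_eq_rpow _
  have hsq0 : 0 < Real.sqrt (x * y) := Real.sqrt_pos.mpr hxy0
  have h6 : x ^ ((3:ℝ) / 1024) ≤ (x * y) ^ (-(cc k)) * Real.sqrt (x * y) := by
    rw [hsq, ← Real.rpow_add hxy0]
    have h7 : (3:ℝ) / 1024 ≤ -(cc k) + 1 / 2 := by linarith
    calc x ^ ((3:ℝ) / 1024) ≤ (x * y) ^ ((3:ℝ) / 1024) :=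
          Real.rpow_le_rpow hx0.le (by nlinarith) (by norm_num)
      _ ≤ _ := Real.rpow_le_rpow_of_exponent_le hxy h7
  have h8 : τb * (3 * Cbd c₀ k D' / Real.sqrt (x * y))
      = 3 * (τb * Cbd c₀ k D') / Real.sqrt (x * y) := by ring
  rw [h8, div_le_iff₀ hsq0]
  have h5c : 0 < 5 / c₀ + 5 := by positivity
  calc 3 * (τb * Cbd c₀ k D') ≤ 3 * ((5 / c₀ + 5) * x ^ ((3:ℝ) / 1024)) := by linarith
    _ ≤ 3 * ((5 / c₀ + 5) * ((x * y) ^ (-(cc k)) * Real.sqrt (x * y))) := by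
        apply mul_le_mul_of_nonneg_left _ (by norm_num)
        exact mul_le_mul_of_nonneg_left h6 h5c.le
    _ = _ := by ring

/-- Case `D < M₂^(-2c)`: master with `D' = M₂^(-2c)`; case `Υ ≥ M₂^(32c)`, `D ≥ M₂^(-2c)`: master with `D' = D`. Both with `a = τb`. -/
theorem simple_cases {c₀ : ℝ} {k : ℕ} (hc₀ : 0 < c₀) (hk : 1 ≤ k) :
    ∃ M₀ C : ℝ, 1 ≤ M₀ ∧ 0 < C ∧ ∀ {γ : ℝ} {p : Par} {S₁ S₂ : Finset ℕ} {τb : ℝ},
      Dio γ c₀ k → p.Good → (∀ q ∈ S₁, p.Q₁ ≤ q ∧ q < 2 * p.Q₁) → (∀ r ∈ S₂, p.Q₂ ≤ r ∧ r < 2 * p.Q₂) →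
      M₀ ≤ p.M₂ → p.D < 1 / 96 → p.u ≤ 2 * p.M₂ →
      1 ≤ τb → τb ≤ p.M₂ ^ cc k →
      (p.D < p.M₂ ^ (-(2 * cc k)) ∨ p.M₂ ^ (32 * cc k) ≤ p.Ups) →
      ∀ A : Finset ℕ, (∀ d ∈ A, p.E ≤ d ∧ d < 2 * p.E) →
      (¬ p.two → ∀ q ∈ S₁, (TT A q : ℝ) ≤ τb) → (p.two → ∀ r ∈ S₂, (TT A r : ℝ) ≤ τb) →
      Off γ p.D p.w A S₁ S₂ ≤ p.ms S₁ S₂ * C * ((p.D / p.Ups) ^ ((1:ℝ) / 768) + (p.M₂ * p.Ups) ^ (-(cc k))) := by
  have hc := cc_pos hk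
  have hc2 := cc_le hk
  have hk0 : (0:ℝ) < k := by exact_mod_cast hk
  refine ⟨(2:ℝ) ^ (512 * k), 20 + 3 * (5 / c₀ + 5), one_le_pow₀ (by norm_num), by positivity, ?_⟩
  intro γ p S₁ S₂ τb hγ hp hS₁ hS₂ hM hD hu hτ1 hτ hcase A hA hT1 hT2
  have hM₂1 : 1 ≤ p.M₂ := (one_le_pow₀ (by norm_num)).trans hM
  have hx0 : 0 < p.M₂ := by linarith
  have hy1 : 1 ≤ p.Ups := Par.Ups_ge_one hp
  have hy0 : 0 < p.Ups := by linarith
  have hms : 0 ≤ p.ms S₁ S₂ := by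
    unfold Par.ms
    have := hp.N₁_pos
    have := hp.N₂_pos
    positivity
  have hDpos : 0 < p.D := Par.D_pos hp
  have hτ0 : 0 ≤ τb := by linarith
  have hA' : ∀ d ∈ A, p.E ≤ d := fun d hd => (hA d hd).1
  have hS₁' : ∀ q ∈ S₁, q < 2 * p.Q₁ := fun q hq => (hS₁ q hq).2
  have hS₂' : ∀ r ∈ S₂, r < 2 * p.Q₂ := fun r hr => (hS₂ r hr).2
  -- nonnegativity of the target terms
  have hterm1 : 0 ≤ (p.D / p.Ups) ^ ((1:ℝ) / 768) := Real.rpow_nonneg (by positivity) _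
  have hterm2 : 0 ≤ (p.M₂ * p.Ups) ^ (-(cc k)) := Real.rpow_nonneg (by positivity) _
  have hfinal : ∀ {D' : ℝ}, 0 < D' → D' ≤ 1 / 2 → p.D ≤ D' → 1 / D' ≤ p.M₂ ^ (2 * cc k) →
      τb * (20 * D' / p.Ups) ≤ 20 * ((p.D / p.Ups) ^ ((1:ℝ) / 768) + (p.M₂ * p.Ups) ^ (-(cc k))) →
      Off γ p.D p.w A S₁ S₂ ≤ p.ms S₁ S₂ * (20 + 3 * (5 / c₀ + 5))
        * ((p.D / p.Ups) ^ ((1:ℝ) / 768) + (p.M₂ * p.Ups) ^ (-(cc k))) := by
    intro D' hD'0 hD'1 hDD' hinv hterm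
    have hm := one_sided_master hγ hc₀ hk hp (Finset.Subset.refl S₁) (Finset.Subset.refl S₂) hS₁' hS₂' hA'
      hτ0 hT2 hT1 hD'0 hD'1 hDD' hM₂1 hu
    refine hm.trans ?_
    have h2 := term_two hc₀ hk hM₂1 hy1 hτ hτ0 hD'0 hinv
    have h3 : τb * p.B0 c₀ k D' ≤ (20 + 3 * (5 / c₀ + 5))
        * ((p.D / p.Ups) ^ ((1:ℝ) / 768) + (p.M₂ * p.Ups) ^ (-(cc k))) := by
      unfold Par.B0
      have h5c : 0 ≤ 3 * (5 / c₀ + 5) := by positivity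
      have h6 : 3 * (5 / c₀ + 5) * (p.M₂ * p.Ups) ^ (-(cc k)) ≤ 3 * (5 / c₀ + 5)
          * ((p.D / p.Ups) ^ ((1:ℝ) / 768) + (p.M₂ * p.Ups) ^ (-(cc k))) :=
        mul_le_mul_of_nonneg_left (by linarith) h5c
      calc τb * (20 * D' / p.Ups + 3 * Cbd c₀ k D' / Real.sqrt (p.M₂ * p.Ups))
          = τb * (20 * D' / p.Ups) + τb * (3 * Cbd c₀ k D' / Real.sqrt (p.M₂ * p.Ups)) := by ring
        _ ≤ 20 * ((p.D / p.Ups) ^ ((1:ℝ) / 768) + (p.M₂ * p.Ups) ^ (-(cc k)))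
            + 3 * (5 / c₀ + 5) * ((p.D / p.Ups) ^ ((1:ℝ) / 768) + (p.M₂ * p.Ups) ^ (-(cc k))) :=
            add_le_add hterm (h2.trans h6)
        _ = _ := by ring
    calc p.ms S₁ S₂ * τb * p.B0 c₀ k D' = p.ms S₁ S₂ * (τb * p.B0 c₀ k D') := by ring
      _ ≤ p.ms S₁ S₂ * ((20 + 3 * (5 / c₀ + 5))
          * ((p.D / p.Ups) ^ ((1:ℝ) / 768) + (p.M₂ * p.Ups) ^ (-(cc k)))) :=
          mul_le_mul_of_nonneg_left h3 hms
      _ = _ := by ring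
  by_cases hDc : p.D < p.M₂ ^ (-(2 * cc k))
  · -- first case
    have hD'0 : 0 < p.M₂ ^ (-(2 * cc k)) := Real.rpow_pos_of_pos hx0 _
    have hpow2 : (2:ℝ) ≤ p.M₂ ^ (2 * cc k) := by
      have h1 : ((2:ℝ) ^ (512 * k)) ^ (2 * cc k) ≤ p.M₂ ^ (2 * cc k) :=
        Real.rpow_le_rpow (by positivity) hM (by positivity)
      have h2 : ((2:ℝ) ^ (512 * k)) ^ (2 * cc k) = 2 := by
        rw [← Real.rpow_natCast, ← Real.rpow_mul (by norm_num)]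
        have : ((512 * k : ℕ) : ℝ) * (2 * cc k) = 1 := by
          unfold cc
          push_cast
          field_simp
          norm_num
        rw [this, Real.rpow_one]
      linarith
    have hinv : 1 / p.M₂ ^ (-(2 * cc k)) = p.M₂ ^ (2 * cc k) := by
      rw [Real.rpow_neg hx0.le]
      simp
    have hD'1 : p.M₂ ^ (-(2 * cc k)) ≤ 1 / 2 := by
      rw [Real.rpow_neg hx0.le, inv_eq_one_div]
      exact one_div_le_one_div_of_le (by norm_num) hpow2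
    refine hfinal hD'0 hD'1 hDc.le hinv.le ?_
    have hyc : p.Ups⁻¹ ≤ p.Ups ^ (-(cc k)) := by
      rw [Real.rpow_neg hy0.le]
      apply inv_anti₀ (Real.rpow_pos_of_pos hy0 _)
      calc p.Ups ^ cc k ≤ p.Ups ^ (1:ℝ) :=
            Real.rpow_le_rpow_of_exponent_le hy1 (by linarith)
        _ = p.Ups := Real.rpow_one _
    have hmul : (p.M₂ * p.Ups) ^ (-(cc k)) = p.M₂ ^ (-(cc k)) * p.Ups ^ (-(cc k)) :=
      Real.mul_rpow hx0.le hy0.le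
    have hxx : p.M₂ ^ cc k * p.M₂ ^ (-(2 * cc k)) = p.M₂ ^ (-(cc k)) := by
      rw [← Real.rpow_add hx0]; ring_nf
    calc τb * (20 * p.M₂ ^ (-(2 * cc k)) / p.Ups)
        ≤ p.M₂ ^ cc k * (20 * p.M₂ ^ (-(2 * cc k)) / p.Ups) :=
          mul_le_mul_of_nonneg_right hτ (by positivity)
      _ = 20 * ((p.M₂ ^ cc k * p.M₂ ^ (-(2 * cc k))) * p.Ups⁻¹) := by
          rw [div_eq_mul_inv]; ring
      _ = 20 * (p.M₂ ^ (-(cc k)) * p.Ups⁻¹) := by rw [hxx]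
      _ ≤ 20 * (p.M₂ ^ (-(cc k)) * p.Ups ^ (-(cc k))) := by
          have h0 : 0 ≤ p.M₂ ^ (-(cc k)) := (Real.rpow_pos_of_pos hx0 _).le
          have := mul_le_mul_of_nonneg_left hyc h0
          linarith
      _ = 20 * (p.M₂ * p.Ups) ^ (-(cc k)) := by rw [hmul]
      _ ≤ _ := by linarith
  · -- second case
    have hcase2 : p.M₂ ^ (32 * cc k) ≤ p.Ups := by
      rcases hcase with h | h
      · exact absurd h hDc
      · exact h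
    have hge : p.M₂ ^ (-(2 * cc k)) ≤ p.D := not_lt.mp hDc
    have hinv : 1 / p.D ≤ p.M₂ ^ (2 * cc k) := by
      rw [div_le_iff₀ hDpos]
      have h1 : p.M₂ ^ (2 * cc k) * p.M₂ ^ (-(2 * cc k)) = 1 := by
        rw [← Real.rpow_add hx0]; simp
      have h2 : 0 ≤ p.M₂ ^ (2 * cc k) := (Real.rpow_pos_of_pos hx0 _).le
      calc (1:ℝ) = p.M₂ ^ (2 * cc k) * p.M₂ ^ (-(2 * cc k)) := h1.symm
        _ ≤ p.M₂ ^ (2 * cc k) * p.D := mul_le_mul_of_nonneg_left hge h2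
    refine hfinal hDpos (by linarith) le_rfl hinv ?_
    -- `τb ≤ Υ^(1/32)`
    have hτΥ : τb ≤ p.Ups ^ ((1:ℝ) / 32) := by
      have h1 : p.M₂ ^ cc k = (p.M₂ ^ (32 * cc k)) ^ ((1:ℝ) / 32) := by
        rw [← Real.rpow_mul hx0.le]; ring_nf
      rw [h1] at hτ
      exact hτ.trans (Real.rpow_le_rpow (by positivity) hcase2 (by norm_num))
    have hDle : p.D ≤ p.D ^ ((1:ℝ) / 768) := by
      have hD1 : p.D ≤ 1 := by linarith
      have := Real.rpow_le_rpow_of_exponent_ge hDpos hD1 (show (1:ℝ) / 768 ≤ 1 by norm_num)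
      simpa using this
    have hdiv : (p.D / p.Ups) ^ ((1:ℝ) / 768) = p.D ^ ((1:ℝ) / 768) / p.Ups ^ ((1:ℝ) / 768) :=
      Real.div_rpow hDpos.le hy0.le _
    have hyy : p.Ups ^ ((1:ℝ) / 768) * p.Ups ^ ((1:ℝ) / 32) ≤ p.Ups := by
      rw [← Real.rpow_add hy0]
      calc p.Ups ^ ((1:ℝ) / 768 + 1 / 32) ≤ p.Ups ^ (1:ℝ) :=
            Real.rpow_le_rpow_of_exponent_le hy1 (by norm_num)
        _ = p.Ups := Real.rpow_one _
    have hy768 : 0 < p.Ups ^ ((1:ℝ) / 768) := Real.rpow_pos_of_pos hy0 _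
    have hy32 : 0 ≤ p.Ups ^ ((1:ℝ) / 32) := (Real.rpow_pos_of_pos hy0 _).le
    have h5 : τb * (20 * p.D / p.Ups) ≤ 20 * (p.D / p.Ups) ^ ((1:ℝ) / 768) := by
      rw [hdiv]
      have h6 : τb / p.Ups ≤ 1 / p.Ups ^ ((1:ℝ) / 768) := by
        rw [div_le_div_iff₀ hy0 hy768]
        calc τb * p.Ups ^ ((1:ℝ) / 768) ≤ p.Ups ^ ((1:ℝ) / 32) * p.Ups ^ ((1:ℝ) / 768) :=
              mul_le_mul_of_nonneg_right hτΥ hy768.le
          _ = p.Ups ^ ((1:ℝ) / 768) * p.Ups ^ ((1:ℝ) / 32) := by ring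
          _ ≤ p.Ups := hyy
          _ = 1 * p.Ups := by ring
      calc τb * (20 * p.D / p.Ups) = 20 * p.D * (τb / p.Ups) := by ring
        _ ≤ 20 * p.D * (1 / p.Ups ^ ((1:ℝ) / 768)) :=
            mul_le_mul_of_nonneg_left h6 (by positivity)
        _ ≤ 20 * p.D ^ ((1:ℝ) / 768) * (1 / p.Ups ^ ((1:ℝ) / 768)) :=
            mul_le_mul_of_nonneg_right (by linarith) (by positivity)
        _ = _ := by ring
    linarith

/-- Case `sqrt(μ₁ μ₂) ≤ D (D/Υ)^(1/4)`. -/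
theorem small_mu_case {γ : ℝ} {p : Par} (hp : p.Good) {S₁ S₂ : Finset ℕ} (A : Finset ℕ) (hD : p.D ≤ 1)
    (hm : Real.sqrt ((S₁.card : ℝ) / p.N₁ * ((S₂.card : ℝ) / p.N₂)) ≤ p.D * (p.D / p.Ups) ^ ((1:ℝ) / 4)) :
    Off γ p.D p.w A S₁ S₂ ≤ p.ms S₁ S₂ * 4 * (p.D / p.Ups) ^ ((1:ℝ) / 768) := by
  have hDpos : 0 < p.D := Par.D_pos hp
  have hy1 : 1 ≤ p.Ups := Par.Ups_ge_one hp
  have hy0 : 0 < p.Ups := by linarith
  have hN1 := hp.N₁_pos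
  have hN2 := hp.N₂_pos
  set a : ℝ := (S₁.card : ℝ) / p.N₁ with ha
  set b : ℝ := (S₂.card : ℝ) / p.N₂ with hb
  have ha0 : 0 ≤ a := by rw [ha]; positivity
  have hb0 : 0 ≤ b := by rw [hb]; positivity
  have hoff := off_le_mu (γ := γ) hp A S₁ S₂
  have hms : p.ms S₁ S₂ = a + b := rfl
  have hab : 0 ≤ a * b := mul_nonneg ha0 hb0
  set s : ℝ := Real.sqrt (a * b) with hs
  have hs0 : 0 ≤ s := Real.sqrt_nonneg _
  have hss : s * s = a * b := Real.mul_self_sqrt hab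
  set t : ℝ := p.D / p.Ups with ht
  have ht0 : 0 < t := by rw [ht]; positivity
  have ht1 : t ≤ 1 := by
    rw [ht, div_le_one hy0]; linarith
  have htt : t ^ ((1:ℝ) / 4) ≤ t ^ ((1:ℝ) / 768) :=
    Real.rpow_le_rpow_of_exponent_ge ht0 ht1 (by norm_num)
  have hAM : 2 * s ≤ a + b := by
    nlinarith [sq_nonneg (a - b), sq_nonneg (a + b - 2 * s), sq_nonneg (a + b)]
  have hsD : s / p.D ≤ t ^ ((1:ℝ) / 4) := by
    rw [div_le_iff₀ hDpos]; linarith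
  have ht4 : 0 ≤ t ^ ((1:ℝ) / 4) := Real.rpow_nonneg ht0.le _
  have ht768 : 0 ≤ t ^ ((1:ℝ) / 768) := Real.rpow_nonneg ht0.le _
  calc Off γ p.D p.w A S₁ S₂ ≤ 8 * (a * b) / p.D := hoff
    _ = 8 * s * (s / p.D) := by rw [← hss]; ring
    _ ≤ 8 * s * t ^ ((1:ℝ) / 768) :=
        mul_le_mul_of_nonneg_left (hsD.trans htt) (by positivity)
    _ ≤ (a + b) * 4 * t ^ ((1:ℝ) / 768) := by
        apply mul_le_mul_of_nonneg_right _ ht768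
        linarith
    _ = p.ms S₁ S₂ * 4 * t ^ ((1:ℝ) / 768) := by rw [hms]

end Vale.Agent.Lib.P028T
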