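import Vale.Agent.Lib.P028T.Chain
import Vale.Agent.Lib.P028T.Gate
import Vale.Agent.Lib.P028T.Simple

/-! The pair lemma: blueprint section 11. -/

open Finset

namespace Vale.Agent.Lib.P028T

open Vale.Agent.Lib.P028

/-- The pair lemma at one gcd scale. -/
theorem pair_lemma {γ c₀ : ℝ} {k : ℕ} (hγ : Dio γ c₀ k) (hc₀ : 0 < c₀) (hk : 1 ≤ k) :
    ∃ W C : ℝ, 1 ≤ W ∧ 0 < C ∧ ∀ {p : Par} {S₁ S₂ : Finset ℕ}, p.Good → W ≤ p.N₁ → W ≤ p.N₂ →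
      (∀ q ∈ S₁, p.Q₁ ≤ q ∧ q < 2 * p.Q₁) → (∀ r ∈ S₂, p.Q₂ ≤ r ∧ r < 2 * p.Q₂) →
      (∀ x ∈ S₁, ∀ M : ℕ, 1 ≤ M → p.N₁ ^ cc₁ k ≤ (M:ℝ) → (dy x M : ℝ) ≤ (M:ℝ) ^ cc₃ k) →
      (∀ x ∈ S₂, ∀ M : ℕ, 1 ≤ M → p.N₂ ^ cc₁ k ≤ (M:ℝ) → (dy x M : ℝ) ≤ (M:ℝ) ^ cc₃ k) →
      (S₁.card : ℝ) / p.N₁ ≤ 2 → (S₂.card : ℝ) / p.N₂ ≤ 2 → p.D < 1 / 96 →
      Off γ p.D p.w (Finset.Ico p.E (2 * p.E)) S₁ S₂
        ≤ 768 / (p.N₁ * p.N₂) * (Exact (Finset.Ico p.E (2 * p.E)) S₁ S₂ : ℝ)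
          + p.ms S₁ S₂ * C * ((p.D / p.Ups) ^ ((1:ℝ) / 768) + (p.M₂ * p.Ups) ^ (-(cc k))) := by
  obtain ⟨M₁', CR, hM₁', hCR, hreg⟩ := regime_bound (k := k) hc₀ hk
  obtain ⟨M₂', CS, hM₂', hCS, hsimple⟩ := simple_cases (k := k) hc₀ hk
  obtain ⟨M₃', hM₃', hnum⟩ := gate_num (k := k) hc₀ hk
  set M₀ : ℝ := max M₁' (max M₂' M₃') with hM₀
  have hM₀1 : 1 ≤ M₀ := le_trans hM₁' (le_max_left _ _)
  have hM₀0 : 0 ≤ M₀ := by linarith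
  refine ⟨max 1 (2 * (2 * M₀) ^ (k + 1) / c₀ + 1), CR + CS + 4, le_max_left _ _, by linarith, ?_⟩
  intro p S₁ S₂ hp hW₁ hW₂ hS₁ hS₂ hd₁ hd₂ hμ₁ hμ₂ hD
  have hN₁pos := hp.N₁_pos
  have hN₂pos := hp.N₂_pos
  have hE : (0 : ℝ) < p.E := by exact_mod_cast hp.E_pos
  have hM₁nn : 0 ≤ p.M₁ := by
    unfold Par.M₁
    positivity
  have hM₂nn : 0 ≤ p.M₂ := by
    unfold Par.M₂
    positivity
  have hDnn : 0 ≤ p.D := by
    unfold Par.D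
    have : 0 ≤ p.M₂ / p.N₁ := by positivity
    have h2 := le_max_left (p.M₂ / p.N₁) (p.M₁ / p.N₂)
    linarith
  have hUps : 0 ≤ p.Ups := by
    unfold Par.Ups
    exact le_trans (Real.sqrt_nonneg _) (le_max_right _ _)
  have hA : ∀ d ∈ Finset.Ico p.E (2 * p.E), p.E ≤ d ∧ d < 2 * p.E := fun d hd => Finset.mem_Ico.1 hd
  have hms : 0 ≤ p.ms S₁ S₂ := by
    unfold Par.ms
    positivity
  have hT1 : 0 ≤ (p.D / p.Ups) ^ ((1:ℝ) / 768) := Real.rpow_nonneg (div_nonneg hDnn hUps) _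
  have hT2 : 0 ≤ (p.M₂ * p.Ups) ^ (-(cc k)) := Real.rpow_nonneg (mul_nonneg hM₂nn hUps) _
  have hEx : 0 ≤ 768 / (p.N₁ * p.N₂) * (Exact (Finset.Ico p.E (2 * p.E)) S₁ S₂ : ℝ) := by
    positivity
  set T := (p.D / p.Ups) ^ ((1:ℝ) / 768) + (p.M₂ * p.Ups) ^ (-(cc k)) with hT
  have hTnn : 0 ≤ T := by positivity
  have hmsT : 0 ≤ p.ms S₁ S₂ * T := by positivity
  by_cases h0 : Off γ p.D p.w (Finset.Ico p.E (2 * p.E)) S₁ S₂ = 0
  · rw [h0]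
    have : 0 ≤ p.ms S₁ S₂ * (CR + CS + 4) * T := by
      have : 0 ≤ CR + CS + 4 := by linarith
      positivity
    linarith
  obtain ⟨hu, hgate⟩ := gate hγ hc₀ hk hp hS₁ hS₂ h0
  -- `M₂` is large since the blocks are large
  have hM₀M : M₀ ≤ p.M₂ := by
    by_contra hlt
    push Not at hlt
    have hW : 2 * (2 * M₀) ^ (k + 1) / c₀ + 1 ≤ min p.N₁ p.N₂ :=
      le_min ((le_max_right _ _).trans hW₁) ((le_max_right _ _).trans hW₂)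
    have hpow : (2 * p.M₂) ^ (k + 1) ≤ (2 * M₀) ^ (k + 1) :=
      pow_le_pow_left₀ (by positivity) (by linarith) _
    have h1 : (2 * (2 * M₀) ^ (k + 1) / c₀ + 1) * c₀ ≤ min p.N₁ p.N₂ * c₀ :=
      mul_le_mul_of_nonneg_right hW hc₀.le
    have h2 : (2 * (2 * M₀) ^ (k + 1) / c₀ + 1) * c₀ = 2 * (2 * M₀) ^ (k + 1) + c₀ := by
      field_simp
    rw [h2] at h1
    linarith
  have hM₂1 : 1 ≤ p.M₂ := hM₀1.trans hM₀M
  have hM₁M : M₁' ≤ p.M₂ := (le_max_left _ _).trans hM₀M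
  have hM₂M : M₂' ≤ p.M₂ := ((le_max_left _ _).trans (le_max_right _ _)).trans hM₀M
  have hM₃M : M₃' ≤ p.M₂ := ((le_max_right _ _).trans (le_max_right _ _)).trans hM₀M
  obtain ⟨hnum1, hnum2⟩ := hnum hM₃M
  have hccnn : 0 ≤ cc k := by
    unfold cc
    positivity
  have hcc₁ : 0 ≤ cc₁ k := by
    unfold cc₁
    positivity
  have hcc₃ : 0 ≤ cc₃ k := by
    unfold cc₃
    positivity
  have hτ1 : 1 ≤ p.M₂ ^ cc k := Real.one_le_rpow hM₂1 hccnn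
  have hQ₁₂ := hp.Q_le
  have hQ₁1 := hp.Q₁_pos
  -- the multiplicity on each side, from the size of the block
  have hTS₁ : p.N₁ ≤ (2 / c₀) * (2 * p.M₂) ^ (k + 2) →
      ∀ x ∈ S₁, (TT (Finset.Ico p.E (2 * p.E)) x : ℝ) ≤ p.M₂ ^ cc k := by
    intro hN x hx
    have h := dyadic_T hp.E_pos hQ₁1 (hS₁ x hx) hcc₃ hcc₁ hN₁pos (hd₁ x hx)
    refine h.trans (hnum1 _ _ (by positivity) ?_ hN₁pos hN)
    have : (p.Q₁ : ℝ) ≤ p.Q₂ := by exact_mod_cast hQ₁₂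
    unfold Par.M₂
    exact div_le_div_of_nonneg_right this hE.le
  have hTS₂ : p.N₂ ≤ (2 / c₀) * (2 * p.M₂) ^ (k + 2) →
      ∀ x ∈ S₂, (TT (Finset.Ico p.E (2 * p.E)) x : ℝ) ≤ p.M₂ ^ cc k := by
    intro hN x hx
    have h := dyadic_T hp.E_pos (by omega : 1 ≤ p.Q₂) (hS₂ x hx) hcc₃ hcc₁ hN₂pos (hd₂ x hx)
    exact h.trans (hnum1 _ _ (by positivity) le_rfl hN₂pos hN)
  obtain ⟨hs₁, hs₂⟩ := N_side hc₀ hp hu hgate
  by_cases hc : p.D < p.M₂ ^ (-(2 * cc k)) ∨ p.M₂ ^ (32 * cc k) ≤ p.Ups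
  · have h1 := hsimple hγ hp hS₁ hS₂ hM₂M hD hu hτ1 le_rfl hc
      (Finset.Ico p.E (2 * p.E)) hA (fun hn => hTS₁ (hs₂ hn)) (fun ht => hTS₂ (hs₁ ht))
    have h2 : p.ms S₁ S₂ * CS * T ≤ p.ms S₁ S₂ * (CR + CS + 4) * T := by
      apply mul_le_mul_of_nonneg_right _ hTnn
      apply mul_le_mul_of_nonneg_left _ hms
      linarith
    linarith
  · push Not at hc
    obtain ⟨hc1, hc2⟩ := hc
    by_cases hm : Real.sqrt ((S₁.card : ℝ) / p.N₁ * ((S₂.card : ℝ) / p.N₂)) ≤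
        p.D * (p.D / p.Ups) ^ ((1:ℝ) / 4)
    · have h1 := small_mu_case (γ := γ) hp (S₁ := S₁) (S₂ := S₂) (Finset.Ico p.E (2 * p.E))
        (by linarith) hm
      have h2 : p.ms S₁ S₂ * 4 * (p.D / p.Ups) ^ ((1:ℝ) / 768) ≤ p.ms S₁ S₂ * 4 * T := by
        apply mul_le_mul_of_nonneg_left _ (by positivity)
        rw [hT]
        linarith
      have h3 : p.ms S₁ S₂ * 4 * T ≤ p.ms S₁ S₂ * (CR + CS + 4) * T := by
        apply mul_le_mul_of_nonneg_right _ hTnn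
        apply mul_le_mul_of_nonneg_left _ hms
        linarith
      linarith
    · push Not at hm
      obtain ⟨hb₁, hb₂⟩ := N_both hc₀ hk hp hM₂1 hgate hc2
      have hR : Regime γ c₀ k M₁' p S₁ S₂ (p.M₂ ^ cc k) :=
        { dio := hγ
          c₀_pos := hc₀
          k_pos := hk
          good := hp
          S₁_mem := hS₁
          S₂_mem := hS₂
          M_large := hM₁M
          D_lt := hD
          D_ge := hc1
          Ups_lt := hc2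
          u_le := hu
          tau_one := hτ1
          tau_S₁ := hTS₁ hb₁
          tau_S₂ := hTS₂ hb₂
          tau_y := hnum2
          tau_le := le_rfl
          mu₁_le := hμ₁
          mu₂_le := hμ₂
          mu_big := hm }
      have h1 := hreg hR hA
      have h3 : p.ms S₁ S₂ * CR * T ≤ p.ms S₁ S₂ * (CR + CS + 4) * T := by
        apply mul_le_mul_of_nonneg_right _ hTnn
        apply mul_le_mul_of_nonneg_left _ hms
        linarith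
      linarith

end Vale.Agent.Lib.P028T
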