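import Vale.Agent.Lib.P028T.Defs

/-! All-residue bumps: blueprint section 0. Same proofs as `P028V.PhiBasics`, `P028V.Alive` with all residues
and with `ψ q ≤ 1/2` instead of `ψ q ≤ 1/q`. -/

open MeasureTheory intervalIntegral Finset

namespace Vale.Agent.Lib.P028T

open Vale.Agent.Lib.P028

variable {γ : ℝ} {ψ : ℕ → ℝ}

/-- The function attached to `q`: sum of tents of half width `ψ q / q` around `(a + γ) / q`, all `a < q`. -/
noncomputable def Phi (γ : ℝ) (ψ : ℕ → ℝ) (q : ℕ) (x : ℝ) : ℝ :=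
  if 0 < ψ q then ∑ a ∈ Finset.range q, tent (ψ q / q) (x - ((a:ℝ) + γ) / q) else 0

/-- Triangle inequality for the distance to the nearest integer. -/
lemma phi_dn_sub_le (s t : ℝ) : dn (s - t) ≤ dn s + dn t := by
  have h := dn_le_abs_sub (s - t) (round s - round t)
  refine h.trans ?_
  push_cast
  have : s - t - ((round s : ℝ) - (round t : ℝ)) = (s - round s) - (t - round t) := by ring
  rw [this]
  exact abs_sub _ _

lemma phi_nonneg (q : ℕ) (x : ℝ) : 0 ≤ Phi γ ψ q x := by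
  unfold Phi
  split_ifs with h
  · exact Finset.sum_nonneg fun a _ => tent_nonneg _ _
  · exact le_rfl

/-- The centres of different tents are far apart. -/
private lemma dn_centre_ge {q a a' : ℕ} (hq : 1 ≤ q) (ha : a < q) (ha' : a' < q) (hne : a ≠ a') :
    1 / (q:ℝ) ≤ dn (((a:ℝ) + γ) / q - ((a':ℝ) + γ) / q) := by
  have hq0 : (0:ℝ) < q := by exact_mod_cast hq
  unfold dn
  set z := round (((a:ℝ) + γ) / q - ((a':ℝ) + γ) / q) with hz
  have e : ((a:ℝ) + γ) / q - ((a':ℝ) + γ) / q - z = (((a:ℤ) - (a':ℤ) - z * (q:ℤ) : ℤ) : ℝ) / q := by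
    push_cast
    field_simp
    ring
  rw [e, abs_div, abs_of_pos hq0]
  refine div_le_div_of_nonneg_right ?_ hq0.le
  have hne' : (a:ℤ) - (a':ℤ) - z * (q:ℤ) ≠ 0 := by
    intro h0
    have hdvd : (q:ℤ) ∣ (a:ℤ) - (a':ℤ) := ⟨z, by linarith⟩
    have h1 : |(a:ℤ) - (a':ℤ)| < q := by
      rw [abs_lt]
      constructor <;> omega
    have h2 := Int.eq_zero_of_abs_lt_dvd hdvd h1
    omega
  have : (1:ℤ) ≤ |(a:ℤ) - (a':ℤ) - z * (q:ℤ)| := Int.one_le_abs hne'
  exact_mod_cast this

lemma phi_le_one (hψ : ∀ q, ψ q ≤ 1 / 2) {q : ℕ} (hq : 2 ≤ q) (x : ℝ) : Phi γ ψ q x ≤ 1 := by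
  unfold Phi
  split_ifs with h
  · have hq0 : (0:ℝ) < q := by exact_mod_cast (by omega : 0 < q)
    set ρ := ψ q / q with hρ
    have hρ0 : 0 < ρ := div_pos h hq0
    have hρ2 : 2 * ρ ≤ 1 / q := by
      have := hψ q
      rw [hρ, ← mul_div_assoc]
      apply div_le_div_of_nonneg_right _ hq0.le
      linarith
    by_cases hex : ∃ a ∈ Finset.range q, 0 < tent ρ (x - ((a:ℝ) + γ) / q)
    · obtain ⟨a, ha, hpos⟩ := hex
      have hunique : ∀ b ∈ Finset.range q, b ≠ a → tent ρ (x - ((b:ℝ) + γ) / q) = 0 := by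
        intro b hb hne
        by_contra hb0
        have hbpos : 0 < tent ρ (x - ((b:ℝ) + γ) / q) :=
          lt_of_le_of_ne (tent_nonneg _ _) (Ne.symm hb0)
        have h1 := tent_pos_imp hρ0 hpos
        have h2 := tent_pos_imp hρ0 hbpos
        have hba : b < q := Finset.mem_range.mp hb
        have haa : a < q := Finset.mem_range.mp ha
        have h3 := @dn_centre_ge γ q b a (by omega) hba haa hne
        have h4 := phi_dn_sub_le (x - ((a:ℝ) + γ) / q) (x - ((b:ℝ) + γ) / q)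
        have e : x - ((a:ℝ) + γ) / q - (x - ((b:ℝ) + γ) / q) = ((b:ℝ) + γ) / q - ((a:ℝ) + γ) / q := by
          ring
        rw [e] at h4
        linarith
      rw [Finset.sum_eq_single_of_mem a ha hunique]
      exact tent_le_one hρ0 _
    · push Not at hex
      have : ∑ a ∈ Finset.range q, tent ρ (x - ((a:ℝ) + γ) / q) = 0 :=
        Finset.sum_eq_zero fun a ha => le_antisymm (hex a ha) (tent_nonneg _ _)
      rw [this]
      exact zero_le_one
  · exact zero_le_one

lemma phi_lip (q : ℕ) : ∃ L : ℝ, 0 ≤ L ∧ ∀ x y, |Phi γ ψ q x - Phi γ ψ q y| ≤ L * |x - y| := by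
  by_cases h : 0 < ψ q
  · refine ⟨((Finset.range q).card : ℝ) * (ψ q / q)⁻¹, ?_, fun x y => ?_⟩
    · have : 0 ≤ ψ q / (q:ℝ) := div_nonneg h.le (Nat.cast_nonneg _)
      positivity
    · unfold Phi
      rw [if_pos h, if_pos h, ← Finset.sum_sub_distrib]
      refine (Finset.abs_sum_le_sum_abs _ _).trans ?_
      have hbd : ∀ a ∈ Finset.range q, |tent (ψ q / q) (x - ((a:ℝ) + γ) / q)
            - tent (ψ q / q) (y - ((a:ℝ) + γ) / q)| ≤ (ψ q / q)⁻¹ * |x - y| := by
        intro a ha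
        have haq : a < q := Finset.mem_range.mp ha
        have hq0 : (0:ℝ) < q := by exact_mod_cast (by omega : 0 < q)
        have := tent_lip (div_pos h hq0) (x - ((a:ℝ) + γ) / q) (y - ((a:ℝ) + γ) / q)
        have e : x - ((a:ℝ) + γ) / q - (y - ((a:ℝ) + γ) / q) = x - y := by ring
        rwa [e] at this
      calc _ ≤ ∑ _a ∈ Finset.range q, (ψ q / q)⁻¹ * |x - y| := Finset.sum_le_sum hbd
        _ = _ := by rw [Finset.sum_const, nsmul_eq_mul]; ring
  · refine ⟨0, le_rfl, fun x y => ?_⟩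
    unfold Phi
    simp [h]

lemma phi_periodic (q : ℕ) (x : ℝ) : Phi γ ψ q (x + 1) = Phi γ ψ q x := by
  unfold Phi
  split_ifs with h
  · refine Finset.sum_congr rfl fun a _ => ?_
    have e : x + 1 - ((a:ℝ) + γ) / q = (x - ((a:ℝ) + γ) / q) + 1 := by ring
    rw [e, tent_add_one]
  · rfl

lemma phi_pos_imp {q : ℕ} (hq : 1 ≤ q) {x : ℝ} (h : 0 < Phi γ ψ q x) :
    dn ((q:ℝ) * x - γ) < ψ q := by
  have hq0 : (0:ℝ) < q := by exact_mod_cast hq
  unfold Phi at h
  split_ifs at h with hψq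
  · obtain ⟨a, _, ha⟩ := Finset.exists_lt_of_sum_lt (s := Finset.range q) (f := fun _ : ℕ => (0:ℝ))
      (g := fun a : ℕ => tent (ψ q / q) (x - ((a:ℝ) + γ) / q)) (by simpa using h)
    have h1 := tent_pos_imp (div_pos hψq hq0) ha
    unfold dn at h1
    set w := round (x - ((a:ℝ) + γ) / q) with hw
    have h2 := dn_le_abs_sub ((q:ℝ) * x - γ) ((a:ℤ) + (q:ℤ) * w)
    refine lt_of_le_of_lt h2 ?_
    have e : (q:ℝ) * x - γ - (((a:ℤ) + (q:ℤ) * w : ℤ) : ℝ)
        = q * (x - ((a:ℝ) + γ) / q - w) := by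
      push_cast
      field_simp
      ring
    rw [e, abs_mul, abs_of_pos hq0]
    have := (lt_div_iff₀ hq0).mp h1
    linarith
  · exact absurd h (lt_irrefl _)

lemma integral_phi (hψ0 : ∀ q, 0 ≤ ψ q) (hψ : ∀ q, ψ q ≤ 1 / 2) {q : ℕ} (hq : 2 ≤ q) :
    ∫ x in (0:ℝ)..1, Phi γ ψ q x = ψ q := by
  have hq0 : (0:ℝ) < q := by exact_mod_cast (by omega : 0 < q)
  have hq2 : (2:ℝ) ≤ q := by exact_mod_cast hq
  unfold Phi
  by_cases h : 0 < ψ q
  · simp only [if_pos h]
    have hρ : ψ q / q ≤ 1 / 2 := by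
      rw [div_le_iff₀ hq0]
      have := hψ q
      nlinarith
    rw [intervalIntegral.integral_finsetSum]
    · rw [Finset.sum_congr rfl (fun (a : ℕ) _ => tent_integral (div_pos h hq0) hρ (((a:ℝ) + γ) / q)),
        Finset.sum_const, nsmul_eq_mul, Finset.card_range]
      field_simp
    · intro a _
      exact ((tent_continuous _).comp (continuous_id.sub continuous_const)).intervalIntegrable _ _
  · simp only [if_neg h]
    have : ψ q = 0 := le_antisymm (not_lt.mp h) (hψ0 q)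
    simp [this]

/-! ### Riemann sums -/

/-- Riemann sums of a Lipschitz periodic function at `s` equally spaced points. -/
private lemma riemann_sum {H : ℝ → ℝ} {L : ℝ} (hL : 0 ≤ L)
    (hlip : ∀ x y, |H x - H y| ≤ L * |x - y|) (hper : ∀ x, H (x + 1) = H x) {s : ℕ} (hs : 1 ≤ s)
    (w : ℝ) :
    |∑ j ∈ range s, H (w + (j : ℝ) / s) - (s : ℝ) * ∫ x in (0:ℝ)..1, H x| ≤ L := by
  have hcont : Continuous H := by
    have : LipschitzWith (Real.toNNReal L) H := by
      apply LipschitzWith.of_dist_le_mul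
      intro x y
      rw [Real.dist_eq, Real.dist_eq, Real.coe_toNNReal L hL]
      exact hlip x y
    exact this.continuous
  have hsR : (0 : ℝ) < s := by exact_mod_cast hs
  set t : ℕ → ℝ := fun j => w + (j : ℝ) / s with ht
  have hsum : ∑ j ∈ range s, ∫ x in (t j)..(t (j + 1)), H x = ∫ x in (t 0)..(t s), H x :=
    intervalIntegral.sum_integral_adjacent_intervals (fun k _ => hcont.intervalIntegrable _ _)
  have ht0 : t 0 = w := by simp [ht]
  have hts : t s = w + 1 := by
    simp only [ht]; rw [div_self hsR.ne']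
  have hg : ∫ x in (t 0)..(t s), H x = ∫ x in (0:ℝ)..1, H x := by
    rw [ht0, hts]
    have hp : Function.Periodic H 1 := hper
    have := hp.intervalIntegral_add_eq w 0
    simpa using this
  have hstep : ∀ j, t (j + 1) - t j = 1 / s := by
    intro j
    simp only [ht]; push_cast; field_simp; ring_nf
  have hterm : ∀ j ∈ range s, |H (t j) * (1 / s) - ∫ x in (t j)..(t (j + 1)), H x| ≤ L * (1 / s) * (1 / s) := by
    intro j _
    have hle : t j ≤ t (j + 1) := by
      have := hstep j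
      have h1 : (0 : ℝ) < 1 / s := by positivity
      linarith
    have e1 : H (t j) * (1 / s) = ∫ _x in (t j)..(t (j + 1)), H (t j) := by
      rw [intervalIntegral.integral_const, hstep j, smul_eq_mul]; ring
    rw [e1, ← intervalIntegral.integral_sub (continuous_const.intervalIntegrable _ _)
      (hcont.intervalIntegrable _ _)]
    have hb : ∀ x ∈ Set.uIoc (t j) (t (j + 1)), ‖H (t j) - H x‖ ≤ L * (1 / s) := by
      intro x hx
      rw [Set.uIoc_of_le hle] at hx
      rw [Real.norm_eq_abs]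
      refine (hlip _ _).trans (mul_le_mul_of_nonneg_left ?_ hL)
      rw [abs_le]
      have := hstep j
      constructor <;> linarith [hx.1, hx.2]
    have := intervalIntegral.norm_integral_le_of_norm_le_const hb
    rw [hstep j, abs_of_pos (by positivity : (0 : ℝ) < 1 / s)] at this
    rwa [Real.norm_eq_abs] at this
  have htot : |(∑ j ∈ range s, H (t j)) * (1 / s) - ∫ x in (0:ℝ)..1, H x| ≤ L * (1 / s) := by
    rw [← hg, ← hsum, Finset.sum_mul, ← Finset.sum_sub_distrib]
    refine (Finset.abs_sum_le_sum_abs _ _).trans ?_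
    refine (Finset.sum_le_sum hterm).trans ?_
    rw [Finset.sum_const, Finset.card_range, nsmul_eq_mul]
    apply le_of_eq
    field_simp
  have e2 : (∑ j ∈ range s, H (t j)) - (s : ℝ) * ∫ x in (0:ℝ)..1, H x
      = (s : ℝ) * ((∑ j ∈ range s, H (t j)) * (1 / s) - ∫ x in (0:ℝ)..1, H x) := by
    field_simp
  rw [e2, abs_mul, abs_of_pos hsR]
  calc (s : ℝ) * |(∑ j ∈ range s, H (t j)) * (1 / s) - ∫ x in (0:ℝ)..1, H x|
      ≤ (s : ℝ) * (L * (1 / s)) := mul_le_mul_of_nonneg_left htot hsR.le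
    _ = L := by field_simp

/-- Mixing: `∑_{a<q} H((a+γ)/q)` is `q ∫H` up to `L`. -/
theorem phi_mix (hψ0 : ∀ q, 0 ≤ ψ q) (hψ : ∀ q, ψ q ≤ 1 / 2) (L ε : ℝ) (hL : 0 ≤ L) (hε : 0 < ε) :
    ∃ Y : ℕ, ∀ r, Y ≤ r → ∀ H : ℝ → ℝ,
      (∀ x y, |H x - H y| ≤ L * |x - y|) → (∀ x, H (x + 1) = H x) → (∀ x, 0 ≤ H x ∧ H x ≤ 1) →
      ((∫ x in (0:ℝ)..1, H x) - ε) * (∫ x in (0:ℝ)..1, Phi γ ψ r x) ≤ ∫ x in (0:ℝ)..1, H x * Phi γ ψ r x := by
  obtain ⟨Y2, hY2⟩ := exists_nat_gt (2 * L / ε)
  refine ⟨max Y2 2, fun r hr H hlip hper hb => ?_⟩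
  have hrY2 : Y2 ≤ r := le_trans (le_max_left _ _) hr
  have hr2 : 2 ≤ r := le_trans (le_max_right _ _) hr
  have hr1 : 1 ≤ r := by omega
  have hrR : (0 : ℝ) < r := by positivity
  have hrR2 : (2 : ℝ) ≤ r := by exact_mod_cast hr2
  by_cases hψr : 0 < ψ r
  swap
  · have h0 : ∀ x, Phi γ ψ r x = 0 := fun x => by simp [Phi, hψr]
    simp [h0]
  have hcont : Continuous H := by
    have : LipschitzWith (Real.toNNReal L) H := by
      apply LipschitzWith.of_dist_le_mul
      intro x y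
      rw [Real.dist_eq, Real.dist_eq, Real.coe_toNNReal L hL]
      exact hlip x y
    exact this.continuous
  set ρ : ℝ := ψ r / r with hρ
  have hρpos : 0 < ρ := by positivity
  have hρψ : ρ * r = ψ r := by rw [hρ]; field_simp
  have hρle : ρ ≤ 1 / (r:ℝ) := by
    rw [hρ]
    apply div_le_div_of_nonneg_right _ hrR.le
    have := hψ r
    linarith
  have hρhalf : ρ ≤ 1 / 2 := by
    refine hρle.trans ?_
    apply one_div_le_one_div_of_le (by norm_num) hrR2
  set g : ℝ := ∫ x in (0:ℝ)..1, H x with hg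
  have hmass : ∫ x in (0:ℝ)..1, Phi γ ψ r x = (r:ℝ) * ρ := by
    rw [integral_phi hψ0 hψ hr2, ← hρψ]; ring
  have htent : ∀ a ∈ Finset.range r,
      (H (((a:ℝ) + γ) / r) - L * ρ) * ρ ≤ ∫ x in (0:ℝ)..1, H x * tent ρ (x - ((a:ℝ) + γ) / r) := by
    intro a _
    set xa : ℝ := ((a:ℝ) + γ) / r with hxa
    have hint : ∫ x in (0:ℝ)..1, tent ρ (x - xa) = ρ := tent_integral hρpos hρhalf xa
    have hpt : ∀ x, (H xa - L * ρ) * tent ρ (x - xa) ≤ H x * tent ρ (x - xa) := by
      intro x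
      by_cases hpos : 0 < tent ρ (x - xa)
      · have hd := tent_pos_imp hρpos hpos
        apply mul_le_mul_of_nonneg_right _ hpos.le
        set w : ℤ := round (x - xa) with hw
        have hd' : |x - xa - w| < ρ := hd
        have hper' : H (x - (w:ℝ)) = H x := by
          have hp : Function.Periodic H 1 := hper
          have := hp.sub_int_mul_eq (x := x) w
          simpa using this
        have h1 := hlip (x - (w:ℝ)) xa
        rw [hper'] at h1
        have h2 : |x - (w:ℝ) - xa| < ρ := by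
          rw [show x - (w:ℝ) - xa = x - xa - w by ring]; exact hd'
        have h3 : L * |x - (w:ℝ) - xa| ≤ L * ρ := mul_le_mul_of_nonneg_left h2.le hL
        have h4 := (abs_le.mp (h1.trans h3)).1
        linarith
      · have h0 : tent ρ (x - xa) = 0 := le_antisymm (not_lt.mp hpos) (tent_nonneg _ _)
        rw [h0]; simp
    have hc1 : Continuous fun x => tent ρ (x - xa) :=
      (tent_continuous ρ).comp (continuous_id.sub continuous_const)
    calc (H xa - L * ρ) * ρ = ∫ x in (0:ℝ)..1, (H xa - L * ρ) * tent ρ (x - xa) := by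
          rw [intervalIntegral.integral_const_mul, hint]
      _ ≤ _ := by
          apply intervalIntegral.integral_mono_on (by norm_num)
            ((continuous_const.mul hc1).intervalIntegrable _ _)
            ((hcont.mul hc1).intervalIntegrable _ _)
          intro x _
          exact hpt x
  have hsplit : ∫ x in (0:ℝ)..1, H x * Phi γ ψ r x
      = ∑ a ∈ Finset.range r, ∫ x in (0:ℝ)..1, H x * tent ρ (x - ((a:ℝ) + γ) / r) := by
    have : ∀ x, H x * Phi γ ψ r x = ∑ a ∈ Finset.range r, H x * tent ρ (x - ((a:ℝ) + γ) / r) := by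
      intro x
      simp only [Phi, if_pos hψr]
      rw [Finset.mul_sum]
    simp_rw [this]
    apply intervalIntegral.integral_finsetSum
    intro a _
    have hc1 : Continuous fun x => tent ρ (x - ((a:ℝ) + γ) / r) :=
      (tent_continuous ρ).comp (continuous_id.sub continuous_const)
    exact (hcont.mul hc1).intervalIntegrable _ _
  -- the Riemann sum, on the points `(a+γ)/r`
  have hsumge : (r:ℝ) * g - L ≤ ∑ a ∈ Finset.range r, H (((a:ℝ) + γ) / r) := by
    have key := riemann_sum hL hlip hper hr1 (γ / r)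
    have heq : ∀ a ∈ Finset.range r, H (γ / r + (a:ℝ) / r) = H (((a:ℝ) + γ) / r) := by
      intro a _
      congr 1
      field_simp
      ring
    rw [Finset.sum_congr rfl heq] at key
    have := (abs_le.mp key).1
    linarith
  have hlower : ρ * ((r:ℝ) * g - L - (r:ℝ) * (L * ρ))
      ≤ ∫ x in (0:ℝ)..1, H x * Phi γ ψ r x := by
    rw [hsplit]
    have h1 : ∑ a ∈ Finset.range r, (H (((a:ℝ) + γ) / r) - L * ρ) * ρ
        ≤ ∑ a ∈ Finset.range r, ∫ x in (0:ℝ)..1, H x * tent ρ (x - ((a:ℝ) + γ) / r) :=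
      Finset.sum_le_sum htent
    have h2 : ∑ a ∈ Finset.range r, (H (((a:ℝ) + γ) / r) - L * ρ) * ρ
        = ρ * (∑ a ∈ Finset.range r, H (((a:ℝ) + γ) / r) - (r:ℝ) * (L * ρ)) := by
      rw [← Finset.sum_mul, Finset.sum_sub_distrib, Finset.sum_const, nsmul_eq_mul, Finset.card_range]
      ring
    rw [h2] at h1
    refine le_trans ?_ h1
    apply mul_le_mul_of_nonneg_left _ hρpos.le
    linarith
  -- the numerics
  have hrY2' : (Y2:ℝ) ≤ r := by exact_mod_cast hrY2
  have hLr : L ≤ (r:ℝ) * (ε / 2) := by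
    have h1 : 2 * L / ε < r := lt_of_lt_of_le hY2 hrY2'
    have h2 : 2 * L < r * ε := by rwa [div_lt_iff₀ hε] at h1
    nlinarith
  have hLρ : L * ρ ≤ ε / 2 := by
    have h3 : L * ρ ≤ L * (1 / (r:ℝ)) := mul_le_mul_of_nonneg_left hρle hL
    have h4 : L * (1 / (r:ℝ)) ≤ ε / 2 := by
      rw [mul_one_div, div_le_div_iff₀ hrR (by norm_num)]
      linarith
    linarith
  rw [hmass]
  refine le_trans ?_ hlower
  have hnn : (0:ℝ) ≤ r := hrR.le
  have h1 : (r:ℝ) * (L * ρ) ≤ (r:ℝ) * (ε / 2) := mul_le_mul_of_nonneg_left hLρ hnn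
  have h2 : (r:ℝ) * g - (r:ℝ) * ε ≤ (r:ℝ) * g - L - (r:ℝ) * (L * ρ) := by
    linarith
  have h3 := mul_le_mul_of_nonneg_left h2 hρpos.le
  calc (g - ε) * ((r:ℝ) * ρ) = ρ * ((r:ℝ) * g - (r:ℝ) * ε) := by ring
    _ ≤ _ := h3

end Vale.Agent.Lib.P028T
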