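import Vale.Agent.Lib.P028T.LSStep
import Vale.Agent.Lib.P028T.OneSided

/-! Numerics of the LS step in the main regime: blueprint section 8. -/

open Finset

namespace Vale.Agent.Lib.P028T

open Vale.Agent.Lib.P028

lemma cc_pos {k : ℕ} (hk : 1 ≤ k) : 0 < cc k := by
  have : (0:ℝ) < k := by exact_mod_cast hk
  unfold cc
  positivity

lemma cc_mul_k {k : ℕ} (hk : 1 ≤ k) : cc k * k = 1 / 1024 := by
  have : (k:ℝ) ≠ 0 := by
    have : (0:ℝ) < k := by exact_mod_cast hk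
    exact this.ne'
  unfold cc
  field_simp

lemma cc_le {k : ℕ} (hk : 1 ≤ k) : cc k ≤ 1 / 1024 := by
  have h1 : (1:ℝ) ≤ k := by exact_mod_cast hk
  have h2 := cc_mul_k hk
  have h3 := cc_pos hk
  nlinarith

/-- The generic bound on `Lam`. -/
theorem lam_bound {c₀ : ℝ} {k : ℕ} (hc₀ : 0 < c₀) (hk : 1 ≤ k) {P E z E₀ : ℕ} {G : Finset ℕ} {K : ℕ}
    {t M : ℝ} (hM1 : (2 + 1 / (2 * c₀) + 1) ^ (16 * k) ≤ M) (hM : 1 ≤ M)
    (hX : M ^ ((1:ℝ) / 2) ≤ (P:ℝ) / E) (hG : G.card ≤ K) (hK : (K:ℝ) ≤ M ^ (16 * cc k))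
    (hE₀ : (E₀:ℝ) ≤ M ^ (32 * cc k)) (ht : 1 ≤ t) :
    Lam P E z E₀ G t ((2 + 1 / (2 * c₀)) * ((P:ℝ) / E) ^ ((1:ℝ) - 1 / (4 * k)))
      ≤ 2 * ((P:ℝ) / E) * ell z * t := by
  set C : ℝ := 2 + 1 / (2 * c₀) with hC
  have hC0 : 0 < C := by positivity
  set X : ℝ := (P:ℝ) / E with hXdef
  have hkpos : (0:ℝ) < k := by exact_mod_cast hk
  have hk1 : (1:ℝ) ≤ k := by exact_mod_cast hk
  have hX1 : 1 ≤ X := (Real.one_le_rpow hM (by norm_num)).trans hX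
  have hX0 : 0 < X := by linarith
  have hM0 : 0 < M := by linarith
  set Y : ℝ := X ^ ((1:ℝ) / (8 * k)) with hY
  set W : ℝ := X ^ ((1:ℝ) - 1 / (8 * k)) with hW
  have hY0 : 0 < Y := Real.rpow_pos_of_pos hX0 _
  have hW0 : 0 < W := Real.rpow_pos_of_pos hX0 _
  -- `Y ≥ M^(64 c)`
  have hYM : M ^ (64 * cc k) ≤ Y := by
    have h1 : M ^ (64 * cc k) = (M ^ ((1:ℝ) / 2)) ^ ((1:ℝ) / (8 * k)) := by
      rw [← Real.rpow_mul hM0.le]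
      congr 1
      unfold cc
      field_simp
      norm_num
    rw [h1]
    exact Real.rpow_le_rpow (by positivity) hX (by positivity)
  -- `Y ≥ C + 1`
  have hYC : C + 1 ≤ Y := by
    refine le_trans ?_ hYM
    have h1 : (64 * cc k) = 1 / (16 * (k:ℝ)) := by
      unfold cc
      field_simp
      norm_num
    rw [h1]
    have h2 : C + 1 = ((C + 1) ^ (16 * k)) ^ (1 / (16 * (k:ℝ))) := by
      rw [← Real.rpow_natCast, ← Real.rpow_mul (by positivity)]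
      have : ((16 * k : ℕ) : ℝ) * (1 / (16 * (k:ℝ))) = 1 := by
        push_cast
        field_simp
      rw [this, Real.rpow_one]
    rw [h2]
    exact Real.rpow_le_rpow (by positivity) hM1 (by positivity)
  -- relations between the powers
  have hYZ : Y * X ^ ((1:ℝ) - 1 / (4 * k)) = W := by
    rw [hY, hW, ← Real.rpow_add hX0]
    congr 1
    field_simp
    ring
  have hYW : Y * W = X := by
    rw [hY, hW, ← Real.rpow_add hX0]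
    have : (1:ℝ) / (8 * k) + (1 - 1 / (8 * k)) = 1 := by ring
    rw [this, Real.rpow_one]
  have hYleW : Y ≤ W := by
    apply Real.rpow_le_rpow_of_exponent_le hX1
    have : (1:ℝ) / (8 * k) ≤ 1 / 8 := by
      apply one_div_le_one_div_of_le (by norm_num)
      linarith
    linarith
  -- the counting facts
  have hcc := cc_pos hk
  have hcard : (G.card : ℝ) ≤ M ^ (16 * cc k) := le_trans (by exact_mod_cast hG) hK
  have hsm : (((smooth z E₀).card : ℕ) : ℝ) ≤ M ^ (32 * cc k) :=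
    le_trans (by exact_mod_cast card_smooth_le z E₀) hE₀
  have hp1 : (G.card : ℝ) ^ 2 * ((smooth z E₀).card : ℝ) ≤ Y := by
    refine le_trans ?_ hYM
    have h1 : M ^ (64 * cc k) = (M ^ (16 * cc k)) ^ 2 * M ^ (32 * cc k) := by
      rw [← Real.rpow_natCast, ← Real.rpow_mul hM0.le, ← Real.rpow_add hM0]
      congr 1
      push_cast
      ring
    rw [h1]
    have h2 : (G.card : ℝ) ^ 2 ≤ (M ^ (16 * cc k)) ^ 2 := by
      exact pow_le_pow_left₀ (by positivity) hcard 2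
    exact mul_le_mul h2 hsm (by positivity) (by positivity)
  have hp2 : (G.card : ℝ) * ((smooth z E₀).card : ℝ) ≤ Y := by
    refine le_trans ?_ hYM
    have h1 : M ^ (64 * cc k) = M ^ (16 * cc k) * M ^ (32 * cc k) * M ^ (16 * cc k) := by
      rw [← Real.rpow_add hM0, ← Real.rpow_add hM0]
      congr 1
      ring
    rw [h1]
    have h3 : 1 ≤ M ^ (16 * cc k) := Real.one_le_rpow hM (by positivity)
    have h4 : (G.card : ℝ) * ((smooth z E₀).card : ℝ) ≤ M ^ (16 * cc k) * M ^ (32 * cc k) :=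
      mul_le_mul hcard hsm (by positivity) (by positivity)
    have h5 : 0 ≤ M ^ (16 * cc k) * M ^ (32 * cc k) := by positivity
    nlinarith
  have hell : 1 ≤ ell z := ell_ge_one z
  have hZ0 : 0 ≤ X ^ ((1:ℝ) - 1 / (4 * k)) := by positivity
  unfold Lam
  have h1 : (G.card:ℝ) ^ 2 * ((smooth z E₀).card : ℝ) * (C * X ^ ((1:ℝ) - 1 / (4 * k))) ≤ C * W := by
    rw [← hYZ]
    have := mul_le_mul_of_nonneg_right hp1 (mul_nonneg hC0.le hZ0)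
    nlinarith
  have h2 : (C + 1) * W ≤ X := by
    rw [← hYW]
    exact mul_le_mul_of_nonneg_right hYC hW0.le
  have h3 : 1 ≤ ell z * t := by nlinarith
  have h4 : X ≤ X * ell z * t := by
    have := mul_le_mul_of_nonneg_left h3 hX0.le
    nlinarith
  have h5 : (G.card:ℝ) * ((smooth z E₀).card : ℝ) ≤ W := hp2.trans hYleW
  nlinarith

/-- `M₁ ≥ M₂^(1/2)` in the regime. -/
lemma regime_M₁ {γ c₀ M₀ : ℝ} {k : ℕ} {p : Par} {S₁ S₂ : Finset ℕ} {τb : ℝ}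
    (R : Regime γ c₀ k M₀ p S₁ S₂ τb) (hM : 1 ≤ p.M₂) : p.M₂ ^ ((1:ℝ) / 2) ≤ p.M₁ := by
  have hp := R.good
  have hM0 : 0 < p.M₂ := by linarith
  have hu0 : 0 < p.u := by linarith [Par.u_ge_one hp]
  have h1 : p.u < p.M₂ ^ (32 * cc k) := lt_of_le_of_lt (Par.u_le_Ups hp) R.Ups_lt
  have hM1 := Par.M₁_pos hp
  have h2 : p.M₂ = p.u * p.M₁ := Par.M₂_eq hp
  have hcc := cc_le R.k_pos
  have h3 : p.M₂ ^ (32 * cc k) ≤ p.M₂ ^ ((1:ℝ) / 2) :=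
    Real.rpow_le_rpow_of_exponent_le hM (by linarith)
  have h4 : p.M₂ ^ ((1:ℝ) / 2) * p.M₂ ^ ((1:ℝ) / 2) = p.M₂ := by
    rw [← Real.rpow_add hM0]
    norm_num
  have h5 : 0 < p.M₂ ^ ((1:ℝ) / 2) := Real.rpow_pos_of_pos hM0 _
  by_contra hcon
  push Not at hcon
  have h6 : p.u * p.M₁ < p.M₂ ^ ((1:ℝ) / 2) * p.M₂ ^ ((1:ℝ) / 2) :=
    mul_lt_mul'' (lt_of_lt_of_le h1 h3) hcon hu0.le hM1.le
  rw [h4, ← h2] at h6
  exact lt_irrefl _ h6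

/-- `M₁ ≥ M₂^(1/2)` in the regime, and the numerics of `L`, `E₀`, `Lam`: for `K ≤ M₂^(16 c)`,
`L = ⌊1/(6D)⌋`, `E₀ = ⌊M₂^(32 c)⌋`, `Lam Q_i E (K^3) E₀ G t B_i ≤ 2 M_i ell(K^3) t` for `B_i` from `B_admissible`,
`G.card ≤ K`, `t ≥ 1`. -/
theorem regime_lam {c₀ : ℝ} {k : ℕ} (hc₀ : 0 < c₀) (hk : 1 ≤ k) :
    ∃ M₀ : ℝ, 1 ≤ M₀ ∧ ∀ {γ : ℝ} {p : Par} {S₁ S₂ : Finset ℕ} {τb : ℝ},
      Regime γ c₀ k M₀ p S₁ S₂ τb → ∀ {G : Finset ℕ} {K : ℕ} {t : ℝ},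
      G.card ≤ K → 1 ≤ K → (K:ℝ) ≤ p.M₂ ^ (16 * cc k) → 1 ≤ t →
      ∃ L E₀ : ℕ, ∃ B₁ B₂ : ℝ, 1 ≤ L ∧ 1 ≤ E₀ ∧ 6 * (L:ℝ) * p.D ≤ 1 ∧ 1 / (L:ℝ) ≤ 12 * p.D ∧
        (p.M₂ ^ (32 * cc k) ≤ 2 * (E₀:ℝ)) ∧
        (∀ m : ℕ, 1 ≤ m → min ((p.Q₁:ℝ) / m + 1) (((L:ℝ) * m / p.E) ^ k / (2 * c₀)) ≤ B₁) ∧
        (∀ m : ℕ, 1 ≤ m → min ((p.Q₂:ℝ) / m + 1) (((L:ℝ) * m / p.E) ^ k / (2 * c₀)) ≤ B₂) ∧
        Lam p.Q₁ p.E (K ^ 3) E₀ G t B₁ ≤ 2 * p.M₁ * ell (K ^ 3) * t ∧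
        Lam p.Q₂ p.E (K ^ 3) E₀ G t B₂ ≤ 2 * p.M₂ * ell (K ^ 3) * t := by
  set C₁ : ℝ := 2 + 1 / (2 * c₀) + 1 with hC₁
  have hC₁1 : 1 ≤ C₁ := by
    have : 0 < 1 / (2 * c₀) := by positivity
    linarith
  refine ⟨C₁ ^ (16 * k), one_le_pow₀ hC₁1, ?_⟩
  intro γ p S₁ S₂ τb R G K t hG hK1 hK ht
  have hp := R.good
  have hM1' : C₁ ^ (16 * k) ≤ p.M₂ := R.M_large
  have hM : 1 ≤ p.M₂ := (one_le_pow₀ hC₁1).trans hM1'
  have hM0 : 0 < p.M₂ := by linarith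
  have hD0 : 0 < p.D := Par.D_pos hp
  have hDlt := R.D_lt
  have hcc := cc_pos hk
  -- `L`
  have hx16 : 16 ≤ 1 / (6 * p.D) := by
    rw [le_div_iff₀ (by positivity)]
    nlinarith
  set L : ℕ := ⌊1 / (6 * p.D)⌋₊ with hL
  have hLle : (L:ℝ) ≤ 1 / (6 * p.D) := Nat.floor_le (by positivity)
  have hLgt : 1 / (6 * p.D) < (L:ℝ) + 1 := Nat.lt_floor_add_one _
  have hL16 : (15:ℝ) < L := by linarith
  have hL1 : 1 ≤ L := by
    have : (1:ℝ) ≤ L := by linarith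
    exact_mod_cast this
  have hLD : 6 * (L:ℝ) * p.D ≤ 1 := by
    have := mul_le_mul_of_nonneg_right hLle (show 0 ≤ 6 * p.D by positivity)
    have h2 : 1 / (6 * p.D) * (6 * p.D) = 1 := by field_simp
    nlinarith
  have hLinv : 1 / (L:ℝ) ≤ 12 * p.D := by
    have hL0 : (0:ℝ) < L := by linarith
    rw [div_le_iff₀ hL0]
    have h1 : 1 / (6 * p.D) * (6 * p.D) = 1 := by field_simp
    have h2 : (1 / (6 * p.D)) * (6 * p.D) < ((L:ℝ) + 1) * (6 * p.D) :=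
      mul_lt_mul_of_pos_right hLgt (by positivity)
    nlinarith
  -- `E₀`
  have hY1 : 1 ≤ p.M₂ ^ (32 * cc k) := Real.one_le_rpow hM (by positivity)
  set E₀ : ℕ := ⌊p.M₂ ^ (32 * cc k)⌋₊ with hE₀
  have hE₀le : (E₀:ℝ) ≤ p.M₂ ^ (32 * cc k) := Nat.floor_le (by positivity)
  have hE₀gt : p.M₂ ^ (32 * cc k) < (E₀:ℝ) + 1 := Nat.lt_floor_add_one _
  have hE₀1 : 1 ≤ E₀ := Nat.le_floor (by simpa using hY1)
  have hE₀1' : (1:ℝ) ≤ E₀ := by exact_mod_cast hE₀1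
  have hE₀2 : p.M₂ ^ (32 * cc k) ≤ 2 * (E₀:ℝ) := by linarith
  -- `M₁, M₂` large
  have hM₁ : p.M₂ ^ ((1:ℝ) / 2) ≤ p.M₁ := regime_M₁ R hM
  have hM₂' : p.M₂ ^ ((1:ℝ) / 2) ≤ p.M₂ := by
    calc p.M₂ ^ ((1:ℝ) / 2) ≤ p.M₂ ^ (1:ℝ) :=
          Real.rpow_le_rpow_of_exponent_le hM (by norm_num)
      _ = p.M₂ := Real.rpow_one _
  have hsq1 : 1 ≤ p.M₂ ^ ((1:ℝ) / 2) := Real.one_le_rpow hM (by norm_num)
  have hE1 : 1 ≤ p.E := hp.E_pos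
  have hE0 : (0:ℝ) < p.E := by exact_mod_cast hE1
  have hEQ₁ : p.E ≤ p.Q₁ := by
    have h1 : 1 ≤ p.M₁ := hsq1.trans hM₁
    have h2 : (p.E:ℝ) ≤ p.Q₁ := by
      unfold Par.M₁ at h1
      rwa [le_div_iff₀ hE0, one_mul] at h1
    exact_mod_cast h2
  have hEQ₂ : p.E ≤ p.Q₂ := hEQ₁.trans hp.Q_le
  -- `L` small
  have hkpos : (0:ℝ) < k := by exact_mod_cast hk
  have hLM : ∀ X : ℝ, p.M₂ ^ ((1:ℝ) / 2) ≤ X → (L:ℝ) ≤ X ^ ((1:ℝ) / (4 * k)) := by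
    intro X hX
    have h1 : (L:ℝ) ≤ 1 / p.D := by
      refine hLle.trans ?_
      apply one_div_le_one_div_of_le hD0
      nlinarith
    have h2 : 1 / p.D ≤ p.M₂ ^ (2 * cc k) := by
      have h3 := R.D_ge
      rw [Real.rpow_neg hM0.le] at h3
      have h4 : 0 < p.M₂ ^ (2 * cc k) := by positivity
      rw [div_le_iff₀ hD0]
      have := mul_le_mul_of_nonneg_left h3 h4.le
      rw [mul_inv_cancel₀ h4.ne'] at this
      exact this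
    have h5 : p.M₂ ^ (2 * cc k) ≤ (p.M₂ ^ ((1:ℝ) / 2)) ^ ((1:ℝ) / (4 * k)) := by
      rw [← Real.rpow_mul hM0.le]
      apply Real.rpow_le_rpow_of_exponent_le hM
      unfold cc
      rw [show (1:ℝ) / 2 * (1 / (4 * k)) = 1 / (8 * k) by field_simp; norm_num,
        show 2 * (1 / (1024 * (k:ℝ))) = 1 / (512 * k) by field_simp; norm_num]
      apply one_div_le_one_div_of_le (by positivity)
      nlinarith
    exact h1.trans (h2.trans (h5.trans (Real.rpow_le_rpow (by positivity) hX (by positivity))))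
  refine ⟨L, E₀, (2 + 1 / (2 * c₀)) * ((p.Q₁:ℝ) / p.E) ^ ((1:ℝ) - 1 / (4 * k)),
    (2 + 1 / (2 * c₀)) * ((p.Q₂:ℝ) / p.E) ^ ((1:ℝ) - 1 / (4 * k)), hL1, hE₀1, hLD, hLinv, hE₀2, ?_, ?_, ?_, ?_⟩
  · intro m hm
    exact B_admissible hc₀ hk hE1 hEQ₁ hL1 (hLM _ hM₁) m hm
  · intro m hm
    exact B_admissible hc₀ hk hE1 hEQ₂ hL1 (hLM _ hM₂') m hm
  · exact lam_bound hc₀ hk hM1' hM hM₁ hG hK hE₀le ht
  · exact lam_bound hc₀ hk hM1' hM hM₂' hG hK hE₀le ht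

end Vale.Agent.Lib.P028T
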