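import Vale.Agent.Lib.P028T.RegimeLam

/-! The LS step in the main regime: blueprint section 8. -/

open Finset

namespace Vale.Agent.Lib.P028T

open Vale.Agent.Lib.P028

/-- The tail term. -/
lemma tail_aux {w N M' Ups S τb E₀ M c : ℝ} {K : ℝ} (hw : 0 ≤ w) (hN : 0 < N) (hM' : 0 ≤ M') (hS : 0 ≤ S)
    (hUps : 0 < Ups) (hτ : 0 ≤ τb) (hE₀ : 0 < E₀) (hK : 0 < K) (hM : 1 ≤ M)
    (hside : w * N * M' ≤ 2 / Ups) (hτle : τb ≤ M ^ c) (hc : 0 < c) (hE₀2 : M ^ (32 * c) ≤ 2 * E₀)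
    (hKle : K ≤ M ^ (16 * c)) :
    8 * w * (S * τb ^ 2 * (2 * M' / E₀)) ≤ S / N * (64 * M ^ (-(14 * c)) / (Ups * K)) := by
  have hM0 : 0 < M := by linarith
  set A : ℝ := M ^ c with hA
  have hA0 : 0 < A := Real.rpow_pos_of_pos hM0 _
  -- powers
  have h1 : M ^ (32 * c) * M ^ (-(14 * c)) = M ^ (16 * c) * A ^ 2 := by
    rw [hA, ← Real.rpow_natCast (M ^ c) 2, ← Real.rpow_mul hM0.le, ← Real.rpow_add hM0,
      ← Real.rpow_add hM0]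
    congr 1
    push_cast
    ring
  have h2 : τb ^ 2 ≤ A ^ 2 := pow_le_pow_left₀ hτ hτle 2
  have hP0 : 0 < M ^ (-(14 * c)) := Real.rpow_pos_of_pos hM0 _
  -- main inequality, cleared
  have hgoal : 8 * w * (S * τb ^ 2 * (2 * M' / E₀)) * (Ups * K * N * E₀)
      ≤ S * (64 * M ^ (-(14 * c))) * E₀ := by
    have e1 : 8 * w * (S * τb ^ 2 * (2 * M' / E₀)) * (Ups * K * N * E₀)
        = 16 * S * τb ^ 2 * K * (Ups * (w * N * M')) := by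
      field_simp
      ring
    rw [e1]
    have h3 : Ups * (w * N * M') ≤ 2 := by
      have := mul_le_mul_of_nonneg_left hside hUps.le
      rwa [mul_div_cancel₀ _ hUps.ne'] at this
    have h4 : τb ^ 2 * K ≤ A ^ 2 * M ^ (16 * c) :=
      mul_le_mul h2 hKle hK.le (by positivity)
    have h5 : A ^ 2 * M ^ (16 * c) = M ^ (32 * c) * M ^ (-(14 * c)) := by rw [h1]; ring
    have h6 : τb ^ 2 * K ≤ 2 * E₀ * M ^ (-(14 * c)) := by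
      rw [h5] at h4
      exact h4.trans (mul_le_mul_of_nonneg_right hE₀2 hP0.le)
    have h7 : 0 ≤ τb ^ 2 * K := by positivity
    have h8 : 0 ≤ Ups * (w * N * M') := by positivity
    calc 16 * S * τb ^ 2 * K * (Ups * (w * N * M')) = 16 * S * ((τb ^ 2 * K) * (Ups * (w * N * M'))) := by ring
      _ ≤ 16 * S * ((2 * E₀ * M ^ (-(14 * c))) * 2) := by
          apply mul_le_mul_of_nonneg_left _ (by positivity)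
          exact mul_le_mul h6 h3 h8 (by positivity)
      _ = S * (64 * M ^ (-(14 * c))) * E₀ := by ring
  have hpos : 0 < Ups * K * N * E₀ := by positivity
  have e2 : S / N * (64 * M ^ (-(14 * c)) / (Ups * K)) * (Ups * K * N * E₀)
      = S * (64 * M ^ (-(14 * c))) * E₀ := by
    field_simp
  rw [← e2] at hgoal
  exact le_of_mul_le_mul_right hgoal hpos

/-- The exact term. -/
lemma exact_term_aux {w D L N₁ N₂ Ex : ℝ} (hw : 0 ≤ w) (hL : 1 / L ≤ 12 * D) (hEx : 0 ≤ Ex)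
    (h1 : w * D ≤ 8 / (N₁ * N₂)) :
    4 * w * (1 / L * Ex) ≤ 384 / (N₁ * N₂) * Ex := by
  have h2 : 4 * w * (1 / L) ≤ 384 / (N₁ * N₂) := by
    have h3 : 4 * w * (1 / L) ≤ 4 * w * (12 * D) :=
      mul_le_mul_of_nonneg_left hL (by positivity)
    have e : (384:ℝ) / (N₁ * N₂) = 48 * (8 / (N₁ * N₂)) := by ring
    rw [e]
    nlinarith
  have := mul_le_mul_of_nonneg_right h2 hEx
  calc 4 * w * (1 / L * Ex) = 4 * w * (1 / L) * Ex := by ring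
    _ ≤ _ := this

/-- `1/K ≤ (D/Υ)^(1/4)`. -/
lemma inv_le_rpow_aux {K D Ups : ℝ} (hK : 0 < K) (hD : 0 < D) (hUps : 0 < Ups)
    (hKD : 1 / D ≤ K ^ 2) (hKU : Ups ≤ K ^ 2) : K⁻¹ ≤ (D / Ups) ^ ((1:ℝ) / 4) := by
  have h7 : (K⁻¹) ^ 4 ≤ D / Ups := by
    have h8 : 1 / D * Ups ≤ K ^ 2 * K ^ 2 :=
      mul_le_mul hKD hKU hUps.le (by positivity)
    rw [inv_pow, inv_le_comm₀ (by positivity) (by positivity), inv_div]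
    have e : Ups / D = 1 / D * Ups := by ring
    rw [e]
    calc 1 / D * Ups ≤ K ^ 2 * K ^ 2 := h8
      _ = K ^ 4 := by ring
  have h9 : K⁻¹ = ((K⁻¹) ^ 4) ^ ((1:ℝ) / 4) := by
    rw [← Real.rpow_natCast, ← Real.rpow_mul (by positivity)]
    norm_num
  rw [h9]
  exact Real.rpow_le_rpow (by positivity) h7 (by norm_num)

/-- `sqrt(μ₁ μ₂) ≤ (μ₁+μ₂)/2`. -/
lemma sqrt_mul_le_aux {x y : ℝ} (hx : 0 ≤ x) (hy : 0 ≤ y) : Real.sqrt (x * y) ≤ (x + y) / 2 := by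
  apply Real.sqrt_le_iff.2
  constructor
  · positivity
  · nlinarith [sq_nonneg (x - y)]

/-- The excess term. -/
lemma excess_term_aux {w D L Gc M₁ M₂ K ms : ℝ} (hw : 0 ≤ w) (hD : 0 < D) (hL0 : 0 < L) (hL : 1 / L ≤ 12 * D)
    (hG0 : 0 ≤ Gc) (hGc : Gc ≤ K) (hM₁ : 0 < M₁) (hM₂ : 0 < M₂) (hK : 0 < K)
    (h1 : w * (M₁ * M₂) ≤ D / 2) (h12 : 2 * D ≤ ms * K) :
    4 * w * (1 / L * (Gc * (4 * M₁ * M₂ / K ^ 3))) ≤ ms * (48 * D / K) := by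
  have h2 : Gc * (4 * M₁ * M₂ / K ^ 3) ≤ K * (4 * M₁ * M₂ / K ^ 3) :=
    mul_le_mul_of_nonneg_right hGc (by positivity)
  have e3 : K * (4 * M₁ * M₂ / K ^ 3) = 4 * (M₁ * M₂) / K ^ 2 := by
    field_simp
  rw [e3] at h2
  have h3 : 1 / L * (Gc * (4 * M₁ * M₂ / K ^ 3)) ≤ 12 * D * (4 * (M₁ * M₂) / K ^ 2) :=
    mul_le_mul hL h2 (by positivity) (by positivity)
  have h4 : 4 * w * (12 * D * (4 * (M₁ * M₂) / K ^ 2)) = 192 * D * (w * (M₁ * M₂)) / K ^ 2 := by ring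
  have h5 : 192 * D * (w * (M₁ * M₂)) / K ^ 2 ≤ 96 * D ^ 2 / K ^ 2 := by
    apply div_le_div_of_nonneg_right _ (by positivity)
    nlinarith
  have h14 : 96 * D ^ 2 / K ^ 2 ≤ ms * (48 * D / K) := by
    rw [div_le_iff₀ (by positivity)]
    have e : ms * (48 * D / K) * K ^ 2 = 48 * D * (ms * K) := by
      field_simp
    rw [e]
    nlinarith
  calc _ ≤ 4 * w * (12 * D * (4 * (M₁ * M₂) / K ^ 2)) :=
        mul_le_mul_of_nonneg_left h3 (by positivity)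
    _ = _ := h4
    _ ≤ _ := h5
    _ ≤ _ := h14

/-- The large sieve term. -/
lemma ls_term_aux {w Lm₁ Lm₂ C₁ C₂ M₁ M₂ ℓ t a S₁ S₂ N₁ N₂ : ℝ} (hw : 0 < w) (hLm₁ : 0 ≤ Lm₁) (hLm₂ : 0 ≤ Lm₂)
    (hC₁ : 0 ≤ C₁) (hC₂ : 0 ≤ C₂) (hM₁ : 0 < M₁) (hM₂ : 0 < M₂) (hℓ : 0 < ℓ) (ht : 0 < t) (ha : 0 < a)
    (hS₁ : 0 ≤ S₁) (hS₂ : 0 ≤ S₂) (hN₁ : 0 < N₁) (hN₂ : 0 < N₂)
    (hL₁ : Lm₁ ≤ 2 * M₁ * ℓ * t) (hL₂ : Lm₂ ≤ 2 * M₂ * ℓ * t) (hCC : C₁ * C₂ ≤ S₁ * S₂ / a)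
    (hsq : w ^ 2 * (M₁ * M₂) ≤ 4 / (N₁ * N₂)) :
    4 * w * Real.sqrt ((Lm₁ * C₁) * (Lm₂ * C₂)) ≤ (S₁ / N₁ + S₂ / N₂) * (8 * ℓ * t / Real.sqrt a) := by
  set Z : ℝ := (Lm₁ * C₁) * (Lm₂ * C₂) with hZ
  have hZ0 : 0 ≤ Z := by positivity
  have hsa : 0 < Real.sqrt a := Real.sqrt_pos.2 ha
  set ms : ℝ := S₁ / N₁ + S₂ / N₂ with hms0
  have hms : 0 ≤ ms := by rw [hms0]; positivity
  have hR0 : 0 ≤ ms * (8 * ℓ * t / Real.sqrt a) := by positivity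
  have hLL : Lm₁ * Lm₂ ≤ (2 * M₁ * ℓ * t) * (2 * M₂ * ℓ * t) :=
    mul_le_mul hL₁ hL₂ hLm₂ (by positivity)
  have hZle : Z ≤ (2 * M₁ * ℓ * t) * (2 * M₂ * ℓ * t) * (S₁ * S₂ / a) := by
    have e : Z = (Lm₁ * Lm₂) * (C₁ * C₂) := by rw [hZ]; ring
    rw [e]
    exact mul_le_mul hLL hCC (by positivity) (by positivity)
  have hbig : (4 * w) ^ 2 * Z ≤ (ms * (8 * ℓ * t / Real.sqrt a)) ^ 2 := by
    have e1 : (ms * (8 * ℓ * t / Real.sqrt a)) ^ 2 = ms ^ 2 * (64 * ℓ ^ 2 * t ^ 2 / a) := by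
      rw [mul_pow, div_pow, Real.sq_sqrt ha.le]
      ring
    rw [e1]
    have h1 : (4 * w) ^ 2 * Z ≤ (4 * w) ^ 2 *
        ((2 * M₁ * ℓ * t) * (2 * M₂ * ℓ * t) * (S₁ * S₂ / a)) :=
      mul_le_mul_of_nonneg_left hZle (by positivity)
    refine h1.trans ?_
    have e2 : (4 * w) ^ 2 * ((2 * M₁ * ℓ * t) * (2 * M₂ * ℓ * t) * (S₁ * S₂ / a))
        = (w ^ 2 * (M₁ * M₂)) * (S₁ * S₂) * (64 * ℓ ^ 2 * t ^ 2 / a) := by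
      ring
    rw [e2]
    apply mul_le_mul_of_nonneg_right _ (by positivity)
    have h3 : (w ^ 2 * (M₁ * M₂)) * (S₁ * S₂) ≤ 4 / (N₁ * N₂) * (S₁ * S₂) :=
      mul_le_mul_of_nonneg_right hsq (by positivity)
    refine h3.trans ?_
    have e3 : 4 / (N₁ * N₂) * (S₁ * S₂) = 4 * ((S₁ / N₁) * (S₂ / N₂)) := by
      field_simp
    rw [e3, hms0]
    nlinarith [sq_nonneg (S₁ / N₁ - S₂ / N₂)]
  have hl0 : 0 ≤ 4 * w * Real.sqrt Z := by positivity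
  have hlsq : (4 * w * Real.sqrt Z) ^ 2 = (4 * w) ^ 2 * Z := by
    rw [mul_pow, Real.sq_sqrt hZ0]
  rw [← hlsq] at hbig
  exact (pow_le_pow_iff_left₀ hl0 hR0 (by norm_num)).1 hbig

/-- `Lam` is nonnegative. -/
lemma lam_nonneg {P E z E₀ : ℕ} {G : Finset ℕ} {t B : ℝ} (ht : 0 ≤ t) (hB : 0 ≤ B) :
    0 ≤ Lam P E z E₀ G t B := by
  unfold Lam
  have h0 : 0 ≤ ell z := by linarith [ell_ge_one z]
  positivity

/-- The tail term, in the form needed. -/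
lemma tail_exists {γ c₀ M₀ : ℝ} {k : ℕ} {p : Par} {S₁ S₂ U₁ U₂ G' : Finset ℕ} {τb : ℝ} {E₀ K : ℕ}
    (R : Regime γ c₀ k M₀ p S₁ S₂ τb) (hM : 1 ≤ p.M₂) (hU₁ : U₁ ⊆ S₁) (hU₂ : U₂ ⊆ S₂)
    (hG' : ∀ d ∈ G', p.E ≤ d ∧ d < 2 * p.E)
    (hE₀1 : 1 ≤ E₀) (hE₀2 : p.M₂ ^ (32 * cc k) ≤ 2 * (E₀:ℝ)) (hK1 : 1 ≤ K)
    (hKM : (K:ℝ) ≤ p.M₂ ^ (16 * cc k)) :
    ∃ Tl : ℝ,
      ((∃ τb τc : ℝ, 0 ≤ τb ∧ 0 ≤ τc ∧ (∀ x ∈ U₂, (TT G' x : ℝ) ≤ τb) ∧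
              (∀ y : ℕ, 1 ≤ y → (y:ℝ) < 2 * ((p.Q₂:ℝ) / p.E) → (y.divisors.card : ℝ) ≤ τc) ∧
              (U₂.card : ℝ) * (τb * τc) * (2 * ((p.Q₁:ℝ) / p.E) / E₀) ≤ Tl) ∨
           (∃ τb τc : ℝ, 0 ≤ τb ∧ 0 ≤ τc ∧ (∀ x ∈ U₁, (TT G' x : ℝ) ≤ τb) ∧
              (∀ y : ℕ, 1 ≤ y → (y:ℝ) < 2 * ((p.Q₁:ℝ) / p.E) → (y.divisors.card : ℝ) ≤ τc) ∧
              (U₁.card : ℝ) * (τb * τc) * (2 * ((p.Q₂:ℝ) / p.E) / E₀) ≤ Tl)) ∧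
      8 * p.w * Tl ≤ p.ms S₁ S₂ * (64 * p.M₂ ^ (-(14 * cc k)) / (p.Ups * K)) := by
  have hp := R.good
  have hk := R.k_pos
  have hcc := cc_pos hk
  have hw := Par.w_pos hp
  have hUps1 := Par.Ups_ge_one hp
  have hUps0 : 0 < p.Ups := by linarith
  have hN₁ := hp.N₁_pos
  have hN₂ := hp.N₂_pos
  have hE₀0 : (0:ℝ) < E₀ := by exact_mod_cast hE₀1
  have hK0 : (0:ℝ) < K := by exact_mod_cast hK1
  have hM₁0 := Par.M₁_pos hp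
  have hM₂0 := Par.M₂_pos hp
  have hτ0 : 0 ≤ τb := by linarith [R.tau_one]
  have hSc₁ : (U₁.card : ℝ) ≤ S₁.card := by exact_mod_cast Finset.card_le_card hU₁
  have hSc₂ : (U₂.card : ℝ) ≤ S₂.card := by exact_mod_cast Finset.card_le_card hU₂
  have hms1 : 0 ≤ (S₁.card : ℝ) / p.N₁ := by positivity
  have hms2 : 0 ≤ (S₂.card : ℝ) / p.N₂ := by positivity
  have hms0 : p.ms S₁ S₂ = (S₁.card : ℝ) / p.N₁ + (S₂.card : ℝ) / p.N₂ := rfl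
  by_cases h2 : p.two
  · have hTTm : ∀ x, TT G' x ≤ TT (Finset.Ico p.E (2 * p.E)) x := fun x =>
      Finset.card_le_card (Finset.filter_subset_filter _ (fun d hd => Finset.mem_Ico.2 (hG' d hd)))
    refine ⟨(S₂.card : ℝ) * τb ^ 2 * (2 * ((p.Q₁:ℝ) / p.E) / E₀), Or.inl ⟨τb, τb, hτ0, hτ0,
      fun x hx => le_trans (by exact_mod_cast hTTm x) (R.tau_S₂ x (hU₂ hx)),
      fun y hy1 hy2 => R.tau_y y hy1 hy2, ?_⟩, ?_⟩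
    · rw [← pow_two]
      apply mul_le_mul_of_nonneg_right _ (by positivity)
      exact mul_le_mul_of_nonneg_right hSc₂ (by positivity)
    · have h3 := tail_aux (w := p.w) (N := p.N₂) (M' := p.M₁) (Ups := p.Ups) (S := (S₂.card : ℝ))
        (τb := τb) (E₀ := E₀) (M := p.M₂) (c := cc k) (K := (K:ℝ)) hw.le hN₂ hM₁0.le (by positivity)
        hUps0 hτ0 hE₀0 hK0 hM (Par.side_two hp (hh := h2)) R.tau_le hcc hE₀2 hKM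
      have h4 : 0 ≤ 64 * p.M₂ ^ (-(14 * cc k)) / (p.Ups * K) := by positivity
      have e : 2 * ((p.Q₁:ℝ) / p.E) = 2 * p.M₁ := rfl
      rw [e]
      refine h3.trans ?_
      rw [hms0]
      exact mul_le_mul_of_nonneg_right (by linarith) h4
  · have hTTm : ∀ x, TT G' x ≤ TT (Finset.Ico p.E (2 * p.E)) x := fun x =>
      Finset.card_le_card (Finset.filter_subset_filter _ (fun d hd => Finset.mem_Ico.2 (hG' d hd)))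
    have hMM := Par.M₁_le_M₂ hp
    refine ⟨(S₁.card : ℝ) * τb ^ 2 * (2 * ((p.Q₂:ℝ) / p.E) / E₀), Or.inr ⟨τb, τb, hτ0, hτ0,
      fun x hx => le_trans (by exact_mod_cast hTTm x) (R.tau_S₁ x (hU₁ hx)),
      fun y hy1 hy2 => R.tau_y y hy1 (lt_of_lt_of_le hy2 (by
        have : 2 * ((p.Q₁:ℝ) / p.E) = 2 * p.M₁ := rfl
        rw [this]; linarith)), ?_⟩, ?_⟩
    · rw [← pow_two]
      apply mul_le_mul_of_nonneg_right _ (by positivity)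
      exact mul_le_mul_of_nonneg_right hSc₁ (by positivity)
    · have h3 := tail_aux (w := p.w) (N := p.N₁) (M' := p.M₂) (Ups := p.Ups) (S := (S₁.card : ℝ))
        (τb := τb) (E₀ := E₀) (M := p.M₂) (c := cc k) (K := (K:ℝ)) hw.le hN₁ hM₂0.le (by positivity)
        hUps0 hτ0 hE₀0 hK0 hM (Par.side_one hp (hh := h2)) R.tau_le hcc hE₀2 hKM
      have h4 : 0 ≤ 64 * p.M₂ ^ (-(14 * cc k)) / (p.Ups * K) := by positivity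
      have e : 2 * ((p.Q₂:ℝ) / p.E) = 2 * p.M₂ := rfl
      rw [e]
      refine h3.trans ?_
      rw [hms0]
      exact mul_le_mul_of_nonneg_right (by linarith) h4

/-- `2 D ≤ ms K` in the regime. -/
lemma two_D_le {γ c₀ M₀ : ℝ} {k : ℕ} {p : Par} {S₁ S₂ : Finset ℕ} {τb : ℝ} {K : ℕ}
    (R : Regime γ c₀ k M₀ p S₁ S₂ τb) (hK1 : 1 ≤ K) (hKD : 1 / p.D ≤ (K:ℝ) ^ 2) (hKU : p.Ups ≤ (K:ℝ) ^ 2) :
    2 * p.D ≤ p.ms S₁ S₂ * K := by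
  have hp := R.good
  have hD0 := Par.D_pos hp
  have hUps1 := Par.Ups_ge_one hp
  have hUps0 : 0 < p.Ups := by linarith
  have hK0 : (0:ℝ) < K := by exact_mod_cast hK1
  have hN₁ := hp.N₁_pos
  have hN₂ := hp.N₂_pos
  have h6 : p.D / K ≤ p.D * (p.D / p.Ups) ^ ((1:ℝ) / 4) := by
    rw [div_eq_mul_inv]
    exact mul_le_mul_of_nonneg_left (inv_le_rpow_aux hK0 hD0 hUps0 hKD hKU) hD0.le
  have h10 := R.mu_big
  have h11 := sqrt_mul_le_aux (x := (S₁.card : ℝ) / p.N₁) (y := (S₂.card : ℝ) / p.N₂)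
    (by positivity) (by positivity)
  have hms0 : p.ms S₁ S₂ = (S₁.card : ℝ) / p.N₁ + (S₂.card : ℝ) / p.N₂ := rfl
  rw [← hms0] at h11
  have h13 : p.D / K ≤ p.ms S₁ S₂ / 2 := by linarith
  rw [div_le_iff₀ hK0] at h13
  nlinarith

/-- The LS step in the regime. -/
theorem ls_step_regime {c₀ : ℝ} {k : ℕ} (hc₀ : 0 < c₀) (hk : 1 ≤ k) :
    ∃ M₀ : ℝ, 1 ≤ M₀ ∧ ∀ {γ : ℝ} {p : Par} {S₁ S₂ : Finset ℕ} {τb : ℝ},
      Regime γ c₀ k M₀ p S₁ S₂ τb → ∀ {G G' U₁ U₂ : Finset ℕ} {K : ℕ} {t a : ℝ},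
      G' ⊆ G → (∀ d ∈ G, p.E ≤ d ∧ d < 2 * p.E) → G.card ≤ K → 1 ≤ K →
      (K:ℝ) ≤ p.M₂ ^ (16 * cc k) → 1 / p.D ≤ (K:ℝ) ^ 2 → p.Ups ≤ (K:ℝ) ^ 2 → 1 ≤ t →
      (∀ d ∈ G', rowSum G d ≤ t) → 1 ≤ a → U₁ ⊆ S₁ → U₂ ⊆ S₂ →
      (∑ x ∈ U₁, ((TT G x : ℝ))⁻¹) * (∑ x ∈ U₂, ((TT G x : ℝ))⁻¹) ≤ (S₁.card : ℝ) * S₂.card / a →
      Off γ p.D p.w G' U₁ U₂ ≤ 384 / (p.N₁ * p.N₂) * (Exact G' U₁ U₂ : ℝ)
        + p.ms S₁ S₂ * (48 * p.D / K + 64 * p.M₂ ^ (-(14 * cc k)) / (p.Ups * K)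
          + 8 * ell (K ^ 3) * t / Real.sqrt a) := by
  obtain ⟨M₀, hM₀, hlam⟩ := regime_lam hc₀ hk
  refine ⟨M₀, hM₀, ?_⟩
  intro γ p S₁ S₂ τb R G G' U₁ U₂ K t a hG' hG hGK hK1 hKM hKD hKU ht hrow ha hU₁ hU₂ hCC
  obtain ⟨L, E₀, B₁, B₂, hL1, hE₀1, hLD, hLinv, hE₀2, hB₁, hB₂, hLam₁, hLam₂⟩ :=
    hlam R hGK hK1 hKM ht
  have hp := R.good
  have hM : 1 ≤ p.M₂ := hM₀.trans R.M_large
  have hw := Par.w_pos hp
  have hD0 := Par.D_pos hp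
  have hN₁ := hp.N₁_pos
  have hN₂ := hp.N₂_pos
  have hQ₁ := hp.Q₁_pos
  have hQ₂ : 1 ≤ p.Q₂ := hQ₁.trans hp.Q_le
  have hK0 : (0:ℝ) < K := by exact_mod_cast hK1
  have hL0 : (0:ℝ) < L := by exact_mod_cast hL1
  have hM₁0 := Par.M₁_pos hp
  have hM₂0 := Par.M₂_pos hp
  obtain ⟨Tl, hTl, hTlb⟩ := tail_exists (E₀ := E₀) (K := K) (U₁ := U₁) (U₂ := U₂) (G' := G') R hM hU₁ hU₂ (fun d hd => hG d (hG' hd)) hE₀1 hE₀2 hK1 hKM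
  have hmain := ls_step R.dio hc₀ hk (E := p.E) (Q₁ := p.Q₁) (Q₂ := p.Q₂) (z := K ^ 3) (L := L) (E₀ := E₀)
    hp.E_pos hQ₁ hQ₂ (Nat.one_le_pow _ _ hK1) hL1 hE₀1 (D := p.D) (w := p.w) hw.le hLD (G := G) (G' := G')
    (U₁ := U₁) (U₂ := U₂) hG' hG (fun x hx => R.S₁_mem x (hU₁ hx)) (fun x hx => R.S₂_mem x (hU₂ hx))
    (t := t) (B₁ := B₁) (B₂ := B₂) (Tl := Tl) (by linarith) hrow hB₁ hB₂ hTl
  have hB₁0 : 0 ≤ B₁ := by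
    refine le_trans ?_ (hB₁ 1 le_rfl)
    apply le_min <;> positivity
  have hB₂0 : 0 ≤ B₂ := by
    refine le_trans ?_ (hB₂ 1 le_rfl)
    apply le_min <;> positivity
  have hT1 := exact_term_aux (Ex := (Exact G' U₁ U₂ : ℝ)) hw.le hLinv (by positivity) (Par.w_mul_D hp)
  have hG'c : (G'.card : ℝ) ≤ K := by
    exact_mod_cast (Finset.card_le_card hG').trans hGK
  have hT2 := excess_term_aux (Gc := (G'.card : ℝ)) hw.le hD0 hL0 hLinv (by positivity) hG'c hM₁0 hM₂0 hK0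
    (Par.w_M_M hp) (two_D_le R hK1 hKD hKU)
  have hell1 : 1 ≤ ell (K ^ 3) := ell_ge_one _
  have hT4 := ls_term_aux hw (lam_nonneg (P := p.Q₁) (E := p.E) (z := K ^ 3) (E₀ := E₀) (G := G) (by linarith) hB₁0)
    (lam_nonneg (P := p.Q₂) (E := p.E) (z := K ^ 3) (E₀ := E₀) (G := G) (by linarith) hB₂0)
    (C₁ := ∑ x ∈ U₁, ((TT G x : ℝ))⁻¹) (C₂ := ∑ x ∈ U₂, ((TT G x : ℝ))⁻¹)
    (Finset.sum_nonneg (fun _ _ => by positivity)) (Finset.sum_nonneg (fun _ _ => by positivity))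
    hM₁0 hM₂0 (by linarith : 0 < ell (K ^ 3)) (by linarith : 0 < t) (by linarith : 0 < a)
    (S₁ := (S₁.card : ℝ)) (S₂ := (S₂.card : ℝ)) (by positivity) (by positivity) hN₁ hN₂
    hLam₁ hLam₂ hCC (Par.w_sq_M_M hp)
  have e0 : ((K ^ 3 : ℕ) : ℝ) = (K:ℝ) ^ 3 := by push_cast; ring
  have e1 : (p.Q₁:ℝ) / p.E = p.M₁ := rfl
  have e2 : (p.Q₂:ℝ) / p.E = p.M₂ := rfl
  rw [e0, e1, e2] at hmain
  generalize Real.sqrt ((Lam p.Q₁ p.E (K ^ 3) E₀ G t B₁ * ∑ x ∈ U₁, ((TT G x : ℝ))⁻¹) *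
    (Lam p.Q₂ p.E (K ^ 3) E₀ G t B₂ * ∑ x ∈ U₂, ((TT G x : ℝ))⁻¹)) = SQ at hmain hT4
  have hms0 : (S₁.card : ℝ) / p.N₁ + (S₂.card : ℝ) / p.N₂ = p.ms S₁ S₂ := rfl
  rw [hms0] at hT4
  generalize p.ms S₁ S₂ = ms at hT1 hT2 hT4 hTlb ⊢
  generalize Off γ p.D p.w G' U₁ U₂ = OO at hmain ⊢
  generalize (Exact G' U₁ U₂ : ℝ) = Ex at hmain hT1 ⊢
  generalize (G'.card : ℝ) = Gc at hmain hT2
  have e : ms * (48 * p.D / K + 64 * p.M₂ ^ (-(14 * cc k)) / (p.Ups * K)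
          + 8 * ell (K ^ 3) * t / Real.sqrt a) = ms * (48 * p.D / K)
          + ms * (64 * p.M₂ ^ (-(14 * cc k)) / (p.Ups * K))
          + ms * (8 * ell (K ^ 3) * t / Real.sqrt a) := by ring
  rw [e]
  have e3 : 4 * p.w * (1 / (L:ℝ) * (Ex + Gc * (4 * p.M₁ * p.M₂ / (K:ℝ) ^ 3)) + 2 * Tl + SQ)
      = 4 * p.w * (1 / (L:ℝ) * Ex) + 4 * p.w * (1 / (L:ℝ) * (Gc * (4 * p.M₁ * p.M₂ / (K:ℝ) ^ 3)))
        + 8 * p.w * Tl + 4 * p.w * SQ := by ring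
  rw [e3] at hmain
  linarith

end Vale.Agent.Lib.P028T
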