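import Vale.Agent.Lib.P028T.RoundBase

/-! Round a: blueprint section 9. -/

open Finset

namespace Vale.Agent.Lib.P028T

open Vale.Agent.Lib.P028

/-- The error terms of the LS step are bounded by a multiple of `K^(-1/192)`. -/
private lemma round_a_err {Cl D M Ups el : ℝ} {k K : ℕ} (hK : 1 ≤ K) (hD : D ≤ 1)
    (hM : 1 ≤ M) (hUps : 1 ≤ Ups) (hk : 1 ≤ k)
    (hel : el * (K:ℝ) ^ ((1:ℝ) / 48) / Real.sqrt ((K:ℝ) ^ ((1:ℝ) / 16))
      ≤ Cl * (K:ℝ) ^ (-(1:ℝ) / 192)) :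
    48 * D / K + 64 * M ^ (-(14 * cc k)) / (Ups * K)
        + 8 * el * (K:ℝ) ^ ((1:ℝ) / 48) / Real.sqrt ((K:ℝ) ^ ((1:ℝ) / 16))
      ≤ (112 + 8 * Cl) * (K:ℝ) ^ (-(1:ℝ) / 192) := by
  have hK1 : (1:ℝ) ≤ K := by exact_mod_cast hK
  have hK0 : (0:ℝ) < K := by linarith
  have hinv : (1:ℝ) / K ≤ (K:ℝ) ^ (-(1:ℝ) / 192) := by
    rw [one_div, ← Real.rpow_neg_one]
    exact Real.rpow_le_rpow_of_exponent_le hK1 (by norm_num)
  have hcc : 0 ≤ cc k := by unfold cc; positivity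
  have hM' : M ^ (-(14 * cc k)) ≤ 1 :=
    Real.rpow_le_one_of_one_le_of_nonpos hM (by linarith)
  have hM0 : 0 ≤ M ^ (-(14 * cc k)) := by positivity
  have h1 : 48 * D / K ≤ 48 * (K:ℝ) ^ (-(1:ℝ) / 192) := by
    have : 48 * D / K = 48 * D * (1 / K) := by ring
    rw [this]
    have hp : 0 ≤ (1:ℝ) / K := by positivity
    nlinarith
  have h2 : 64 * M ^ (-(14 * cc k)) / (Ups * K) ≤ 64 * (K:ℝ) ^ (-(1:ℝ) / 192) := by
    have hUK : (1:ℝ) / (Ups * K) ≤ 1 / K := by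
      apply one_div_le_one_div_of_le hK0
      nlinarith
    have hp : 0 ≤ (1:ℝ) / (Ups * K) := by positivity
    have : 64 * M ^ (-(14 * cc k)) / (Ups * K) = 64 * M ^ (-(14 * cc k)) * (1 / (Ups * K)) := by
      ring
    rw [this]
    nlinarith
  have h3 : 8 * el * (K:ℝ) ^ ((1:ℝ) / 48) / Real.sqrt ((K:ℝ) ^ ((1:ℝ) / 16))
      = 8 * (el * (K:ℝ) ^ ((1:ℝ) / 48) / Real.sqrt ((K:ℝ) ^ ((1:ℝ) / 16))) := by ring
  rw [h3]
  nlinarith

/-- The arithmetic of the bad set: it has at most half the size. -/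
private lemma round_a_half {C : ℝ} {b K : ℕ} (hC : 1 ≤ C) (hK : (2 * C) ^ 96 ≤ (K:ℝ))
    (hb : (b:ℝ) ≤ C * (K:ℝ) ^ ((1:ℝ) - 1 / 96)) : 2 * b ≤ K := by
  have hC2 : (0:ℝ) ≤ 2 * C := by linarith
  have h1 : (1:ℝ) ≤ (2 * C) ^ 96 := one_le_pow₀ (by linarith)
  have hK1 : (1:ℝ) ≤ K := h1.trans hK
  have hK0 : (0:ℝ) < K := by linarith
  have h2 : 2 * C ≤ (K:ℝ) ^ ((1:ℝ) / 96) := by
    have := Real.rpow_le_rpow (by positivity) hK (by norm_num : (0:ℝ) ≤ 1 / 96)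
    have h3 : ((2 * C) ^ 96 : ℝ) ^ ((1:ℝ) / 96) = 2 * C := by
      have := Real.pow_rpow_inv_natCast hC2 (n := 96) (by norm_num)
      simpa using this
    rwa [h3] at this
  have h4 : (K:ℝ) ^ ((1:ℝ) - 1 / 96) * (K:ℝ) ^ ((1:ℝ) / 96) = K := by
    rw [← Real.rpow_add hK0]
    norm_num
  have h5 : 0 ≤ (K:ℝ) ^ ((1:ℝ) - 1 / 96) := by positivity
  have h6 : (2:ℝ) * b ≤ K := by
    calc (2:ℝ) * b ≤ 2 * (C * (K:ℝ) ^ ((1:ℝ) - 1 / 96)) := by linarith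
      _ = (K:ℝ) ^ ((1:ℝ) - 1 / 96) * (2 * C) := by ring
      _ ≤ (K:ℝ) ^ ((1:ℝ) - 1 / 96) * (K:ℝ) ^ ((1:ℝ) / 96) :=
          mul_le_mul_of_nonneg_left h2 h5
      _ = K := h4
  exact_mod_cast h6

/-- Round a: `K ≤ D^(-8)`. -/
theorem round_a {c₀ : ℝ} {k : ℕ} (hc₀ : 0 < c₀) (hk : 1 ≤ k) :
    ∃ M₀ K₀ Cs : ℝ, 1 ≤ M₀ ∧ 1 ≤ K₀ ∧ 1 ≤ Cs ∧ ∀ {γ : ℝ} {p : Par} {S₁ S₂ : Finset ℕ} {τb : ℝ},
      Regime γ c₀ k M₀ p S₁ S₂ τb → ∀ {A : Finset ℕ}, (∀ d ∈ A, p.E ≤ d ∧ d < 2 * p.E) →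
      K₀ ≤ (A.card : ℝ) → 1 / p.D ≤ (A.card : ℝ) ^ 2 → p.Ups ≤ (A.card : ℝ) ^ 2 →
      (A.card : ℝ) ≤ p.M₂ ^ (16 * cc k) →
      ∃ A' ⊆ A, 2 * A'.card ≤ A.card ∧
        Off γ p.D p.w (A \ A') S₁ S₂ ≤ 384 / (p.N₁ * p.N₂) * (Exact (A \ A') S₁ S₂ : ℝ)
          + p.ms S₁ S₂ * ((A.card : ℝ) ^ ((1:ℝ) / 16) * p.B0 c₀ k p.D
            + Cs * (A.card : ℝ) ^ (-(1:ℝ) / 192)) := by
  classical
  obtain ⟨M₀, hM₀, hLS⟩ := ls_step_regime hc₀ hk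
  obtain ⟨Cb, hCb, hbad⟩ := bad_card
  obtain ⟨Cl, hCl, hell⟩ := ell_num
  refine ⟨M₀, (2 * Cb) ^ 96, 112 + 8 * Cl, hM₀, one_le_pow₀ (by linarith), by linarith, ?_⟩
  intro γ p S₁ S₂ τb R A hA hK₀ hDK hUpsK hKM
  obtain ⟨hM1, hD0, hD1, hUps1, hms, hB0, hw, -, -⟩ := R.facts hM₀
  have hk1 : (1:ℝ) ≤ (2 * Cb) ^ 96 := one_le_pow₀ (by linarith)
  have hK1R : (1:ℝ) ≤ (A.card : ℝ) := hk1.trans hK₀
  have hK1 : 1 ≤ A.card := by exact_mod_cast hK1R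
  set K := A.card with hKdef
  set t : ℝ := (K:ℝ) ^ ((1:ℝ) / 48) with ht
  set a : ℝ := (K:ℝ) ^ ((1:ℝ) / 16) with ha
  have ht1 : 1 ≤ t := Real.one_le_rpow hK1R (by norm_num)
  have ha1 : 1 ≤ a := Real.one_le_rpow hK1R (by norm_num)
  have ha0 : 0 ≤ a := by linarith
  have hbadc := hbad p.E A R.good.E_pos hA
  rw [← hKdef] at hbadc
  refine ⟨badSet A t, Finset.filter_subset _ _, round_a_half hCb hK₀ hbadc, ?_⟩
  set G := A \ badSet A t with hG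
  have hGA : G ⊆ A := Finset.sdiff_subset
  have hGmem : ∀ d ∈ G, p.E ≤ d ∧ d < 2 * p.E := fun d hd => hA d (hGA hd)
  have hGcard : G.card ≤ K := Finset.card_le_card hGA
  have hrow : ∀ d ∈ G, rowSum G d ≤ t := fun d hd => rowSum_good hd
  have hDhalf : p.D ≤ 1 / 2 := by have := R.D_lt; linarith
  have hExactNonneg : (0:ℝ) ≤ 384 / (p.N₁ * p.N₂) := by
    have h1 := R.good.N₁_pos
    have h2 := R.good.N₂_pos
    positivity
  have herr := round_a_err (Cl := Cl) (D := p.D) (M := p.M₂) (Ups := p.Ups) (el := ell (K ^ 3))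
    hK1 hD1 hM1 hUps1 hk (hell K hK1)
  -- the final combination
  have final : ∀ {O₁ O₂ Ex Ex' : ℝ} , O₁ ≤ p.ms S₁ S₂ * a * p.B0 c₀ k p.D →
      O₂ ≤ 384 / (p.N₁ * p.N₂) * Ex' + p.ms S₁ S₂ * (48 * p.D / K
        + 64 * p.M₂ ^ (-(14 * cc k)) / (p.Ups * K)
        + 8 * ell (K ^ 3) * t / Real.sqrt a) → Ex' ≤ Ex →
      O₁ + O₂ ≤ 384 / (p.N₁ * p.N₂) * Ex + p.ms S₁ S₂ * (a * p.B0 c₀ k p.D
        + (112 + 8 * Cl) * (K : ℝ) ^ (-(1:ℝ) / 192)) := by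
    intro O₁ O₂ Ex Ex' h1 h2 h3
    have h4 := mul_le_mul_of_nonneg_left herr hms
    have h5 := mul_le_mul_of_nonneg_left h3 hExactNonneg
    have : p.ms S₁ S₂ * (a * p.B0 c₀ k p.D + (112 + 8 * Cl) * (K : ℝ) ^ (-(1:ℝ) / 192))
        = p.ms S₁ S₂ * a * p.B0 c₀ k p.D
          + p.ms S₁ S₂ * ((112 + 8 * Cl) * (K : ℝ) ^ (-(1:ℝ) / 192)) := by ring
    rw [this]
    linarith
  by_cases hh : p.two
  · -- side two
    have hsplit : S₂.filter (fun x => (TT G x : ℝ) < a) ∪ S₂.filter (fun x => ¬ (TT G x : ℝ) < a)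
        = S₂ := Finset.filter_union_filter_not_eq _ _
    have hsub1 : S₂.filter (fun x => (TT G x : ℝ) < a) ⊆ S₂ := Finset.filter_subset _ _
    have hsub2 : S₂.filter (fun x => ¬ (TT G x : ℝ) < a) ⊆ S₂ := Finset.filter_subset _ _
    have hL : Off γ p.D p.w G S₁ (S₂.filter (fun x => (TT G x : ℝ) < a))
        ≤ p.ms S₁ S₂ * a * p.B0 c₀ k p.D :=
      one_sided_master R.dio hc₀ hk R.good (Finset.Subset.refl _) hsub1
        (fun q hq => (R.S₁_mem q hq).2) (fun r hr => (R.S₂_mem r hr).2)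
        (fun d hd => (hGmem d hd).1) ha0
        (fun _ r hr => ((Finset.mem_filter.mp hr).2).le) (fun h => absurd hh h)
        hD0 hDhalf le_rfl hM1 R.u_le
    have hsum : (∑ x ∈ S₁, ((TT G x : ℝ))⁻¹)
        * (∑ x ∈ S₂.filter (fun x => ¬ (TT G x : ℝ) < a), ((TT G x : ℝ))⁻¹)
        ≤ (S₁.card : ℝ) * S₂.card / a := by
      have h1 := sum_inv_le G S₁
      have h2 : ∑ x ∈ S₂.filter (fun x => ¬ (TT G x : ℝ) < a), ((TT G x : ℝ))⁻¹
          ≤ ((S₂.filter (fun x => ¬ (TT G x : ℝ) < a)).card : ℝ) / a :=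
        sum_inv_le_of_ge (by linarith) (fun x hx => not_lt.mp (Finset.mem_filter.mp hx).2)
      have h3 : ((S₂.filter (fun x => ¬ (TT G x : ℝ) < a)).card : ℝ) / a ≤ (S₂.card : ℝ) / a := by
        apply div_le_div_of_nonneg_right _ ha0
        exact_mod_cast Finset.card_le_card hsub2
      have h4 : 0 ≤ ∑ x ∈ S₂.filter (fun x => ¬ (TT G x : ℝ) < a), ((TT G x : ℝ))⁻¹ :=
        Finset.sum_nonneg fun x _ => by positivity
      calc _ ≤ (S₁.card : ℝ) * ∑ x ∈ S₂.filter (fun x => ¬ (TT G x : ℝ) < a), ((TT G x : ℝ))⁻¹ :=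
            mul_le_mul_of_nonneg_right h1 h4
        _ ≤ (S₁.card : ℝ) * ((S₂.card : ℝ) / a) :=
            mul_le_mul_of_nonneg_left (h2.trans h3) (by positivity)
        _ = _ := by ring
    have hR := hLS R (G := G) (G' := G) (Finset.Subset.refl _) hGmem hGcard hK1 hKM hDK hUpsK ht1
      hrow ha1 (Finset.Subset.refl _) hsub2 hsum
    have hEx : (Exact G S₁ (S₂.filter (fun x => ¬ (TT G x : ℝ) < a)) : ℝ) ≤ Exact G S₁ S₂ := by
      exact_mod_cast exact_mono (Finset.Subset.refl _) (Finset.Subset.refl _) hsub2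
    have hU : Off γ p.D p.w G S₁ S₂
        ≤ Off γ p.D p.w G S₁ (S₂.filter (fun x => (TT G x : ℝ) < a))
          + Off γ p.D p.w G S₁ (S₂.filter (fun x => ¬ (TT G x : ℝ) < a)) := by
      have := off_union_right (γ := γ) (D := p.D) hw.le G S₁
        (S₂.filter (fun x => (TT G x : ℝ) < a)) (S₂.filter (fun x => ¬ (TT G x : ℝ) < a))
      rwa [hsplit] at this
    exact hU.trans (final hL hR hEx)
  · -- side one
    have hsplit : S₁.filter (fun x => (TT G x : ℝ) < a) ∪ S₁.filter (fun x => ¬ (TT G x : ℝ) < a)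
        = S₁ := Finset.filter_union_filter_not_eq _ _
    have hsub1 : S₁.filter (fun x => (TT G x : ℝ) < a) ⊆ S₁ := Finset.filter_subset _ _
    have hsub2 : S₁.filter (fun x => ¬ (TT G x : ℝ) < a) ⊆ S₁ := Finset.filter_subset _ _
    have hL : Off γ p.D p.w G (S₁.filter (fun x => (TT G x : ℝ) < a)) S₂
        ≤ p.ms S₁ S₂ * a * p.B0 c₀ k p.D :=
      one_sided_master R.dio hc₀ hk R.good hsub1 (Finset.Subset.refl _)
        (fun q hq => (R.S₁_mem q hq).2) (fun r hr => (R.S₂_mem r hr).2)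
        (fun d hd => (hGmem d hd).1) ha0
        (fun h => absurd h hh) (fun _ r hr => ((Finset.mem_filter.mp hr).2).le)
        hD0 hDhalf le_rfl hM1 R.u_le
    have hsum : (∑ x ∈ S₁.filter (fun x => ¬ (TT G x : ℝ) < a), ((TT G x : ℝ))⁻¹)
        * (∑ x ∈ S₂, ((TT G x : ℝ))⁻¹)
        ≤ (S₁.card : ℝ) * S₂.card / a := by
      have h1 := sum_inv_le G S₂
      have h2 : ∑ x ∈ S₁.filter (fun x => ¬ (TT G x : ℝ) < a), ((TT G x : ℝ))⁻¹
          ≤ ((S₁.filter (fun x => ¬ (TT G x : ℝ) < a)).card : ℝ) / a :=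
        sum_inv_le_of_ge (by linarith) (fun x hx => not_lt.mp (Finset.mem_filter.mp hx).2)
      have h3 : ((S₁.filter (fun x => ¬ (TT G x : ℝ) < a)).card : ℝ) / a ≤ (S₁.card : ℝ) / a := by
        apply div_le_div_of_nonneg_right _ ha0
        exact_mod_cast Finset.card_le_card hsub2
      have h4 : 0 ≤ ∑ x ∈ S₂, ((TT G x : ℝ))⁻¹ := Finset.sum_nonneg fun x _ => by positivity
      calc _ ≤ ((S₁.card : ℝ) / a) * ∑ x ∈ S₂, ((TT G x : ℝ))⁻¹ :=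
            mul_le_mul_of_nonneg_right (h2.trans h3) h4
        _ ≤ ((S₁.card : ℝ) / a) * (S₂.card : ℝ) :=
            mul_le_mul_of_nonneg_left h1 (by positivity)
        _ = _ := by ring
    have hR := hLS R (G := G) (G' := G) (Finset.Subset.refl _) hGmem hGcard hK1 hKM hDK hUpsK ht1
      hrow ha1 hsub2 (Finset.Subset.refl _) hsum
    have hEx : (Exact G (S₁.filter (fun x => ¬ (TT G x : ℝ) < a)) S₂ : ℝ) ≤ Exact G S₁ S₂ := by
      exact_mod_cast exact_mono (Finset.Subset.refl _) hsub2 (Finset.Subset.refl _)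
    have hU : Off γ p.D p.w G S₁ S₂
        ≤ Off γ p.D p.w G (S₁.filter (fun x => (TT G x : ℝ) < a)) S₂
          + Off γ p.D p.w G (S₁.filter (fun x => ¬ (TT G x : ℝ) < a)) S₂ := by
      have := off_union_left (γ := γ) (D := p.D) hw.le G
        (S₁.filter (fun x => (TT G x : ℝ) < a)) (S₁.filter (fun x => ¬ (TT G x : ℝ) < a)) S₂
      rwa [hsplit] at this
    exact hU.trans (final hL hR hEx)

end Vale.Agent.Lib.P028T
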