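import Vale.Agent.Lib.P028T.RoundF

/-! Round b: blueprint section 9. -/

open Finset

namespace Vale.Agent.Lib.P028T

open Vale.Agent.Lib.P028

/-- The size gain in round b. -/
lemma rb_size {C K b h : ℝ} (hC : 1 ≤ C) (hK : (4 * C) ^ (96:ℕ) ≤ K)
    (hb : b ≤ C * K ^ ((1:ℝ) - 1 / 96)) (hh : h ≤ K ^ ((13:ℝ) / 16)) :
    2 * (b + h) ≤ K := by
  have h4C : (1:ℝ) ≤ 4 * C := by linarith
  have hKone : 1 ≤ K := (one_le_pow₀ h4C).trans hK
  have hKpos : 0 < K := by linarith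
  have hr : 4 * C ≤ K ^ ((1:ℝ) / 96) := by
    have h1 := Real.rpow_le_rpow (by positivity) hK (show (0:ℝ) ≤ 1 / 96 by norm_num)
    rw [← Real.rpow_natCast, ← Real.rpow_mul (by positivity)] at h1
    norm_num at h1
    simpa using h1
  have e1 : K ^ ((1:ℝ) - 1 / 96) * K ^ ((1:ℝ) / 96) = K := by
    rw [← Real.rpow_add hKpos]; norm_num
  have e2 : K ^ ((13:ℝ) / 16) * K ^ ((3:ℝ) / 16) = K := by
    rw [← Real.rpow_add hKpos]; norm_num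
  have hp1 : 0 < K ^ ((1:ℝ) - 1 / 96) := Real.rpow_pos_of_pos hKpos _
  have hp2 : 0 < K ^ ((13:ℝ) / 16) := Real.rpow_pos_of_pos hKpos _
  have h3 : (4:ℝ) ≤ K ^ ((3:ℝ) / 16) := by
    have : K ^ ((1:ℝ) / 96) ≤ K ^ ((3:ℝ) / 16) :=
      Real.rpow_le_rpow_of_exponent_le hKone (by norm_num)
    linarith
  have b1 : 4 * (C * K ^ ((1:ℝ) - 1 / 96)) ≤ K := by
    calc 4 * (C * K ^ ((1:ℝ) - 1 / 96)) = K ^ ((1:ℝ) - 1 / 96) * (4 * C) := by ring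
      _ ≤ K ^ ((1:ℝ) - 1 / 96) * K ^ ((1:ℝ) / 96) := mul_le_mul_of_nonneg_left hr hp1.le
      _ = K := e1
  have b2 : 4 * K ^ ((13:ℝ) / 16) ≤ K := by
    calc 4 * K ^ ((13:ℝ) / 16) = K ^ ((13:ℝ) / 16) * 4 := by ring
      _ ≤ K ^ ((13:ℝ) / 16) * K ^ ((3:ℝ) / 16) := mul_le_mul_of_nonneg_left h3 hp2.le
      _ = K := e2
  linarith

/-- The gain of the last part in round b. -/
lemma rb_gain {K D : ℝ} (hK : 1 ≤ K) (hD : 0 < D) (hDK : D ^ (-(8:ℝ)) < K) :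
    K ^ (-((3:ℝ) / 4)) * K ^ ((1:ℝ) / 16) * (1 / D) ≤ K ^ (-(1:ℝ) / 192) := by
  have hKpos : 0 < K := by linarith
  have hDinv : 1 / D ≤ K ^ ((1:ℝ) / 8) := by
    have h1 := Real.rpow_le_rpow (by positivity) hDK.le (show (0:ℝ) ≤ 1 / 8 by norm_num)
    rw [← Real.rpow_mul hD.le] at h1
    have e : -(8:ℝ) * (1 / 8) = -1 := by norm_num
    rw [e, Real.rpow_neg_one] at h1
    rwa [one_div]
  have hpos : 0 < K ^ (-((3:ℝ) / 4)) * K ^ ((1:ℝ) / 16) :=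
    mul_pos (Real.rpow_pos_of_pos hKpos _) (Real.rpow_pos_of_pos hKpos _)
  calc K ^ (-((3:ℝ) / 4)) * K ^ ((1:ℝ) / 16) * (1 / D)
      ≤ K ^ (-((3:ℝ) / 4)) * K ^ ((1:ℝ) / 16) * K ^ ((1:ℝ) / 8) :=
        mul_le_mul_of_nonneg_left hDinv hpos.le
    _ = K ^ (-((3:ℝ) / 4) + (1:ℝ) / 16 + (1:ℝ) / 8) := by
        rw [Real.rpow_add hKpos, Real.rpow_add hKpos]
    _ ≤ K ^ (-(1:ℝ) / 192) := Real.rpow_le_rpow_of_exponent_le hK (by norm_num)

/-- The total error of round b. -/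
lemma rb_error {K D m U e ms Ce : ℝ} (hK : 1 ≤ K) (hD : D ≤ 1) (hU : 1 ≤ U)
    (hm : m ≤ 1) (hms : 0 ≤ ms)
    (he : e ≤ Ce * K ^ (-(1:ℝ) / 192)) :
    ms * (48 * D / K + 64 * m / (U * K) + 8 * e) ≤
      ms * ((48 + 64 + 8 * Ce) * K ^ (-(1:ℝ) / 192)) := by
  have hKpos : 0 < K := by linarith
  apply mul_le_mul_of_nonneg_left _ hms
  have hr : 1 / K ≤ K ^ (-(1:ℝ) / 192) := by
    rw [one_div, ← Real.rpow_neg_one]
    exact Real.rpow_le_rpow_of_exponent_le hK (by norm_num)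
  have h1 : 48 * D / K ≤ 48 * K ^ (-(1:ℝ) / 192) := by
    have : 48 * D / K ≤ 48 * (1 / K) := by
      rw [mul_one_div]
      apply div_le_div_of_nonneg_right _ hKpos.le
      linarith
    have h' : 48 * (1 / K) ≤ 48 * K ^ (-(1:ℝ) / 192) := by linarith
    linarith
  have h2 : 64 * m / (U * K) ≤ 64 * K ^ (-(1:ℝ) / 192) := by
    have h3 : 64 * m / (U * K) ≤ 64 * (1 / K) := by
      rw [mul_one_div, div_le_div_iff₀ (by positivity) hKpos]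
      have : K ≤ U * K := by nlinarith
      nlinarith
    have h' : 64 * (1 / K) ≤ 64 * K ^ (-(1:ℝ) / 192) := by linarith
    linarith
  have h3 : 8 * e ≤ 8 * (Ce * K ^ (-(1:ℝ) / 192)) := by linarith
  nlinarith

lemma rb_ex {N a b c : ℝ} (hN : 0 ≤ 384 / N) (h : a + b ≤ c) (hc : 0 ≤ c) :
    384 / N * a + 384 / N * b ≤ 768 / N * c := by
  have h768 : 768 / N = 2 * (384 / N) := by ring
  have hm := mul_le_mul_of_nonneg_left h hN
  have h0 := mul_nonneg hN hc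
  rw [mul_add] at hm
  rw [h768]
  linarith

/-- Round b: `K > D^(-8)`. -/
theorem round_b {c₀ : ℝ} {k : ℕ} (hc₀ : 0 < c₀) (hk : 1 ≤ k) :
    ∃ M₀ K₀ Cs : ℝ, 1 ≤ M₀ ∧ 1 ≤ K₀ ∧ 1 ≤ Cs ∧ ∀ {γ : ℝ} {p : Par} {S₁ S₂ : Finset ℕ} {τb : ℝ},
      Regime γ c₀ k M₀ p S₁ S₂ τb → ∀ {A : Finset ℕ}, (∀ d ∈ A, p.E ≤ d ∧ d < 2 * p.E) →
      K₀ ≤ (A.card : ℝ) → 1 / p.D ≤ (A.card : ℝ) ^ 2 → p.Ups ≤ (A.card : ℝ) ^ 2 →
      (A.card : ℝ) ≤ p.M₂ ^ (16 * cc k) → p.D ^ (-(8:ℝ)) < (A.card : ℝ) →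
      ∃ A' ⊆ A, 2 * A'.card ≤ A.card ∧
        Off γ p.D p.w (A \ A') S₁ S₂ ≤ 768 / (p.N₁ * p.N₂) * (Exact (A \ A') S₁ S₂ : ℝ)
          + p.ms S₁ S₂ * (Cs * (A.card : ℝ) ^ (-(1:ℝ) / 192)) := by
  obtain ⟨M₁', hM₁', hLS⟩ := ls_step_regime hc₀ hk
  obtain ⟨Cb, hCb, hbad⟩ := bad_card
  obtain ⟨Ce, hCe, hell⟩ := ell_num
  refine ⟨M₁', (4 * Cb) ^ (96:ℕ), 2 * (48 + 64 + 8 * Ce) + 16, hM₁', ?_, by linarith, ?_⟩
  · exact one_le_pow₀ (by linarith)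
  intro γ p S₁ S₂ τb R A hA hK₀ hDK hUK hKM hD8
  obtain ⟨hM1, hD0, hD1, hU1, hms, hB0, hw, hwS, hmu⟩ := R.facts hM₁'
  have hKR1 : (1:ℝ) ≤ (A.card : ℝ) := (one_le_pow₀ (by linarith)).trans hK₀
  have hKnat : 1 ≤ A.card := by exact_mod_cast hKR1
  set K : ℝ := (A.card : ℝ) with hKdef
  have hKpos : 0 < K := by linarith
  set t : ℝ := K ^ ((1:ℝ) / 48) with ht
  set a : ℝ := K ^ ((1:ℝ) / 16) with ha
  set η : ℝ := K ^ (-((3:ℝ) / 4)) with hη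
  have ht1 : 1 ≤ t := Real.one_le_rpow hKR1 (by norm_num)
  have ha1 : 1 ≤ a := Real.one_le_rpow hKR1 (by norm_num)
  have ha0 : 0 < a := by linarith
  have hηpos : 0 < η := Real.rpow_pos_of_pos hKpos _
  classical
  set B := badSet A t with hB
  set G := A \ B with hG
  have hGA : G ⊆ A := Finset.sdiff_subset
  have hGE : ∀ d ∈ G, p.E ≤ d ∧ d < 2 * p.E := fun d hd => hA d (hGA hd)
  have hGcard : G.card ≤ A.card := Finset.card_le_card hGA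
  set Sl₁ := S₁.filter (fun x => (TT G x : ℝ) < a) with hSl₁
  set Sh₁ := S₁.filter (fun x => ¬ (TT G x : ℝ) < a) with hSh₁
  set Sl₂ := S₂.filter (fun x => (TT G x : ℝ) < a) with hSl₂
  set Sh₂ := S₂.filter (fun x => ¬ (TT G x : ℝ) < a) with hSh₂
  have hU₁ : Sl₁ ∪ Sh₁ = S₁ := Finset.filter_union_filter_not_eq _ _
  have hU₂ : Sl₂ ∪ Sh₂ = S₂ := Finset.filter_union_filter_not_eq _ _
  have hdisj₁ : Disjoint Sh₁ Sl₁ := (Finset.disjoint_filter_filter_not _ _ _).symm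
  have hcS₁l : (Sl₁.card : ℝ) ≤ S₁.card := by exact_mod_cast Finset.card_filter_le _ _
  have hcS₁h : (Sh₁.card : ℝ) ≤ S₁.card := by exact_mod_cast Finset.card_filter_le _ _
  have hcS₂h : (Sh₂.card : ℝ) ≤ S₂.card := by exact_mod_cast Finset.card_filter_le _ _
  set H := G.filter (fun d => η * (S₁.card : ℝ) < ((Sl₁.filter (d ∣ ·)).card : ℝ)) with hH
  have hHG : H ⊆ G := Finset.filter_subset _ _
  have hcardH : (H.card : ℝ) ≤ K ^ ((13:ℝ) / 16) := by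
    have hb : ((∑ x ∈ Sl₁, TT G x : ℕ) : ℝ) ≤ a * S₁.card := by
      refine (rf_sum_TT_le (a := a) fun x hx => ?_).trans
        (mul_le_mul_of_nonneg_left hcS₁l ha0.le)
      exact ((Finset.mem_filter.mp hx).2).le
    have hc1 := heavy_card hηpos ha0.le hb
    rw [← hH] at hc1
    refine hc1.trans (le_of_eq ?_)
    rw [ha, hη, Real.rpow_neg hKpos.le, div_inv_eq_mul, ← Real.rpow_add hKpos]
    norm_num
  have hcardB : (B.card : ℝ) ≤ Cb * K ^ ((1:ℝ) - 1 / 96) :=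
    hbad p.E A R.good.E_pos hA
  have hsize := rb_size hCb hK₀ hcardB hcardH
  set G' := G \ H with hG'
  have hG'G : G' ⊆ G := Finset.sdiff_subset
  have hAsplit : A \ (B ∪ H) = G' := by
    ext d
    simp only [hG', hG, Finset.mem_sdiff, Finset.mem_union, not_or]
    tauto
  have hBA : B ⊆ A := Finset.filter_subset _ _
  refine ⟨B ∪ H, Finset.union_subset hBA (hHG.trans hGA), ?_, ?_⟩
  · have h1 : ((B ∪ H).card : ℝ) ≤ (B.card : ℝ) + H.card := by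
      exact_mod_cast Finset.card_union_le _ _
    have h2 : (2 * ((B ∪ H).card) : ℝ) ≤ K := by linarith
    rw [hKdef] at h2
    exact_mod_cast h2
  rw [hAsplit]
  have hrow : ∀ d ∈ G', rowSum G d ≤ t := fun d hd => rowSum_good (hG'G hd)
  have hR' : Regime γ c₀ k M₁' p S₁ S₂ τb := R
  -- the first two parts by the LS step
  have hCC : ∀ {U₁ U₂ : Finset ℕ}, (U₁ = Sh₁ ∧ U₂ = S₂) ∨ (U₁ = Sl₁ ∧ U₂ = Sh₂) →
      (∑ x ∈ U₁, ((TT G x : ℝ))⁻¹) * (∑ x ∈ U₂, ((TT G x : ℝ))⁻¹) ≤ (S₁.card : ℝ) * S₂.card / a := by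
    intro U₁ U₂ h
    have hg : ∀ {W : Finset ℕ} {Z : Finset ℕ}, W = Z.filter (fun x => ¬ (TT G x : ℝ) < a) →
        ∑ x ∈ W, ((TT G x : ℝ))⁻¹ ≤ (Z.card : ℝ) / a := by
      intro W Z hW
      have h1 := sum_inv_le_of_ge (G := G) (U := W) ha0 (fun x hx => by
        rw [hW] at hx
        exact not_lt.mp (Finset.mem_filter.mp hx).2)
      refine h1.trans ?_
      apply div_le_div_of_nonneg_right _ ha0.le
      rw [hW]
      exact_mod_cast Finset.card_filter_le _ _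
    rcases h with ⟨hu1, hu2⟩ | ⟨hu1, hu2⟩
    · rw [hu1, hu2]
      have h1 := hg (W := Sh₁) (Z := S₁) rfl
      have h2 := sum_inv_le G S₂
      have h0 : 0 ≤ ∑ x ∈ S₂, ((TT G x : ℝ))⁻¹ := Finset.sum_nonneg fun _ _ => by positivity
      calc _ ≤ ((S₁.card : ℝ) / a) * (S₂.card : ℝ) := mul_le_mul h1 h2 h0 (by positivity)
        _ = _ := by ring
    · rw [hu1, hu2]
      have h1 := sum_inv_le G Sl₁
      have h2 := hg (W := Sh₂) (Z := S₂) rfl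
      have h0 : 0 ≤ ∑ x ∈ Sh₂, ((TT G x : ℝ))⁻¹ := Finset.sum_nonneg fun _ _ => by positivity
      calc _ ≤ (Sl₁.card : ℝ) * ((S₂.card : ℝ) / a) := mul_le_mul h1 h2 h0 (by positivity)
        _ ≤ (S₁.card : ℝ) * ((S₂.card : ℝ) / a) :=
            mul_le_mul_of_nonneg_right hcS₁l (by positivity)
        _ = _ := by ring
  have hLS1 := hLS hR' (G := G) (G' := G') (U₁ := Sh₁) (U₂ := S₂) (K := A.card) (t := t) (a := a)
    hG'G hGE hGcard hKnat hKM hDK hUK ht1 hrow ha1 (Finset.filter_subset _ _)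
    (Finset.Subset.refl _) (hCC (Or.inl ⟨rfl, rfl⟩))
  have hLS2 := hLS hR' (G := G) (G' := G') (U₁ := Sl₁) (U₂ := Sh₂) (K := A.card) (t := t) (a := a)
    hG'G hGE hGcard hKnat hKM hDK hUK ht1 hrow ha1 (Finset.filter_subset _ _)
    (Finset.filter_subset _ _) (hCC (Or.inr ⟨rfl, rfl⟩))
  -- the last part is light
  have hlight : Off γ p.D p.w G' Sl₁ Sl₂ ≤ 16 * p.ms S₁ S₂ * K ^ (-(1:ℝ) / 192) := by
    have h1 : ∀ d ∈ G', ((Sl₁.filter (d ∣ ·)).card : ℝ) ≤ η * S₁.card := by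
      intro d hd
      rw [hG', Finset.mem_sdiff, hH, Finset.mem_filter, not_and] at hd
      exact not_lt.mp (hd.2 hd.1)
    have h2' : ((∑ x ∈ Sl₂, TT G' x : ℕ) : ℝ) ≤ a * S₂.card := by
      have hcS₂l : (Sl₂.card : ℝ) ≤ S₂.card := by exact_mod_cast Finset.card_filter_le _ _
      refine (rf_sum_TT_le (a := a) fun x hx => ?_).trans
        (mul_le_mul_of_nonneg_left hcS₂l ha0.le)
      have h3 : TT G' x ≤ TT G x := by
        unfold TT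
        exact Finset.card_le_card (Finset.filter_subset_filter _ hG'G)
      have h4 : (TT G' x : ℝ) ≤ TT G x := by exact_mod_cast h3
      exact h4.trans ((Finset.mem_filter.mp hx).2).le
    have hl := light_bound (γ := γ) (D := p.D) hw.le hηpos.le
      (Finset.filter_subset _ _ : Sl₁ ⊆ S₁) h1 h2'
    refine hl.trans ?_
    have hS : p.w * ((S₁.card : ℝ) * S₂.card) ≤ 8 * (2 * p.ms S₁ S₂) * (1 / p.D) := by
      refine hwS.trans ?_
      rw [div_eq_mul_one_div]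
      apply mul_le_mul_of_nonneg_right _ (by positivity)
      linarith
    have e1 : p.w * (η * (S₁.card : ℝ)) * (a * (S₂.card : ℝ))
        = (η * a) * (p.w * ((S₁.card : ℝ) * S₂.card)) := by ring
    rw [e1]
    have hηa : 0 ≤ η * a := by positivity
    have hg := rb_gain hKR1 hD0 hD8
    calc (η * a) * (p.w * ((S₁.card : ℝ) * S₂.card))
        ≤ (η * a) * (8 * (2 * p.ms S₁ S₂) * (1 / p.D)) := mul_le_mul_of_nonneg_left hS hηa
      _ = 16 * p.ms S₁ S₂ * (η * a * (1 / p.D)) := by ring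
      _ ≤ 16 * p.ms S₁ S₂ * K ^ (-(1:ℝ) / 192) :=
          mul_le_mul_of_nonneg_left hg (by positivity)
  -- splitting
  have hw0 := hw.le
  have hsp1 : Off γ p.D p.w G' S₁ S₂ ≤ Off γ p.D p.w G' Sh₁ S₂ + Off γ p.D p.w G' Sl₁ S₂ := by
    have := off_union_left (γ := γ) (D := p.D) hw0 G' Sh₁ Sl₁ S₂
    rwa [Finset.union_comm, hU₁] at this
  have hsp2 : Off γ p.D p.w G' Sl₁ S₂ ≤ Off γ p.D p.w G' Sl₁ Sh₂ + Off γ p.D p.w G' Sl₁ Sl₂ := by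
    have := off_union_right (γ := γ) (D := p.D) hw0 G' Sl₁ Sh₂ Sl₂
    rwa [Finset.union_comm, hU₂] at this
  have hex : (Exact G' Sh₁ S₂ : ℝ) + Exact G' Sl₁ Sh₂ ≤ Exact G' S₁ S₂ := by
    have h1 := exact_disjoint_left (A := G') (V := S₂) hdisj₁
    have h2 : Exact G' Sl₁ Sh₂ ≤ Exact G' Sl₁ S₂ :=
      exact_mono (Finset.Subset.refl _) (Finset.Subset.refl _) (Finset.filter_subset _ _)
    rw [Finset.union_comm, hU₁] at h1
    have h3 : Exact G' Sh₁ S₂ + Exact G' Sl₁ Sh₂ ≤ Exact G' S₁ S₂ := by omega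
    exact_mod_cast h3
  -- numerics
  have herr := rb_error (K := K) (D := p.D) (m := p.M₂ ^ (-(14 * cc k))) (U := p.Ups)
    (e := ell (A.card ^ 3) * t / Real.sqrt a) (ms := p.ms S₁ S₂) (Ce := Ce)
    hKR1 hD1 hU1
    (Real.rpow_le_one_of_one_le_of_nonpos hM1 (by
      have := rf_cc_pos hk
      linarith)) hms (hell A.card hKnat)
  have hNN : 0 ≤ 384 / (p.N₁ * p.N₂) :=
    div_nonneg (by norm_num) (mul_pos R.good.N₁_pos R.good.N₂_pos).le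
  have hex2 : 384 / (p.N₁ * p.N₂) * (Exact G' Sh₁ S₂ : ℝ) + 384 / (p.N₁ * p.N₂) * (Exact G' Sl₁ Sh₂ : ℝ)
      ≤ 768 / (p.N₁ * p.N₂) * (Exact G' S₁ S₂ : ℝ) := by
    exact rb_ex hNN hex (Nat.cast_nonneg _)
  have e8 : 8 * ell (A.card ^ 3) * t / Real.sqrt a = 8 * (ell (A.card ^ 3) * t / Real.sqrt a) := by ring
  rw [e8] at hLS1 hLS2
  have hfinal : p.ms S₁ S₂ * ((2 * (48 + 64 + 8 * Ce) + 16) * K ^ (-(1:ℝ) / 192))
      = 2 * (p.ms S₁ S₂ * ((48 + 64 + 8 * Ce) * K ^ (-(1:ℝ) / 192)))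
        + 16 * p.ms S₁ S₂ * K ^ (-(1:ℝ) / 192) := by ring
  rw [hfinal]
  linarith

end Vale.Agent.Lib.P028T
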