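import Vale.Agent.Lib.P028T.RegimeStep
import Vale.Agent.Lib.P028T.GcdSum

/-! Shared facts for the rounds of the descent: blueprint section 9. -/

open Finset

namespace Vale.Agent.Lib.P028T

open Vale.Agent.Lib.P028

/-- The bad set. -/
noncomputable def badSet (A : Finset ℕ) (t : ℝ) : Finset ℕ := A.filter fun d => t < rowSum A d

private lemma rowSum_term_nonneg (d d'' : ℕ) :
    0 ≤ (2:ℝ) ^ (d'' / Nat.gcd d d'').primeFactors.card / ((d'' / Nat.gcd d d'' : ℕ) : ℝ) := by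
  positivity

private lemma rowSum_nonneg (A : Finset ℕ) (d : ℕ) : 0 ≤ rowSum A d :=
  Finset.sum_nonneg fun d'' _ => rowSum_term_nonneg d d''

lemma rowSum_mono {G A : Finset ℕ} (h : G ⊆ A) (d : ℕ) : rowSum G d ≤ rowSum A d :=
  Finset.sum_le_sum_of_subset_of_nonneg h fun d'' _ _ => rowSum_term_nonneg d d''

/-- On the complement of the bad set the row sums of the complement are small. -/
lemma rowSum_good {A : Finset ℕ} {t : ℝ} {d : ℕ} (h : d ∈ A \ badSet A t) : rowSum (A \ badSet A t) d ≤ t := by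
  have h1 := Finset.mem_sdiff.mp h
  refine (rowSum_mono Finset.sdiff_subset d).trans ?_
  by_contra hlt
  exact h1.2 (Finset.mem_filter.mpr ⟨h1.1, not_le.mp hlt⟩)

/-- Markov applied to `gcd_sum`. -/
theorem bad_card : ∃ C : ℝ, 1 ≤ C ∧ ∀ (E : ℕ) (A : Finset ℕ), 1 ≤ E → (∀ x ∈ A, E ≤ x ∧ x < 2 * E) →
    ((badSet A ((A.card : ℝ) ^ ((1:ℝ) / 48))).card : ℝ) ≤ C * (A.card : ℝ) ^ ((1:ℝ) - 1 / 96) := by
  obtain ⟨C, hC, hsum⟩ := gcd_sum
  refine ⟨C, hC, fun E A hE hA => ?_⟩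
  rcases Nat.eq_zero_or_pos A.card with h0 | hpos
  · have hAe : A = ∅ := Finset.card_eq_zero.mp h0
    subst hAe
    simp only [badSet, Finset.filter_empty, Finset.card_empty, Nat.cast_zero]
    positivity
  have hK : (0:ℝ) < (A.card : ℝ) := by exact_mod_cast hpos
  have ht : (0:ℝ) < (A.card : ℝ) ^ ((1:ℝ) / 48) := Real.rpow_pos_of_pos hK _
  set t : ℝ := (A.card : ℝ) ^ ((1:ℝ) / 48) with htdef
  have h1 : ((badSet A t).card : ℝ) * t ≤ ∑ d ∈ A, rowSum A d := by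
    calc ((badSet A t).card : ℝ) * t = ∑ _d ∈ badSet A t, t := by
          simp [Finset.sum_const, nsmul_eq_mul]
      _ ≤ ∑ d ∈ badSet A t, rowSum A d := by
          refine Finset.sum_le_sum fun d hd => ?_
          exact (Finset.mem_filter.mp hd).2.le
      _ ≤ ∑ d ∈ A, rowSum A d :=
          Finset.sum_le_sum_of_subset_of_nonneg (Finset.filter_subset _ _)
            fun d _ _ => rowSum_nonneg A d
  have h2 := h1.trans (hsum E A hE hA)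
  have h3 : (A.card : ℝ) ^ ((1:ℝ) + 1 / 96) = (A.card : ℝ) ^ ((1:ℝ) - 1 / 96) * t := by
    rw [htdef, ← Real.rpow_add hK]
    norm_num
  rw [h3, ← mul_assoc] at h2
  exact le_of_mul_le_mul_right h2 ht

lemma sum_inv_le (G U : Finset ℕ) : ∑ x ∈ U, ((TT G x : ℝ))⁻¹ ≤ (U.card : ℝ) := by
  calc ∑ x ∈ U, ((TT G x : ℝ))⁻¹ ≤ ∑ _x ∈ U, (1:ℝ) := by
        refine Finset.sum_le_sum fun x _ => ?_
        rcases Nat.eq_zero_or_pos (TT G x) with h | h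
        · simp [h]
        · have : (1:ℝ) ≤ (TT G x : ℝ) := by exact_mod_cast h
          exact inv_le_one_of_one_le₀ this
    _ = (U.card : ℝ) := by simp

lemma sum_inv_le_of_ge {G U : Finset ℕ} {a : ℝ} (ha : 0 < a) (h : ∀ x ∈ U, a ≤ (TT G x : ℝ)) :
    ∑ x ∈ U, ((TT G x : ℝ))⁻¹ ≤ (U.card : ℝ) / a := by
  calc ∑ x ∈ U, ((TT G x : ℝ))⁻¹ ≤ ∑ _x ∈ U, a⁻¹ := by
        refine Finset.sum_le_sum fun x hx => ?_
        exact inv_anti₀ ha (h x hx)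
    _ = (U.card : ℝ) / a := by
        simp [Finset.sum_const, nsmul_eq_mul, div_eq_mul_inv]

/-- The gain of the LS step with `t = K^(1/48)`, `a = K^(1/16)`. -/
theorem ell_num : ∃ C : ℝ, 1 ≤ C ∧ ∀ K : ℕ, 1 ≤ K →
    ell (K ^ 3) * (K:ℝ) ^ ((1:ℝ) / 48) / Real.sqrt ((K:ℝ) ^ ((1:ℝ) / 16)) ≤ C * (K:ℝ) ^ (-(1:ℝ) / 192) := by
  obtain ⟨C, hC, hell⟩ := ell_le (1 / 576) (by norm_num)
  refine ⟨C, hC, fun K hK => ?_⟩
  have hK0 : (0:ℝ) < (K:ℝ) := by exact_mod_cast hK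
  have h1 : ell (K ^ 3) ≤ C * (K:ℝ) ^ ((1:ℝ) / 192) := by
    have h := hell (K ^ 3) (Nat.one_le_pow _ _ hK)
    have h2 : (((K ^ 3 : ℕ) : ℝ)) ^ ((1:ℝ) / 576) = (K:ℝ) ^ ((1:ℝ) / 192) := by
      push_cast
      rw [← Real.rpow_natCast (K:ℝ) 3, ← Real.rpow_mul hK0.le]
      norm_num
    rwa [h2] at h
  have hs : Real.sqrt ((K:ℝ) ^ ((1:ℝ) / 16)) = (K:ℝ) ^ ((1:ℝ) / 32) := by
    rw [Real.sqrt_eq_rpow, ← Real.rpow_mul hK0.le]
    norm_num
  rw [hs, div_le_iff₀ (Real.rpow_pos_of_pos hK0 _)]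
  calc ell (K ^ 3) * (K:ℝ) ^ ((1:ℝ) / 48)
      ≤ (C * (K:ℝ) ^ ((1:ℝ) / 192)) * (K:ℝ) ^ ((1:ℝ) / 48) :=
        mul_le_mul_of_nonneg_right h1 (Real.rpow_nonneg hK0.le _)
    _ = C * (K:ℝ) ^ (-(1:ℝ) / 192) * (K:ℝ) ^ ((1:ℝ) / 32) := by
        rw [mul_assoc, mul_assoc, ← Real.rpow_add hK0, ← Real.rpow_add hK0]
        norm_num

private lemma ms_nonneg {p : Par} (hp : p.Good) (S₁ S₂ : Finset ℕ) : 0 ≤ p.ms S₁ S₂ := by
  unfold Par.ms
  have := hp.N₁_pos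
  have := hp.N₂_pos
  positivity

/-- Elementary consequences of the regime. -/
theorem Regime.facts {γ c₀ : ℝ} {k : ℕ} {M₀ : ℝ} (hM₀ : 1 ≤ M₀) {p : Par} {S₁ S₂ : Finset ℕ} {τb : ℝ}
    (R : Regime γ c₀ k M₀ p S₁ S₂ τb) :
    1 ≤ p.M₂ ∧ 0 < p.D ∧ p.D ≤ 1 ∧ 1 ≤ p.Ups ∧ 0 ≤ p.ms S₁ S₂ ∧ 0 ≤ p.B0 c₀ k p.D ∧ 0 < p.w ∧
      p.w * ((S₁.card : ℝ) * S₂.card) ≤ 8 * ((S₁.card : ℝ) / p.N₁ * ((S₂.card : ℝ) / p.N₂)) / p.D ∧
      (S₁.card : ℝ) / p.N₁ * ((S₂.card : ℝ) / p.N₂) ≤ 2 * p.ms S₁ S₂ := by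
  have hp := R.good
  have hM : 1 ≤ p.M₂ := hM₀.trans R.M_large
  have hD : 0 < p.D := Par.D_pos hp
  have hD1 : p.D ≤ 1 := R.D_lt.le.trans (by norm_num)
  have hU : 1 ≤ p.Ups := Par.Ups_ge_one hp
  have hw : 0 < p.w := Par.w_pos hp
  have hN1 := hp.N₁_pos
  have hN2 := hp.N₂_pos
  refine ⟨hM, hD, hD1, hU, ms_nonneg hp S₁ S₂, ?_, hw, ?_, ?_⟩
  · unfold Par.B0 Cbd
    have hc := R.c₀_pos
    have : 0 ≤ (1 / p.D) ^ (k - 1) := by positivity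
    positivity
  · have h1 := Par.w_mul_D hp
    have hc : (0:ℝ) ≤ (S₁.card : ℝ) * S₂.card := by positivity
    have h2 : p.w * ((S₁.card : ℝ) * S₂.card) * p.D ≤ 8 / (p.N₁ * p.N₂) * ((S₁.card : ℝ) * S₂.card) := by
      calc p.w * ((S₁.card : ℝ) * S₂.card) * p.D = p.w * p.D * ((S₁.card : ℝ) * S₂.card) := by ring
        _ ≤ _ := mul_le_mul_of_nonneg_right h1 hc
    rw [le_div_iff₀ hD]
    calc p.w * ((S₁.card : ℝ) * S₂.card) * p.D ≤ 8 / (p.N₁ * p.N₂) * ((S₁.card : ℝ) * S₂.card) := h2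
      _ = 8 * ((S₁.card : ℝ) / p.N₁ * ((S₂.card : ℝ) / p.N₂)) := by
          field_simp
  · have h1 : (S₁.card : ℝ) / p.N₁ ≤ 2 := R.mu₁_le
    have h2 : (0:ℝ) ≤ (S₂.card : ℝ) / p.N₂ := by positivity
    have h3 : (0:ℝ) ≤ (S₁.card : ℝ) / p.N₁ := by positivity
    unfold Par.ms
    nlinarith [mul_le_mul_of_nonneg_right h1 h2]

/-- Terminal bound. -/
theorem terminal_bound {γ c₀ : ℝ} {k : ℕ} {M₀ : ℝ} (hM₀ : 1 ≤ M₀) {p : Par} {S₁ S₂ : Finset ℕ} {τb : ℝ}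
    (R : Regime γ c₀ k M₀ p S₁ S₂ τb) {A : Finset ℕ} (hA : ∀ d ∈ A, p.E ≤ d ∧ d < 2 * p.E) :
    Off γ p.D p.w A S₁ S₂ ≤ p.ms S₁ S₂ * (A.card : ℝ) * p.B0 c₀ k p.D := by
  have hp := R.good
  have hT : ∀ x, (TT A x : ℝ) ≤ (A.card : ℝ) := fun x => by
    unfold TT
    exact_mod_cast Finset.card_filter_le _ _
  exact one_sided_master R.dio R.c₀_pos R.k_pos hp (Finset.Subset.refl S₁) (Finset.Subset.refl S₂)
    (fun q hq => (R.S₁_mem q hq).2) (fun r hr => (R.S₂_mem r hr).2) (fun d hd => (hA d hd).1)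
    (by positivity) (fun _ r _ => hT r) (fun _ q _ => hT q)
    (Par.D_pos hp) (R.D_lt.le.trans (by norm_num)) le_rfl (hM₀.trans R.M_large) R.u_le

/-- The light part: if every `d ∈ G` has `|S ∩ dℤ| ≤ η |S|` with `S = U`, `∑_{x ∈ V} T_G(x) ≤ a |V'|` then the trivial bound gives
`Off ≤ w η a |U'| |V'|`, for `U ⊆ U'`, `V ⊆ V'`. -/
theorem light_bound {γ D w η a : ℝ} (hw : 0 ≤ w) (hη : 0 ≤ η) {G U V U' V' : Finset ℕ}
    (hU : U ⊆ U') (h1 : ∀ d ∈ G, ((U.filter (d ∣ ·)).card : ℝ) ≤ η * U'.card)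
    (h2 : ((∑ x ∈ V, TT G x : ℕ) : ℝ) ≤ a * V'.card) :
    Off γ D w G U V ≤ w * (η * U'.card) * (a * V'.card) := by
  have hc : (0:ℝ) ≤ η * U'.card := by positivity
  calc Off γ D w G U V
      ≤ w * ∑ d ∈ G, ((U.filter (d ∣ ·)).card : ℝ) * ((V.filter (d ∣ ·)).card : ℝ) :=
        off_le_trivial hw G U V
    _ ≤ w * ∑ d ∈ G, (η * U'.card) * ((V.filter (d ∣ ·)).card : ℝ) := by
        refine mul_le_mul_of_nonneg_left (Finset.sum_le_sum fun d hd => ?_) hw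
        exact mul_le_mul_of_nonneg_right (h1 d hd) (by positivity)
    _ = w * ((η * U'.card) * ((∑ d ∈ G, (V.filter (d ∣ ·)).card : ℕ) : ℝ)) := by
        rw [← Finset.mul_sum]
        push_cast
        rfl
    _ = w * (η * U'.card) * ((∑ x ∈ V, TT G x : ℕ) : ℝ) := by
        rw [sum_filter_dvd]
        ring
    _ ≤ w * (η * U'.card) * (a * V'.card) :=
        mul_le_mul_of_nonneg_left h2 (mul_nonneg hw hc)

/-- The heavy set is small: at most `a/η` elements if `∑_{x ∈ U} T_G(x) ≤ a |U'|`. -/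
theorem heavy_card {G U U' : Finset ℕ} {η a : ℝ} (hη : 0 < η) (ha : 0 ≤ a)
    (h2 : ((∑ x ∈ U, TT G x : ℕ) : ℝ) ≤ a * U'.card) :
    ((G.filter (fun d => η * (U'.card : ℝ) < ((U.filter (d ∣ ·)).card : ℝ))).card : ℝ) ≤ a / η := by
  set H := G.filter (fun d => η * (U'.card : ℝ) < ((U.filter (d ∣ ·)).card : ℝ)) with hH
  have h3 : ((H.card : ℝ)) * (η * U'.card) ≤ a * U'.card := by
    calc ((H.card : ℝ)) * (η * U'.card) = ∑ _d ∈ H, (η * (U'.card : ℝ)) := by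
          simp [Finset.sum_const, nsmul_eq_mul]
      _ ≤ ∑ d ∈ H, ((U.filter (d ∣ ·)).card : ℝ) :=
          Finset.sum_le_sum fun d hd => (Finset.mem_filter.mp hd).2.le
      _ ≤ ∑ d ∈ G, ((U.filter (d ∣ ·)).card : ℝ) :=
          Finset.sum_le_sum_of_subset_of_nonneg (Finset.filter_subset _ _)
            fun d _ _ => by positivity
      _ = ((∑ d ∈ G, (U.filter (d ∣ ·)).card : ℕ) : ℝ) := by push_cast; rfl
      _ = ((∑ x ∈ U, TT G x : ℕ) : ℝ) := by rw [sum_filter_dvd]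
      _ ≤ a * U'.card := h2
  rcases Nat.eq_zero_or_pos U'.card with h0 | hpos
  · have hemp : H = ∅ := by
      rw [Finset.eq_empty_iff_forall_notMem]
      intro d hd
      have hd1 := Finset.mem_filter.mp hd
      have hsum : ((∑ x ∈ U, TT G x : ℕ) : ℝ) ≤ 0 := by simpa [h0] using h2
      have hsum0 : (∑ x ∈ U, TT G x) = 0 := by
        have : (∑ x ∈ U, TT G x) ≤ 0 := by exact_mod_cast hsum
        omega
      rw [← sum_filter_dvd] at hsum0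
      have hz := (Finset.sum_eq_zero_iff.mp hsum0) d hd1.1
      have h5 := hd1.2
      rw [h0, hz] at h5
      simp at h5
    rw [hemp]
    simp only [Finset.card_empty, Nat.cast_zero]
    positivity
  · have hU : (0:ℝ) < (U'.card : ℝ) := by exact_mod_cast hpos
    rw [le_div_iff₀ hη]
    have h4 : (H.card : ℝ) * η * U'.card ≤ a * U'.card := by
      calc (H.card : ℝ) * η * U'.card = ((H.card : ℝ)) * (η * U'.card) := by ring
        _ ≤ _ := h3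
    exact le_of_mul_le_mul_right h4 hU

end Vale.Agent.Lib.P028T
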