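import Vale.Agent.Lib.P028T.RoundBase

/-! Round F: blueprint section 9. -/

open Finset

namespace Vale.Agent.Lib.P028T

open Vale.Agent.Lib.P028

/-- The number of elements of a family dividing `x` is at most the number of divisors of `x`. -/
lemma rf_TT_mono {A B : Finset ℕ} (h : A ⊆ B) (x : ℕ) : TT A x ≤ TT B x :=
  Finset.card_le_card (Finset.filter_subset_filter _ h)

lemma rf_TT_le_divisors (A : Finset ℕ) {x : ℕ} (hx : x ≠ 0) : TT A x ≤ x.divisors.card := by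
  unfold TT
  apply Finset.card_le_card
  intro d hd
  rw [Finset.mem_filter] at hd
  exact Nat.mem_divisors.mpr ⟨hd.2, hx⟩

/-- Counting incidences on a set on which `T` is bounded. -/
lemma rf_sum_TT_le {A U : Finset ℕ} {a : ℝ} (h : ∀ x ∈ U, (TT A x : ℝ) ≤ a) :
    ((∑ x ∈ U, TT A x : ℕ) : ℝ) ≤ a * U.card := by
  push_cast
  calc ∑ x ∈ U, (TT A x : ℝ) ≤ ∑ _x ∈ U, a := Finset.sum_le_sum h
    _ = a * U.card := by rw [Finset.sum_const, nsmul_eq_mul, mul_comm]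

lemma rf_cc_pos {k : ℕ} (hk : 1 ≤ k) : 0 < cc k := by
  unfold cc
  have : (1:ℝ) ≤ k := by exact_mod_cast hk
  positivity

/-- Round F: very large families, no large sieve. -/
theorem round_F {c₀ : ℝ} {k : ℕ} (hc₀ : 0 < c₀) (hk : 1 ≤ k) :
    ∃ M₀ : ℝ, 1 ≤ M₀ ∧ ∀ {γ : ℝ} {p : Par} {S₁ S₂ : Finset ℕ} {τb : ℝ},
      Regime γ c₀ k M₀ p S₁ S₂ τb → ∀ {A : Finset ℕ}, (∀ d ∈ A, p.E ≤ d ∧ d < 2 * p.E) →
      p.M₂ ^ (16 * cc k) < (A.card : ℝ) →
      ∃ H ⊆ A, 2 * H.card ≤ A.card ∧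
        Off γ p.D p.w (A \ H) S₁ S₂ ≤ 16 * p.ms S₁ S₂ * (A.card : ℝ) ^ (-(1:ℝ) / 2) := by
  have hc := rf_cc_pos hk
  refine ⟨(2:ℝ) ^ (1 / (3 * cc k)), ?_, ?_⟩
  · apply Real.one_le_rpow (by norm_num)
    positivity
  intro γ p S₁ S₂ τb R A hA hK
  have hM₀ : (1:ℝ) ≤ (2:ℝ) ^ (1 / (3 * cc k)) := by
    apply Real.one_le_rpow (by norm_num)
    positivity
  obtain ⟨hM1, hD0, hD1, hU1, hms, hB0, hw, hwS, hmu⟩ := R.facts hM₀
  have hM₂pos : 0 < p.M₂ := by linarith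
  set K : ℝ := (A.card : ℝ) with hKdef
  set c := cc k with hcdef
  have hKpos : 0 < K := lt_of_le_of_lt (Real.rpow_nonneg hM₂pos.le _) hK
  have hKge1 : 1 ≤ K := (Real.one_le_rpow hM1 (by positivity)).trans hK.le
  -- 2 ≤ M₂^(3c)
  have h2 : (2:ℝ) ≤ p.M₂ ^ (3 * c) := by
    have h := Real.rpow_le_rpow (by positivity) R.M_large (show (0:ℝ) ≤ 3 * c by positivity)
    rwa [← Real.rpow_mul (by norm_num), one_div, inv_mul_cancel₀ (by positivity), Real.rpow_one] at h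
  -- K^(1/4) ≥ M₂^(4c)
  have hK4 : p.M₂ ^ (4 * c) ≤ K ^ ((1:ℝ) / 4) := by
    have h := Real.rpow_le_rpow (Real.rpow_nonneg hM₂pos.le _) hK.le (show (0:ℝ) ≤ 1 / 4 by norm_num)
    rw [← Real.rpow_mul hM₂pos.le] at h
    have e : 16 * c * (1 / 4) = 4 * c := by ring
    rwa [e] at h
  have h4 : p.M₂ ^ (4 * c) = p.M₂ ^ (3 * c) * p.M₂ ^ c := by
    rw [← Real.rpow_add hM₂pos]; congr 1; ring
  have hMc : 0 < p.M₂ ^ c := Real.rpow_pos_of_pos hM₂pos _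
  have hτ0 : 0 < τb := by linarith [R.tau_one]
  -- 2 τb ≤ K^(1/4)
  have hτK : 2 * τb ≤ K ^ ((1:ℝ) / 4) := by
    have h3 := R.tau_le
    have : 2 * τb ≤ p.M₂ ^ (3 * c) * p.M₂ ^ c :=
      mul_le_mul h2 h3 hτ0.le (by positivity)
    linarith
  -- τb/D ≤ K^(1/4)
  have hDinv : 1 / p.D ≤ p.M₂ ^ (2 * c) := by
    have h := R.D_ge
    rw [Real.rpow_neg hM₂pos.le] at h
    rw [div_le_iff₀ hD0]
    have hpos : 0 < p.M₂ ^ (2 * c) := Real.rpow_pos_of_pos hM₂pos _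
    have := mul_le_mul_of_nonneg_left h hpos.le
    rwa [mul_inv_cancel₀ hpos.ne'] at this
  have hτD : τb * (1 / p.D) ≤ K ^ ((1:ℝ) / 4) := by
    have h6 : τb * (1 / p.D) ≤ p.M₂ ^ c * p.M₂ ^ (2 * c) :=
      mul_le_mul R.tau_le hDinv (by positivity) hMc.le
    have h7 : p.M₂ ^ c * p.M₂ ^ (2 * c) = p.M₂ ^ (3 * c) := by
      rw [← Real.rpow_add hM₂pos]; congr 1; ring
    have h8 : p.M₂ ^ (3 * c) ≤ p.M₂ ^ (4 * c) := by
      apply Real.rpow_le_rpow_of_exponent_le hM1; linarith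
    linarith
  set η : ℝ := K ^ (-((3:ℝ) / 4)) with hη
  have hηpos : 0 < η := Real.rpow_pos_of_pos hKpos _
  classical
  set H := A.filter (fun d => η * (S₁.card : ℝ) < ((S₁.filter (d ∣ ·)).card : ℝ)) with hH
  have hne₁ : ∀ x ∈ S₁, x ≠ 0 := fun x hx => by
    have h1 := (R.S₁_mem x hx).1
    have h2 := R.good.Q₁_pos
    omega
  have hne₂ : ∀ x ∈ S₂, x ≠ 0 := fun x hx => by
    have h1 := (R.S₂_mem x hx).1
    have h2 := R.good.Q₁_pos
    have h3 := R.good.Q_le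
    omega
  refine ⟨H, Finset.filter_subset _ _, ?_, ?_⟩
  · -- the heavy set is small
    have hb : ((∑ x ∈ S₁, TT A x : ℕ) : ℝ) ≤ τb * S₁.card :=
      rf_sum_TT_le fun x hx =>
        le_trans (by exact_mod_cast rf_TT_mono (fun d hd => Finset.mem_Ico.2 (hA d hd)) x) (R.tau_S₁ x hx)
    have hc1 := heavy_card hηpos hτ0.le hb
    rw [← hH] at hc1
    have hc2 : τb / η = τb * K ^ ((3:ℝ) / 4) := by
      rw [hη, Real.rpow_neg hKpos.le, div_inv_eq_mul]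
    have hc3 : K ^ ((3:ℝ) / 4) * K ^ ((1:ℝ) / 4) = K := by
      rw [← Real.rpow_add hKpos]; norm_num
    have hc4 : 2 * (H.card : ℝ) ≤ K := by
      have hp : 0 < K ^ ((3:ℝ) / 4) := Real.rpow_pos_of_pos hKpos _
      calc 2 * (H.card : ℝ) ≤ 2 * (τb * K ^ ((3:ℝ) / 4)) := by rw [← hc2]; linarith
        _ = (2 * τb) * K ^ ((3:ℝ) / 4) := by ring
        _ ≤ K ^ ((1:ℝ) / 4) * K ^ ((3:ℝ) / 4) := mul_le_mul_of_nonneg_right hτK hp.le
        _ = K := by rw [mul_comm]; exact hc3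
    rw [hKdef] at hc4
    exact_mod_cast hc4
  · -- the light part
    have h1 : ∀ d ∈ A \ H, ((S₁.filter (d ∣ ·)).card : ℝ) ≤ η * S₁.card := by
      intro d hd
      rw [Finset.mem_sdiff, hH, Finset.mem_filter, not_and] at hd
      exact not_lt.mp (hd.2 hd.1)
    have h2' : ((∑ x ∈ S₂, TT (A \ H) x : ℕ) : ℝ) ≤ τb * S₂.card :=
      rf_sum_TT_le fun x hx =>
        le_trans (by exact_mod_cast rf_TT_mono (fun d hd => Finset.mem_Ico.2 (hA d (Finset.mem_sdiff.1 hd).1)) x) (R.tau_S₂ x hx)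
    have hl := light_bound (γ := γ) (D := p.D) hw.le hηpos.le (Finset.Subset.refl S₁) h1 h2'
    refine hl.trans ?_
    have hS : p.w * ((S₁.card : ℝ) * S₂.card) ≤ 8 * (2 * p.ms S₁ S₂) * (1 / p.D) := by
      refine hwS.trans ?_
      rw [div_eq_mul_one_div]
      apply mul_le_mul_of_nonneg_right _ (by positivity)
      linarith
    have e1 : p.w * (η * (S₁.card : ℝ)) * (τb * (S₂.card : ℝ))
        = (η * τb) * (p.w * ((S₁.card : ℝ) * S₂.card)) := by ring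
    rw [e1]
    have hητ : 0 ≤ η * τb := by positivity
    have hfin : η * K ^ ((1:ℝ) / 4) = K ^ (-(1:ℝ) / 2) := by
      rw [hη, ← Real.rpow_add hKpos]; norm_num
    calc (η * τb) * (p.w * ((S₁.card : ℝ) * S₂.card))
        ≤ (η * τb) * (8 * (2 * p.ms S₁ S₂) * (1 / p.D)) := mul_le_mul_of_nonneg_left hS hητ
      _ = 16 * p.ms S₁ S₂ * (η * (τb * (1 / p.D))) := by ring
      _ ≤ 16 * p.ms S₁ S₂ * (η * K ^ ((1:ℝ) / 4)) := by
          apply mul_le_mul_of_nonneg_left _ (by positivity)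
          exact mul_le_mul_of_nonneg_left hτD hηpos.le
      _ = 16 * p.ms S₁ S₂ * K ^ (-(1:ℝ) / 2) := by rw [hfin]

end Vale.Agent.Lib.P028T
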