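import Vale.Agent.Lib.P028T.RoundF
import Vale.Agent.Lib.P028T.RoundA
import Vale.Agent.Lib.P028T.RoundB

/-! One step of the descent: blueprint section 9. -/

open Finset

namespace Vale.Agent.Lib.P028T

open Vale.Agent.Lib.P028

/-- The error of one step. -/
noncomputable def gg (c₀ : ℝ) (k : ℕ) (Cs : ℝ) (p : Par) (S₁ S₂ : Finset ℕ) (K : ℕ) : ℝ :=
  open Classical in
  p.ms S₁ S₂ * (Cs * (K:ℝ) ^ (-(1:ℝ) / 192) +
    if (K:ℝ) ≤ min (p.D ^ (-(8:ℝ))) (p.M₂ ^ (16 * cc k)) then (K:ℝ) ^ ((1:ℝ) / 16) * p.B0 c₀ k p.D else 0)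

private lemma ka_facts {K₀ D Υ K : ℝ} (hD : 0 < D) (hΥ : 1 ≤ Υ) (h : Ka K₀ D Υ < K) :
    K₀ < K ∧ 1 / D ≤ K ^ 2 ∧ Υ ≤ K ^ 2 := by
  unfold Ka at h
  have h1 : D ^ (-(1:ℝ) / 2) < K := (le_max_left _ _).trans_lt ((le_max_left _ _).trans_lt h)
  have h2 : Υ ^ ((1:ℝ) / 2) < K := (le_max_right _ _).trans_lt ((le_max_left _ _).trans_lt h)
  have h3 : K₀ < K := (le_max_right _ _).trans_lt h
  have hp1 : 0 < D ^ (-(1:ℝ) / 2) := Real.rpow_pos_of_pos hD _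
  have hΥ0 : 0 < Υ := by linarith
  have hp2 : 0 < Υ ^ ((1:ℝ) / 2) := Real.rpow_pos_of_pos hΥ0 _
  refine ⟨h3, ?_, ?_⟩
  · have e : (D ^ (-(1:ℝ) / 2)) ^ 2 = 1 / D := by
      rw [← Real.rpow_natCast, ← Real.rpow_mul hD.le]
      norm_num [Real.rpow_neg_one]
    rw [← e]
    exact pow_le_pow_left₀ hp1.le h1.le 2
  · have e : (Υ ^ ((1:ℝ) / 2)) ^ 2 = Υ := by
      rw [← Real.rpow_natCast, ← Real.rpow_mul hΥ0.le]
      norm_num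
    calc Υ = (Υ ^ ((1:ℝ) / 2)) ^ 2 := e.symm
      _ ≤ K ^ 2 := pow_le_pow_left₀ hp2.le h2.le 2

/-- One step of the descent. -/
theorem step_main {c₀ : ℝ} {k : ℕ} (hc₀ : 0 < c₀) (hk : 1 ≤ k) :
    ∃ M₀ K₀ Cs : ℝ, 1 ≤ M₀ ∧ 1 ≤ K₀ ∧ 1 ≤ Cs ∧ ∀ {γ : ℝ} {p : Par} {S₁ S₂ : Finset ℕ} {τb : ℝ},
      Regime γ c₀ k M₀ p S₁ S₂ τb → ∀ {A : Finset ℕ}, (∀ d ∈ A, p.E ≤ d ∧ d < 2 * p.E) →
      Ka K₀ p.D p.Ups < (A.card : ℝ) →
      ∃ A' ⊆ A, 2 * A'.card ≤ A.card ∧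
        Off γ p.D p.w (A \ A') S₁ S₂ ≤ 768 / (p.N₁ * p.N₂) * (Exact (A \ A') S₁ S₂ : ℝ)
          + gg c₀ k Cs p S₁ S₂ A.card := by
  obtain ⟨MF, hMF, hF⟩ := round_F (c₀ := c₀) hc₀ hk
  obtain ⟨Ma, Ka', Ca, hMa, hKa', hCa, ha⟩ := round_a (c₀ := c₀) hc₀ hk
  obtain ⟨Mb, Kb, Cb, hMb, hKb, hCb, hb⟩ := round_b (c₀ := c₀) hc₀ hk
  refine ⟨max MF (max Ma Mb), max Ka' Kb, Ca + Cb + 16, le_max_of_le_left hMF, le_max_of_le_left hKa',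
    by linarith, ?_⟩
  intro γ p S₁ S₂ τb R A hA hK
  have RF := R.mono (le_max_left MF _)
  have Ra := R.mono ((le_max_left Ma Mb).trans (le_max_right MF _))
  have Rb := R.mono ((le_max_right Ma Mb).trans (le_max_right MF _))
  have hp := R.good
  obtain ⟨hM2, hD, hD1, hU, hms, hB0, hw, -, -⟩ :=
    Regime.facts (le_max_of_le_left hMF) R
  obtain ⟨hK0, hK1, hK2⟩ := ka_facts hD hU hK
  have hK0a : Ka' ≤ (A.card : ℝ) := (le_max_left _ _).trans hK0.le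
  have hK0b : Kb ≤ (A.card : ℝ) := (le_max_right _ _).trans hK0.le
  have hKone : (1:ℝ) ≤ (A.card : ℝ) := hKa'.trans hK0a
  have hKpos : (0:ℝ) < (A.card : ℝ) := by linarith
  have hN : 0 < p.N₁ * p.N₂ := mul_pos hp.N₁_pos hp.N₂_pos
  set K : ℝ := (A.card : ℝ) with hKdef
  have hKs : 0 ≤ K ^ (-(1:ℝ) / 192) := Real.rpow_nonneg hKpos.le _
  have hKt : 0 ≤ K ^ ((1:ℝ) / 16) * p.B0 c₀ k p.D :=
    mul_nonneg (Real.rpow_nonneg hKpos.le _) hB0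
  by_cases hc1 : p.M₂ ^ (16 * cc k) < K
  · obtain ⟨H, hHA, hH2, hH⟩ := hF RF hA hc1
    refine ⟨H, hHA, hH2, hH.trans ?_⟩
    have hE : (0:ℝ) ≤ 768 / (p.N₁ * p.N₂) * (Exact (A \ H) S₁ S₂ : ℝ) := by positivity
    have hgg : p.ms S₁ S₂ * ((Ca + Cb + 16) * K ^ (-(1:ℝ) / 192)) ≤ gg c₀ k (Ca + Cb + 16) p S₁ S₂ A.card := by
      unfold gg
      refine mul_le_mul_of_nonneg_left ?_ hms
      split_ifs <;> simp only [← hKdef] <;> linarith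
    have h1 : K ^ (-(1:ℝ) / 2) ≤ K ^ (-(1:ℝ) / 192) :=
      Real.rpow_le_rpow_of_exponent_le hKone (by norm_num)
    have h2 : 16 * p.ms S₁ S₂ * K ^ (-(1:ℝ) / 2) ≤ p.ms S₁ S₂ * ((Ca + Cb + 16) * K ^ (-(1:ℝ) / 192)) := by
      have h3 : 16 * K ^ (-(1:ℝ) / 2) ≤ (Ca + Cb + 16) * K ^ (-(1:ℝ) / 192) :=
        mul_le_mul (by linarith) h1 (Real.rpow_nonneg hKpos.le _) (by linarith)
      calc 16 * p.ms S₁ S₂ * K ^ (-(1:ℝ) / 2) = p.ms S₁ S₂ * (16 * K ^ (-(1:ℝ) / 2)) := by ring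
        _ ≤ _ := mul_le_mul_of_nonneg_left h3 hms
    linarith
  · have hc1' : K ≤ p.M₂ ^ (16 * cc k) := not_lt.mp hc1
    by_cases hc2 : p.D ^ (-(8:ℝ)) < K
    · obtain ⟨A', hA', h2A, hO⟩ := hb Rb hA hK0b hK1 hK2 hc1' hc2
      refine ⟨A', hA', h2A, hO.trans ?_⟩
      have hgg : p.ms S₁ S₂ * (Cb * K ^ (-(1:ℝ) / 192)) ≤ gg c₀ k (Ca + Cb + 16) p S₁ S₂ A.card := by
        unfold gg
        refine mul_le_mul_of_nonneg_left ?_ hms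
        have h5 : Cb * K ^ (-(1:ℝ) / 192) ≤ (Ca + Cb + 16) * K ^ (-(1:ℝ) / 192) :=
          mul_le_mul_of_nonneg_right (by linarith) hKs
        split_ifs <;> simp only [← hKdef] <;> linarith
      linarith
    · have hc2' : K ≤ p.D ^ (-(8:ℝ)) := not_lt.mp hc2
      obtain ⟨A', hA', h2A, hO⟩ := ha Ra hA hK0a hK1 hK2 hc1'
      refine ⟨A', hA', h2A, hO.trans ?_⟩
      have hE : (0:ℝ) ≤ (Exact (A \ A') S₁ S₂ : ℝ) := by positivity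
      have hE2 : 384 / (p.N₁ * p.N₂) * (Exact (A \ A') S₁ S₂ : ℝ)
          ≤ 768 / (p.N₁ * p.N₂) * (Exact (A \ A') S₁ S₂ : ℝ) := by
        refine mul_le_mul_of_nonneg_right ?_ hE
        exact div_le_div_of_nonneg_right (by norm_num) hN.le
      have hgg : p.ms S₁ S₂ * (K ^ ((1:ℝ) / 16) * p.B0 c₀ k p.D + Ca * K ^ (-(1:ℝ) / 192))
          ≤ gg c₀ k (Ca + Cb + 16) p S₁ S₂ A.card := by
        unfold gg
        refine mul_le_mul_of_nonneg_left ?_ hms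
        have h5 : Ca * K ^ (-(1:ℝ) / 192) ≤ (Ca + Cb + 16) * K ^ (-(1:ℝ) / 192) :=
          mul_le_mul_of_nonneg_right (by linarith) hKs
        rw [if_pos (le_min hc2' hc1')]
        linarith
      linarith

end Vale.Agent.Lib.P028T
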