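import Vale.Agent.Lib.P028T.Defs

/-! Summing over the blocks: blueprint sections 0 and 12. -/

open Finset

namespace Vale.Agent.Lib.P028T

/-- The lower bound for `Υ` used in the Schur sums: `Υ ≥ 2^(s/2) 2^(|z|/4)`. -/
private lemma ups_ge (b₁ b₂ : ℕ × ℕ) (h : b₁.1 ≤ b₂.1) :
    (2:ℝ) ^ (((b₂.1 - b₁.1 : ℕ):ℝ) / 2 +
      ((((b₂.1 - b₁.1 : ℕ):ℤ) + (b₂.2:ℤ) - (b₁.2:ℤ)).natAbs : ℝ) / 4) ≤ UpsI b₁ b₂ := by
  obtain ⟨i₁, n₁⟩ := b₁
  obtain ⟨i₂, n₂⟩ := b₂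
  simp only at h ⊢
  obtain ⟨s, rfl⟩ : ∃ s, i₂ = i₁ + s := ⟨i₂ - i₁, by omega⟩
  have hs : i₁ + s - i₁ = s := by omega
  rw [hs]
  set z : ℤ := (s:ℤ) + (n₂:ℤ) - (n₁:ℤ) with hz
  have hu : (Par.mk (2 ^ i₁) (2 ^ (i₁ + s)) 1 ((2:ℝ) ^ n₁) ((2:ℝ) ^ n₂)).u = (2:ℝ) ^ s := by
    simp only [Par.u]
    push_cast
    rw [pow_add]
    field_simp
  have hv : (Par.mk (2 ^ i₁) (2 ^ (i₁ + s)) 1 ((2:ℝ) ^ n₁) ((2:ℝ) ^ n₂)).v = (2:ℝ) ^ z := by
    simp only [Par.v]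
    rw [hu, hz, zpow_sub₀ (by norm_num), zpow_add₀ (by norm_num)]
    simp [zpow_natCast]
  unfold UpsI
  simp only [Par.Ups]
  rw [hu, hv]
  set A := ((s:ℝ)) with hA
  set Z := ((z.natAbs:ℝ)) with hZ
  have h2 : (1:ℝ) ≤ 2 := by norm_num
  have hus : (2:ℝ) ^ s = (2:ℝ) ^ A := by rw [hA, Real.rpow_natCast]
  have hmax : (2:ℝ) ^ Z ≤ max ((2:ℝ) ^ z) ((2:ℝ) ^ z)⁻¹ := by
    rw [hZ, Real.rpow_natCast]
    rcases le_total 0 z with hz0 | hz0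
    · apply le_max_of_le_left
      have : z = (z.natAbs : ℤ) := (Int.natAbs_of_nonneg hz0).symm
      conv_rhs => rw [this, zpow_natCast]
    · apply le_max_of_le_right
      have : z = -(z.natAbs : ℤ) := by omega
      conv_rhs => rw [this, zpow_neg, zpow_natCast, inv_inv]
  have hsq : (2:ℝ) ^ (Z / 2) ≤ Real.sqrt (max ((2:ℝ) ^ z) ((2:ℝ) ^ z)⁻¹) := by
    apply Real.le_sqrt_of_sq_le
    rw [← Real.rpow_natCast, ← Real.rpow_mul (by norm_num)]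
    have : Z / 2 * ((2:ℕ):ℝ) = Z := by
      push_cast
      ring
    rw [this]
    exact hmax
  rw [hus]
  rcases le_total (Z / 2) A with hc | hc
  · apply le_max_of_le_left
    apply Real.rpow_le_rpow_of_exponent_le h2
    linarith
  · apply le_max_of_le_right
    refine le_trans ?_ hsq
    apply Real.rpow_le_rpow_of_exponent_le h2
    linarith

/-- The weight on `ℕ × ℤ` that dominates `Υ^(-c)`. -/
private noncomputable def wt (c : ℝ) (w : ℕ × ℤ) : ℝ :=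
  ((2:ℝ) ^ (-(c / 2))) ^ w.1 * ((2:ℝ) ^ (-(c / 4))) ^ w.2.natAbs

private lemma wt_nonneg (c : ℝ) (w : ℕ × ℤ) : 0 ≤ wt c w := by
  unfold wt
  positivity

private lemma geo_lt {a : ℝ} (ha : 0 < a) : (2:ℝ) ^ (-a) < 1 :=
  Real.rpow_lt_one_of_one_lt_of_neg (by norm_num) (by linarith)

private lemma wt_summable {c : ℝ} (hc : 0 < c) : Summable (wt c) := by
  have h1 : Summable fun s : ℕ => ((2:ℝ) ^ (-(c / 2))) ^ s :=
    summable_geometric_of_lt_one (by positivity) (geo_lt (by positivity))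
  have h2n : Summable fun s : ℕ => ((2:ℝ) ^ (-(c / 4))) ^ s :=
    summable_geometric_of_lt_one (by positivity) (geo_lt (by positivity))
  have h2 : Summable fun z : ℤ => ((2:ℝ) ^ (-(c / 4))) ^ z.natAbs := by
    apply Summable.of_nat_of_neg
    · simpa using h2n
    · simpa using h2n
  have := Summable.mul_of_nonneg h1 h2 (fun _ => by positivity) (fun _ => by positivity)
  exact this

private lemma ups_rpow_le {c : ℝ} (hc : 0 < c) (b₁ b₂ : ℕ × ℕ) (h : b₁.1 ≤ b₂.1) :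
    UpsI b₁ b₂ ^ (-c) ≤ wt c (b₂.1 - b₁.1, ((b₂.1 - b₁.1 : ℕ):ℤ) + (b₂.2:ℤ) - (b₁.2:ℤ)) := by
  set s := b₂.1 - b₁.1 with hs
  set z : ℤ := ((s : ℕ):ℤ) + (b₂.2:ℤ) - (b₁.2:ℤ) with hz
  have h1 := ups_ge b₁ b₂ h
  rw [← hs, ← hz] at h1
  have h2 : UpsI b₁ b₂ ^ (-c) ≤ ((2:ℝ) ^ ((s:ℝ) / 2 + (z.natAbs:ℝ) / 4)) ^ (-c) :=
    Real.rpow_le_rpow_of_nonpos (by positivity) h1 (by linarith)
  refine h2.trans (le_of_eq ?_)
  unfold wt
  simp only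
  rw [← Real.rpow_natCast, ← Real.rpow_natCast, ← Real.rpow_mul (by norm_num),
    ← Real.rpow_mul (by norm_num), ← Real.rpow_mul (by norm_num), ← Real.rpow_add (by norm_num)]
  congr 1
  ring

private lemma sum_le_wt {c : ℝ} (hc : 0 < c) {ι : Type*} [DecidableEq ι] (F : Finset ι) (g : ι → ℝ)
    (φ : ι → ℕ × ℤ) (hφ : Set.InjOn φ F) (hg : ∀ x ∈ F, g x ≤ wt c (φ x)) :
    ∑ x ∈ F, g x ≤ ∑' w, wt c w := by
  calc ∑ x ∈ F, g x ≤ ∑ x ∈ F, wt c (φ x) := Finset.sum_le_sum hg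
    _ = ∑ w ∈ F.image φ, wt c w := (Finset.sum_image hφ).symm
    _ ≤ ∑' w, wt c w := (wt_summable hc).sum_le_tsum _ (fun _ _ => wt_nonneg c _)

/-- The Schur sums over dyadic blocks `(i, n)`: `(i,n) ↦ (s,z)` is injective and `Υ ≥ 2^(s/2) 2^(|z|/4)`. -/
theorem schur_sum {c : ℝ} (hc : 0 < c) : ∃ S : ℝ, 0 < S ∧ ∀ (B : Finset (ℕ × ℕ)) (b₀ : ℕ × ℕ),
    ∑ b ∈ B.filter (fun b => b₀.1 ≤ b.1), UpsI b₀ b ^ (-c) ≤ S ∧
    ∑ b ∈ B.filter (fun b => b.1 ≤ b₀.1), UpsI b b₀ ^ (-c) ≤ S := by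
  refine ⟨∑' w, wt c w + 1, ?_, ?_⟩
  · have : 0 ≤ ∑' w, wt c w := tsum_nonneg (wt_nonneg c)
    linarith
  · intro B b₀
    constructor
    · refine (sum_le_wt hc _ _ (fun b => (b.1 - b₀.1, ((b.1 - b₀.1 : ℕ):ℤ) + (b.2:ℤ) - (b₀.2:ℤ))) ?_ ?_).trans
        (by linarith)
      · intro b hb b' hb' heq
        have hb1 : b₀.1 ≤ b.1 := (Finset.mem_filter.mp (Finset.mem_coe.mp hb)).2
        have hb1' : b₀.1 ≤ b'.1 := (Finset.mem_filter.mp (Finset.mem_coe.mp hb')).2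
        simp only [Prod.mk.injEq] at heq
        obtain ⟨h1, h2⟩ := heq
        apply Prod.ext <;> omega
      · intro b hb
        exact ups_rpow_le hc b₀ b (Finset.mem_filter.mp hb).2
    · refine (sum_le_wt hc _ _ (fun b => (b₀.1 - b.1, ((b₀.1 - b.1 : ℕ):ℤ) + (b₀.2:ℤ) - (b.2:ℤ))) ?_ ?_).trans
        (by linarith)
      · intro b hb b' hb' heq
        have hb1 : b.1 ≤ b₀.1 := (Finset.mem_filter.mp (Finset.mem_coe.mp hb)).2
        have hb1' : b'.1 ≤ b₀.1 := (Finset.mem_filter.mp (Finset.mem_coe.mp hb')).2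
        simp only [Prod.mk.injEq] at heq
        obtain ⟨h1, h2⟩ := heq
        apply Prod.ext <;> omega
      · intro b hb
        exact ups_rpow_le hc b b₀ (Finset.mem_filter.mp hb).2

end Vale.Agent.Lib.P028T
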