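import Vale.Agent.Lib.P028T.BlockSum
import Vale.Agent.Lib.P028T.SchurSum

/-! The combinatorial core: blueprint sections 0 and 12. -/

open Finset

namespace Vale.Agent.Lib.P028T

open Vale.Agent.Lib.P028

/-- The small overlap term of a pair with the side condition that the pair is off the diagonal. -/
noncomputable def gTerm (γ : ℝ) (ψ : ℕ → ℝ) (q r : ℕ) : ℝ :=
  let g := Nat.gcd q r
  let q' : ℝ := ((q / g : ℕ) : ℝ)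
  let r' : ℝ := ((r / g : ℕ) : ℝ)
  let X := max (r' * ψ q) (q' * ψ r)
  if q ≠ r ∧ X < 1 / 768 ∧ dn ((r' - q') * γ) < 2 * X then min (ψ q / q') (ψ r / r') else 0

lemma gTerm_nonneg {γ : ℝ} {ψ : ℕ → ℝ} {q r : ℕ} (h₁ : 0 ≤ ψ q) (h₂ : 0 ≤ ψ r) :
    0 ≤ gTerm γ ψ q r := by
  unfold gTerm
  simp only
  split_ifs with h
  · exact le_min (div_nonneg h₁ (Nat.cast_nonneg _)) (div_nonneg h₂ (Nat.cast_nonneg _))
  · exact le_rfl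

lemma pairTerm_eq_gTerm {γ : ℝ} {ψ : ℕ → ℝ} {q r : ℕ} (h : q ≠ r) :
    pairTerm γ ψ q r = gTerm γ ψ q r := by
  unfold pairTerm gTerm
  simp only [ne_eq, h, not_false_eq_true, true_and]

/-- The sum over all pairs is dominated by the sum with the logarithms ordered. -/
lemma pair_sum_le (γ : ℝ) (ψ : ℕ → ℝ) (F : Finset ℕ) (hψ : ∀ q ∈ F, 0 ≤ ψ q) :
    ∑ r ∈ F, ∑ q ∈ F.filter (· < r), pairTerm γ ψ q r ≤
      ∑ q ∈ F, ∑ r ∈ F, if Nat.log 2 q ≤ Nat.log 2 r then gTerm γ ψ q r else 0 := by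
  have e : ∑ r ∈ F, ∑ q ∈ F.filter (· < r), pairTerm γ ψ q r =
      ∑ q ∈ F, ∑ r ∈ F, if q < r then pairTerm γ ψ q r else 0 := by
    simp_rw [sum_filter]
    exact sum_comm
  rw [e]
  refine sum_le_sum fun q hq => sum_le_sum fun r hr => ?_
  by_cases h : q < r
  · rw [if_pos h, if_pos (Nat.log_mono_right h.le), pairTerm_eq_gTerm h.ne]
  · rw [if_neg h]
    split_ifs
    · exact gTerm_nonneg (hψ q hq) (hψ r hr)
    · exact le_rfl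

lemma blockOff_eq {γ N₁ N₂ : ℝ} {ψ : ℕ → ℝ} {S₁ S₂ : Finset ℕ}
    (h₁ : ∀ q ∈ S₁, ψ q = 1 / N₁) (h₂ : ∀ r ∈ S₂, ψ r = 1 / N₂) :
    BlockOff γ N₁ N₂ S₁ S₂ = ∑ q ∈ S₁, ∑ r ∈ S₂, gTerm γ ψ q r := by
  unfold BlockOff
  rw [sum_product]
  refine sum_congr rfl fun q hq => sum_congr rfl fun r hr => ?_
  unfold gTerm
  simp only [h₁ q hq, h₂ r hr, mul_one_div]

/-- The combinatorial core. -/
theorem core_sum {γ c₀ : ℝ} {k : ℕ} (hγ : Dio γ c₀ k) (hc₀ : 0 < c₀) (hk : 1 ≤ k) :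
    ∃ (W C₀ : ℝ), 1 ≤ W ∧ 0 < C₀ ∧ ∀ (F : Finset ℕ) (ψ : ℕ → ℝ), (∀ q ∈ F, 1 ≤ q) →
      (∀ q ∈ F, (∃ n : ℕ, ψ q = ((1:ℝ) / 2) ^ n) ∧ ψ q ≤ 1 / W ∧
        ∀ M : ℕ, 1 ≤ M → (1 / ψ q) ^ cc₁ k ≤ (M:ℝ) → (dy q M : ℝ) ≤ (M:ℝ) ^ cc₃ k) →
      ∑ q ∈ F, ψ q ≤ 2 →
      ∑ r ∈ F, ∑ q ∈ F.filter (· < r), pairTerm γ ψ q r ≤ C₀ := by
  obtain ⟨W, C, hW, hC, hblock⟩ := block_lemma hγ hc₀ hk
  have hcc : 0 < cc k := by
    unfold cc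
    have : (0:ℝ) < k := by exact_mod_cast hk
    positivity
  obtain ⟨S, hS, hschur⟩ := schur_sum hcc
  refine ⟨W, 768 * 4 + 4 * C * S + 1, hW, by positivity, ?_⟩
  intro F ψ hq1 hψ hsum
  have hψ0 : ∀ q ∈ F, ∃ n : ℕ, ψ q = ((1:ℝ) / 2) ^ n := fun q hq => (hψ q hq).1
  choose! nn hnn using hψ0
  let bk : ℕ → ℕ × ℕ := fun q => (Nat.log 2 q, nn q)
  let B : Finset (ℕ × ℕ) := F.image bk
  let Sb : ℕ × ℕ → Finset ℕ := fun b => F.filter (fun q => bk q = b)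
  let Nb : ℕ × ℕ → ℝ := fun b => (2:ℝ) ^ b.2
  let μ : ℕ × ℕ → ℝ := fun b => ((Sb b).card : ℝ) / Nb b
  have hNpos : ∀ b, 0 < Nb b := fun b => pow_pos two_pos _
  have hψF : ∀ b, ∀ q ∈ Sb b, ψ q = 1 / Nb b := by
    intro b q hq
    obtain ⟨hqF, hqb⟩ := mem_filter.1 hq
    have h2 : nn q = b.2 := by rw [← hqb]
    rw [hnn q hqF, h2, one_div_pow]
  have hψnn : ∀ q ∈ F, 0 ≤ ψ q := by
    intro q hq
    rw [hnn q hq]
    positivity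
  have hrange : ∀ b, ∀ q ∈ Sb b, 2 ^ b.1 ≤ q ∧ q < 2 * 2 ^ b.1 := by
    intro b q hq
    obtain ⟨hqF, hqb⟩ := mem_filter.1 hq
    have hb1 : Nat.log 2 q = b.1 := by rw [← hqb]
    have h1q := hq1 q hqF
    constructor
    · rw [← hb1]
      exact Nat.pow_log_le_self 2 (by omega)
    · rw [← hb1, ← pow_succ']
      exact Nat.lt_pow_succ_log_self (by norm_num) q
  have hμeq : ∀ b, μ b = ∑ q ∈ Sb b, ψ q := by
    intro b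
    rw [sum_congr rfl (hψF b), sum_const, nsmul_eq_mul]
    show ((Sb b).card : ℝ) / Nb b = _
    ring
  have hμnn : ∀ b, 0 ≤ μ b := fun b => div_nonneg (Nat.cast_nonneg _) (hNpos b).le
  have hμsum : ∑ b ∈ B, μ b ≤ 2 := by
    have e : ∑ b ∈ B, μ b = ∑ q ∈ F, ψ q := by
      rw [sum_congr rfl (fun b _ => hμeq b)]
      exact sum_fiberwise_of_maps_to (fun q hq => mem_image_of_mem bk hq) ψ
    rw [e]
    exact hsum
  have hμle : ∀ b ∈ B, μ b ≤ 2 := fun b hb =>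
    (single_le_sum (fun i _ => hμnn i) hb).trans hμsum
  have hWN : ∀ b ∈ B, W ≤ Nb b := by
    intro b hb
    obtain ⟨q, hqF, rfl⟩ := mem_image.1 hb
    have h3 := (hψ q hqF).2.1
    rw [hψF (bk q) q (mem_filter.2 ⟨hqF, rfl⟩)] at h3
    have h5 : 0 < Nb (bk q) := hNpos _
    have hW0 : 0 < W := by linarith
    exact (one_div_le_one_div h5 hW0).1 h3
  have hdy : ∀ b, ∀ x ∈ Sb b, ∀ M : ℕ, 1 ≤ M → Nb b ^ cc₁ k ≤ (M:ℝ) → (dy x M : ℝ) ≤ (M:ℝ) ^ cc₃ k := by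
    intro b x hx M hM hNM
    refine (hψ x (mem_filter.1 hx).1).2.2 M hM ?_
    rw [hψF b x hx, one_div_one_div]
    exact hNM
  have hblk : ∀ b₁ ∈ B, ∀ b₂ ∈ B, b₁.1 ≤ b₂.1 →
      BlockOff γ (Nb b₁) (Nb b₂) (Sb b₁) (Sb b₂) ≤ 768 * (μ b₁ * μ b₂)
        + C * (μ b₁ + μ b₂) * UpsI b₁ b₂ ^ (-(cc k)) := by
    intro b₁ hb₁ b₂ hb₂ hle
    exact hblock (Q₁ := 2 ^ b₁.1) (Q₂ := 2 ^ b₂.1) (N₁ := Nb b₁) (N₂ := Nb b₂) (S₁ := Sb b₁)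
      (S₂ := Sb b₂) Nat.one_le_two_pow (Nat.pow_le_pow_right (by norm_num) hle) (hWN b₁ hb₁)
      (hWN b₂ hb₂) (hrange b₁) (hrange b₂) (hdy b₁) (hdy b₂) (hμle b₁ hb₁) (hμle b₂ hb₂)
  -- the decomposition into blocks
  have hdecomp : ∑ q ∈ F, ∑ r ∈ F, (if Nat.log 2 q ≤ Nat.log 2 r then gTerm γ ψ q r else 0) =
      ∑ b₁ ∈ B, ∑ b₂ ∈ B.filter (fun b => b₁.1 ≤ b.1), BlockOff γ (Nb b₁) (Nb b₂) (Sb b₁) (Sb b₂) := by
    have hmaps : ∀ q ∈ F, bk q ∈ B := fun q hq => mem_image_of_mem bk hq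
    rw [← sum_fiberwise_of_maps_to hmaps]
    refine sum_congr rfl fun b₁ _ => ?_
    have step : ∀ q ∈ Sb b₁, (∑ r ∈ F, (if Nat.log 2 q ≤ Nat.log 2 r then gTerm γ ψ q r else 0)) =
        ∑ b₂ ∈ B.filter (fun b => b₁.1 ≤ b.1), ∑ r ∈ Sb b₂, gTerm γ ψ q r := by
      intro q hq
      have hb1 : Nat.log 2 q = b₁.1 := by
        have hqb := (mem_filter.1 hq).2
        rw [← hqb]
      rw [← sum_fiberwise_of_maps_to hmaps, sum_filter]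
      refine sum_congr rfl fun b₂ _ => ?_
      by_cases h : b₁.1 ≤ b₂.1
      · rw [if_pos h]
        refine sum_congr rfl fun r hr => ?_
        have hb2 : Nat.log 2 r = b₂.1 := by
          have hrb := (mem_filter.1 hr).2
          rw [← hrb]
        rw [if_pos (by rw [hb1, hb2]; exact h)]
      · rw [if_neg h]
        refine sum_eq_zero fun r hr => ?_
        have hb2 : Nat.log 2 r = b₂.1 := by
          have hrb := (mem_filter.1 hr).2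
          rw [← hrb]
        rw [if_neg (by rw [hb1, hb2]; exact h)]
    have step2 : ∑ q ∈ F with bk q = b₁, ∑ r ∈ F, (if Nat.log 2 q ≤ Nat.log 2 r then gTerm γ ψ q r else 0)
        = ∑ q ∈ Sb b₁, ∑ b₂ ∈ B.filter (fun b => b₁.1 ≤ b.1), ∑ r ∈ Sb b₂, gTerm γ ψ q r :=
      sum_congr rfl step
    rw [step2, sum_comm]
    refine sum_congr rfl fun b₂ _ => ?_
    exact (blockOff_eq (hψF b₁) (hψF b₂)).symm
  have hmain : ∑ r ∈ F, ∑ q ∈ F.filter (· < r), pairTerm γ ψ q r ≤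
      ∑ b₁ ∈ B, ∑ b₂ ∈ B.filter (fun b => b₁.1 ≤ b.1), (768 * (μ b₁ * μ b₂)
        + C * (μ b₁ + μ b₂) * UpsI b₁ b₂ ^ (-(cc k))) := by
    refine (pair_sum_le γ ψ F hψnn).trans ?_
    rw [hdecomp]
    refine sum_le_sum fun b₁ hb₁ => sum_le_sum fun b₂ hb₂ => ?_
    obtain ⟨h2, h3⟩ := mem_filter.1 hb₂
    exact hblk b₁ hb₁ b₂ h2 h3
  -- three sums
  have hs1 : ∑ b₁ ∈ B, ∑ b₂ ∈ B.filter (fun b => b₁.1 ≤ b.1), 768 * (μ b₁ * μ b₂) ≤ 768 * 4 := by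
    have h1 : ∑ b₁ ∈ B, ∑ b₂ ∈ B.filter (fun b => b₁.1 ≤ b.1), 768 * (μ b₁ * μ b₂) ≤
        ∑ b₁ ∈ B, ∑ b₂ ∈ B, 768 * (μ b₁ * μ b₂) := by
      refine sum_le_sum fun b₁ _ => sum_le_sum_of_subset_of_nonneg (filter_subset _ _) ?_
      intro b₂ _ _
      have := hμnn b₁
      have := hμnn b₂
      positivity
    refine h1.trans ?_
    have h2 : ∑ b₁ ∈ B, ∑ b₂ ∈ B, 768 * (μ b₁ * μ b₂) = 768 * ((∑ b ∈ B, μ b) * ∑ b ∈ B, μ b) := by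
      rw [sum_mul_sum, mul_sum]
      refine sum_congr rfl fun b₁ _ => ?_
      rw [mul_sum]
    rw [h2]
    have h3 : 0 ≤ ∑ b ∈ B, μ b := sum_nonneg fun b _ => hμnn b
    nlinarith
  have hs2 : ∑ b₁ ∈ B, ∑ b₂ ∈ B.filter (fun b => b₁.1 ≤ b.1), C * μ b₁ * UpsI b₁ b₂ ^ (-(cc k))
      ≤ 2 * C * S := by
    have h1 : ∀ b₁ ∈ B, ∑ b₂ ∈ B.filter (fun b => b₁.1 ≤ b.1), C * μ b₁ * UpsI b₁ b₂ ^ (-(cc k))
        ≤ C * S * μ b₁ := by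
      intro b₁ _
      rw [← mul_sum]
      have := (hschur B b₁).1
      have h0 := hμnn b₁
      have h00 : 0 ≤ C * μ b₁ := by positivity
      calc C * μ b₁ * ∑ b₂ ∈ B.filter (fun b => b₁.1 ≤ b.1), UpsI b₁ b₂ ^ (-(cc k))
          ≤ C * μ b₁ * S := mul_le_mul_of_nonneg_left this h00
        _ = C * S * μ b₁ := by ring
    refine (sum_le_sum h1).trans ?_
    rw [← mul_sum]
    have : 0 ≤ C * S := by positivity
    nlinarith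
  have hs3 : ∑ b₁ ∈ B, ∑ b₂ ∈ B.filter (fun b => b₁.1 ≤ b.1), C * μ b₂ * UpsI b₁ b₂ ^ (-(cc k))
      ≤ 2 * C * S := by
    have hswap : ∑ b₁ ∈ B, ∑ b₂ ∈ B.filter (fun b => b₁.1 ≤ b.1), C * μ b₂ * UpsI b₁ b₂ ^ (-(cc k))
        = ∑ b₂ ∈ B, ∑ b₁ ∈ B.filter (fun b => b.1 ≤ b₂.1), C * μ b₂ * UpsI b₁ b₂ ^ (-(cc k)) := by
      simp_rw [sum_filter]
      exact sum_comm
    rw [hswap]
    have h1 : ∀ b₂ ∈ B, ∑ b₁ ∈ B.filter (fun b => b.1 ≤ b₂.1), C * μ b₂ * UpsI b₁ b₂ ^ (-(cc k))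
        ≤ C * S * μ b₂ := by
      intro b₂ _
      rw [← mul_sum]
      have := (hschur B b₂).2
      have h0 := hμnn b₂
      have h00 : 0 ≤ C * μ b₂ := by positivity
      calc C * μ b₂ * ∑ b₁ ∈ B.filter (fun b => b.1 ≤ b₂.1), UpsI b₁ b₂ ^ (-(cc k))
          ≤ C * μ b₂ * S := mul_le_mul_of_nonneg_left this h00
        _ = C * S * μ b₂ := by ring
    refine (sum_le_sum h1).trans ?_
    rw [← mul_sum]
    have : 0 ≤ C * S := by positivity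
    nlinarith
  have hexp : ∑ b₁ ∈ B, ∑ b₂ ∈ B.filter (fun b => b₁.1 ≤ b.1), (768 * (μ b₁ * μ b₂)
        + C * (μ b₁ + μ b₂) * UpsI b₁ b₂ ^ (-(cc k))) =
      ∑ b₁ ∈ B, ∑ b₂ ∈ B.filter (fun b => b₁.1 ≤ b.1), 768 * (μ b₁ * μ b₂)
      + ∑ b₁ ∈ B, ∑ b₂ ∈ B.filter (fun b => b₁.1 ≤ b.1), C * μ b₁ * UpsI b₁ b₂ ^ (-(cc k))
      + ∑ b₁ ∈ B, ∑ b₂ ∈ B.filter (fun b => b₁.1 ≤ b.1), C * μ b₂ * UpsI b₁ b₂ ^ (-(cc k)) := by
    simp only [← sum_add_distrib]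
    refine sum_congr rfl fun b₁ _ => sum_congr rfl fun b₂ _ => ?_
    ring
  rw [hexp] at hmain
  have hCS : 0 ≤ C * S := by positivity
  linarith

end Vale.Agent.Lib.P028T
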