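import Vale.Agent.Lib.P028T.StepDefs

/-! Step A: from `Off` to the Fejer kernel and the Moebius sum. Blueprint section 7. -/

open Finset

namespace Vale.Agent.Lib.P028T

open Vale.Agent.Lib.P028

variable {γ D w : ℝ} {z L E₀ : ℕ} {G' U₁ U₂ : Finset ℕ}

private lemma copI_nonneg' (z d : ℕ) (y : ℕ × ℕ) : 0 ≤ copI z d y := by
  unfold copI; split_ifs <;> norm_num

private lemma copI_eq_one_gcd (z : ℕ) (y : ℕ × ℕ) (hy : 1 ≤ y.1) :
    copI z (Nat.gcd y.1 y.2) y = 1 := by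
  have hg : 0 < Nat.gcd y.1 y.2 := Nat.gcd_pos_of_pos_left _ hy
  have hc : Nat.gcd (y.1 / Nat.gcd y.1 y.2) (y.2 / Nat.gcd y.1 y.2) = 1 :=
    Nat.coprime_div_gcd_div_gcd hg
  unfold copI
  rw [if_pos]
  unfold copZ
  rw [hc]
  simp

/-- An exact pair has Fejer kernel at least `1/4` and is `z`-coprime. -/
theorem off_le_fej (hw : 0 ≤ w) (hL : 1 ≤ L) (hLD : 6 * (L:ℝ) * D ≤ 1)
    (hU₁ : ∀ x ∈ U₁, 1 ≤ x) (hU₂ : ∀ x ∈ U₂, 1 ≤ x) :
    Off γ D w G' U₁ U₂ ≤ 4 * w * ∑ d ∈ G', ∑ y ∈ PrD d U₁ U₂, copI z d y * Fej L (phase γ d y) := by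
  classical
  have hF0 : ∀ (d : ℕ) (y : ℕ × ℕ), 0 ≤ copI z d y * Fej L (phase γ d y) :=
    fun d y => mul_nonneg (copI_nonneg' _ _ _) (fej_nonneg _ _)
  unfold Off
  set T := ((U₁ ×ˢ U₂).filter fun z : ℕ × ℕ => Nat.gcd z.1 z.2 ∈ G' ∧ z.1 ≠ z.2 ∧
    dn ((((z.2 / Nat.gcd z.1 z.2 : ℕ) : ℝ) - ((z.1 / Nat.gcd z.1 z.2 : ℕ) : ℝ)) * γ) < D) with hT
  have hmaps : ∀ y ∈ T, Nat.gcd y.1 y.2 ∈ G' := by
    intro y hy
    exact (Finset.mem_filter.mp hy).2.1
  have key : ∀ y ∈ T, (1 / 4 : ℝ) ≤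
      copI z (Nat.gcd y.1 y.2) y * Fej L (phase γ (Nat.gcd y.1 y.2) y) := by
    intro y hy
    obtain ⟨hy0, _, _, hy3⟩ := Finset.mem_filter.mp hy
    obtain ⟨hy1, _⟩ := Finset.mem_product.mp hy0
    have h1 : 1 ≤ y.1 := hU₁ _ hy1
    have hg : 0 < Nat.gcd y.1 y.2 := Nat.gcd_pos_of_pos_left _ h1
    have hgR : ((Nat.gcd y.1 y.2 : ℕ) : ℝ) ≠ 0 := by positivity
    rw [copI_eq_one_gcd z y h1, one_mul]
    apply fej_ge hL hLD
    have : phase γ (Nat.gcd y.1 y.2) y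
        = (((y.2 / Nat.gcd y.1 y.2 : ℕ) : ℝ) - ((y.1 / Nat.gcd y.1 y.2 : ℕ) : ℝ)) * γ := by
      unfold phase
      rw [Nat.cast_div (Nat.gcd_dvd_right _ _) hgR, Nat.cast_div (Nat.gcd_dvd_left _ _) hgR]
      field_simp
    rw [this]
    exact hy3
  have h1 : (T.card : ℝ) * (1 / 4) ≤ ∑ y ∈ T,
      copI z (Nat.gcd y.1 y.2) y * Fej L (phase γ (Nat.gcd y.1 y.2) y) := by
    rw [← nsmul_eq_mul, ← Finset.sum_const]
    exact Finset.sum_le_sum key
  have h2 : ∑ y ∈ T, copI z (Nat.gcd y.1 y.2) y * Fej L (phase γ (Nat.gcd y.1 y.2) y)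
      ≤ ∑ d ∈ G', ∑ y ∈ PrD d U₁ U₂, copI z d y * Fej L (phase γ d y) := by
    rw [← Finset.sum_fiberwise_of_maps_to hmaps]
    apply Finset.sum_le_sum
    intro d _
    calc ∑ y ∈ T with Nat.gcd y.1 y.2 = d,
          copI z (Nat.gcd y.1 y.2) y * Fej L (phase γ (Nat.gcd y.1 y.2) y)
        = ∑ y ∈ T with Nat.gcd y.1 y.2 = d, copI z d y * Fej L (phase γ d y) := by
          apply Finset.sum_congr rfl
          intro y hy
          rw [(Finset.mem_filter.mp hy).2]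
      _ ≤ ∑ y ∈ PrD d U₁ U₂, copI z d y * Fej L (phase γ d y) := by
          apply Finset.sum_le_sum_of_subset_of_nonneg
          · intro y hy
            obtain ⟨hyT, hyd⟩ := Finset.mem_filter.mp hy
            obtain ⟨hy0, _⟩ := Finset.mem_filter.mp hyT
            obtain ⟨hy1, hy2⟩ := Finset.mem_product.mp hy0
            unfold PrD
            refine Finset.mem_product.mpr ⟨Finset.mem_filter.mpr ⟨hy1, ?_⟩,
              Finset.mem_filter.mpr ⟨hy2, ?_⟩⟩
            · rw [← hyd]; exact Nat.gcd_dvd_left _ _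
            · rw [← hyd]; exact Nat.gcd_dvd_right _ _
          · intro y _ _
            exact hF0 d y
  have h3 : (T.card : ℝ) ≤ 4 * ∑ d ∈ G', ∑ y ∈ PrD d U₁ U₂, copI z d y * Fej L (phase γ d y) := by
    linarith
  calc w * (T.card : ℝ) ≤ w * (4 * ∑ d ∈ G', ∑ y ∈ PrD d U₁ U₂, copI z d y * Fej L (phase γ d y)) :=
        mul_le_mul_of_nonneg_left h3 hw
    _ = _ := by ring

/-- The squarefree `z`-smooth divisors of a positive integer `g` sum up to the indicator. -/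
private lemma sum_moebius_smooth (z g : ℕ) (hg : 1 ≤ g) :
    ∑ e ∈ g.divisors.filter (fun e => Squarefree e ∧ ∀ p ∈ e.primeFactors, p ≤ z),
      ((ArithmeticFunction.moebius e : ℤ) : ℝ)
      = if (∀ p ∈ g.primeFactors, z < p) then 1 else 0 := by
  classical
  set P := g.primeFactors.filter (· ≤ z) with hP
  set n := ∏ p ∈ P, p with hn
  have hPprime : ∀ p ∈ P, p.Prime := fun p hp =>
    Nat.prime_of_mem_primeFactors (Finset.mem_filter.mp hp).1
  have hnsq : Squarefree n := by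
    apply Finset.squarefree_prod_of_pairwise_isCoprime
    · intro a ha b hb hab
      exact Nat.coprime_iff_isRelPrime.mp
        ((Nat.coprime_primes (hPprime a ha) (hPprime b hb)).mpr hab)
    · intro p hp
      exact (hPprime p hp).prime.irreducible.squarefree
  have hn0 : n ≠ 0 := hnsq.ne_zero
  have hndvd : n ∣ g := by
    have h1 : n ∣ ∏ p ∈ g.primeFactors, p :=
      Finset.prod_dvd_prod_of_subset _ _ _ (Finset.filter_subset _ _)
    exact h1.trans (Nat.prod_primeFactors_dvd g)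
  have hset : g.divisors.filter (fun e => Squarefree e ∧ ∀ p ∈ e.primeFactors, p ≤ z)
      = n.divisors := by
    ext e
    simp only [Finset.mem_filter, Nat.mem_divisors]
    constructor
    · rintro ⟨⟨he, hg0⟩, hsq, hsm⟩
      refine ⟨?_, hn0⟩
      rw [← Nat.prod_primeFactors_of_squarefree hsq]
      apply Finset.prod_dvd_prod_of_subset
      intro p hp
      refine Finset.mem_filter.mpr ⟨?_, hsm p hp⟩
      exact Nat.primeFactors_mono he hg0 hp
    · rintro ⟨he, _⟩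
      refine ⟨⟨he.trans hndvd, by omega⟩, hnsq.squarefree_of_dvd he, ?_⟩
      intro p hp
      have hpp : p.Prime := Nat.prime_of_mem_primeFactors hp
      have hpd : p ∣ n := (Nat.dvd_of_mem_primeFactors hp).trans he
      obtain ⟨q, hq, hpq⟩ := (Prime.exists_mem_finset_dvd hpp.prime hpd)
      have : p = q := (Nat.prime_dvd_prime_iff_eq hpp (hPprime q hq)).mp hpq
      rw [this]
      exact (Finset.mem_filter.mp hq).2
  rw [hset]
  have hsum : ∑ e ∈ n.divisors, ArithmeticFunction.moebius e = if n = 1 then 1 else 0 := by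
    have := ArithmeticFunction.moebius_mul_coe_zeta
    have h2 := congrArg (fun f : ArithmeticFunction ℤ => f n) this
    simp only [ArithmeticFunction.coe_mul_zeta_apply, ArithmeticFunction.one_apply] at h2
    exact h2
  have hiff : n = 1 ↔ ∀ p ∈ g.primeFactors, z < p := by
    constructor
    · intro h1 p hp
      by_contra hlt
      have hpP : p ∈ P := Finset.mem_filter.mpr ⟨hp, not_lt.mp hlt⟩
      have hd : p ∣ n := Finset.dvd_prod_of_mem _ hpP
      rw [h1] at hd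
      exact (hPprime p hpP).one_lt.ne' (Nat.dvd_one.mp hd)
    · intro h
      have : P = ∅ := by
        apply Finset.filter_eq_empty_iff.mpr
        intro p hp
        exact not_le.mpr (h p hp)
      rw [hn, this]
      simp
  calc ∑ e ∈ n.divisors, ((ArithmeticFunction.moebius e : ℤ) : ℝ)
      = ((∑ e ∈ n.divisors, ArithmeticFunction.moebius e : ℤ) : ℝ) := by push_cast; rfl
    _ = _ := by
      rw [hsum]
      by_cases h : n = 1
      · rw [if_pos h, if_pos (hiff.mp h)]; norm_num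
      · rw [if_neg h, if_neg (fun h' => h (hiff.mpr h'))]; norm_num

/-- The truncation error of the Moebius sum. -/
theorem copI_sub_smallM {d : ℕ} {y : ℕ × ℕ} (hd : 1 ≤ d) (h1 : d ∣ y.1) (h2 : d ∣ y.2) (hy1 : 1 ≤ y.1) (hy2 : 1 ≤ y.2) :
    |copI z d y - smallM z E₀ d y| ≤ (tailC E₀ d y : ℝ) := by
  classical
  set g := Nat.gcd (y.1 / d) (y.2 / d) with hg
  have hq : 1 ≤ y.1 / d := Nat.div_pos (Nat.le_of_dvd hy1 h1) hd
  have hgpos : 1 ≤ g := Nat.gcd_pos_of_pos_left _ hq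
  have hdvd : ∀ e, d * e ∣ y.1 ∧ d * e ∣ y.2 ↔ e ∣ g := by
    intro e
    rw [hg, Nat.dvd_gcd_iff]
    constructor
    · rintro ⟨a, b⟩
      exact ⟨(Nat.dvd_div_iff_mul_dvd h1).mpr a, (Nat.dvd_div_iff_mul_dvd h2).mpr b⟩
    · rintro ⟨a, b⟩
      exact ⟨(Nat.dvd_div_iff_mul_dvd h1).mp a, (Nat.dvd_div_iff_mul_dvd h2).mp b⟩
  set A := g.divisors.filter (fun e => Squarefree e ∧ ∀ p ∈ e.primeFactors, p ≤ z) with hA
  have hsm : smallM z E₀ d y = ∑ e ∈ A.filter (· ≤ E₀), ((ArithmeticFunction.moebius e : ℤ) : ℝ) := by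
    unfold smallM
    rw [← Finset.sum_filter]
    apply Finset.sum_congr _ (fun _ _ => rfl)
    ext e
    simp only [smooth, Finset.mem_filter, Finset.mem_Icc, hdvd, hA, Nat.mem_divisors]
    constructor
    · rintro ⟨⟨⟨h1e, hle⟩, hs, hp⟩, hed⟩
      exact ⟨⟨⟨hed, by omega⟩, hs, hp⟩, hle⟩
    · rintro ⟨⟨⟨hed, _⟩, hs, hp⟩, hle⟩
      exact ⟨⟨⟨Nat.pos_of_dvd_of_pos hed hgpos, hle⟩, hs, hp⟩, hed⟩
  have hco : copI z d y = ∑ e ∈ A, ((ArithmeticFunction.moebius e : ℤ) : ℝ) := by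
    rw [hA, sum_moebius_smooth z g hgpos]
    unfold copI copZ
    by_cases h : ∀ p ∈ g.primeFactors, z < p
    · rw [if_pos h, if_pos h]
    · rw [if_neg h, if_neg h]
  have hsplit : copI z d y - smallM z E₀ d y
      = ∑ e ∈ A.filter (fun e => ¬ e ≤ E₀), ((ArithmeticFunction.moebius e : ℤ) : ℝ) := by
    rw [hco, hsm, ← Finset.sum_filter_add_sum_filter_not A (· ≤ E₀)]
    ring
  rw [hsplit]
  calc |∑ e ∈ A.filter (fun e => ¬ e ≤ E₀), ((ArithmeticFunction.moebius e : ℤ) : ℝ)|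
      ≤ ∑ e ∈ A.filter (fun e => ¬ e ≤ E₀), |((ArithmeticFunction.moebius e : ℤ) : ℝ)| :=
        Finset.abs_sum_le_sum_abs _ _
    _ ≤ ∑ _e ∈ A.filter (fun e => ¬ e ≤ E₀), (1:ℝ) := by
        apply Finset.sum_le_sum
        intro e _
        have := ArithmeticFunction.abs_moebius_le_one (n := e)
        have h' : ((|ArithmeticFunction.moebius e| : ℤ) : ℝ) ≤ 1 := by exact_mod_cast this
        simpa using h'
    _ = ((A.filter (fun e => ¬ e ≤ E₀)).card : ℝ) := by simp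
    _ ≤ (tailC E₀ d y : ℝ) := by
        unfold tailC
        have : (A.filter (fun e => ¬ e ≤ E₀)).card
            ≤ (g.divisors.filter fun e => Squarefree e ∧ E₀ < e).card := by
          apply Finset.card_le_card
          intro e he
          obtain ⟨heA, hne⟩ := Finset.mem_filter.mp he
          obtain ⟨hed, hs, _⟩ := Finset.mem_filter.mp heA
          exact Finset.mem_filter.mpr ⟨hed, hs, not_le.mp hne⟩
        exact_mod_cast this

/-- Main decomposition. If every oscillating sum is at most `R`, the Fejer sum is at most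
`(1/L) ∑ copI + 2 tail + R`. -/
theorem fej_sum_le (hL : 1 ≤ L) (hG' : ∀ d ∈ G', 1 ≤ d)
    (hU₁ : ∀ x ∈ U₁, 1 ≤ x) (hU₂ : ∀ x ∈ U₂, 1 ≤ x) {R : ℝ}
    (hR : ∀ l : ℤ, l ≠ 0 → |l| ≤ (L:ℤ) → ‖lsSum γ z E₀ G' U₁ U₂ l‖ ≤ R) (hR0 : 0 ≤ R) :
    ∑ d ∈ G', ∑ y ∈ PrD d U₁ U₂, copI z d y * Fej L (phase γ d y)
      ≤ (1 / (L:ℝ)) * ∑ d ∈ G', ∑ y ∈ PrD d U₁ U₂, copI z d y
        + 2 * ∑ d ∈ G', ∑ y ∈ PrD d U₁ U₂, (tailC E₀ d y : ℝ) + R := by
  classical
  have hLpos : (0:ℝ) < L := by exact_mod_cast hL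
  have hL1 : (1:ℝ) ≤ L := by exact_mod_cast hL
  set X := ∑ d ∈ G', ∑ y ∈ PrD d U₁ U₂, copI z d y with hX
  set T := ∑ d ∈ G', ∑ y ∈ PrD d U₁ U₂, (tailC E₀ d y : ℝ) with hTdef
  set Bs := ∑ d ∈ G', ∑ y ∈ PrD d U₁ U₂, smallM z E₀ d y with hBs
  set As := ∑ d ∈ G', ∑ y ∈ PrD d U₁ U₂, smallM z E₀ d y * Fej L (phase γ d y) with hAs
  have hmem : ∀ d ∈ G', ∀ y ∈ PrD d U₁ U₂, |copI z d y - smallM z E₀ d y| ≤ (tailC E₀ d y : ℝ) := by
    intro d hd y hy
    obtain ⟨h1, h2⟩ := Finset.mem_product.mp hy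
    obtain ⟨h1a, h1b⟩ := Finset.mem_filter.mp h1
    obtain ⟨h2a, h2b⟩ := Finset.mem_filter.mp h2
    exact copI_sub_smallM (hG' d hd) h1b h2b (hU₁ _ h1a) (hU₂ _ h2a)
  have hT0 : 0 ≤ T := by
    apply Finset.sum_nonneg; intro d _
    apply Finset.sum_nonneg; intro y _
    positivity
  have h1 : ∑ d ∈ G', ∑ y ∈ PrD d U₁ U₂, copI z d y * Fej L (phase γ d y) ≤ As + T := by
    rw [hAs, hTdef, ← Finset.sum_add_distrib]
    apply Finset.sum_le_sum; intro d hd
    rw [← Finset.sum_add_distrib]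
    apply Finset.sum_le_sum; intro y hy
    have hm := hmem d hd y hy
    have h0 := fej_nonneg L (phase γ d y)
    have h3 := fej_le_one hL (phase γ d y)
    have habs := abs_le.mp hm
    have hT0' : (0:ℝ) ≤ (tailC E₀ d y : ℝ) := by positivity
    nlinarith [mul_nonneg h0 (sub_nonneg.mpr habs.2), mul_nonneg (sub_nonneg.mpr h3) hT0']
  have h2 : Bs ≤ X + T := by
    rw [hBs, hX, hTdef, ← Finset.sum_add_distrib]
    apply Finset.sum_le_sum; intro d hd
    rw [← Finset.sum_add_distrib]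
    apply Finset.sum_le_sum; intro y hy
    have hm := abs_le.mp (hmem d hd y hy)
    linarith [hm.1]
  have hexp : ((As - (1 / (L:ℝ)) * Bs : ℝ) : ℂ) = 1 / (L:ℂ) ^ 2 *
      ∑ n ∈ Finset.range L, ∑ n' ∈ (Finset.range L).erase n,
        lsSum γ z E₀ G' U₁ U₂ ((n:ℤ) - (n':ℤ)) := by
    have hA : ((As : ℝ) : ℂ) = ∑ d ∈ G', ∑ y ∈ PrD d U₁ U₂,
        ((smallM z E₀ d y : ℝ) : ℂ) * ((Fej L (phase γ d y) : ℝ) : ℂ) := by
      rw [hAs]; push_cast; rfl
    have hB : ((Bs : ℝ) : ℂ) = ∑ d ∈ G', ∑ y ∈ PrD d U₁ U₂, ((smallM z E₀ d y : ℝ) : ℂ) := by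
      rw [hBs]; push_cast; rfl
    have hrhs : ∑ n ∈ Finset.range L, ∑ n' ∈ (Finset.range L).erase n,
        lsSum γ z E₀ G' U₁ U₂ ((n:ℤ) - (n':ℤ))
        = ∑ d ∈ G', ∑ y ∈ PrD d U₁ U₂, ((smallM z E₀ d y : ℝ) : ℂ) *
          ∑ n ∈ Finset.range L, ∑ n' ∈ (Finset.range L).erase n,
            ee (((n:ℝ) - (n':ℝ)) * phase γ d y) := by
      unfold lsSum
      simp only [Finset.mul_sum]
      calc _ = ∑ n ∈ Finset.range L, ∑ d ∈ G', ∑ n' ∈ (Finset.range L).erase n, ∑ y ∈ PrD d U₁ U₂,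
              ((smallM z E₀ d y : ℝ) : ℂ) * ee ((((n:ℤ) - (n':ℤ) : ℤ) : ℝ) * phase γ d y) :=
            Finset.sum_congr rfl (fun n _ => Finset.sum_comm)
        _ = ∑ d ∈ G', ∑ n ∈ Finset.range L, ∑ n' ∈ (Finset.range L).erase n, ∑ y ∈ PrD d U₁ U₂,
              ((smallM z E₀ d y : ℝ) : ℂ) * ee ((((n:ℤ) - (n':ℤ) : ℤ) : ℝ) * phase γ d y) :=
            Finset.sum_comm
        _ = ∑ d ∈ G', ∑ n ∈ Finset.range L, ∑ y ∈ PrD d U₁ U₂, ∑ n' ∈ (Finset.range L).erase n,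
              ((smallM z E₀ d y : ℝ) : ℂ) * ee ((((n:ℤ) - (n':ℤ) : ℤ) : ℝ) * phase γ d y) :=
            Finset.sum_congr rfl (fun d _ => Finset.sum_congr rfl (fun n _ => Finset.sum_comm))
        _ = ∑ d ∈ G', ∑ y ∈ PrD d U₁ U₂, ∑ n ∈ Finset.range L, ∑ n' ∈ (Finset.range L).erase n,
              ((smallM z E₀ d y : ℝ) : ℂ) * ee ((((n:ℤ) - (n':ℤ) : ℤ) : ℝ) * phase γ d y) :=
            Finset.sum_congr rfl (fun d _ => Finset.sum_comm)
        _ = _ := by
            apply Finset.sum_congr rfl; intro d _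
            apply Finset.sum_congr rfl; intro y _
            apply Finset.sum_congr rfl; intro n _
            apply Finset.sum_congr rfl; intro n' _
            push_cast
            rfl
    push_cast
    rw [hA, hB, hrhs]
    rw [Finset.mul_sum, Finset.mul_sum, ← Finset.sum_sub_distrib]
    apply Finset.sum_congr rfl; intro d _
    rw [Finset.mul_sum, Finset.mul_sum, ← Finset.sum_sub_distrib]
    apply Finset.sum_congr rfl; intro y _
    rw [fej_expand hL]
    ring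
  have hnorm : |As - (1 / (L:ℝ)) * Bs| ≤ R := by
    have h3 : ‖((As - (1 / (L:ℝ)) * Bs : ℝ) : ℂ)‖ = |As - (1 / (L:ℝ)) * Bs| := by
      rw [Complex.norm_real, Real.norm_eq_abs]
    rw [← h3, hexp, norm_mul]
    have h4 : ‖(1 / (L:ℂ) ^ 2 : ℂ)‖ = 1 / (L:ℝ) ^ 2 := by
      simp
    rw [h4]
    have h5 : ‖∑ n ∈ Finset.range L, ∑ n' ∈ (Finset.range L).erase n,
        lsSum γ z E₀ G' U₁ U₂ ((n:ℤ) - (n':ℤ))‖ ≤ (L:ℝ) * ((L:ℝ) * R) := by
      calc _ ≤ ∑ n ∈ Finset.range L, ‖∑ n' ∈ (Finset.range L).erase n,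
            lsSum γ z E₀ G' U₁ U₂ ((n:ℤ) - (n':ℤ))‖ := norm_sum_le _ _
        _ ≤ ∑ _n ∈ Finset.range L, ((L:ℝ) * R) := by
            apply Finset.sum_le_sum; intro n hn
            calc _ ≤ ∑ n' ∈ (Finset.range L).erase n,
                  ‖lsSum γ z E₀ G' U₁ U₂ ((n:ℤ) - (n':ℤ))‖ := norm_sum_le _ _
              _ ≤ ∑ _n' ∈ (Finset.range L).erase n, R := by
                  apply Finset.sum_le_sum; intro n' hn'
                  obtain ⟨hne, hn'L⟩ := Finset.mem_erase.mp hn'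
                  apply hR
                  · intro h0
                    apply hne
                    omega
                  · have := Finset.mem_range.mp hn
                    have := Finset.mem_range.mp hn'L
                    rw [abs_le]
                    constructor <;> omega
              _ = (((Finset.range L).erase n).card : ℝ) * R := by simp
              _ ≤ (L:ℝ) * R := by
                  apply mul_le_mul_of_nonneg_right _ hR0
                  have : ((Finset.range L).erase n).card ≤ L := by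
                    calc _ ≤ (Finset.range L).card := Finset.card_le_card (Finset.erase_subset _ _)
                      _ = L := Finset.card_range L
                  exact_mod_cast this
        _ = (L:ℝ) * ((L:ℝ) * R) := by simp
    calc 1 / (L:ℝ) ^ 2 * _ ≤ 1 / (L:ℝ) ^ 2 * ((L:ℝ) * ((L:ℝ) * R)) :=
          mul_le_mul_of_nonneg_left h5 (by positivity)
      _ = R := by field_simp
  have h6 := (abs_le.mp hnorm).2
  have h7 : 1 / (L:ℝ) ≤ 1 := by
    rw [div_le_one hLpos]; exact hL1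
  have h8 : (1 / (L:ℝ)) * Bs ≤ (1 / (L:ℝ)) * X + T := by
    have h9 : 0 < 1 / (L:ℝ) := by positivity
    have h10 : (1 / (L:ℝ)) * Bs ≤ (1 / (L:ℝ)) * (X + T) := mul_le_mul_of_nonneg_left h2 h9.le
    have h11 : (1 / (L:ℝ)) * T ≤ 1 * T := mul_le_mul_of_nonneg_right h7 hT0
    nlinarith
  linarith

end Vale.Agent.Lib.P028T
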