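import Vale.Agent.Lib.P028T.LS

/-! Definitions for the bilinear step: blueprint section 7. -/

open Finset

namespace Vale.Agent.Lib.P028T

open Vale.Agent.Lib.P028

/-- The pairs of multiples of `d`. -/
def PrD (d : ℕ) (U₁ U₂ : Finset ℕ) : Finset (ℕ × ℕ) := (U₁.filter (d ∣ ·)) ×ˢ (U₂.filter (d ∣ ·))

/-- `x = q/d`, `y = r/d` have no common prime up to `z`. -/
def copZ (z d : ℕ) (y : ℕ × ℕ) : Prop := ∀ p ∈ (Nat.gcd (y.1 / d) (y.2 / d)).primeFactors, z < p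

open Classical in
/-- Its indicator. -/
noncomputable def copI (z d : ℕ) (y : ℕ × ℕ) : ℝ := if copZ z d y then 1 else 0

/-- The truncated Moebius sum. -/
noncomputable def smallM (z E₀ d : ℕ) (y : ℕ × ℕ) : ℝ :=
  ∑ e ∈ smooth z E₀, if d * e ∣ y.1 ∧ d * e ∣ y.2 then ((ArithmeticFunction.moebius e : ℤ) : ℝ) else 0

/-- The number of squarefree divisors above the truncation. -/
def tailC (E₀ d : ℕ) (y : ℕ × ℕ) : ℕ :=
  ((Nat.gcd (y.1 / d) (y.2 / d)).divisors.filter fun e => Squarefree e ∧ E₀ < e).card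

/-- The phase of a pair. -/
noncomputable def phase (γ : ℝ) (d : ℕ) (y : ℕ × ℕ) : ℝ := γ * ((y.2:ℝ) - (y.1:ℝ)) / (d:ℝ)

/-- The oscillating sum at frequency `l`. -/
noncomputable def lsSum (γ : ℝ) (z E₀ : ℕ) (G' U₁ U₂ : Finset ℕ) (l : ℤ) : ℂ :=
  ∑ d ∈ G', ∑ y ∈ PrD d U₁ U₂, ((smallM z E₀ d y : ℝ) : ℂ) * ee ((l:ℝ) * phase γ d y)

end Vale.Agent.Lib.P028T
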